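import Mathlib

/-!
Staircase functions with plateaus on a finite set of centres and the sign lemma for
clustered logarithmic coordinates.
-/

open Finset

namespace Vale.Agent.Lib.P072

/-- Positive lower bound for a finite family of positive reals. -/
lemma exists_pos_le_forall {α : Type*} [Fintype α] (f : α → ℝ) (hf : ∀ a, 0 < f a) :
    ∃ δ > 0, ∀ a, δ ≤ f a := by
  classical
  refine ⟨1 / (1 + ∑ a, 1 / f a), by
    have : 0 ≤ ∑ a, 1 / f a := Finset.sum_nonneg (fun a _ => (one_div_pos.mpr (hf a)).le)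
    positivity, fun a => ?_⟩
  have h0 : 0 ≤ ∑ a, 1 / f a := Finset.sum_nonneg (fun a _ => (one_div_pos.mpr (hf a)).le)
  have h1 : 1 / f a ≤ ∑ a, 1 / f a :=
    Finset.single_le_sum (f := fun a => 1 / f a) (fun a _ => (one_div_pos.mpr (hf a)).le)
      (Finset.mem_univ a)
  rw [div_le_iff₀ (by positivity)]
  have h2 : 1 / f a * f a = 1 := by field_simp [(hf a).ne']
  have h3 : 0 < f a := hf a
  nlinarith

/-- Upper bound for a finite family of reals. -/
lemma exists_ge_forall {α : Type*} [Fintype α] (f : α → ℝ) :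
    ∃ C, 1 ≤ C ∧ ∀ a, f a ≤ C := by
  classical
  refine ⟨1 + ∑ a, |f a|, ?_, fun a => ?_⟩
  · have : 0 ≤ ∑ a, |f a| := Finset.sum_nonneg (fun a _ => abs_nonneg _)
    linarith
  · have h1 : |f a| ≤ ∑ a, |f a| :=
      Finset.single_le_sum (f := fun a => |f a|) (fun a _ => abs_nonneg _) (Finset.mem_univ a)
    linarith [le_abs_self (f a)]

/-- Separation of a finite set of reals. -/
lemma exists_separation (A : Finset ℝ) :
    ∃ ε, 0 < ε ∧ ε ≤ 1 / 4 ∧ ∀ a ∈ A, ∀ b ∈ A, a ≠ b → 4 * ε ≤ |a - b| := by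
  classical
  set S : ℝ := ∑ p ∈ A ×ˢ A, (if p.1 ≠ p.2 then 1 / |p.1 - p.2| else 0) with hS
  have hnn : ∀ p ∈ A ×ˢ A, 0 ≤ (if p.1 ≠ p.2 then 1 / |p.1 - p.2| else 0) := by
    intro p _
    split_ifs
    · positivity
    · exact le_rfl
  have hS0 : 0 ≤ S := Finset.sum_nonneg hnn
  refine ⟨1 / (4 * (1 + S)), by positivity, ?_, ?_⟩
  · rw [div_le_div_iff₀ (by positivity) (by norm_num)]
    linarith
  · intro a ha b hb hab
    have hpos : 0 < |a - b| := abs_pos.mpr (sub_ne_zero.mpr hab)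
    have h1 : 1 / |a - b| ≤ S := by
      have h0 := Finset.single_le_sum hnn (Finset.mk_mem_product ha hb)
      have e : (if (a, b).1 ≠ (a, b).2 then 1 / |(a, b).1 - (a, b).2| else 0) = 1 / |a - b| := by
        simp [hab]
      rw [← e]
      exact h0
    have h2 : 4 * (1 / (4 * (1 + S))) = 1 / (1 + S) := by field_simp
    rw [h2, div_le_iff₀ (by positivity)]
    have h3 : 1 / |a - b| * |a - b| = 1 := by field_simp
    nlinarith

/-- Existence of the staircase function. -/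
theorem exists_stair (A : Finset ℝ) (hA : A.Nonempty) :
    ∃ (ε B : ℝ) (σ : ℝ → ℝ), 0 < ε ∧ ε ≤ 1 / 4 ∧ 0 ≤ B ∧ Continuous σ ∧ Monotone σ ∧
      (∀ a ∈ A, ∀ u, |u - a| ≤ ε → σ u = a) ∧ ∀ u, -B ≤ σ u := by
  classical
  obtain ⟨ε, hε, hε', hsep⟩ := exists_separation A
  set a₀ : ℝ := A.min' hA with ha₀
  let φ : ℝ → ℝ → ℝ := fun a u => max a₀ (min a (a + 2 * (u - a + ε)))
  let σ : ℝ → ℝ := fun u => A.sup' hA (fun a => φ a u)
  have hφcont : ∀ a, Continuous (φ a) := fun a => by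
    show Continuous (fun u => max a₀ (min a (a + 2 * (u - a + ε))))
    fun_prop
  have hσcont : Continuous σ := by
    have := Continuous.finset_sup'_apply hA (f := φ) (fun a _ => hφcont a)
    exact this
  have hσmono : Monotone σ := by
    intro u v huv
    apply Finset.sup'_le
    intro a ha
    refine le_trans ?_ (Finset.le_sup' (fun a => φ a v) ha)
    show max a₀ (min a (a + 2 * (u - a + ε))) ≤ max a₀ (min a (a + 2 * (v - a + ε)))
    apply max_le_max le_rfl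
    apply min_le_min le_rfl
    linarith
  refine ⟨ε, |a₀|, σ, hε, hε', abs_nonneg _, hσcont, hσmono, ?_, ?_⟩
  · intro a ha u hu
    have hu1 := (abs_le.mp hu).1
    have hu2 := (abs_le.mp hu).2
    have hmin : a₀ ≤ a := Finset.min'_le A a ha
    apply le_antisymm
    · apply Finset.sup'_le
      intro b hb
      show max a₀ (min b (b + 2 * (u - b + ε))) ≤ a
      apply max_le hmin
      by_cases hba : b ≤ a
      · exact (min_le_left _ _).trans hba
      · push Not at hba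
        have h4 := hsep a ha b hb hba.ne
        rw [abs_sub_comm, abs_of_pos (by linarith)] at h4
        refine (min_le_right _ _).trans ?_
        linarith
    · refine le_trans ?_ (Finset.le_sup' (fun a => φ a u) ha)
      show a ≤ max a₀ (min a (a + 2 * (u - a + ε)))
      apply le_max_of_le_right
      apply le_min le_rfl
      linarith
  · intro u
    have h1 : a₀ ≤ σ u := by
      refine le_trans ?_ (Finset.le_sup' (fun a => φ a u) (Finset.min'_mem A hA))
      exact le_max_left _ _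
    have h2 : -|a₀| ≤ a₀ := neg_abs_le a₀
    linarith

/-- The finite set of centres: all quotients `p / q` of integers of size at most `R₀`. -/
noncomputable def centers (R₀ : ℕ) : Finset ℝ :=
  ((Finset.Icc (-(R₀ : ℤ)) R₀) ×ˢ (Finset.Icc (-(R₀ : ℤ)) R₀)).image
    (fun p => (p.1 : ℝ) / (p.2 : ℝ))

lemma mem_centers {R₀ : ℕ} {A B : ℤ} (hA : |A| ≤ R₀) (hB : |B| ≤ R₀) :
    (A : ℝ) / (B : ℝ) ∈ centers R₀ := by
  unfold centers
  rw [Finset.mem_image]
  refine ⟨(A, B), ?_, rfl⟩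
  rw [Finset.mem_product, Finset.mem_Icc, Finset.mem_Icc]
  exact ⟨abs_le.mp hA, abs_le.mp hB⟩

lemma int_mem_centers {R₀ : ℕ} (hR : 1 ≤ R₀) {A : ℤ} (hA : |A| ≤ R₀) :
    (A : ℝ) ∈ centers R₀ := by
  have := mem_centers (R₀ := R₀) (A := A) (B := 1) hA (by simpa using hR)
  simpa using this

variable {d : ℕ}

lemma sum_three {α : Type*} [AddCommMonoid α] (I₁ I₂ : Finset (Fin d)) (h : Disjoint I₁ I₂)
    (f : Fin d → α) :
    ∑ i, f i = ∑ i ∈ I₁, f i + ∑ i ∈ I₂, f i + ∑ i ∈ (I₁ ∪ I₂)ᶜ, f i := by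
  rw [← Finset.sum_add_sum_compl (I₁ ∪ I₂) f, Finset.sum_union h]

/-- The sign lemma: on clustered logarithmic coordinates the staircase transforms `w` into a
vector `q` such that `⟨r, w⟩ < T` forces `⟨r, q⟩ ≤ 0`. -/
theorem star {R₀ : ℕ} (hR₀ : 1 ≤ R₀) {σ : ℝ → ℝ} {ε : ℝ} (hmono : Monotone σ)
    (hpl : ∀ a ∈ centers R₀, ∀ u, |u - a| ≤ ε → σ u = a) (hε : 0 < ε) (hε' : ε ≤ 1 / 2)
    (τ : ℤ) (hτ : τ = 1 ∨ τ = -1) (Λ K₁ T ρ l : ℝ) (hΛ : 0 < Λ) (hK₁ : 0 ≤ K₁) (hT : 0 ≤ T)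
    (w q : Fin d → ℝ) (r : Fin d → ℤ) (I₁ I₂ : Finset (Fin d)) (hdisj : Disjoint I₁ I₂)
    (hr : ∑ i, |r i| ≤ R₀)
    (h1 : ∀ i ∈ I₁, |w i - ρ * Λ| ≤ K₁)
    (h2 : ∀ i ∈ I₂, |w i - l| ≤ K₁)
    (h0 : ∀ i ∈ (I₁ ∪ I₂)ᶜ, |w i| ≤ K₁)
    (hq1 : ∀ i ∈ I₁ ∪ I₂, q i = Λ * σ (w i / Λ))
    (hq0 : ∀ i ∈ (I₁ ∪ I₂)ᶜ, q i = 0)
    (hsign : (∀ i ∈ I₂, 0 ≤ r i) ∨ (∀ i ∈ I₂, r i ≤ 0))
    (hsmall : (T + (R₀ + 1) * K₁) / Λ + R₀ * |ρ - τ| ≤ ε)
    (hlt : ∑ i, (r i : ℝ) * w i < T) :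
    ∑ i, (r i : ℝ) * q i ≤ 0 := by
  classical
  set A : ℤ := ∑ i ∈ I₁, r i with hA
  set B : ℤ := ∑ i ∈ I₂, r i with hB
  have hRpos : (1 : ℝ) ≤ R₀ := by exact_mod_cast hR₀
  have hsumabs : ∀ I : Finset (Fin d), ∑ i ∈ I, |r i| ≤ R₀ := fun I =>
    (Finset.sum_le_sum_of_subset_of_nonneg (Finset.subset_univ I)
      (fun i _ _ => abs_nonneg _)).trans hr
  have hAabs : |A| ≤ R₀ := (Finset.abs_sum_le_sum_abs _ _).trans (hsumabs I₁)
  have hBabs : |B| ≤ R₀ := (Finset.abs_sum_le_sum_abs _ _).trans (hsumabs I₂)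
  have hKΛ : 0 ≤ K₁ / Λ := by positivity
  have hδ : 0 ≤ |ρ - τ| := abs_nonneg _
  -- the small quantity
  set E₀ : ℝ := (T + R₀ * K₁) / Λ + R₀ * |ρ - τ| with hE₀
  have hE₀K : E₀ + K₁ / Λ ≤ ε := by
    have : (T + (R₀ + 1) * K₁) / Λ = (T + R₀ * K₁) / Λ + K₁ / Λ := by
      field_simp
      ring
    rw [this] at hsmall
    rw [hE₀]
    linarith
  have hE₀nn : 0 ≤ E₀ := by
    rw [hE₀]
    positivity
  -- plateau on I₁
  have hτc : (τ : ℝ) ∈ centers R₀ := by
    apply int_mem_centers hR₀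
    rcases hτ with rfl | rfl <;> simpa using hR₀
  have hτabs : |(τ : ℝ)| = 1 := by
    rcases hτ with rfl | rfl <;> simp
  have hI₁ : ∀ i ∈ I₁, q i = Λ * τ := by
    intro i hi
    rw [hq1 i (Finset.mem_union_left _ hi)]
    congr 1
    apply hpl _ hτc
    have e1 := h1 i hi
    have e2 : |w i / Λ - ρ| ≤ K₁ / Λ := by
      have : w i / Λ - ρ = (w i - ρ * Λ) / Λ := by field_simp
      rw [this, abs_div, abs_of_pos hΛ]
      exact div_le_div_of_nonneg_right e1 hΛ.le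
    have e3 : |w i / Λ - τ| ≤ |w i / Λ - ρ| + |ρ - τ| := abs_sub_le _ _ _
    have e4 : |ρ - τ| ≤ R₀ * |ρ - τ| := le_mul_of_one_le_left hδ hRpos
    have e5 : 0 ≤ (T + R₀ * K₁) / Λ := by positivity
    linarith
  -- rewrite the sum of r q
  have hqsum : ∑ i, (r i : ℝ) * q i
      = Λ * (τ * A + ∑ i ∈ I₂, (r i : ℝ) * σ (w i / Λ)) := by
    rw [sum_three I₁ I₂ hdisj]
    have e1 : ∑ i ∈ I₁, (r i : ℝ) * q i = Λ * (τ * A) := by
      rw [hA, Int.cast_sum, Finset.mul_sum, Finset.mul_sum]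
      apply Finset.sum_congr rfl
      intro i hi
      rw [hI₁ i hi]
      ring
    have e2 : ∑ i ∈ I₂, (r i : ℝ) * q i = Λ * ∑ i ∈ I₂, (r i : ℝ) * σ (w i / Λ) := by
      rw [Finset.mul_sum]
      apply Finset.sum_congr rfl
      intro i hi
      rw [hq1 i (Finset.mem_union_right _ hi)]
      ring
    have e3 : ∑ i ∈ (I₁ ∪ I₂)ᶜ, (r i : ℝ) * q i = 0 :=
      Finset.sum_eq_zero (fun i hi => by rw [hq0 i hi]; ring)
    rw [e1, e2, e3]
    ring
  -- lower bound for the sum of r w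
  have habsreal : ∑ i, |(r i : ℝ)| ≤ R₀ := by
    have : ∑ i, |(r i : ℝ)| = ((∑ i, |r i| : ℤ) : ℝ) := by
      rw [Int.cast_sum]
      apply Finset.sum_congr rfl
      intro i _
      simp
    rw [this]
    exact_mod_cast hr
  have hlow : ρ * Λ * A + l * B - R₀ * K₁ ≤ ∑ i, (r i : ℝ) * w i := by
    have e0 : ∀ (c : ℝ) (i : Fin d), |w i - c| ≤ K₁ → (r i : ℝ) * c - |(r i : ℝ)| * K₁ ≤ (r i : ℝ) * w i := by
      intro c i hc
      have : |(r i : ℝ) * (w i - c)| ≤ |(r i : ℝ)| * K₁ := by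
        rw [abs_mul]
        exact mul_le_mul_of_nonneg_left hc (abs_nonneg _)
      have := (abs_le.mp this).1
      nlinarith
    have e1 : (A : ℝ) * (ρ * Λ) - ∑ i ∈ I₁, |(r i : ℝ)| * K₁ ≤ ∑ i ∈ I₁, (r i : ℝ) * w i := by
      rw [hA, Int.cast_sum, Finset.sum_mul, ← Finset.sum_sub_distrib]
      exact Finset.sum_le_sum (fun i hi => e0 _ i (h1 i hi))
    have e2 : (B : ℝ) * l - ∑ i ∈ I₂, |(r i : ℝ)| * K₁ ≤ ∑ i ∈ I₂, (r i : ℝ) * w i := by
      rw [hB, Int.cast_sum, Finset.sum_mul, ← Finset.sum_sub_distrib]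
      exact Finset.sum_le_sum (fun i hi => e0 _ i (h2 i hi))
    have e3 : - ∑ i ∈ (I₁ ∪ I₂)ᶜ, |(r i : ℝ)| * K₁ ≤ ∑ i ∈ (I₁ ∪ I₂)ᶜ, (r i : ℝ) * w i := by
      rw [← Finset.sum_neg_distrib]
      apply Finset.sum_le_sum
      intro i hi
      have := e0 0 i (by simpa using h0 i hi)
      simpa using this
    have e4 : ∑ i, |(r i : ℝ)| * K₁ = ∑ i ∈ I₁, |(r i : ℝ)| * K₁ + ∑ i ∈ I₂, |(r i : ℝ)| * K₁
        + ∑ i ∈ (I₁ ∪ I₂)ᶜ, |(r i : ℝ)| * K₁ := sum_three I₁ I₂ hdisj _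
    have e5 : ∑ i, |(r i : ℝ)| * K₁ ≤ R₀ * K₁ := by
      rw [← Finset.sum_mul]
      exact mul_le_mul_of_nonneg_right habsreal hK₁
    rw [sum_three I₁ I₂ hdisj (fun i => (r i : ℝ) * w i)]
    nlinarith
  -- the main inequality
  have hAreal : |(A : ℝ)| ≤ R₀ := by exact_mod_cast hAabs
  have hmain : (τ : ℝ) * A + (l / Λ) * B < E₀ := by
    have e1 : ρ * Λ * A + l * B < T + R₀ * K₁ := by linarith
    have e2 : ρ * A + (l / Λ) * B < (T + R₀ * K₁) / Λ := by
      rw [lt_div_iff₀ hΛ]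
      have : (ρ * A + l / Λ * B) * Λ = ρ * Λ * A + l * B := by
        field_simp
      rw [this]
      exact e1
    have e3 : ((τ : ℝ) - ρ) * A ≤ R₀ * |ρ - τ| := by
      have : |((τ : ℝ) - ρ) * A| ≤ |ρ - τ| * R₀ := by
        rw [abs_mul, abs_sub_comm]
        exact mul_le_mul_of_nonneg_left hAreal hδ
      have := (abs_le.mp this).2
      linarith
    rw [hE₀]
    nlinarith
  -- the target
  rw [hqsum]
  apply mul_nonpos_of_nonneg_of_nonpos hΛ.le
  rcases lt_trichotomy B 0 with hBneg | hB0 | hBpos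
  · -- B negative, r nonpositive on I₂
    have hr2 : ∀ i ∈ I₂, r i ≤ 0 := by
      rcases hsign with hs | hs
      · exfalso
        have : 0 ≤ B := Finset.sum_nonneg hs
        omega
      · exact hs
    have hBreal : (B : ℝ) ≤ -1 := by exact_mod_cast (by omega : B ≤ -1)
    set ts : ℝ := ((-(τ * A) : ℤ) : ℝ) / (B : ℝ) with hts
    have htsmem : ts ∈ centers R₀ := by
      apply mem_centers _ hBabs
      rw [abs_neg, abs_mul]
      rcases hτ with rfl | rfl <;> simpa using hAabs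
    have hBne : (B : ℝ) ≠ 0 := by linarith
    have htsB : (B : ℝ) * ts = -((τ : ℝ) * A) := by
      rw [hts]
      push_cast
      field_simp
    have hlo : ts - E₀ ≤ l / Λ := by
      -- (l/Λ) * B < E₀ - τ A, with B ≤ -1
      have e1 : (l / Λ) * B < E₀ + (B : ℝ) * ts := by rw [htsB]; linarith
      have e2 : (B : ℝ) * (l / Λ - ts) < E₀ := by linarith
      by_contra hcon
      push Not at hcon
      have e3 : l / Λ - ts < - E₀ := by linarith
      nlinarith
    have hi2 : ∀ i ∈ I₂, (r i : ℝ) * σ (w i / Λ) ≤ (r i : ℝ) * ts := by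
      intro i hi
      have hri : (r i : ℝ) ≤ 0 := by exact_mod_cast hr2 i hi
      apply mul_le_mul_of_nonpos_left _ hri
      have hu : ts - ε ≤ w i / Λ := by
        have e2 : |w i / Λ - l / Λ| ≤ K₁ / Λ := by
          have : w i / Λ - l / Λ = (w i - l) / Λ := by field_simp
          rw [this, abs_div, abs_of_pos hΛ]
          exact div_le_div_of_nonneg_right (h2 i hi) hΛ.le
        have := (abs_le.mp e2).1
        linarith
      have e6 : σ (ts - ε) = ts := hpl ts htsmem _ (by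
        rw [show ts - ε - ts = -ε by ring, abs_neg, abs_of_pos hε])
      rw [← e6]
      exact hmono hu
    have := Finset.sum_le_sum hi2
    rw [← Finset.sum_mul] at this
    have e7 : ∑ i ∈ I₂, (r i : ℝ) = (B : ℝ) := by rw [hB, Int.cast_sum]
    rw [e7, htsB] at this
    linarith
  · -- B zero
    have hr2 : ∀ i ∈ I₂, r i = 0 := by
      rcases hsign with hs | hs
      · exact (Finset.sum_eq_zero_iff_of_nonneg hs).mp hB0
      · have := (Finset.sum_eq_zero_iff_of_nonpos hs).mp hB0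
        exact this
    have e1 : ∑ i ∈ I₂, (r i : ℝ) * σ (w i / Λ) = 0 :=
      Finset.sum_eq_zero (fun i hi => by rw [hr2 i hi]; simp)
    rw [e1, add_zero]
    have e2 : (τ : ℝ) * A < 1 := by
      have : (B : ℝ) = 0 := by exact_mod_cast hB0
      rw [this, mul_zero, add_zero] at hmain
      linarith
    have e3 : τ * A < 1 := by exact_mod_cast e2
    have e4 : τ * A ≤ 0 := by omega
    exact_mod_cast e4
  · -- B positive, r nonnegative on I₂
    have hr2 : ∀ i ∈ I₂, 0 ≤ r i := by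
      rcases hsign with hs | hs
      · exact hs
      · exfalso
        have : B ≤ 0 := Finset.sum_nonpos hs
        omega
    have hBreal : (1 : ℝ) ≤ B := by exact_mod_cast (by omega : 1 ≤ B)
    set ts : ℝ := ((-(τ * A) : ℤ) : ℝ) / (B : ℝ) with hts
    have htsmem : ts ∈ centers R₀ := by
      apply mem_centers _ hBabs
      rw [abs_neg, abs_mul]
      rcases hτ with rfl | rfl <;> simpa using hAabs
    have hBne : (B : ℝ) ≠ 0 := by linarith
    have htsB : (B : ℝ) * ts = -((τ : ℝ) * A) := by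
      rw [hts]
      push_cast
      field_simp
    have hhi : l / Λ ≤ ts + E₀ := by
      have e1 : (l / Λ) * B < E₀ + (B : ℝ) * ts := by rw [htsB]; linarith
      have e2 : (B : ℝ) * (l / Λ - ts) < E₀ := by linarith
      by_contra hcon
      push Not at hcon
      have e3 : E₀ < l / Λ - ts := by linarith
      nlinarith
    have hi2 : ∀ i ∈ I₂, (r i : ℝ) * σ (w i / Λ) ≤ (r i : ℝ) * ts := by
      intro i hi
      have hri : (0 : ℝ) ≤ r i := by exact_mod_cast hr2 i hi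
      apply mul_le_mul_of_nonneg_left _ hri
      have hu : w i / Λ ≤ ts + ε := by
        have e2 : |w i / Λ - l / Λ| ≤ K₁ / Λ := by
          have : w i / Λ - l / Λ = (w i - l) / Λ := by field_simp
          rw [this, abs_div, abs_of_pos hΛ]
          exact div_le_div_of_nonneg_right (h2 i hi) hΛ.le
        have := (abs_le.mp e2).2
        linarith
      have e6 : σ (ts + ε) = ts := hpl ts htsmem _ (by
        rw [show ts + ε - ts = ε by ring, abs_of_pos hε])
      rw [← e6]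
      exact hmono hu
    have := Finset.sum_le_sum hi2
    rw [← Finset.sum_mul] at this
    have e7 : ∑ i ∈ I₂, (r i : ℝ) = (B : ℝ) := by rw [hB, Int.cast_sum]
    rw [e7, htsB] at this
    linarith

end Vale.Agent.Lib.P072
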