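import Mathlib
import Vale.Agent.Lib.P072.Stair

/-!
Cluster lemmas: the geometry of a two-dimensional stoichiometric class.
-/

open Finset

namespace Vale.Agent.Lib.P072

lemma abs_log_le_of_bounds {A B y : ℝ} (hA : 0 < A) (hy : A ≤ y) (hyB : y ≤ B) :
    |Real.log y| ≤ |Real.log A| + |Real.log B| := by
  have h1 : Real.log A ≤ Real.log y := Real.log_le_log hA hy
  have h2 : Real.log y ≤ Real.log B := Real.log_le_log (lt_of_lt_of_le hA hy) hyB
  rw [abs_le]
  constructor
  · linarith [neg_abs_le (Real.log A), abs_nonneg (Real.log B)]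
  · linarith [le_abs_self (Real.log B), abs_nonneg (Real.log A)]

/-- The one-dimensional cluster lemma. -/
theorem oneD {α : Type*} [DecidableEq α] (G : Finset α) (c β : α → ℝ) (hc : ∀ j ∈ G, 0 < c j)
    (hβ : ∀ j ∈ G, β j ≠ 0) :
    ∃ K₀ : ℝ, 0 ≤ K₀ ∧ ∀ s : ℝ, (∀ j ∈ G, 0 < c j + β j * s) →
      ∃ (I : Finset α) (l : ℝ), I ⊆ G ∧ (∀ j ∈ I, |Real.log (c j + β j * s) - l| ≤ K₀) ∧
        (∀ j ∈ G, j ∉ I → |Real.log (c j + β j * s)| ≤ K₀) ∧
        ((∀ j ∈ I, 0 < β j) ∨ (∀ j ∈ I, β j < 0)) := by
  classical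
  -- zeros
  set zr : α → ℝ := fun j => - c j / β j with hzr
  have hzero : ∀ j ∈ G, ∀ s, c j + β j * s = β j * (s - zr j) := by
    intro j hj s
    have := hβ j hj
    simp only [hzr]
    field_simp
    ring
  -- constant K' bounding the zeros and 2 c / |β|
  set K' : ℝ := 1 + ∑ j ∈ G, (2 * c j / |β j| + |zr j|) with hK'
  have hterm : ∀ j ∈ G, 0 ≤ 2 * c j / |β j| + |zr j| := by
    intro j hj
    have := hc j hj
    positivity
  have hK'1 : 1 ≤ K' := by
    have := Finset.sum_nonneg hterm
    rw [hK']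
    linarith
  have hK'j : ∀ j ∈ G, 2 * c j / |β j| + |zr j| ≤ K' := by
    intro j hj
    have := Finset.single_le_sum hterm hj
    rw [hK']
    linarith
  -- separation of zeros
  obtain ⟨ε, hε, -, hsep⟩ := exists_separation (G.image zr)
  have hsep' : ∀ j ∈ G, ∀ l ∈ G, zr j ≠ zr l → 4 * ε ≤ |zr j - zr l| := fun j hj l hl h =>
    hsep _ (Finset.mem_image_of_mem _ hj) _ (Finset.mem_image_of_mem _ hl) h
  -- the constant K₀
  set K₀ : ℝ := Real.log 2 + ∑ j ∈ G, (|Real.log (|β j|)| + |Real.log (|β j| * ε)|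
      + |Real.log (|β j| * (2 * K'))|) with hK₀
  have hlog2 : 0 < Real.log 2 := Real.log_pos (by norm_num)
  have hterm2 : ∀ j ∈ G, 0 ≤ |Real.log (|β j|)| + |Real.log (|β j| * ε)|
      + |Real.log (|β j| * (2 * K'))| := fun j _ => by positivity
  have hK₀j : ∀ j ∈ G, |Real.log (|β j|)| + |Real.log (|β j| * ε)|
      + |Real.log (|β j| * (2 * K'))| ≤ K₀ - Real.log 2 := by
    intro j hj
    have := Finset.single_le_sum hterm2 hj
    rw [hK₀]
    linarith
  have hK₀nn : 0 ≤ K₀ := by
    have := Finset.sum_nonneg hterm2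
    rw [hK₀]
    linarith
  refine ⟨K₀, hK₀nn, fun s hs => ?_⟩
  -- bound for a species away from its zero
  have hfar : ∀ j ∈ G, ε ≤ |s - zr j| → |s| < K' → |Real.log (c j + β j * s)| ≤ K₀ := by
    intro j hj h1 h2
    have hβj : 0 < |β j| := abs_pos.mpr (hβ j hj)
    have hx : c j + β j * s = |β j| * |s - zr j| := by
      have hpos := hs j hj
      rw [hzero j hj s] at hpos ⊢
      rw [← abs_mul, abs_of_pos hpos]
    have hzj : |zr j| ≤ K' := by
      have h3 := hK'j j hj
      have h4 : 0 ≤ 2 * c j / |β j| := by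
        have := hc j hj
        positivity
      linarith
    have hup : |s - zr j| ≤ 2 * K' := by
      have := abs_sub s (zr j)
      linarith
    rw [hx]
    have h5 := abs_log_le_of_bounds (A := |β j| * ε) (B := |β j| * (2 * K'))
      (y := |β j| * |s - zr j|) (by positivity)
      (mul_le_mul_of_nonneg_left h1 hβj.le) (mul_le_mul_of_nonneg_left hup hβj.le)
    have h6 := hK₀j j hj
    have h7 : 0 ≤ |Real.log (|β j|)| := abs_nonneg _
    linarith
  by_cases hlarge : K' ≤ |s|
  · -- s is large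
    refine ⟨G, Real.log (|s|), Finset.Subset.refl _, ?_, ?_, ?_⟩
    · intro j hj
      have hβj : 0 < |β j| := abs_pos.mpr (hβ j hj)
      have hcj := hc j hj
      have hspos : 0 < |s| := by linarith
      have h1 : 2 * c j ≤ |β j| * |s| := by
        have h3 := hK'j j hj
        have h4 : 2 * c j / |β j| ≤ |s| := by
          have : 0 ≤ |zr j| := abs_nonneg _
          linarith
        rw [div_le_iff₀ hβj] at h4
        rw [mul_comm (|β j|)]
        exact h4
      have h2 : 0 < β j * s := by
        by_contra hcon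
        push Not at hcon
        have h5 : |β j * s| = - (β j * s) := abs_of_nonpos hcon
        rw [abs_mul] at h5
        have := hs j hj
        linarith
      have hx : c j + β j * s = c j + |β j| * |s| := by
        rw [← abs_mul, abs_of_pos h2]
      rw [hx]
      have hne : |s| ≠ 0 := hspos.ne'
      have e1 : Real.log (c j + |β j| * |s|) - Real.log (|s|)
          = Real.log ((c j + |β j| * |s|) / |s|) := by
        rw [Real.log_div (by positivity) hne]
      rw [e1]
      have e2 : |β j| ≤ (c j + |β j| * |s|) / |s| := by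
        rw [le_div_iff₀ hspos]
        linarith
      have e3 : (c j + |β j| * |s|) / |s| ≤ 2 * |β j| := by
        rw [div_le_iff₀ hspos]
        linarith
      have e4 := Real.log_le_log hβj e2
      have e5 := Real.log_le_log (by positivity) e3
      rw [Real.log_mul (by norm_num) hβj.ne'] at e5
      have h6 := hK₀j j hj
      have h7 : 0 ≤ |Real.log (|β j| * ε)| + |Real.log (|β j| * (2 * K'))| := by positivity
      rw [abs_le]
      constructor
      · linarith [neg_abs_le (Real.log (|β j|))]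
      · linarith [le_abs_self (Real.log (|β j|))]
    · intro j hj hnj
      exact absurd hj hnj
    · -- sign
      have hsign : ∀ j ∈ G, 0 < β j * s := by
        intro j hj
        have hβj : 0 < |β j| := abs_pos.mpr (hβ j hj)
        have hcj := hc j hj
        have h1 : 2 * c j ≤ |β j| * |s| := by
          have h3 := hK'j j hj
          have h4 : 2 * c j / |β j| ≤ |s| := by
            have : 0 ≤ |zr j| := abs_nonneg _
            linarith
          rw [div_le_iff₀ hβj] at h4
          rw [mul_comm (|β j|)]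
          exact h4
        by_contra hcon
        push Not at hcon
        have h5 : |β j * s| = - (β j * s) := abs_of_nonpos hcon
        rw [abs_mul] at h5
        have := hs j hj
        linarith
      rcases lt_trichotomy s 0 with h | h | h
      · right
        intro j hj
        have := hsign j hj
        by_contra hcon
        push Not at hcon
        nlinarith
      · exfalso
        rw [h] at hlarge
        simp at hlarge
        linarith
      · left
        intro j hj
        have := hsign j hj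
        by_contra hcon
        push Not at hcon
        nlinarith
  · push Not at hlarge
    by_cases hnear : ∃ j₁ ∈ G, |s - zr j₁| < ε
    · obtain ⟨j₁, hj₁, hj₁s⟩ := hnear
      set s₀ := zr j₁ with hs₀
      refine ⟨G.filter (fun j => zr j = s₀), Real.log (|s - s₀|), Finset.filter_subset _ _, ?_, ?_, ?_⟩
      · intro j hj
        rw [Finset.mem_filter] at hj
        obtain ⟨hjG, hjz⟩ := hj
        have hβj : 0 < |β j| := abs_pos.mpr (hβ j hjG)
        have hpos := hs j hjG
        rw [hzero j hjG s, hjz] at hpos ⊢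
        rw [← abs_of_pos hpos, abs_mul]
        have hne : |s - s₀| ≠ 0 := by
          intro h0
          have : s - s₀ = 0 := abs_eq_zero.mp h0
          rw [this, mul_zero] at hpos
          exact lt_irrefl _ hpos
        rw [Real.log_mul hβj.ne' hne]
        rw [show Real.log (|β j|) + Real.log (|s - s₀|) - Real.log (|s - s₀|) = Real.log (|β j|) by ring]
        have h6 := hK₀j j hjG
        have h7 : 0 ≤ |Real.log (|β j| * ε)| + |Real.log (|β j| * (2 * K'))| := by positivity
        linarith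
      · intro j hj hnj
        have hne : zr j ≠ s₀ := by
          intro h
          exact hnj (Finset.mem_filter.mpr ⟨hj, h⟩)
        apply hfar j hj _ hlarge
        have h4 := hsep' j hj j₁ hj₁ hne
        have h5 : |zr j - s₀| ≤ |s - zr j| + |s - s₀| := by
          have := abs_sub_le (zr j) s s₀
          rwa [abs_sub_comm (zr j) s] at this
        linarith
      · -- sign
        have hne : s - s₀ ≠ 0 := by
          intro h0
          have := hs j₁ hj₁
          rw [hzero j₁ hj₁ s, ← hs₀, h0, mul_zero] at this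
          exact lt_irrefl _ this
        rcases lt_or_gt_of_ne hne with h | h
        · right
          intro j hj
          rw [Finset.mem_filter] at hj
          obtain ⟨hjG, hjz⟩ := hj
          have hpos := hs j hjG
          rw [hzero j hjG s, hjz] at hpos
          by_contra hcon
          push Not at hcon
          nlinarith
        · left
          intro j hj
          rw [Finset.mem_filter] at hj
          obtain ⟨hjG, hjz⟩ := hj
          have hpos := hs j hjG
          rw [hzero j hjG s, hjz] at hpos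
          by_contra hcon
          push Not at hcon
          nlinarith
    · push Not at hnear
      refine ⟨∅, 0, Finset.empty_subset _, by simp, ?_, Or.inl (by simp)⟩
      intro j hj _
      exact hfar j hj (hnear j hj) hlarge

variable {d : ℕ}

/-- Two-by-two determinant of the coordinates `i, k` of the pair `(a, b)`. -/
def dt (a b : Fin d → ℝ) (i k : Fin d) : ℝ := a i * b k - b i * a k

/-- Cramer bound. -/
theorem cramer_bound (a b : Fin d → ℝ) :
    ∃ C : ℝ, 1 ≤ C ∧ ∀ i k j, dt a b i k ≠ 0 → ∀ z₁ z₂ : ℝ,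
      |z₁ * a j + z₂ * b j| ≤ C * (|z₁ * a i + z₂ * b i| + |z₁ * a k + z₂ * b k|) := by
  obtain ⟨C, hC, hbd⟩ := exists_ge_forall (fun p : Fin d × Fin d × Fin d =>
    |(a p.2.2 * b p.2.1 - b p.2.2 * a p.2.1) / dt a b p.1 p.2.1|
      + |(a p.1 * b p.2.2 - a p.2.2 * b p.1) / dt a b p.1 p.2.1|)
  refine ⟨C, hC, fun i k j hdt z₁ z₂ => ?_⟩
  set α := (a j * b k - b j * a k) / dt a b i k with hα
  set α' := (a i * b j - a j * b i) / dt a b i k with hα'
  have e : z₁ * a j + z₂ * b j = α * (z₁ * a i + z₂ * b i) + α' * (z₁ * a k + z₂ * b k) := by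
    rw [hα, hα', div_mul_eq_mul_div, div_mul_eq_mul_div, ← add_div, eq_div_iff hdt]
    unfold dt
    ring
  have h1 : |α| + |α'| ≤ C := hbd (i, k, j)
  rw [e]
  refine (abs_add_le _ _).trans ?_
  rw [abs_mul, abs_mul]
  have h2 := abs_nonneg α
  have h3 := abs_nonneg α'
  have h4 := abs_nonneg (z₁ * a i + z₂ * b i)
  have h5 := abs_nonneg (z₁ * a k + z₂ * b k)
  nlinarith

/-- Nonconstant species. -/
def NC (a b : Fin d → ℝ) (i : Fin d) : Prop := a i ≠ 0 ∨ b i ≠ 0

/-- Proportionality factor. -/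
noncomputable def bet (a b : Fin d → ℝ) (i₀ j : Fin d) : ℝ :=
  if a i₀ ≠ 0 then a j / a i₀ else b j / b i₀

lemma bet_spec {a b : Fin d → ℝ} {i₀ j : Fin d} (h : NC a b i₀) (hdt : dt a b j i₀ = 0) :
    a j = bet a b i₀ j * a i₀ ∧ b j = bet a b i₀ j * b i₀ := by
  unfold dt at hdt
  unfold bet
  by_cases ha : a i₀ ≠ 0
  · simp only [ha, ne_eq, not_false_eq_true, if_true]
    constructor
    · field_simp
    · field_simp
      linarith
  · have hb : b i₀ ≠ 0 := by
      rcases h with h | h
      · exact absurd h ha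
      · exact h
    have ha0 : a i₀ = 0 := by
      by_contra h'
      exact ha h'
    simp only [ha, if_false]
    constructor
    · rw [ha0] at hdt ⊢
      have : a j * b i₀ = 0 := by linarith
      have : a j = 0 := by
        rcases mul_eq_zero.mp this with h | h
        · exact h
        · exact absurd h hb
      rw [this]
      ring
    · field_simp

lemma bet_ne {a b : Fin d → ℝ} {i₀ j : Fin d} (h : NC a b i₀) (hdt : dt a b j i₀ = 0)
    (hj : NC a b j) : bet a b i₀ j ≠ 0 := by
  intro h0
  obtain ⟨h1, h2⟩ := bet_spec h hdt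
  rw [h0, zero_mul] at h1 h2
  rcases hj with hj | hj
  · exact hj h1
  · exact hj h2

/-- Outer cluster lemma. -/
theorem outer_cluster (c a b : Fin d → ℝ) (hc : ∀ i, 0 < c i) :
    ∃ K₀ M₀ : ℝ, 0 ≤ K₀ ∧ 0 < M₀ ∧ ∀ (x : Fin d → ℝ) (z₁ z₂ : ℝ),
      (∀ i, x i = c i + z₁ * a i + z₂ * b i) → (∀ i, 0 < x i) → ∀ i₀, (∀ i, x i ≤ x i₀) →
      M₀ ≤ x i₀ →
      ∃ (I₁ I₂ : Finset (Fin d)) (l : ℝ), Disjoint I₁ I₂ ∧
        (∀ i ∈ I₁, |Real.log (x i) - Real.log (x i₀)| ≤ K₀) ∧
        (∀ i ∈ I₂, |Real.log (x i) - l| ≤ K₀) ∧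
        (∀ i ∈ (I₁ ∪ I₂)ᶜ, |Real.log (x i)| ≤ K₀) ∧
        ∀ z₁' z₂' : ℝ, (∀ i ∈ I₂, 0 ≤ z₁' * a i + z₂' * b i) ∨
          (∀ i ∈ I₂, z₁' * a i + z₂' * b i ≤ 0) := by
  classical
  obtain ⟨C, hC1, hC⟩ := cramer_bound a b
  -- 1D constants
  have h1D : ∀ i₁ : Fin d, ∃ K : ℝ, 0 ≤ K ∧ (NC a b i₁ → ∀ s : ℝ,
      (∀ j ∈ univ.filter (fun j => dt a b j i₁ = 0 ∧ NC a b j), 0 < c j + bet a b i₁ j * s) →
      ∃ (I : Finset (Fin d)) (l : ℝ), I ⊆ univ.filter (fun j => dt a b j i₁ = 0 ∧ NC a b j) ∧
        (∀ j ∈ I, |Real.log (c j + bet a b i₁ j * s) - l| ≤ K) ∧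
        (∀ j ∈ univ.filter (fun j => dt a b j i₁ = 0 ∧ NC a b j), j ∉ I →
          |Real.log (c j + bet a b i₁ j * s)| ≤ K) ∧
        ((∀ j ∈ I, 0 < bet a b i₁ j) ∨ (∀ j ∈ I, bet a b i₁ j < 0))) := by
    intro i₁
    by_cases hi₁ : NC a b i₁
    · obtain ⟨K, hK, h⟩ := oneD (univ.filter (fun j => dt a b j i₁ = 0 ∧ NC a b j)) c
        (bet a b i₁) (fun j _ => hc j) (fun j hj => by
          rw [Finset.mem_filter] at hj
          exact bet_ne hi₁ hj.2.1 hj.2.2)
      exact ⟨K, hK, fun _ => h⟩
    · exact ⟨0, le_rfl, fun h => absurd h hi₁⟩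
  choose K1D hK1D h1Dspec using h1D
  set cbar : ℝ := 1 + ∑ i, c i with hcbar
  have hsumc : 0 ≤ ∑ i, c i := Finset.sum_nonneg (fun i _ => (hc i).le)
  have hcle : ∀ i, c i ≤ cbar := fun i => by
    have := Finset.single_le_sum (f := c) (fun i _ => (hc i).le) (Finset.mem_univ i)
    rw [hcbar]
    linarith
  have hcbar1 : 1 ≤ cbar := by rw [hcbar]; linarith
  set K : ℝ := 4 * C with hK
  have hKpos : 0 < K := by rw [hK]; linarith
  refine ⟨Real.log K + ∑ i, |Real.log (c i)| + ∑ i, K1D i, 2 * cbar * (1 + 2 * C) + 1, ?_, ?_, ?_⟩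
  · have h1 : 0 ≤ Real.log K := Real.log_nonneg (by rw [hK]; linarith)
    have h2 : 0 ≤ ∑ i, |Real.log (c i)| := Finset.sum_nonneg (fun i _ => abs_nonneg _)
    have h3 : 0 ≤ ∑ i, K1D i := Finset.sum_nonneg (fun i _ => hK1D i)
    linarith
  · positivity
  intro x z₁ z₂ hx hpos i₀ hmax hM
  set M := x i₀ with hMdef
  have hlogK : 0 ≤ Real.log K := Real.log_nonneg (by rw [hK]; linarith)
  have hsc : 0 ≤ ∑ i, |Real.log (c i)| := Finset.sum_nonneg (fun i _ => abs_nonneg _)
  have hsK : 0 ≤ ∑ i, K1D i := Finset.sum_nonneg (fun i _ => hK1D i)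
  have hscj : ∀ i, |Real.log (c i)| ≤ ∑ i, |Real.log (c i)| := fun i =>
    Finset.single_le_sum (f := fun i => |Real.log (c i)|) (fun i _ => abs_nonneg _)
      (Finset.mem_univ i)
  have hsKj : ∀ i, K1D i ≤ ∑ i, K1D i := fun i =>
    Finset.single_le_sum (f := K1D) (fun i _ => hK1D i) (Finset.mem_univ i)
  have hMpos : 0 < M := hpos i₀
  -- the small species
  set Sm : Finset (Fin d) := univ.filter (fun i => x i < M / K) with hSm
  have hpair : ∀ i ∈ Sm, ∀ k ∈ Sm, dt a b i k = 0 := by
    intro i hi k hk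
    by_contra hdt
    rw [hSm, Finset.mem_filter] at hi hk
    have h1 := hC i k i₀ hdt z₁ z₂
    have h2 : ∀ j, |z₁ * a j + z₂ * b j| ≤ x j + cbar := by
      intro j
      have e : z₁ * a j + z₂ * b j = x j - c j := by rw [hx j]; ring
      rw [e, abs_le]
      have := hpos j
      have := hc j
      have := hcle j
      constructor <;> linarith
    have h3 : z₁ * a i₀ + z₂ * b i₀ = M - c i₀ := by rw [hMdef, hx i₀]; ring
    rw [h3] at h1
    have h4 : M - c i₀ ≤ C * (x i + cbar + (x k + cbar)) :=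
      (le_abs_self _).trans (h1.trans (mul_le_mul_of_nonneg_left
        (add_le_add (h2 i) (h2 k)) (by linarith)))
    have h5 : C * (x i + x k) ≤ C * (M / K + M / K) :=
      mul_le_mul_of_nonneg_left (add_le_add hi.2.le hk.2.le) (by linarith)
    have h6 : C * (M / K + M / K) = M / 2 := by
      rw [hK]
      have : C ≠ 0 := by linarith
      field_simp
      ring
    have h7 := hcle i₀
    nlinarith
  -- the nonconstant small species
  set NS : Finset (Fin d) := Sm.filter (fun i => NC a b i) with hNS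
  -- large species bound
  have hlarge : ∀ i, i ∉ Sm → |Real.log (x i) - Real.log M| ≤ Real.log K := by
    intro i hi
    rw [hSm, Finset.mem_filter] at hi
    have h1 : M / K ≤ x i := by
      by_contra h
      exact hi ⟨Finset.mem_univ i, not_le.mp h⟩
    have h2 := Real.log_le_log (by positivity) h1
    rw [Real.log_div hMpos.ne' hKpos.ne'] at h2
    have h3 := Real.log_le_log (hpos i) (hmax i)
    rw [abs_le]
    constructor <;> linarith
  -- constant species bound
  have hconst : ∀ i, ¬ NC a b i → |Real.log (x i)| ≤ ∑ i, |Real.log (c i)| := by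
    intro i hi
    unfold NC at hi
    push Not at hi
    have : x i = c i := by rw [hx i, hi.1, hi.2]; ring
    rw [this]
    exact hscj i
  by_cases hne : NS.Nonempty
  · obtain ⟨i₁, hi₁⟩ := hne
    have hi₁S : i₁ ∈ Sm := (Finset.mem_filter.mp hi₁).1
    have hi₁N : NC a b i₁ := (Finset.mem_filter.mp hi₁).2
    set s := z₁ * a i₁ + z₂ * b i₁ with hs
    have hxG : ∀ j, dt a b j i₁ = 0 → x j = c j + bet a b i₁ j * s := by
      intro j hj
      obtain ⟨h1, h2⟩ := bet_spec hi₁N hj
      rw [hx j, h1, h2, hs]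
      ring
    obtain ⟨I, l, hIG, hI1, hI2, hI3⟩ := h1Dspec i₁ hi₁N s (by
      intro j hj
      rw [Finset.mem_filter] at hj
      rw [← hxG j hj.2.1]
      exact hpos j)
    refine ⟨Smᶜ, NS ∩ I, l, ?_, ?_, ?_, ?_, ?_⟩
    · rw [Finset.disjoint_left]
      intro i hi hi'
      rw [Finset.mem_compl] at hi
      exact hi (Finset.mem_filter.mp (Finset.mem_inter.mp hi').1).1
    · intro i hi
      rw [Finset.mem_compl] at hi
      have := hlarge i hi
      linarith
    · intro i hi
      rw [Finset.mem_inter] at hi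
      have hiG := hIG hi.2
      rw [Finset.mem_filter] at hiG
      rw [hxG i hiG.2.1]
      have h1 := hI1 i hi.2
      have h2 := hsKj i₁
      linarith
    · intro i hi
      rw [Finset.mem_compl, Finset.mem_union, not_or, Finset.mem_compl, not_not] at hi
      by_cases hiN : NC a b i
      · have hiNS : i ∈ NS := Finset.mem_filter.mpr ⟨hi.1, hiN⟩
        have hiI : i ∉ I := fun h => hi.2 (Finset.mem_inter.mpr ⟨hiNS, h⟩)
        have hdt := hpair i hi.1 i₁ hi₁S
        have h1 := hI2 i (Finset.mem_filter.mpr ⟨Finset.mem_univ i, hdt, hiN⟩) hiI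
        rw [← hxG i hdt] at h1
        have h2 := hsKj i₁
        linarith
      · have := hconst i hiN
        linarith
    · intro z₁' z₂'
      set ρ := z₁' * a i₁ + z₂' * b i₁ with hρ
      have hrj : ∀ j ∈ NS ∩ I, z₁' * a j + z₂' * b j = bet a b i₁ j * ρ := by
        intro j hj
        have hjG := hIG (Finset.mem_inter.mp hj).2
        rw [Finset.mem_filter] at hjG
        obtain ⟨h1, h2⟩ := bet_spec hi₁N hjG.2.1
        rw [h1, h2, hρ]
        ring
      have hsub : ∀ j ∈ NS ∩ I, j ∈ I := fun j hj => (Finset.mem_inter.mp hj).2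
      rcases hI3 with hb | hb <;> rcases le_total 0 ρ with hρ0 | hρ0
      · left
        intro j hj
        rw [hrj j hj]
        exact mul_nonneg (hb j (hsub j hj)).le hρ0
      · right
        intro j hj
        rw [hrj j hj]
        exact mul_nonpos_of_nonneg_of_nonpos (hb j (hsub j hj)).le hρ0
      · right
        intro j hj
        rw [hrj j hj]
        exact mul_nonpos_of_nonpos_of_nonneg (hb j (hsub j hj)).le hρ0
      · left
        intro j hj
        rw [hrj j hj]
        exact mul_nonneg_of_nonpos_of_nonpos (hb j (hsub j hj)).le hρ0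
  · rw [Finset.not_nonempty_iff_eq_empty] at hne
    refine ⟨Smᶜ, ∅, 0, by simp, ?_, by simp, ?_, fun _ _ => Or.inl (by simp)⟩
    · intro i hi
      rw [Finset.mem_compl] at hi
      have := hlarge i hi
      linarith
    · intro i hi
      simp only [Finset.union_empty, compl_compl] at hi
      have hiN : ¬ NC a b i := by
        intro h
        have : i ∈ NS := Finset.mem_filter.mpr ⟨hi, h⟩
        rw [hne] at this
        simp at this
      have := hconst i hiN
      linarith

/-- Vertex cluster lemma: homogeneous coordinates. -/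
theorem vertex_cluster (a b : Fin d → ℝ) :
    ∃ K₀ : ℝ, 0 ≤ K₀ ∧ ∀ (J : Finset (Fin d)) (x : Fin d → ℝ) (z₁ z₂ : ℝ),
      (∀ j ∈ J, x j = z₁ * a j + z₂ * b j) → (∀ j ∈ J, 0 < x j) → ∀ j₀ ∈ J, (∀ j ∈ J, x j ≤ x j₀) →
      ∃ (I₁ I₂ : Finset (Fin d)) (l : ℝ), Disjoint I₁ I₂ ∧ I₁ ∪ I₂ = J ∧
        (∀ i ∈ I₁, |Real.log (x i) - Real.log (x j₀)| ≤ K₀) ∧
        (∀ i ∈ I₂, |Real.log (x i) - l| ≤ K₀) ∧
        ∀ z₁' z₂' : ℝ, (∀ i ∈ I₂, 0 ≤ z₁' * a i + z₂' * b i) ∨
          (∀ i ∈ I₂, z₁' * a i + z₂' * b i ≤ 0) := by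
  classical
  obtain ⟨C, hC1, hC⟩ := cramer_bound a b
  set K : ℝ := 4 * C with hK
  have hKpos : 0 < K := by rw [hK]; linarith
  have hlogK : 0 ≤ Real.log K := Real.log_nonneg (by rw [hK]; linarith)
  set Kb : ℝ := ∑ p : Fin d × Fin d, |Real.log (bet a b p.1 p.2)| with hKb
  have hKb0 : 0 ≤ Kb := Finset.sum_nonneg (fun _ _ => abs_nonneg _)
  have hKbj : ∀ i j, |Real.log (bet a b i j)| ≤ Kb := fun i j =>
    Finset.single_le_sum (f := fun p : Fin d × Fin d => |Real.log (bet a b p.1 p.2)|)
      (fun _ _ => abs_nonneg _) (Finset.mem_univ (i, j))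
  refine ⟨Real.log K + Kb, by linarith, ?_⟩
  intro J x z₁ z₂ hx hpos j₀ hj₀ hmax
  set m := x j₀ with hm
  have hmpos : 0 < m := hpos j₀ hj₀
  set Sm : Finset (Fin d) := J.filter (fun i => x i < m / K) with hSm
  have hpair : ∀ i ∈ Sm, ∀ k ∈ Sm, dt a b i k = 0 := by
    intro i hi k hk
    by_contra hdt
    rw [hSm, Finset.mem_filter] at hi hk
    have h1 := hC i k j₀ hdt z₁ z₂
    rw [← hx j₀ hj₀, ← hx i hi.1, ← hx k hk.1, abs_of_pos (hpos i hi.1), abs_of_pos (hpos k hk.1),
      abs_of_pos hmpos] at h1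
    have h5 : C * (x i + x k) ≤ C * (m / K + m / K) :=
      mul_le_mul_of_nonneg_left (add_le_add hi.2.le hk.2.le) (by linarith)
    have h6 : C * (m / K + m / K) = m / 2 := by
      rw [hK]
      have : C ≠ 0 := by linarith
      field_simp
      ring
    linarith
  have hNC : ∀ j ∈ J, NC a b j := by
    intro j hj
    by_contra h
    unfold NC at h
    push Not at h
    have := hpos j hj
    rw [hx j hj, h.1, h.2] at this
    simp at this
  have hlarge : ∀ i ∈ J, i ∉ Sm → |Real.log (x i) - Real.log m| ≤ Real.log K := by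
    intro i hiJ hi
    rw [hSm, Finset.mem_filter] at hi
    have h1 : m / K ≤ x i := by
      by_contra h
      exact hi ⟨hiJ, not_le.mp h⟩
    have h2 := Real.log_le_log (by positivity) h1
    rw [Real.log_div hmpos.ne' hKpos.ne'] at h2
    have h3 := Real.log_le_log (hpos i hiJ) (hmax i hiJ)
    rw [abs_le]
    constructor <;> linarith
  by_cases hne : Sm.Nonempty
  · obtain ⟨j₁, hj₁⟩ := hne
    have hj₁J : j₁ ∈ J := (Finset.mem_filter.mp hj₁).1
    have hN₁ := hNC j₁ hj₁J
    have hrel : ∀ j ∈ Sm, ∀ z₁' z₂' : ℝ, z₁' * a j + z₂' * b j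
        = bet a b j₁ j * (z₁' * a j₁ + z₂' * b j₁) := by
      intro j hj z₁' z₂'
      obtain ⟨h1, h2⟩ := bet_spec hN₁ (hpair j hj j₁ hj₁)
      rw [h1, h2]
      ring
    have hbpos : ∀ j ∈ Sm, 0 < bet a b j₁ j := by
      intro j hj
      have hjJ := (Finset.mem_filter.mp hj).1
      have h1 := hpos j hjJ
      have h2 := hpos j₁ hj₁J
      rw [hx j hjJ, hrel j hj z₁ z₂, ← hx j₁ hj₁J] at h1
      rw [hx j₁ hj₁J] at h2
      by_contra hcon
      push Not at hcon
      rw [← hx j₁ hj₁J] at h2
      nlinarith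
    refine ⟨J \ Sm, Sm, Real.log (x j₁), Finset.sdiff_disjoint, ?_, ?_, ?_, ?_⟩
    · exact Finset.sdiff_union_of_subset (Finset.filter_subset _ _)
    · intro i hi
      rw [Finset.mem_sdiff] at hi
      have := hlarge i hi.1 hi.2
      linarith
    · intro i hi
      have hiJ := (Finset.mem_filter.mp hi).1
      have e : x i = bet a b j₁ i * x j₁ := by
        rw [hx i hiJ, hrel i hi z₁ z₂, ← hx j₁ hj₁J]
      rw [e, Real.log_mul (hbpos i hi).ne' (hpos j₁ hj₁J).ne']
      rw [show Real.log (bet a b j₁ i) + Real.log (x j₁) - Real.log (x j₁)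
        = Real.log (bet a b j₁ i) by ring]
      have := hKbj j₁ i
      linarith
    · intro z₁' z₂'
      rcases le_total 0 (z₁' * a j₁ + z₂' * b j₁) with h | h
      · left
        intro j hj
        rw [hrel j hj]
        exact mul_nonneg (hbpos j hj).le h
      · right
        intro j hj
        rw [hrel j hj]
        exact mul_nonpos_of_nonneg_of_nonpos (hbpos j hj).le h
  · rw [Finset.not_nonempty_iff_eq_empty] at hne
    refine ⟨J, ∅, 0, by simp, by simp, ?_, by simp, fun _ _ => Or.inl (by simp)⟩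
    intro i hi
    have : i ∉ Sm := by rw [hne]; simp
    have := hlarge i hi this
    linarith

end Vale.Agent.Lib.P072
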