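import Mathlib

/-!
Definitions for mass-action reaction networks on `d` species.
-/

namespace Vale.Agent.Lib.P072

/-- A complex: a vector of nonnegative integer stoichiometric coefficients. -/
abbrev Cplx (d : ℕ) := Fin d → ℕ

variable {d : ℕ}

/-- There is a directed path from `y` to `y'` in the reaction graph of `R`
(a reaction is a pair (source, target) of complexes). -/
def Rch (R : Finset (Cplx d × Cplx d)) : Cplx d → Cplx d → Prop :=
  Relation.ReflTransGen (fun y y' => (y, y') ∈ R)

/-- Weak reversibility: for each reaction `y → y'` there is a directed path from `y'` to `y`. -/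
def WeaklyReversible (R : Finset (Cplx d × Cplx d)) : Prop :=
  ∀ e ∈ R, Rch R e.2 e.1

/-- The monomial `x^y = ∏ i, x i ^ y i`. -/
noncomputable def monomial (x : Fin d → ℝ) (y : Cplx d) : ℝ := ∏ i, x i ^ y i

/-- The reaction vector `y' - y` of the reaction `e = (y, y')`. -/
def reactionVector (e : Cplx d × Cplx d) : Fin d → ℝ := fun i => (e.2 i : ℝ) - (e.1 i : ℝ)

/-- The mass-action vector field `x ↦ ∑ k_{y→y'} x^y (y' - y)` with rates `k`. -/
noncomputable def massAction (R : Finset (Cplx d × Cplx d)) (k : Cplx d × Cplx d → ℝ)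
    (x : Fin d → ℝ) : Fin d → ℝ :=
  ∑ e ∈ R, (k e * monomial x e.1) • reactionVector e

/-- The stoichiometric subspace: the span of the reaction vectors. -/
def stoichSubspace (R : Finset (Cplx d × Cplx d)) : Submodule ℝ (Fin d → ℝ) :=
  Submodule.span ℝ (reactionVector '' (R : Set (Cplx d × Cplx d)))

/-- The positive stoichiometric class `(c + S) ∩ ℝ_{>0}^d`. -/
def posClass (R : Finset (Cplx d × Cplx d)) (c : Fin d → ℝ) : Set (Fin d → ℝ) :=
  {x | (∀ i, 0 < x i) ∧ x - c ∈ stoichSubspace R}

/-- `x` is a solution on `[0, T]` of the mass-action system with rates `k`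
(one-sided derivatives at the two end points). -/
def IsSolutionOn (R : Finset (Cplx d × Cplx d)) (k : Cplx d × Cplx d → ℝ) (T : ℝ)
    (x : ℝ → Fin d → ℝ) : Prop :=
  ∀ t ∈ Set.Icc 0 T, HasDerivWithinAt x (massAction R k (x t)) (Set.Icc 0 T) t

/-- `x` is a solution on `[0, ∞)` of the mass-action system with rates `k`
(one-sided derivative at `0`). -/
def IsSolution (R : Finset (Cplx d × Cplx d)) (k : Cplx d × Cplx d → ℝ)
    (x : ℝ → Fin d → ℝ) : Prop :=
  ∀ t, 0 ≤ t → HasDerivWithinAt x (massAction R k (x t)) (Set.Ici 0) t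

/-- Permanence on the positive stoichiometric class of `c`: every initial point of the class has
a solution on `[0, ∞)` that stays in the class, and every solution on a bounded interval `[0, T]`
from that point is a restriction of it; and there is a compact subset `K` of the class such that
every solution on `[0, ∞)` starting in the class is in `K` for all sufficiently large times. -/
def PermanentOn (R : Finset (Cplx d × Cplx d)) (k : Cplx d × Cplx d → ℝ) (c : Fin d → ℝ) : Prop :=
  (∀ x₀ ∈ posClass R c, ∃ x : ℝ → Fin d → ℝ, x 0 = x₀ ∧ IsSolution R k x ∧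
    (∀ t, 0 ≤ t → x t ∈ posClass R c) ∧
    ∀ (T : ℝ) (y : ℝ → Fin d → ℝ), y 0 = x₀ → IsSolutionOn R k T y → ∀ t ∈ Set.Icc 0 T, y t = x t) ∧
  ∃ K : Set (Fin d → ℝ), IsCompact K ∧ K ⊆ posClass R c ∧
    ∀ x : ℝ → Fin d → ℝ, x 0 ∈ posClass R c → IsSolution R k x → ∃ T : ℝ, ∀ t, T ≤ t → x t ∈ K

end Vale.Agent.Lib.P072
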