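import Mathlib
import Vale.Agent.Lib.P072.Defs

/-!
The layer-cake inequality and the dissipation estimate for weakly reversible networks.
-/

open MeasureTheory Set

namespace Vale.Agent.Lib.P072

/-- Threshold indicator. -/
noncomputable def thr (a v : ℝ) : ℝ := if a ≤ v then 1 else 0

lemma thr_antitone (v : ℝ) : Antitone (fun a => thr a v) := by
  intro a b hab
  unfold thr
  by_cases h : b ≤ v
  · have : a ≤ v := hab.trans h
    simp [h, this]
  · simp only [h, if_false]
    split_ifs <;> norm_num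

lemma thr_intervalIntegrable (v A B : ℝ) : IntervalIntegrable (fun a => thr a v) volume A B :=
  (thr_antitone v).intervalIntegrable

lemma integral_thr {B v : ℝ} (hv : |v| ≤ B) : ∫ a in (-B)..B, thr a v = v + B := by
  have h1 : -B ≤ v := (abs_le.mp hv).1
  have h2 : v ≤ B := (abs_le.mp hv).2
  rw [← intervalIntegral.integral_add_adjacent_intervals (thr_intervalIntegrable v (-B) v)
    (thr_intervalIntegrable v v B)]
  have e1 : ∫ a in (-B)..v, thr a v = ∫ _a in (-B)..v, (1 : ℝ) := by
    apply intervalIntegral.integral_congr_ae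
    refine Filter.Eventually.of_forall (fun a ha => ?_)
    rw [uIoc_of_le h1] at ha
    simp [thr, ha.2]
  have e2 : ∫ a in v..B, thr a v = ∫ _a in v..B, (0 : ℝ) := by
    apply intervalIntegral.integral_congr_ae
    refine Filter.Eventually.of_forall (fun a ha => ?_)
    rw [uIoc_of_le h2] at ha
    simp [thr, not_le.mpr ha.1]
  rw [e1, e2]
  simp

/-- Layer cake: if every threshold crossing sum is nonpositive, so is the whole sum. -/
theorem layer_cake {E : Type*} (s : Finset E) (W u v : E → ℝ)
    (h : ∀ a, ∑ e ∈ s, W e * (thr a (v e) - thr a (u e)) ≤ 0) :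
    ∑ e ∈ s, W e * (v e - u e) ≤ 0 := by
  set B : ℝ := ∑ e ∈ s, (|u e| + |v e|) with hB
  have hBu : ∀ e ∈ s, |u e| ≤ B := fun e he => by
    have := Finset.single_le_sum (f := fun e => |u e| + |v e|)
      (fun i _ => add_nonneg (abs_nonneg _) (abs_nonneg _)) he
    linarith [abs_nonneg (v e)]
  have hBv : ∀ e ∈ s, |v e| ≤ B := fun e he => by
    have := Finset.single_le_sum (f := fun e => |u e| + |v e|)
      (fun i _ => add_nonneg (abs_nonneg _) (abs_nonneg _)) he
    linarith [abs_nonneg (u e)]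
  have hB0 : 0 ≤ B := Finset.sum_nonneg (fun i _ => add_nonneg (abs_nonneg _) (abs_nonneg _))
  have key : ∑ e ∈ s, W e * (v e - u e)
      = ∫ a in (-B)..B, ∑ e ∈ s, W e * (thr a (v e) - thr a (u e)) := by
    rw [intervalIntegral.integral_finsetSum]
    · apply Finset.sum_congr rfl
      intro e he
      rw [intervalIntegral.integral_const_mul, intervalIntegral.integral_sub
        (thr_intervalIntegrable _ _ _) (thr_intervalIntegrable _ _ _),
        integral_thr (hBv e he), integral_thr (hBu e he)]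
      ring
    · intro e _
      exact ((thr_intervalIntegrable _ _ _).sub (thr_intervalIntegrable _ _ _)).const_mul _
  rw [key]
  have hle : (-B) ≤ B := by linarith
  have := intervalIntegral.integral_mono_on (μ := volume) hle
    (f := fun a => ∑ e ∈ s, W e * (thr a (v e) - thr a (u e))) (g := fun _ => (0 : ℝ))
    (by
      have h3 : (fun a => ∑ e ∈ s, W e * (thr a (v e) - thr a (u e)))
          = ∑ e ∈ s, (fun a => W e * (thr a (v e) - thr a (u e))) := by
        ext a
        simp [Finset.sum_apply]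
      rw [h3]
      exact IntervalIntegrable.sum s
        (fun e _ => ((thr_intervalIntegrable _ _ _).sub (thr_intervalIntegrable _ _ _)).const_mul _))
    (by simp) (fun a _ => h a)
  simpa using this

variable {d : ℕ}

/-- A falling edge on every path going from level at least `a` to level below `a`. -/
lemma exists_falling {R : Finset (Cplx d × Cplx d)} (l : Cplx d → ℝ) (a : ℝ) {y y' : Cplx d}
    (h : Rch R y y') (hy : a ≤ l y) (hy' : l y' < a) :
    ∃ f ∈ R, Rch R y f.1 ∧ a ≤ l f.1 ∧ l f.2 < a := by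
  induction h with
  | refl => exact absurd hy (not_le.mpr hy')
  | @tail b c hab hbc ih =>
    by_cases hb : l b < a
    · exact ih hb
    · exact ⟨(b, c), hbc, hab, not_lt.mp hb, hy'⟩

/-- Crossing estimate for one threshold. -/
lemma crossing_le {R : Finset (Cplx d × Cplx d)} (hWR : WeaklyReversible R)
    (k : Cplx d × Cplx d → ℝ) (w : Cplx d → ℝ) (hw : ∀ y, 0 < w y)
    {κ₁ κ₂ : ℝ} (hκ₁ : 0 < κ₁) (hk : ∀ e ∈ R, κ₁ ≤ k e ∧ k e ≤ κ₂) (l : Cplx d → ℝ)
    (hcompat : ∀ y y'', Rch R y y'' → l y < l y'' → 2 * (R.card : ℝ) * κ₂ * w y ≤ κ₁ * w y'')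
    (a : ℝ) :
    ∑ e ∈ R, (if l e.1 < l e.2 then k e * w e.1 else k e * w e.1 / 2) *
        (thr a (l e.2) - thr a (l e.1)) ≤ 0 := by
  classical
  have hkpos : ∀ e ∈ R, 0 < k e := fun e he => lt_of_lt_of_le hκ₁ (hk e he).1
  -- total falling weight at level `a`
  set Fall : ℝ := ∑ e ∈ R, if (a ≤ l e.1 ∧ l e.2 < a) then k e * w e.1 else 0 with hFall
  have hFall0 : 0 ≤ Fall := Finset.sum_nonneg (fun e he => by
    split_ifs
    · exact (mul_pos (hkpos e he) (hw _)).le
    · exact le_rfl)
  -- every rising edge is small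
  have hrise : ∀ e ∈ R, l e.1 < a → a ≤ l e.2 → k e * w e.1 * (2 * R.card) ≤ Fall := by
    intro e he h1 h2
    obtain ⟨f, hf, hrf, hf1, hf2⟩ := exists_falling l a (hWR e he) h2 h1
    have hef : Rch R e.1 f.1 :=
      Relation.ReflTransGen.head (by simpa using he) hrf
    have hc := hcompat _ _ hef (lt_of_lt_of_le h1 hf1)
    have hsingle : k f * w f.1 ≤ Fall := by
      have := Finset.single_le_sum (f := fun e : Cplx d × Cplx d =>
        if (a ≤ l e.1 ∧ l e.2 < a) then k e * w e.1 else 0)
        (fun e he => by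
          show 0 ≤ if (a ≤ l e.1 ∧ l e.2 < a) then k e * w e.1 else 0
          split_ifs
          · exact (mul_pos (hkpos e he) (hw _)).le
          · exact le_rfl) hf
      simpa [hf1, hf2] using this
    have h3 : κ₁ * w f.1 ≤ k f * w f.1 :=
      mul_le_mul_of_nonneg_right (hk f hf).1 (hw _).le
    have h4 : k e * w e.1 * (2 * R.card) ≤ κ₂ * w e.1 * (2 * R.card) := by
      apply mul_le_mul_of_nonneg_right _ (by positivity)
      exact mul_le_mul_of_nonneg_right (hk e he).2 (hw _).le
    nlinarith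
  -- split the sum termwise
  have hterm : ∀ e ∈ R, (if l e.1 < l e.2 then k e * w e.1 else k e * w e.1 / 2) *
        (thr a (l e.2) - thr a (l e.1))
      ≤ (if (l e.1 < a ∧ a ≤ l e.2) then k e * w e.1 else 0)
        - (if (a ≤ l e.1 ∧ l e.2 < a) then k e * w e.1 else 0) / 2 := by
    intro e he
    have hpos := (mul_pos (hkpos e he) (hw e.1)).le
    by_cases h1 : a ≤ l e.1 <;> by_cases h2 : a ≤ l e.2
    · simp [thr, h1, h2, not_lt.mpr h1, not_lt.mpr h2]
    · have h2' := not_le.mp h2
      have h3 : ¬ l e.1 < l e.2 := by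
        intro h; linarith
      simp [thr, h1, h2, h2', h3, not_lt.mpr h1]
    · have h1' := not_le.mp h1
      have h3 : l e.1 < l e.2 := by linarith
      simp [thr, h1, h2, h1', h3, not_lt.mpr h2]
    · have h1' := not_le.mp h1
      have h2' := not_le.mp h2
      simp [thr, h1, h2]
  have hsum := Finset.sum_le_sum hterm
  rw [Finset.sum_sub_distrib, ← Finset.sum_div] at hsum
  refine hsum.trans ?_
  rw [← hFall]
  -- bound rising sum
  have hR : ∑ e ∈ R, (if (l e.1 < a ∧ a ≤ l e.2) then k e * w e.1 else 0) ≤ Fall / 2 := by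
    by_cases hN : (R.card : ℝ) = 0
    · have : R = ∅ := by
        have : R.card = 0 := by exact_mod_cast hN
        exact Finset.card_eq_zero.mp this
      subst this
      rw [Finset.sum_empty]
      exact div_nonneg hFall0 (by norm_num)
    · have hNpos : (0 : ℝ) < R.card := lt_of_le_of_ne (by positivity) (Ne.symm hN)
      have hb : ∀ e ∈ R, (if (l e.1 < a ∧ a ≤ l e.2) then k e * w e.1 else 0)
          ≤ Fall / (2 * R.card) := by
        intro e he
        split_ifs with h
        · rw [le_div_iff₀ (by positivity)]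
          exact hrise e he h.1 h.2
        · positivity
      have := Finset.sum_le_card_nsmul R _ _ hb
      refine this.trans (le_of_eq ?_)
      rw [nsmul_eq_mul]
      field_simp
  linarith

/-- Positive part of the fall of the level function along a reaction. -/
noncomputable def fallPart (l : Cplx d → ℝ) (e : Cplx d × Cplx d) : ℝ := max (l e.1 - l e.2) 0

/-- Dissipation estimate (constant or frozen rates). -/
theorem dissipation_le {R : Finset (Cplx d × Cplx d)} (hWR : WeaklyReversible R)
    (k : Cplx d × Cplx d → ℝ) (w : Cplx d → ℝ) (hw : ∀ y, 0 < w y)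
    {κ₁ κ₂ : ℝ} (hκ₁ : 0 < κ₁) (hk : ∀ e ∈ R, κ₁ ≤ k e ∧ k e ≤ κ₂) (l : Cplx d → ℝ)
    (hcompat : ∀ y y'', Rch R y y'' → l y < l y'' → 2 * (R.card : ℝ) * κ₂ * w y ≤ κ₁ * w y'') :
    ∑ e ∈ R, k e * w e.1 * (l e.2 - l e.1) ≤ - (κ₁ / 2 * ∑ e ∈ R, w e.1 * fallPart l e) := by
  have h1 := layer_cake R (fun e => if l e.1 < l e.2 then k e * w e.1 else k e * w e.1 / 2)
    (fun e => l e.1) (fun e => l e.2) (fun a => crossing_le hWR k w hw hκ₁ hk l hcompat a)
  have h2 : ∑ e ∈ R, k e * w e.1 * (l e.2 - l e.1) + κ₁ / 2 * ∑ e ∈ R, w e.1 * fallPart l e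
      ≤ ∑ e ∈ R, (if l e.1 < l e.2 then k e * w e.1 else k e * w e.1 / 2) * (l e.2 - l e.1) := by
    rw [Finset.mul_sum, ← Finset.sum_add_distrib]
    apply Finset.sum_le_sum
    intro e he
    have hkpos : κ₁ ≤ k e := (hk e he).1
    have hwp := hw e.1
    unfold fallPart
    by_cases h : l e.1 < l e.2
    · have : max (l e.1 - l e.2) 0 = 0 := max_eq_right (by linarith)
      simp [h, this]
    · have h' : l e.2 ≤ l e.1 := not_lt.mp h
      have : max (l e.1 - l e.2) 0 = l e.1 - l e.2 := max_eq_left (by linarith)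
      simp only [h, if_false, this]
      have h5 : 0 ≤ l e.1 - l e.2 := by linarith
      have h6 : κ₁ / 2 * (w e.1 * (l e.1 - l e.2)) ≤ k e / 2 * (w e.1 * (l e.1 - l e.2)) := by
        apply mul_le_mul_of_nonneg_right (by linarith) (by positivity)
      nlinarith
  linarith

/-- The dissipation is positive as soon as the level function is not constant on some reaction. -/
theorem fall_pos {R : Finset (Cplx d × Cplx d)} (hWR : WeaklyReversible R)
    (w : Cplx d → ℝ) (hw : ∀ y, 0 < w y) (l : Cplx d → ℝ) {e₀ : Cplx d × Cplx d} (he₀ : e₀ ∈ R)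
    (hne : l e₀.1 ≠ l e₀.2) : 0 < ∑ e ∈ R, w e.1 * fallPart l e := by
  have hnn : ∀ e ∈ R, 0 ≤ w e.1 * fallPart l e := fun e _ =>
    mul_nonneg (hw _).le (le_max_right _ _)
  -- find a falling edge
  have : ∃ f ∈ R, l f.2 < l f.1 := by
    rcases lt_or_gt_of_ne hne with h | h
    · obtain ⟨f, hf, _, h1, h2⟩ := exists_falling l (l e₀.2) (hWR e₀ he₀) le_rfl h
      exact ⟨f, hf, lt_of_lt_of_le h2 h1⟩
    · exact ⟨e₀, he₀, h⟩
  obtain ⟨f, hf, hlt⟩ := this
  refine lt_of_lt_of_le ?_ (Finset.single_le_sum hnn hf)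
  apply mul_pos (hw _)
  exact lt_of_lt_of_le (by linarith) (le_max_left _ _)

end Vale.Agent.Lib.P072
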