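import Mathlib
import Vale.Agent.Lib.P072.CutSum
import Vale.Agent.Lib.P072.Stair

/-!
Levels, monomials and the dissipation inequality for the mass-action field.
-/

open Finset

namespace Vale.Agent.Lib.P072

variable {d : ℕ}

/-- Level of a complex for the covector `q`. -/
noncomputable def lev (q : Fin d → ℝ) (y : Cplx d) : ℝ := ∑ i, q i * (y i : ℝ)

/-- Integer difference of two complexes. -/
def dif (y y'' : Cplx d) : Fin d → ℤ := fun i => (y'' i : ℤ) - (y i : ℤ)

lemma lev_sub (q : Fin d → ℝ) (y y'' : Cplx d) :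
    lev q y'' - lev q y = ∑ i, ((dif y y'' i : ℤ) : ℝ) * q i := by
  unfold lev dif
  rw [← Finset.sum_sub_distrib]
  apply Finset.sum_congr rfl
  intro i _
  push_cast
  ring

lemma pair_reactionVector (q : Fin d → ℝ) (e : Cplx d × Cplx d) :
    ∑ i, q i * reactionVector e i = lev q e.2 - lev q e.1 := by
  unfold lev reactionVector
  rw [← Finset.sum_sub_distrib]
  apply Finset.sum_congr rfl
  intro i _
  ring

lemma monomial_eq_exp {x : Fin d → ℝ} (hx : ∀ i, 0 < x i) (y : Cplx d) :
    monomial x y = Real.exp (∑ i, (y i : ℝ) * Real.log (x i)) := by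
  unfold monomial
  rw [Real.exp_sum]
  apply Finset.prod_congr rfl
  intro i _
  rw [mul_comm, Real.exp_mul, Real.exp_log (hx i), Real.rpow_natCast]

lemma monomial_pos {x : Fin d → ℝ} (hx : ∀ i, 0 < x i) (y : Cplx d) : 0 < monomial x y := by
  rw [monomial_eq_exp hx]
  exact Real.exp_pos _

/-- Comparison of two monomials. -/
lemma monomial_ratio {x : Fin d → ℝ} (hx : ∀ i, 0 < x i) (y y'' : Cplx d) {T : ℝ}
    (h : T ≤ ∑ i, ((dif y y'' i : ℤ) : ℝ) * Real.log (x i)) :
    Real.exp T * monomial x y ≤ monomial x y'' := by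
  rw [monomial_eq_exp hx, monomial_eq_exp hx, ← Real.exp_add]
  apply Real.exp_le_exp.mpr
  have : ∑ i, ((dif y y'' i : ℤ) : ℝ) * Real.log (x i)
      = ∑ i, (y'' i : ℝ) * Real.log (x i) - ∑ i, (y i : ℝ) * Real.log (x i) := by
    rw [← Finset.sum_sub_distrib]
    apply Finset.sum_congr rfl
    intro i _
    unfold dif
    push_cast
    ring
  rw [this] at h
  linarith

/-- The finite set of complexes of the network. -/
def cplxs (R : Finset (Cplx d × Cplx d)) : Finset (Cplx d) :=
  R.image Prod.fst ∪ R.image Prod.snd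

lemma rch_mem {R : Finset (Cplx d × Cplx d)} {y y'' : Cplx d} (h : Rch R y y'') :
    y = y'' ∨ (y ∈ cplxs R ∧ y'' ∈ cplxs R) := by
  induction h with
  | refl => exact Or.inl rfl
  | @tail b c _ hbc ih =>
    have hc : c ∈ cplxs R := Finset.mem_union_right _ (Finset.mem_image.mpr ⟨(b, c), hbc, rfl⟩)
    have hb : b ∈ cplxs R := Finset.mem_union_left _ (Finset.mem_image.mpr ⟨(b, c), hbc, rfl⟩)
    rcases ih with rfl | ⟨h1, _⟩
    · exact Or.inr ⟨hb, hc⟩
    · exact Or.inr ⟨h1, hc⟩

/-- A natural number bounding the l1 norm of all differences of complexes. -/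
noncomputable def bigR (R : Finset (Cplx d × Cplx d)) : ℕ :=
  1 + ∑ y ∈ cplxs R, ∑ y'' ∈ cplxs R, (∑ i, |dif y y'' i|).toNat

lemma bigR_pos (R : Finset (Cplx d × Cplx d)) : 1 ≤ bigR R := by
  unfold bigR
  omega

lemma sum_abs_dif_le {R : Finset (Cplx d × Cplx d)} {y y'' : Cplx d} (h : Rch R y y'') :
    ∑ i, |dif y y'' i| ≤ bigR R := by
  rcases rch_mem h with rfl | ⟨h1, h2⟩
  · have : ∀ i, dif y y i = 0 := fun i => by
      unfold dif
      ring
    simp [this]
  · have h0 : 0 ≤ ∑ i, |dif y y'' i| := Finset.sum_nonneg (fun _ _ => abs_nonneg _)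
    have h3 : (∑ i, |dif y y'' i|).toNat ≤ ∑ y'' ∈ cplxs R, (∑ i, |dif y y'' i|).toNat :=
      Finset.single_le_sum (f := fun y'' => (∑ i, |dif y y'' i|).toNat)
        (fun _ _ => Nat.zero_le _) h2
    have h4 : ∑ y'' ∈ cplxs R, (∑ i, |dif y y'' i|).toNat
        ≤ ∑ y ∈ cplxs R, ∑ y'' ∈ cplxs R, (∑ i, |dif y y'' i|).toNat :=
      Finset.single_le_sum (f := fun y => ∑ y'' ∈ cplxs R, (∑ i, |dif y y'' i|).toNat)
        (fun _ _ => Nat.zero_le _) h1
    have h5 : (∑ i, |dif y y'' i|).toNat ≤ bigR R := by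
      unfold bigR
      omega
    have h6 : ((∑ i, |dif y y'' i|).toNat : ℤ) = ∑ i, |dif y y'' i| := Int.toNat_of_nonneg h0
    rw [← h6]
    exact_mod_cast h5

/-- Reachable complexes differ by an element of the stoichiometric subspace. -/
lemma rch_dif_mem {R : Finset (Cplx d × Cplx d)} {y y'' : Cplx d} (h : Rch R y y'') :
    (fun i => ((dif y y'' i : ℤ) : ℝ)) ∈ stoichSubspace R := by
  induction h with
  | refl =>
    have : (fun i => ((dif y y i : ℤ) : ℝ)) = 0 := by
      ext i
      unfold dif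
      simp
    rw [this]
    exact Submodule.zero_mem _
  | @tail b c _ hbc ih =>
    have h1 : reactionVector (b, c) ∈ stoichSubspace R :=
      Submodule.subset_span ⟨(b, c), hbc, rfl⟩
    have h2 := Submodule.add_mem _ ih h1
    convert h2 using 1
    ext i
    unfold dif reactionVector
    simp only [Pi.add_apply]
    push_cast
    ring

lemma sum_q_massAction (R : Finset (Cplx d × Cplx d)) (k : Cplx d × Cplx d → ℝ)
    (x q : Fin d → ℝ) :
    ∑ i, q i * massAction R k x i
      = ∑ e ∈ R, k e * monomial x e.1 * (lev q e.2 - lev q e.1) := by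
  unfold massAction
  simp only [Finset.sum_apply, Pi.smul_apply, smul_eq_mul, Finset.mul_sum]
  rw [Finset.sum_comm]
  apply Finset.sum_congr rfl
  intro e _
  rw [← pair_reactionVector, Finset.mul_sum]
  apply Finset.sum_congr rfl
  intro i _
  ring

/-- The dissipation functional. -/
noncomputable def diss (R : Finset (Cplx d × Cplx d)) (x q : Fin d → ℝ) : ℝ :=
  ∑ e ∈ R, monomial x e.1 * fallPart (lev q) e

/-- Compatibility of a covector `q` with the point `x`, at threshold `T`. -/
def Compat (R : Finset (Cplx d × Cplx d)) (x q : Fin d → ℝ) (T : ℝ) : Prop :=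
  ∀ y y'', Rch R y y'' →
    ∑ i, ((dif y y'' i : ℤ) : ℝ) * Real.log (x i) < T → ∑ i, ((dif y y'' i : ℤ) : ℝ) * q i ≤ 0

/-- Main dissipation inequality. -/
theorem dot_le {R : Finset (Cplx d × Cplx d)} (hWR : WeaklyReversible R)
    {κ₁ κ₂ T : ℝ} (hκ₁ : 0 < κ₁) (hT : 2 * (R.card : ℝ) * κ₂ ≤ κ₁ * Real.exp T)
    {k : Cplx d × Cplx d → ℝ} (hk : ∀ e ∈ R, κ₁ ≤ k e ∧ k e ≤ κ₂)
    {x q : Fin d → ℝ} (hx : ∀ i, 0 < x i) (hc : Compat R x q T) :
    ∑ i, q i * massAction R k x i ≤ - (κ₁ / 2 * diss R x q) := by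
  rw [sum_q_massAction]
  apply dissipation_le hWR k (monomial x) (monomial_pos hx) hκ₁ hk (lev q)
  intro y y'' hr hlt
  have h1 : 0 < ∑ i, ((dif y y'' i : ℤ) : ℝ) * q i := by
    rw [← lev_sub]
    linarith
  have h2 : T ≤ ∑ i, ((dif y y'' i : ℤ) : ℝ) * Real.log (x i) := by
    by_contra hcon
    push Not at hcon
    exact absurd (hc y y'' hr hcon) (not_le.mpr h1)
  have h3 := monomial_ratio hx y y'' h2
  have h4 := monomial_pos hx y
  calc 2 * (R.card : ℝ) * κ₂ * monomial x y ≤ κ₁ * Real.exp T * monomial x y :=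
        mul_le_mul_of_nonneg_right hT h4.le
    _ = κ₁ * (Real.exp T * monomial x y) := by ring
    _ ≤ κ₁ * monomial x y'' := mul_le_mul_of_nonneg_left h3 hκ₁.le

/-- Nondegeneracy: a covector not vanishing on `S` has a reaction with nonconstant level. -/
lemma exists_nonconstant {R : Finset (Cplx d × Cplx d)} {q v : Fin d → ℝ}
    (hv : v ∈ stoichSubspace R) (hne : ∑ i, q i * v i ≠ 0) :
    ∃ e ∈ R, lev q e.1 ≠ lev q e.2 := by
  by_contra hcon
  push Not at hcon
  have key : ∀ u ∈ stoichSubspace R, ∑ i, q i * u i = 0 := by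
    intro u hu
    unfold stoichSubspace at hu
    induction hu using Submodule.span_induction with
    | mem v hv =>
      obtain ⟨e, he, rfl⟩ := hv
      rw [pair_reactionVector, ← hcon e he]
      ring
    | zero => simp
    | add u v _ _ hu hv =>
      simp only [Pi.add_apply, mul_add, Finset.sum_add_distrib, hu, hv, add_zero]
    | smul c u _ hu =>
      have : ∑ i, q i * (c • u) i = c * ∑ i, q i * u i := by
        rw [Finset.mul_sum]
        apply Finset.sum_congr rfl
        intro i _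
        simp only [Pi.smul_apply, smul_eq_mul]
        ring
      rw [this, hu, mul_zero]
  exact hne (key v hv)

/-- Positivity of the dissipation. -/
lemma diss_pos {R : Finset (Cplx d × Cplx d)} (hWR : WeaklyReversible R)
    {q v x : Fin d → ℝ} (hx : ∀ i, 0 < x i)
    (hv : v ∈ stoichSubspace R) (hne : ∑ i, q i * v i ≠ 0) : 0 < diss R x q := by
  obtain ⟨e, he, hl⟩ := exists_nonconstant hv hne
  exact fall_pos hWR (monomial x) (monomial_pos hx) (lev q) he hl

/-- The dissipation is always nonnegative. -/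
lemma diss_nonneg (R : Finset (Cplx d × Cplx d)) {q x : Fin d → ℝ} (hx : ∀ i, 0 < x i) :
    0 ≤ diss R x q :=
  Finset.sum_nonneg (fun _ _ => mul_nonneg (monomial_pos hx _).le (le_max_right _ _))

end Vale.Agent.Lib.P072
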