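import Mathlib
import Vale.Agent.Lib.P072.Network

/-!
Lyapunov functions of separated form along solutions: barrier and absorption lemmas.
-/

open Set Filter Topology

namespace Vale.Agent.Lib.P072

variable {d : ℕ}

/-- A separated Lyapunov candidate, `C¹` on positive coordinates. -/
structure Lyap (d : ℕ) where
  P : Fin d → ℝ → ℝ
  p : Fin d → ℝ → ℝ
  hasDeriv : ∀ i s, 0 < s → HasDerivAt (P i) (p i s) s
  contAt : ∀ i s, 0 < s → ContinuousAt (p i) s

/-- Value of the separated function. -/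
noncomputable def Lyap.V (L : Lyap d) (x : Fin d → ℝ) : ℝ := ∑ i, L.P i (x i)

/-- The covector of the separated function. -/
def Lyap.cov (L : Lyap d) (x : Fin d → ℝ) : Fin d → ℝ := fun i => L.p i (x i)

lemma Lyap.hasDerivWithinAt_V (L : Lyap d) {x : ℝ → Fin d → ℝ} {F : Fin d → ℝ} {s : Set ℝ} {t : ℝ}
    (hx : HasDerivWithinAt x F s t) (hpos : ∀ i, 0 < x t i) :
    HasDerivWithinAt (fun t => L.V (x t)) (∑ i, L.cov (x t) i * F i) s t := by
  unfold Lyap.V
  have h1 := hasDerivWithinAt_pi.mp hx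
  have h2 : ∀ i, HasDerivWithinAt (fun t => L.P i (x t i)) (L.cov (x t) i * F i) s t := fun i =>
    (L.hasDeriv i _ (hpos i)).comp_hasDerivWithinAt t (h1 i)
  exact HasDerivWithinAt.fun_sum (fun i _ => h2 i)

lemma Lyap.continuousOn_V (L : Lyap d) {K : Set (Fin d → ℝ)} (hK : ∀ y ∈ K, ∀ i, 0 < y i) :
    ContinuousOn L.V K := by
  unfold Lyap.V
  apply continuousOn_finsetSum
  intro i _ y hy
  have h1 : ContinuousWithinAt (fun y : Fin d → ℝ => y i) K y := (continuous_apply i).continuousWithinAt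
  exact ContinuousAt.comp_continuousWithinAt (L.hasDeriv i _ (hK y hy i)).continuousAt h1

lemma Lyap.continuousOn_comp_V (L : Lyap d) {x : ℝ → Fin d → ℝ} {s : Set ℝ} (hx : ContinuousOn x s)
    (hpos : ∀ t ∈ s, ∀ i, 0 < x t i) : ContinuousOn (fun t => L.V (x t)) s := by
  have h1 : ContinuousOn L.V (x '' s) := L.continuousOn_V (by
    rintro _ ⟨t, ht, rfl⟩
    exact hpos t ht)
  exact h1.comp hx (mapsTo_image x s)

/-- Barrier lemma. -/
theorem Lyap.barrier (L : Lyap d) {x : ℝ → Fin d → ℝ} {F : ℝ → Fin d → ℝ} {a b C : ℝ}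
    (hcont : ContinuousOn x (Icc a b))
    (hder : ∀ t ∈ Ico a b, HasDerivWithinAt x (F t) (Ici t) t)
    (hpos : ∀ t ∈ Icc a b, ∀ i, 0 < x t i) (h0 : L.V (x a) ≤ C)
    (hlev : ∀ t ∈ Ico a b, L.V (x t) = C → ∑ i, L.cov (x t) i * F t i < 0) :
    ∀ t ∈ Icc a b, L.V (x t) ≤ C := by
  intro t ht
  exact image_le_of_deriv_right_lt_deriv_boundary' (f := fun t => L.V (x t))
    (f' := fun t => ∑ i, L.cov (x t) i * F t i) (B := fun _ => C) (B' := fun _ => 0)
    (L.continuousOn_comp_V hcont hpos)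
    (fun t ht => L.hasDerivWithinAt_V (hder t ht) (hpos t ⟨ht.1, ht.2.le⟩)) h0
    continuousOn_const (fun _ _ => hasDerivWithinAt_const _ _ _) hlev ht

/-- Absorption lemma for a global solution staying in a compact set of positive points. -/
theorem Lyap.eventually_le (L : Lyap d) {K₁ : Set (Fin d → ℝ)} (hK₁ : IsCompact K₁)
    (hK₁pos : ∀ y ∈ K₁, ∀ i, 0 < y i) {D : (Fin d → ℝ) → ℝ} (hD : ContinuousOn D K₁) {C : ℝ}
    (hDpos : ∀ y ∈ K₁, C ≤ L.V y → 0 < D y)
    {x : ℝ → Fin d → ℝ} {F : ℝ → Fin d → ℝ} {T₁ : ℝ}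
    (hcont : ContinuousOn x (Ici T₁))
    (hder : ∀ t ∈ Ici T₁, HasDerivWithinAt x (F t) (Ici t) t)
    (hmem : ∀ t ∈ Ici T₁, x t ∈ K₁)
    (hdot : ∀ t ∈ Ici T₁, C ≤ L.V (x t) → ∑ i, L.cov (x t) i * F t i ≤ - D (x t)) :
    ∃ T₂, T₁ ≤ T₂ ∧ ∀ t ∈ Ici T₂, L.V (x t) ≤ C := by
  have hVcont : ContinuousOn L.V K₁ := L.continuousOn_V hK₁pos
  have hclosed : IsClosed (K₁ ∩ L.V ⁻¹' (Ici C)) :=
    hVcont.preimage_isClosed_of_isClosed hK₁.isClosed isClosed_Ici
  have hcomp : IsCompact (K₁ ∩ L.V ⁻¹' (Ici C)) := hK₁.of_isClosed_subset hclosed inter_subset_left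
  have hpos : ∀ t ∈ Ici T₁, ∀ i, 0 < x t i := fun t ht => hK₁pos _ (hmem t ht)
  by_cases hne : (K₁ ∩ L.V ⁻¹' (Ici C)).Nonempty
  · obtain ⟨y₀, hy₀, hmin⟩ := hcomp.exists_isMinOn hne (hD.mono inter_subset_left)
    have hκ : 0 < D y₀ := hDpos y₀ hy₀.1 hy₀.2
    have hT₁mem : x T₁ ∈ K₁ := hmem T₁ self_mem_Ici
    obtain ⟨y₁, _, hminV⟩ := hK₁.exists_isMinOn ⟨_, hT₁mem⟩ hVcont
    -- a time where the value is below the level
    have hex : ∃ t₁ ∈ Ici T₁, L.V (x t₁) ≤ C := by
      by_contra hcon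
      push Not at hcon
      set κ := D y₀ with hκdef
      set V₀ := L.V (x T₁) with hV₀
      set T' := T₁ + (V₀ - L.V y₁ + 1) / κ with hT'
      have hV₀A : L.V y₁ ≤ V₀ := hminV hT₁mem
      have hTT' : T₁ ≤ T' := by
        rw [hT']
        have : 0 ≤ (V₀ - L.V y₁ + 1) / κ := div_nonneg (by linarith) hκ.le
        linarith
      have h1 := image_le_of_deriv_right_le_deriv_boundary (f := fun t => L.V (x t))
        (f' := fun t => ∑ i, L.cov (x t) i * F t i) (a := T₁) (b := T')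
        (B := fun t => V₀ - κ * (t - T₁)) (B' := fun _ => -κ)
        (L.continuousOn_comp_V (hcont.mono Icc_subset_Ici_self)
          (fun t ht => hpos t ht.1))
        (fun t ht => L.hasDerivWithinAt_V (hder t ht.1) (hpos t ht.1))
        (by simp [hV₀])
        (by fun_prop)
        (fun t _ => by
          have e : HasDerivAt (fun t => V₀ - κ * (t - T₁)) (-κ) t := by
            have := ((hasDerivAt_id t).sub_const T₁).const_mul κ
            simpa using (this.const_sub V₀)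
          exact e.hasDerivWithinAt)
        (fun t ht => by
          have htI : t ∈ Ici T₁ := ht.1
          have hC : C ≤ L.V (x t) := (hcon t htI).le
          have h2 := hdot t htI hC
          have h3 : D y₀ ≤ D (x t) := hmin ⟨hmem t htI, hC⟩
          linarith)
      have h2 := h1 (right_mem_Icc.mpr hTT')
      have h3 : L.V y₁ ≤ L.V (x T') := hminV (hmem T' hTT')
      have h4 : κ * (T' - T₁) = V₀ - L.V y₁ + 1 := by
        rw [hT']
        field_simp
        ring
      rw [h4] at h2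
      linarith
    obtain ⟨t₁, ht₁, hVt₁⟩ := hex
    refine ⟨t₁, ht₁, fun t ht => ?_⟩
    have htt : t₁ ≤ t := ht
    have hI : ∀ s ∈ Icc t₁ t, s ∈ Ici T₁ := fun s hs => le_trans ht₁ hs.1
    refine L.barrier (a := t₁) (b := t) (F := F) (hcont.mono (fun s hs => hI s hs))
      (fun s hs => hder s (hI s ⟨hs.1, hs.2.le⟩))
      (fun s hs => hpos s (hI s hs)) hVt₁ ?_ t ⟨htt, le_rfl⟩
    intro s hs hVs
    have hsI := hI s ⟨hs.1, hs.2.le⟩
    have h2 := hdot s hsI hVs.ge
    have h3 := hDpos _ (hmem s hsI) hVs.ge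
    linarith
  · refine ⟨T₁, le_rfl, fun t ht => ?_⟩
    by_contra hcon
    push Not at hcon
    exact hne ⟨x t, hmem t ht, hcon.le⟩

/-- The solutions of the mass-action equation stay in the stoichiometric class. -/
theorem class_invariant {R : Finset (Cplx d × Cplx d)} {x : ℝ → Fin d → ℝ}
    {k : ℝ → Cplx d × Cplx d → ℝ} {a b : ℝ}
    (hcont : ContinuousOn x (Icc a b))
    (hder : ∀ t ∈ Ico a b, HasDerivWithinAt x (massAction R (k t) (x t)) (Ici t) t) :
    ∀ t ∈ Icc a b, x t - x a ∈ stoichSubspace R := by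
  intro t ht
  rw [← Subspace.forall_mem_dualAnnihilator_apply_eq_zero_iff]
  intro φ hφ
  let φc : (Fin d → ℝ) →L[ℝ] ℝ := LinearMap.toContinuousLinearMap φ
  have hmem : ∀ s, massAction R (k s) (x s) ∈ stoichSubspace R := by
    intro s
    unfold massAction
    apply Submodule.sum_mem
    intro e he
    exact Submodule.smul_mem _ _ (Submodule.subset_span ⟨e, he, rfl⟩)
  have hzero : ∀ s, φ (massAction R (k s) (x s)) = 0 := fun s =>
    (Submodule.mem_dualAnnihilator φ).mp hφ _ (hmem s)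
  have h1 : ContinuousOn (fun s => φc (x s)) (Icc a b) := φc.continuous.comp_continuousOn hcont
  have h2 : ∀ s ∈ Ico a b, HasDerivWithinAt (fun s => φc (x s)) 0 (Ici s) s := by
    intro s hs
    have := φc.hasFDerivAt.comp_hasDerivWithinAt s (hder s hs)
    have e : φc (massAction R (k s) (x s)) = 0 := hzero s
    rw [show (φc : (Fin d → ℝ) → ℝ) ∘ x = fun s => φc (x s) from rfl] at this
    rw [e] at this
    exact this
  have h3 := constant_of_has_deriv_right_zero h1 h2 t ht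
  rw [map_sub, sub_eq_zero]
  exact h3

end Vale.Agent.Lib.P072
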