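import Mathlib

/-!
The potentials obtained by integrating a staircase in logarithmic scale.
-/

open MeasureTheory Set Filter Topology

namespace Vale.Agent.Lib.P072

/-- Integrand of the outer potential. -/
noncomputable def gPot (σ : ℝ → ℝ) (Λ τ : ℝ) : ℝ := Λ * σ (Real.log τ / Λ)

/-- Outer potential. -/
noncomputable def psiP (σ : ℝ → ℝ) (Λ s : ℝ) : ℝ := ∫ τ in (1 : ℝ)..s, gPot σ Λ τ

/-- Integrand of the vertex potential. -/
noncomputable def hPot (σ : ℝ → ℝ) (Λ τ : ℝ) : ℝ := -(Λ * min (σ (Real.log τ / Λ)) 0)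

/-- Vertex potential. -/
noncomputable def dP (σ : ℝ → ℝ) (Λ s : ℝ) : ℝ := ∫ τ in (0 : ℝ)..s, hPot σ Λ τ

variable {σ : ℝ → ℝ} {Λ : ℝ}

lemma gPot_continuousAt (hσ : Continuous σ) {s : ℝ} (hs : 0 < s) : ContinuousAt (gPot σ Λ) s := by
  unfold gPot
  have h1 : ContinuousAt Real.log s := Real.continuousAt_log hs.ne'
  have h2 : ContinuousAt (fun τ => Real.log τ / Λ) s := h1.div_const Λ
  exact continuousAt_const.mul (hσ.continuousAt.comp h2)

lemma hPot_continuousAt (hσ : Continuous σ) {s : ℝ} (hs : 0 < s) : ContinuousAt (hPot σ Λ) s := by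
  unfold hPot
  have h1 : ContinuousAt Real.log s := Real.continuousAt_log hs.ne'
  have h2 : ContinuousAt (fun τ => Real.log τ / Λ) s := h1.div_const Λ
  have h3 : ContinuousAt (fun τ => σ (Real.log τ / Λ)) s := hσ.continuousAt.comp h2
  exact (continuousAt_const.mul (h3.min continuousAt_const)).neg

lemma gPot_measurable (hσ : Continuous σ) : Measurable (gPot σ Λ) := by
  unfold gPot
  exact measurable_const.mul (hσ.measurable.comp (Real.measurable_log.div_const Λ))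

lemma hPot_measurable (hσ : Continuous σ) : Measurable (hPot σ Λ) := by
  unfold hPot
  exact (measurable_const.mul ((hσ.measurable.comp (Real.measurable_log.div_const Λ)).min
    measurable_const)).neg

lemma gPot_intervalIntegrable (hσ : Continuous σ) {s t : ℝ} (hs : 0 < s) (ht : 0 < t) :
    IntervalIntegrable (gPot σ Λ) volume s t := by
  apply ContinuousOn.intervalIntegrable
  intro τ hτ
  have hτpos : 0 < τ := by
    rcases Set.mem_uIcc.mp hτ with h | h <;> linarith [h.1]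
  exact (gPot_continuousAt hσ hτpos).continuousWithinAt

lemma hasDerivAt_psiP (hσ : Continuous σ) {s : ℝ} (hs : 0 < s) :
    HasDerivAt (psiP σ Λ) (gPot σ Λ s) s := by
  unfold psiP
  exact intervalIntegral.integral_hasDerivAt_right (gPot_intervalIntegrable hσ one_pos hs)
    (gPot_measurable hσ).stronglyMeasurable.stronglyMeasurableAtFilter (gPot_continuousAt hσ hs)

section bounds

variable {B : ℝ}

lemma hPot_nonneg (hΛ : 0 < Λ) (τ : ℝ) : 0 ≤ hPot σ Λ τ := by
  unfold hPot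
  have : min (σ (Real.log τ / Λ)) 0 ≤ 0 := min_le_right _ _
  have := mul_nonpos_of_nonneg_of_nonpos hΛ.le this
  linarith

lemma hPot_le (hΛ : 0 < Λ) (hB : 0 ≤ B) (hlow : ∀ u, -B ≤ σ u) (τ : ℝ) : hPot σ Λ τ ≤ Λ * B := by
  unfold hPot
  have h1 : -B ≤ min (σ (Real.log τ / Λ)) 0 := le_min (hlow _) (by linarith)
  nlinarith

lemma hPot_intervalIntegrable (hσ : Continuous σ) (hΛ : 0 < Λ) (hB : 0 ≤ B)
    (hlow : ∀ u, -B ≤ σ u) (s t : ℝ) : IntervalIntegrable (hPot σ Λ) volume s t := by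
  rw [intervalIntegrable_iff]
  apply Measure.integrableOn_of_bounded (M := Λ * B)
  · simp
  · exact (hPot_measurable hσ).aestronglyMeasurable
  · refine Filter.Eventually.of_forall (fun τ => ?_)
    rw [Real.norm_eq_abs, abs_of_nonneg (hPot_nonneg hΛ τ)]
    exact hPot_le hΛ hB hlow τ

lemma hasDerivAt_dP (hσ : Continuous σ) (hΛ : 0 < Λ) (hB : 0 ≤ B) (hlow : ∀ u, -B ≤ σ u)
    {s : ℝ} (hs : 0 < s) : HasDerivAt (dP σ Λ) (hPot σ Λ s) s := by
  unfold dP
  exact intervalIntegral.integral_hasDerivAt_right (hPot_intervalIntegrable hσ hΛ hB hlow 0 s)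
    (hPot_measurable hσ).stronglyMeasurable.stronglyMeasurableAtFilter (hPot_continuousAt hσ hs)

lemma dP_nonneg (hΛ : 0 < Λ) {s : ℝ} (hs : 0 ≤ s) : 0 ≤ dP σ Λ s := by
  unfold dP
  exact intervalIntegral.integral_nonneg hs (fun τ _ => hPot_nonneg hΛ τ)

lemma dP_le (hσ : Continuous σ) (hΛ : 0 < Λ) (hB : 0 ≤ B) (hlow : ∀ u, -B ≤ σ u)
    {s : ℝ} (hs : 0 ≤ s) : dP σ Λ s ≤ Λ * B * s := by
  unfold dP
  have h := intervalIntegral.integral_mono_on (μ := volume) hs
    (hPot_intervalIntegrable hσ hΛ hB hlow 0 s) (intervalIntegrable_const (c := Λ * B))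
    (fun τ _ => hPot_le hΛ hB hlow τ)
  simp only [intervalIntegral.integral_const, smul_eq_mul, sub_zero] at h
  linarith

lemma dP_mono (hσ : Continuous σ) (hΛ : 0 < Λ) (hB : 0 ≤ B) (hlow : ∀ u, -B ≤ σ u)
    {s t : ℝ} (hst : s ≤ t) : dP σ Λ s ≤ dP σ Λ t := by
  unfold dP
  rw [← intervalIntegral.integral_add_adjacent_intervals
    (hPot_intervalIntegrable hσ hΛ hB hlow 0 s) (hPot_intervalIntegrable hσ hΛ hB hlow s t)]
  have := intervalIntegral.integral_nonneg (μ := volume) (f := hPot σ Λ) hst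
    (fun τ _ => hPot_nonneg hΛ τ)
  linarith

/-- Lower bound of `hPot` close to zero. -/
lemma hPot_ge (hmono : Monotone σ) (hΛ : 0 < Λ) {ε : ℝ} (hσε : σ (-1 + ε) = -1)
    {τ : ℝ} (hτ : 0 < τ) (hτ' : τ ≤ Real.exp (-Λ * (1 - ε))) : Λ ≤ hPot σ Λ τ := by
  unfold hPot
  have h1 : Real.log τ ≤ -Λ * (1 - ε) := (Real.log_le_iff_le_exp hτ).mpr hτ'
  have h2 : Real.log τ / Λ ≤ -1 + ε := by
    rw [div_le_iff₀ hΛ]
    linarith
  have h3 : σ (Real.log τ / Λ) ≤ -1 := by
    rw [← hσε]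
    exact hmono h2
  have h4 : min (σ (Real.log τ / Λ)) 0 ≤ -1 := (min_le_left _ _).trans h3
  nlinarith

lemma dP_ge (hσ : Continuous σ) (hmono : Monotone σ) (hΛ : 0 < Λ) (hB : 0 ≤ B)
    (hlow : ∀ u, -B ≤ σ u) {ε : ℝ} (hσε : σ (-1 + ε) = -1) {s : ℝ} (hs : 0 ≤ s)
    (hs' : s ≤ Real.exp (-Λ * (1 - ε))) : Λ * s ≤ dP σ Λ s := by
  unfold dP
  have h := intervalIntegral.integral_mono_on_of_le_Ioo (μ := volume) hs
    (intervalIntegrable_const (c := Λ)) (hPot_intervalIntegrable hσ hΛ hB hlow 0 s)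
    (fun τ hτ => hPot_ge hmono hΛ hσε hτ.1 (hτ.2.le.trans hs'))
  simp only [intervalIntegral.integral_const, smul_eq_mul, sub_zero] at h
  linarith

lemma gPot_nonneg (hmono : Monotone σ) (h0 : σ 0 = 0) (hΛ : 0 < Λ) {τ : ℝ} (hτ : 1 ≤ τ) :
    0 ≤ gPot σ Λ τ := by
  unfold gPot
  have h1 : 0 ≤ Real.log τ / Λ := div_nonneg (Real.log_nonneg hτ) hΛ.le
  have h2 := hmono h1
  rw [h0] at h2
  positivity

lemma gPot_nonpos (hmono : Monotone σ) (h0 : σ 0 = 0) (hΛ : 0 < Λ) {τ : ℝ} (hτ : 0 < τ)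
    (hτ' : τ ≤ 1) : gPot σ Λ τ ≤ 0 := by
  unfold gPot
  have h1 : Real.log τ / Λ ≤ 0 := div_nonpos_of_nonpos_of_nonneg (Real.log_nonpos hτ.le hτ') hΛ.le
  have h2 := hmono h1
  rw [h0] at h2
  exact mul_nonpos_of_nonneg_of_nonpos hΛ.le h2

lemma psiP_nonneg (hσ : Continuous σ) (hmono : Monotone σ) (h0 : σ 0 = 0) (hΛ : 0 < Λ) {s : ℝ}
    (hs : 0 < s) : 0 ≤ psiP σ Λ s := by
  unfold psiP
  rcases le_total 1 s with h | h
  · exact intervalIntegral.integral_nonneg h (fun τ hτ => gPot_nonneg hmono h0 hΛ hτ.1)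
  · rw [intervalIntegral.integral_symm]
    have := intervalIntegral.integral_nonneg (μ := volume) (f := fun τ => - gPot σ Λ τ) h
      (fun τ hτ => neg_nonneg.mpr (gPot_nonpos hmono h0 hΛ (lt_of_lt_of_le hs hτ.1) hτ.2))
    rw [intervalIntegral.integral_neg] at this
    exact this

/-- Upper bound of the potential below `exp Λ`. -/
lemma psiP_le (hσ : Continuous σ) (hmono : Monotone σ) (h1σ : σ 1 = 1)
    (hΛ : 0 < Λ) (hB : 0 ≤ B) (hlow : ∀ u, -B ≤ σ u) (hBΛ : B ≤ Real.exp Λ) {s : ℝ}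
    (hs : 0 < s) (hs' : s ≤ Real.exp Λ) : psiP σ Λ s ≤ Λ * Real.exp Λ := by
  unfold psiP
  have hΛexp := Real.exp_pos Λ
  rcases le_total 1 s with h | h
  · have hb : ∀ τ ∈ Set.Icc (1 : ℝ) s, gPot σ Λ τ ≤ Λ := by
      intro τ hτ
      unfold gPot
      have hτpos : 0 < τ := by linarith [hτ.1]
      have h2 : Real.log τ ≤ Λ := by
        rw [Real.log_le_iff_le_exp hτpos]
        exact hτ.2.trans hs'
      have h3 : Real.log τ / Λ ≤ 1 := by
        rw [div_le_one hΛ]
        exact h2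
      have h4 := hmono h3
      rw [h1σ] at h4
      nlinarith
    have h5 := intervalIntegral.integral_mono_on (μ := volume) h
      (gPot_intervalIntegrable hσ one_pos hs) (intervalIntegrable_const (c := Λ)) hb
    simp only [intervalIntegral.integral_const, smul_eq_mul] at h5
    refine h5.trans ?_
    have : s - 1 ≤ Real.exp Λ := by linarith
    nlinarith
  · rw [intervalIntegral.integral_symm]
    have hb : ∀ τ ∈ Set.Icc s (1 : ℝ), -B * Λ ≤ gPot σ Λ τ := by
      intro τ _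
      unfold gPot
      have := hlow (Real.log τ / Λ)
      nlinarith
    have h5 := intervalIntegral.integral_mono_on (μ := volume) h
      (intervalIntegrable_const (c := -B * Λ)) (gPot_intervalIntegrable hσ hs one_pos) hb
    simp only [intervalIntegral.integral_const, smul_eq_mul] at h5
    have h7 : 1 - s ≤ 1 := by linarith
    have h8 : (1 - s) * (B * Λ) ≤ 1 * (B * Λ) := mul_le_mul_of_nonneg_right h7 (by positivity)
    have h9 : B * Λ ≤ Real.exp Λ * Λ := mul_le_mul_of_nonneg_right hBΛ hΛ.le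
    have h10 : (1 - s) * (-B * Λ) = -((1 - s) * (B * Λ)) := by ring
    linarith

/-- Lower bound of the potential above `exp Λ`. -/
lemma psiP_ge (hσ : Continuous σ) (hmono : Monotone σ) (h0 : σ 0 = 0) (h1σ : σ 1 = 1)
    (hΛ : 0 < Λ) {s : ℝ} (hs' : Real.exp Λ ≤ s) :
    Λ * (s - Real.exp Λ) ≤ psiP σ Λ s := by
  have hΛexp := Real.exp_pos Λ
  have hspos : 0 < s := lt_of_lt_of_le hΛexp hs'
  have h1 : psiP σ Λ s = psiP σ Λ (Real.exp Λ) + ∫ τ in (Real.exp Λ)..s, gPot σ Λ τ := by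
    unfold psiP
    rw [intervalIntegral.integral_add_adjacent_intervals
      (gPot_intervalIntegrable hσ one_pos hΛexp) (gPot_intervalIntegrable hσ hΛexp hspos)]
  have hb : ∀ τ ∈ Set.Icc (Real.exp Λ) s, Λ ≤ gPot σ Λ τ := by
    intro τ hτ
    unfold gPot
    have hτpos : 0 < τ := lt_of_lt_of_le hΛexp hτ.1
    have h2 : Λ ≤ Real.log τ := (Real.le_log_iff_exp_le hτpos).mpr hτ.1
    have h3 : 1 ≤ Real.log τ / Λ := by
      rw [one_le_div hΛ]
      exact h2
    have h4 := hmono h3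
    rw [h1σ] at h4
    nlinarith
  have h5 := intervalIntegral.integral_mono_on (μ := volume) hs'
    (intervalIntegrable_const (c := Λ)) (gPot_intervalIntegrable hσ hΛexp hspos) hb
  simp only [intervalIntegral.integral_const, smul_eq_mul] at h5
  have h6 := psiP_nonneg hσ hmono h0 hΛ hΛexp
  rw [h1]
  nlinarith

end bounds

end Vale.Agent.Lib.P072
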