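import Mathlib
import Vale.Agent.Lib.P072.Flow
import Vale.Agent.Lib.P072.Potential
import Vale.Agent.Lib.P072.Cluster

/-!
Common setup: a spanning pair for a stoichiometric subspace of dimension at most two, the staircase.
-/

open Set Filter Topology

namespace Vale.Agent.Lib.P072

variable {d : ℕ}

/-- `a, b` span the stoichiometric subspace. -/
structure Geo (R : Finset (Cplx d × Cplx d)) (a b : Fin d → ℝ) : Prop where
  ha : a ∈ stoichSubspace R
  hb : b ∈ stoichSubspace R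
  span : ∀ v ∈ stoichSubspace R, ∃ z₁ z₂ : ℝ, ∀ i, v i = z₁ * a i + z₂ * b i

theorem exists_geo {R : Finset (Cplx d × Cplx d)}
    (hdim : Module.finrank ℝ (stoichSubspace R) ≤ 2) : ∃ a b, Geo R a b := by
  classical
  set S := stoichSubspace R with hS
  obtain ⟨m, hm, ⟨e⟩⟩ : ∃ m, m ≤ 2 ∧ Nonempty (Module.Basis (Fin m) ℝ S) :=
    ⟨_, hdim, ⟨Module.finBasis ℝ S⟩⟩
  have hval : ∀ v (hv : v ∈ S), v = ∑ i, (e.repr ⟨v, hv⟩ i) • ((e i : S) : Fin d → ℝ) := by
    intro v hv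
    have h2 := congrArg Subtype.val (e.sum_repr ⟨v, hv⟩)
    rw [AddSubmonoidClass.coe_finsetSum] at h2
    simp only [Submodule.coe_smul] at h2
    exact h2.symm
  interval_cases m
  · refine ⟨0, 0, ⟨Submodule.zero_mem _, Submodule.zero_mem _, fun v hv => ⟨0, 0, fun i => ?_⟩⟩⟩
    refine (congrFun (hval v hv) i).trans ?_
    simp
  · refine ⟨(e 0 : S), 0, ⟨(e 0).2, Submodule.zero_mem _, fun v hv =>
      ⟨e.repr ⟨v, hv⟩ 0, 0, fun i => ?_⟩⟩⟩
    refine (congrFun (hval v hv) i).trans ?_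
    simp [Fin.sum_univ_succ]
  · refine ⟨(e 0 : S), (e 1 : S), ⟨(e 0).2, (e 1).2, fun v hv =>
      ⟨e.repr ⟨v, hv⟩ 0, e.repr ⟨v, hv⟩ 1, fun i => ?_⟩⟩⟩
    refine (congrFun (hval v hv) i).trans ?_
    simp [Fin.sum_univ_succ]

/-- The members of `posClass` are parametrised by two reals. -/
lemma Geo.param {R : Finset (Cplx d × Cplx d)} {a b c x : Fin d → ℝ} (hg : Geo R a b)
    (hx : x ∈ posClass R c) : ∃ z₁ z₂ : ℝ, ∀ i, x i = c i + z₁ * a i + z₂ * b i := by
  obtain ⟨z₁, z₂, h⟩ := hg.span _ hx.2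
  refine ⟨z₁, z₂, fun i => ?_⟩
  have := h i
  simp only [Pi.sub_apply] at this
  linarith

lemma Geo.mem {R : Finset (Cplx d × Cplx d)} {a b : Fin d → ℝ} (hg : Geo R a b) (z₁ z₂ : ℝ) :
    z₁ • a + z₂ • b ∈ stoichSubspace R :=
  Submodule.add_mem _ (Submodule.smul_mem _ _ hg.ha) (Submodule.smul_mem _ _ hg.hb)

/-- The staircase data. -/
structure Stc (R₀ : ℕ) (σ : ℝ → ℝ) (ε B : ℝ) : Prop where
  hR₀ : 1 ≤ R₀
  hε : 0 < ε
  hε' : ε ≤ 1 / 4
  hB : 0 ≤ B
  cont : Continuous σ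
  mono : Monotone σ
  plateau : ∀ a ∈ centers R₀, ∀ u, |u - a| ≤ ε → σ u = a
  low : ∀ u, -B ≤ σ u

theorem exists_stc {R₀ : ℕ} (hR₀ : 1 ≤ R₀) : ∃ σ ε B, Stc R₀ σ ε B := by
  have hne : (centers R₀).Nonempty := ⟨((0 : ℤ) : ℝ), int_mem_centers hR₀ (by simp)⟩
  obtain ⟨ε, B, σ, h1, h2, h3, h4, h5, h6, h7⟩ := exists_stair (centers R₀) hne
  exact ⟨σ, ε, B, ⟨hR₀, h1, h2, h3, h4, h5, h6, h7⟩⟩

namespace Stc

variable {R₀ : ℕ} {σ : ℝ → ℝ} {ε B : ℝ}

lemma zero_mem (h : Stc R₀ σ ε B) : (0 : ℝ) ∈ centers R₀ := by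
  have := int_mem_centers (R₀ := R₀) h.hR₀ (A := 0) (by simp)
  simpa using this

lemma one_mem (h : Stc R₀ σ ε B) : (1 : ℝ) ∈ centers R₀ := by
  have := int_mem_centers (R₀ := R₀) h.hR₀ (A := 1) (by simpa using h.hR₀)
  simpa using this

lemma neg_one_mem (h : Stc R₀ σ ε B) : (-1 : ℝ) ∈ centers R₀ := by
  have := int_mem_centers (R₀ := R₀) h.hR₀ (A := -1) (by simpa using h.hR₀)
  simpa using this

lemma at_zero (h : Stc R₀ σ ε B) {u : ℝ} (hu : |u| ≤ ε) : σ u = 0 :=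
  h.plateau 0 h.zero_mem u (by simpa using hu)

lemma at_one (h : Stc R₀ σ ε B) {u : ℝ} (hu : |u - 1| ≤ ε) : σ u = 1 :=
  h.plateau 1 h.one_mem u hu

lemma at_neg_one (h : Stc R₀ σ ε B) {u : ℝ} (hu : |u - (-1)| ≤ ε) : σ u = -1 :=
  h.plateau (-1) h.neg_one_mem u hu

lemma sigma0 (h : Stc R₀ σ ε B) : σ 0 = 0 := h.at_zero (by simpa using h.hε.le)

lemma sigma1 (h : Stc R₀ σ ε B) : σ 1 = 1 := h.at_one (by simpa using h.hε.le)

lemma sigma_neg1 (h : Stc R₀ σ ε B) : σ (-1 + ε) = -1 := h.at_neg_one (by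
  rw [show (-1 + ε - (-1)) = ε by ring, abs_of_pos h.hε])

end Stc

/-- The outer Lyapunov candidate. -/
noncomputable def outerL {R₀ : ℕ} {σ : ℝ → ℝ} {ε B : ℝ} (h : Stc R₀ σ ε B) (Λ : ℝ) : Lyap d where
  P := fun _ => psiP σ Λ
  p := fun _ => gPot σ Λ
  hasDeriv := fun _ _ hs => hasDerivAt_psiP h.cont hs
  contAt := fun _ _ hs => gPot_continuousAt h.cont hs

/-- The vertex Lyapunov candidate. -/
noncomputable def vertexL {R₀ : ℕ} {σ : ℝ → ℝ} {ε B : ℝ} (h : Stc R₀ σ ε B) {Λ : ℝ} (hΛ : 0 < Λ)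
    (J : Finset (Fin d)) : Lyap d where
  P := fun i => if i ∈ J then fun s => - dP σ Λ s else fun _ => 0
  p := fun i => if i ∈ J then fun s => - hPot σ Λ s else fun _ => 0
  hasDeriv := fun i s hs => by
    by_cases hi : i ∈ J
    · simp only [hi, if_true]
      exact (hasDerivAt_dP h.cont hΛ h.hB h.low hs).neg
    · simp only [hi, if_false]
      exact hasDerivAt_const _ _
  contAt := fun i s hs => by
    by_cases hi : i ∈ J
    · simp only [hi, if_true]
      exact (hPot_continuousAt h.cont hs).neg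
    · simp only [hi, if_false]
      exact continuousAt_const

/-- The line Lyapunov candidate `- x i₀`. -/
noncomputable def lineL (i₀ : Fin d) : Lyap d where
  P := fun i => if i = i₀ then fun s => - s else fun _ => 0
  p := fun i => if i = i₀ then fun _ => -1 else fun _ => 0
  hasDeriv := fun i s _ => by
    by_cases hi : i = i₀
    · simp only [hi, if_true]
      exact (hasDerivAt_id s).neg
    · simp only [hi, if_false]
      exact hasDerivAt_const _ _
  contAt := fun i s _ => by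
    by_cases hi : i = i₀
    · simp only [hi, if_true]
      exact continuousAt_const
    · simp only [hi, if_false]
      exact continuousAt_const

lemma lineL_V (i₀ : Fin d) (x : Fin d → ℝ) : (lineL i₀).V x = - x i₀ := by
  unfold Lyap.V lineL
  simp only
  rw [Finset.sum_eq_single i₀]
  · simp
  · intro b _ hb
    simp [hb]
  · simp

lemma vertexL_V {R₀ : ℕ} {σ : ℝ → ℝ} {ε B : ℝ} (h : Stc R₀ σ ε B) {Λ : ℝ} (hΛ : 0 < Λ)
    (J : Finset (Fin d)) (x : Fin d → ℝ) :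
    (vertexL h hΛ J).V x = - ∑ j ∈ J, dP σ Λ (x j) := by
  classical
  unfold Lyap.V vertexL
  simp only
  rw [← Finset.sum_filter_add_sum_filter_not Finset.univ (fun i => i ∈ J)]
  have e1 : ∑ i ∈ Finset.univ.filter (fun i => i ∈ J),
      (if i ∈ J then fun s => - dP σ Λ s else fun _ => 0) (x i)
      = ∑ i ∈ Finset.univ.filter (fun i => i ∈ J), - dP σ Λ (x i) := by
    apply Finset.sum_congr rfl
    intro i hi
    simp [(Finset.mem_filter.mp hi).2]
  have e2 : ∑ i ∈ Finset.univ.filter (fun i => ¬ i ∈ J),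
      (if i ∈ J then fun s => - dP σ Λ s else fun _ => 0) (x i) = 0 := by
    apply Finset.sum_eq_zero
    intro i hi
    simp [(Finset.mem_filter.mp hi).2]
  rw [e1, e2, add_zero, Finset.sum_neg_distrib]
  congr 2
  ext i
  simp

end Vale.Agent.Lib.P072
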