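import Mathlib
import Vale.Agent.Lib.P072.Setup

/-!
The outer constraint: boundedness.
-/

open Set Filter Topology

namespace Vale.Agent.Lib.P072

variable {d : ℕ}

/-- The outer level. -/
noncomputable def CO (d : ℕ) (Λ : ℝ) : ℝ := ((d : ℝ) + 1) * Λ * Real.exp Λ

variable {R₀ : ℕ} {σ : ℝ → ℝ} {ε B : ℝ}

lemma outerL_V (h : Stc R₀ σ ε B) (Λ : ℝ) (x : Fin d → ℝ) :
    (outerL h Λ).V x = ∑ i, psiP σ Λ (x i) := rfl

lemma outer_V_lt (h : Stc R₀ σ ε B) {Λ : ℝ} (hΛ : 0 < Λ) (hBΛ : B ≤ Real.exp Λ) {x : Fin d → ℝ}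
    (hx : ∀ i, 0 < x i) (hle : ∀ i, x i ≤ Real.exp Λ) : (outerL h Λ).V x < CO d Λ := by
  rw [outerL_V]
  have h1 : ∑ i, psiP σ Λ (x i) ≤ ∑ _i : Fin d, Λ * Real.exp Λ :=
    Finset.sum_le_sum (fun i _ => psiP_le h.cont h.mono h.sigma1 hΛ h.hB h.low hBΛ (hx i) (hle i))
  simp only [Finset.sum_const, Finset.card_univ, Fintype.card_fin, nsmul_eq_mul] at h1
  unfold CO
  have h2 : 0 < Λ * Real.exp Λ := mul_pos hΛ (Real.exp_pos _)
  nlinarith

lemma outer_le_of_V_le (h : Stc R₀ σ ε B) {Λ : ℝ} (hΛ : 0 < Λ) {x : Fin d → ℝ}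
    (hx : ∀ i, 0 < x i) (hV : (outerL h Λ).V x ≤ CO d Λ) (i : Fin d) :
    x i ≤ ((d : ℝ) + 2) * Real.exp Λ := by
  rw [outerL_V] at hV
  have hnn : ∀ j ∈ Finset.univ, 0 ≤ psiP σ Λ (x j) := fun j _ =>
    psiP_nonneg h.cont h.mono h.sigma0 hΛ (hx j)
  have h1 : psiP σ Λ (x i) ≤ ∑ i, psiP σ Λ (x i) :=
    Finset.single_le_sum hnn (Finset.mem_univ i)
  have hexp := Real.exp_pos Λ
  have hd : (0 : ℝ) ≤ d := Nat.cast_nonneg d
  by_cases hi : Real.exp Λ ≤ x i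
  · have h2 := psiP_ge h.cont h.mono h.sigma0 h.sigma1 hΛ hi
    have h3 : Λ * (x i - Real.exp Λ) ≤ Λ * (((d : ℝ) + 1) * Real.exp Λ) := by
      refine h2.trans (h1.trans (hV.trans (le_of_eq ?_)))
      unfold CO
      ring
    have h4 := le_of_mul_le_mul_left h3 hΛ
    linarith
  · push Not at hi
    nlinarith

lemma outer_term (h : Stc R₀ σ ε B) {Λ x c : ℝ} (hΛ : 0 < Λ) (hxpos : 0 < x) (hcpos : 0 < c)
    (hu1 : Real.log x / Λ ≤ 1 + ε) :
    0 ≤ Λ * σ (Real.log x / Λ) * (x - c) + Λ * (c + B) := by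
  set u := Real.log x / Λ with hu
  have hB := h.hB
  have hlow := h.low u
  have hσ1 : σ (1 + ε) = 1 := h.at_one (by
    rw [show 1 + ε - 1 = ε by ring, abs_of_pos h.hε])
  have e0 : Λ * σ u * (x - c) + Λ * (c + B) = Λ * (σ u * (x - c) + c + B) := by ring
  rw [e0]
  apply mul_nonneg hΛ.le
  by_cases hx1 : 1 ≤ x
  · have hu0 : 0 ≤ u := div_nonneg (Real.log_nonneg hx1) hΛ.le
    have hs0 : 0 ≤ σ u := by
      have := h.mono hu0
      rwa [h.sigma0] at this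
    have hs1 : σ u ≤ 1 := by
      have := h.mono hu1
      rwa [hσ1] at this
    have e3 : 0 ≤ σ u * x := by positivity
    have e4 : σ u * c ≤ 1 * c := mul_le_mul_of_nonneg_right hs1 hcpos.le
    linarith [mul_sub (σ u) x c]
  · push Not at hx1
    have hu0 : u ≤ 0 := div_nonpos_of_nonpos_of_nonneg (Real.log_nonpos hxpos.le hx1.le) hΛ.le
    have hs0 : σ u ≤ 0 := by
      have := h.mono hu0
      rwa [h.sigma0] at this
    have e3 : σ u * c ≤ 0 := mul_nonpos_of_nonpos_of_nonneg hs0 hcpos.le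
    have e4 : - B ≤ σ u * x := by
      have e5 : (-B) * 1 ≤ σ u * x := by
        by_cases hsx : 0 ≤ σ u * x
        · nlinarith
        · have e6 : σ u * x ≥ σ u * 1 := mul_le_mul_of_nonpos_left hx1.le hs0
          nlinarith
      linarith
    linarith [mul_sub (σ u) x c]

lemma outer_nondeg (h : Stc R₀ σ ε B) {c x : Fin d → ℝ} (hc : ∀ i, 0 < c i) (hpos : ∀ i, 0 < x i)
    {Λ : ℝ} (hΛ : 0 < Λ) {i₀ : Fin d} (hi₀ : ∀ i, x i ≤ x i₀)
    (hρabs : |Real.log (x i₀) / Λ - 1| ≤ ε) (hM : 1 + ∑ i, (c i + B) < x i₀) :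
    0 < ∑ i, (outerL h Λ).cov x i * (x i - c i) := by
  have hB := h.hB
  set q := (outerL h Λ).cov x with hq
  have hqi : ∀ i, q i = Λ * σ (Real.log (x i) / Λ) := fun i => rfl
  have htop : q i₀ = Λ := by
    rw [hqi, h.at_one hρabs, mul_one]
  have hu : ∀ i, Real.log (x i) / Λ ≤ 1 + ε := by
    intro i
    have e1 : Real.log (x i) ≤ Real.log (x i₀) := Real.log_le_log (hpos i) (hi₀ i)
    have e2 : Real.log (x i) / Λ ≤ Real.log (x i₀) / Λ := div_le_div_of_nonneg_right e1 hΛ.le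
    have := (abs_le.mp hρabs).2
    linarith
  have hterm : ∀ i, 0 ≤ q i * (x i - c i) + Λ * (c i + B) := by
    intro i
    rw [hqi]
    exact outer_term h hΛ (hpos i) (hc i) (hu i)
  have hsingle := Finset.single_le_sum (f := fun i => q i * (x i - c i) + Λ * (c i + B))
    (fun i _ => hterm i) (Finset.mem_univ i₀)
  rw [Finset.sum_add_distrib, ← Finset.mul_sum] at hsingle
  simp only [htop] at hsingle
  have e8 : 0 < Λ * (x i₀ - (1 + ∑ i, (c i + B))) := mul_pos hΛ (by linarith)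
  have e9 : 0 ≤ Λ * (c i₀ + B) := mul_nonneg hΛ.le (by linarith [hc i₀])
  have e10 : Λ * (x i₀ - c i₀) + Λ * (c i₀ + B) = Λ * x i₀ + Λ * B := by ring
  have e11 : Λ * (x i₀ - (1 + ∑ i, (c i + B))) = Λ * x i₀ - Λ - Λ * ∑ i, (c i + B) := by ring
  have e12 : 0 ≤ Λ * B := mul_nonneg hΛ.le hB
  linarith

/-- The main outer estimate. -/
theorem outer_main {R : Finset (Cplx d × Cplx d)} {a b c : Fin d → ℝ} (hg : Geo R a b)
    (hc : ∀ i, 0 < c i) (h : Stc (bigR R) σ ε B) {T : ℝ} (hT : 0 ≤ T) :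
    ∃ Λ₀ η : ℝ, 0 < Λ₀ ∧ 0 < η ∧ η ≤ 1 ∧ ∀ Λ, Λ₀ ≤ Λ →
      B ≤ Real.exp Λ ∧ ((d : ℝ) + 2) * Real.exp Λ ≤ Real.exp (Λ * (1 + η / 2)) ∧
      ∀ x ∈ posClass R c, (∀ i, x i ≤ Real.exp (Λ * (1 + η))) → CO d Λ ≤ (outerL h Λ).V x →
        Compat R x ((outerL h Λ).cov x) T ∧
          ∃ v ∈ stoichSubspace R, ∑ i, (outerL h Λ).cov x i * v i ≠ 0 := by
  classical
  obtain ⟨K₀, M₀, hK₀, hM₀, hcl⟩ := outer_cluster c a b hc
  set R₀ := bigR R with hR₀def
  have hR := h.hR₀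
  have hRreal : (1 : ℝ) ≤ R₀ := by exact_mod_cast hR
  have hε := h.hε
  have hε' := h.hε'
  set η : ℝ := ε / (2 * R₀) with hη
  have hηpos : 0 < η := by positivity
  have hRη : R₀ * η = ε / 2 := by
    rw [hη]
    field_simp
  have hηle : η ≤ ε := by
    have : η * 1 ≤ η * R₀ := mul_le_mul_of_nonneg_left hRreal hηpos.le
    nlinarith
  have hηle1 : η ≤ 1 := by linarith
  have hB := h.hB
  set M₂ : ℝ := 1 + ∑ i, (c i + B) with hM₂
  have hM₂1 : 1 ≤ M₂ := by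
    have : 0 ≤ ∑ i, (c i + B) := Finset.sum_nonneg (fun i _ => by linarith [hc i])
    rw [hM₂]
    linarith
  have hd : (0 : ℝ) ≤ d := Nat.cast_nonneg d
  have hlogd : 0 ≤ Real.log ((d : ℝ) + 2) := Real.log_nonneg (by linarith)
  set A₁ : ℝ := (T + (R₀ + 1) * K₀) / (ε / 2) with hA₁
  have hA₁nn : 0 ≤ A₁ := by positivity
  set A₂ : ℝ := Real.log ((d : ℝ) + 2) / (η / 2) with hA₂
  have hA₂nn : 0 ≤ A₂ := by positivity
  refine ⟨1 + |Real.log M₀| + |Real.log M₂| + |Real.log (B + 1)| + A₁ + A₂, η, ?_, hηpos, hηle1, ?_⟩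
  · positivity
  intro Λ hΛ₀
  have habs1 := abs_nonneg (Real.log M₀)
  have habs2 := abs_nonneg (Real.log M₂)
  have habs3 := abs_nonneg (Real.log (B + 1))
  have hΛ : 0 < Λ := by linarith
  have hexpM₀ : M₀ ≤ Real.exp Λ := by
    rw [← Real.log_le_iff_le_exp hM₀] 
    linarith [le_abs_self (Real.log M₀)]
  have hexpM₂ : M₂ ≤ Real.exp Λ := by
    rw [← Real.log_le_iff_le_exp (by linarith)]
    linarith [le_abs_self (Real.log M₂)]
  have hexpB : B + 1 ≤ Real.exp Λ := by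
    rw [← Real.log_le_iff_le_exp (by linarith)]
    linarith [le_abs_self (Real.log (B + 1))]
  have hsmall0 : (T + (R₀ + 1) * K₀) / Λ ≤ ε / 2 := by
    rw [div_le_iff₀ hΛ]
    have : A₁ ≤ Λ := by linarith
    have e : T + (R₀ + 1) * K₀ = A₁ * (ε / 2) := by
      rw [hA₁]
      field_simp
    rw [e]
    nlinarith
  have hKΛ : K₀ / Λ ≤ ε := by
    have e1 : K₀ / Λ ≤ (T + (R₀ + 1) * K₀) / Λ := by
      apply div_le_div_of_nonneg_right _ hΛ.le
      nlinarith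
    linarith
  refine ⟨by linarith, ?_, ?_⟩
  · -- the logarithmic gap
    have h1 : Real.log ((d : ℝ) + 2) ≤ Λ * (η / 2) := by
      have e : A₂ * (η / 2) = Real.log ((d : ℝ) + 2) := by
        rw [hA₂]
        field_simp
      rw [← e]
      apply mul_le_mul_of_nonneg_right _ (by positivity)
      linarith
    have h2 : ((d : ℝ) + 2) = Real.exp (Real.log ((d : ℝ) + 2)) :=
      (Real.exp_log (by linarith)).symm
    rw [h2, ← Real.exp_add]
    apply Real.exp_le_exp.mpr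
    nlinarith
  intro x hx hup hV
  have hpos := hx.1
  obtain ⟨z₁, z₂, hz⟩ := hg.param hx
  -- there is a big coordinate
  have hbig : ∃ i, Real.exp Λ < x i := by
    by_contra hcon
    push Not at hcon
    have := outer_V_lt h hΛ (by linarith) hpos hcon
    linarith
  obtain ⟨i₁, hi₁⟩ := hbig
  have : Nonempty (Fin d) := ⟨i₁⟩
  obtain ⟨i₀, hi₀⟩ := Finite.exists_max x
  have hM : Real.exp Λ < x i₀ := lt_of_lt_of_le hi₁ (hi₀ i₁)
  have hMpos := hpos i₀
  set ρ := Real.log (x i₀) / Λ with hρ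
  have hρΛ : ρ * Λ = Real.log (x i₀) := by
    rw [hρ]
    field_simp
  have hρ1 : 1 ≤ ρ := by
    rw [hρ, one_le_div hΛ]
    exact (Real.lt_log_iff_exp_lt hMpos).mpr hM |>.le
  have hρ2 : ρ ≤ 1 + η := by
    rw [hρ, div_le_iff₀ hΛ]
    have := (Real.log_le_iff_le_exp hMpos).mpr (hup i₀)
    linarith
  have hρabs : |ρ - 1| ≤ η := by
    rw [abs_le]
    constructor <;> linarith
  obtain ⟨I₁, I₂, l, hdisj, h1, h2, h0, hsgn⟩ := hcl x z₁ z₂ hz hpos i₀ hi₀ (by linarith)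
  constructor
  · -- compatibility
    intro y y'' hr hlt
    refine star hR h.mono h.plateau hε (by linarith) 1 (Or.inl rfl) Λ K₀ T ρ l hΛ hK₀ hT
      (fun i => Real.log (x i)) ((outerL h Λ).cov x) (dif y y'') I₁ I₂ hdisj (sum_abs_dif_le hr)
      ?_ h2 h0 ?_ ?_ ?_ ?_ hlt
    · intro i hi
      rw [hρΛ]
      exact h1 i hi
    · intro i _
      rfl
    · intro i hi
      show Λ * σ (Real.log (x i) / Λ) = 0
      rw [h.at_zero, mul_zero]
      rw [abs_div, abs_of_pos hΛ]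
      exact (div_le_div_of_nonneg_right (h0 i hi) hΛ.le).trans hKΛ
    · obtain ⟨z₁', z₂', hz'⟩ := hg.span _ (rch_dif_mem hr)
      rcases hsgn z₁' z₂' with hs | hs
      · left
        intro i hi
        have := hs i hi
        rw [← hz' i] at this
        exact_mod_cast this
      · right
        intro i hi
        have := hs i hi
        rw [← hz' i] at this
        exact_mod_cast this
    · push_cast
      have : (R₀ : ℝ) * |ρ - 1| ≤ R₀ * η := mul_le_mul_of_nonneg_left hρabs (by positivity)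
      linarith
  · -- nondegeneracy
    refine ⟨x - c, hx.2, ?_⟩
    apply ne_of_gt
    exact outer_nondeg h hc hpos hΛ hi₀ (hρabs.trans hηle) (by linarith)

end Vale.Agent.Lib.P072
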