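import Mathlib
import Vale.Agent.Lib.P072.Outer

/-!
Boundedness for weakly reversible networks with a stoichiometric subspace of dimension at most 2.
-/

open Set Filter Topology

namespace Vale.Agent.Lib.P072

variable {d : ℕ}

lemma dot_neg {R : Finset (Cplx d × Cplx d)} (hWR : WeaklyReversible R)
    {κ₁ κ₂ T : ℝ} (hκ₁ : 0 < κ₁) (hT : 2 * (R.card : ℝ) * κ₂ ≤ κ₁ * Real.exp T)
    {k : Cplx d × Cplx d → ℝ} (hk : ∀ e ∈ R, κ₁ ≤ k e ∧ k e ≤ κ₂)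
    {x q : Fin d → ℝ} (hx : ∀ i, 0 < x i) (hc : Compat R x q T)
    (hne : ∃ v ∈ stoichSubspace R, ∑ i, q i * v i ≠ 0) :
    ∑ i, q i * massAction R k x i < 0 := by
  obtain ⟨v, hv, hne⟩ := hne
  have h1 := dot_le hWR hκ₁ hT hk hx hc
  have h2 := diss_pos hWR hx hv hne
  have h3 : 0 < κ₁ / 2 * diss R x q := by positivity
  linarith

/-- Threshold for the ratio of the rates. -/
lemma exists_threshold (N : ℝ) {κ₁ κ₂ : ℝ} (hκ₁ : 0 < κ₁) :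
    ∃ T : ℝ, 0 ≤ T ∧ 2 * N * κ₂ ≤ κ₁ * Real.exp T := by
  refine ⟨|Real.log (|2 * N * κ₂ / κ₁| + 1)|, abs_nonneg _, ?_⟩
  have hpos : 0 < |2 * N * κ₂ / κ₁| + 1 := by positivity
  have h1 : |2 * N * κ₂ / κ₁| + 1 ≤ Real.exp (|Real.log (|2 * N * κ₂ / κ₁| + 1)|) := by
    rw [← Real.log_le_iff_le_exp hpos]
    exact le_abs_self _
  have h2 : 2 * N * κ₂ / κ₁ ≤ |2 * N * κ₂ / κ₁| := le_abs_self _
  have h3 : 2 * N * κ₂ = κ₁ * (2 * N * κ₂ / κ₁) := by field_simp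
  calc 2 * N * κ₂ = κ₁ * (2 * N * κ₂ / κ₁) := h3
    _ ≤ _ := mul_le_mul_of_nonneg_left (by linarith) hκ₁.le

/-- Positive solutions stay bounded. -/
theorem bounded_main {R : Finset (Cplx d × Cplx d)} (hWR : WeaklyReversible R)
    (hdim : Module.finrank ℝ (stoichSubspace R) ≤ 2) {κ₁ κ₂ : ℝ} (hκ₁ : 0 < κ₁)
    {x₀ : Fin d → ℝ} (hx₀ : ∀ i, 0 < x₀ i) :
    ∃ U : ℝ, ∀ (k : ℝ → Cplx d × Cplx d → ℝ), (∀ t, ∀ e ∈ R, κ₁ ≤ k t e ∧ k t e ≤ κ₂) →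
      ∀ (T' : ℝ) (x : ℝ → Fin d → ℝ), x 0 = x₀ → 0 ≤ T' →
        ContinuousOn x (Icc 0 T') →
        (∀ t ∈ Ico 0 T', HasDerivWithinAt x (massAction R (k t) (x t)) (Ici t) t) →
        (∀ t ∈ Icc 0 T', ∀ i, 0 < x t i) →
        ∀ t ∈ Icc 0 T', ∀ i, x t i ≤ U := by
  obtain ⟨a, b, hg⟩ := exists_geo hdim
  obtain ⟨σ, ε, B, hS⟩ := exists_stc (bigR_pos R)
  obtain ⟨T, hT0, hT⟩ := exists_threshold (R.card : ℝ) (κ₂ := κ₂) hκ₁
  obtain ⟨Λ₀, η, hΛ₀, hη, hη1, hmain⟩ := outer_main hg hx₀ hS hT0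
  -- choose Λ large
  obtain ⟨C₀, hC₀1, hC₀⟩ := exists_ge_forall x₀
  set Λ : ℝ := Λ₀ + |Real.log C₀| with hΛdef
  have hΛ₀Λ : Λ₀ ≤ Λ := by
    have := abs_nonneg (Real.log C₀)
    linarith
  have hΛ : 0 < Λ := by linarith
  obtain ⟨hBΛ, hgap, hcomp⟩ := hmain Λ hΛ₀Λ
  have hC₀Λ : C₀ ≤ Real.exp Λ := by
    rw [← Real.log_le_iff_le_exp (by linarith)]
    have := le_abs_self (Real.log C₀)
    linarith
  refine ⟨((d : ℝ) + 2) * Real.exp Λ, ?_⟩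
  intro k hk T' x hx0 hT' hcont hder hpos t ht i
  have hV0 : (outerL hS Λ).V (x 0) ≤ CO d Λ := by
    rw [hx0]
    refine (outer_V_lt hS hΛ hBΛ hx₀ (fun i => (hC₀ i).trans hC₀Λ)).le
  have hbar := (outerL hS Λ).barrier (F := fun t => massAction R (k t) (x t)) hcont hder hpos hV0 ?_
  · exact outer_le_of_V_le hS hΛ (hpos t ht) (hbar t ht) i
  · intro s hs hVs
    have hsI : s ∈ Icc 0 T' := ⟨hs.1, hs.2.le⟩
    have hmem : x s ∈ posClass R x₀ := by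
      refine ⟨hpos s hsI, ?_⟩
      have := class_invariant hcont hder s hsI
      rwa [hx0] at this
    have hup : ∀ i, x s i ≤ Real.exp (Λ * (1 + η)) := by
      intro i
      have e1 := outer_le_of_V_le hS hΛ (hpos s hsI) hVs.le i
      refine e1.trans (hgap.trans (Real.exp_le_exp.mpr ?_))
      nlinarith
    obtain ⟨hc, hne⟩ := hcomp (x s) hmem hup hVs.ge
    exact dot_neg hWR hκ₁ hT (hk s) (hpos s hsI) hc hne

end Vale.Agent.Lib.P072
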