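import Mathlib
import Vale.Agent.Lib.P072.Bounded

/-!
The vertex constraints.
-/

open Set Filter Topology

namespace Vale.Agent.Lib.P072

variable {d : ℕ}

/-- First coordinate of the intersection point of the lines `x i = 0`, `x k = 0`. -/
noncomputable def vz₁ (c a b : Fin d → ℝ) (i k : Fin d) : ℝ :=
  (- c i * b k + c k * b i) / dt a b i k

/-- Second coordinate of the intersection point of the lines `x i = 0`, `x k = 0`. -/
noncomputable def vz₂ (c a b : Fin d → ℝ) (i k : Fin d) : ℝ :=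
  (- a i * c k + a k * c i) / dt a b i k

/-- The species values at the intersection point. -/
noncomputable def wv (c a b : Fin d → ℝ) (i k j : Fin d) : ℝ :=
  c j + vz₁ c a b i k * a j + vz₂ c a b i k * b j

lemma wv_left {c a b : Fin d → ℝ} {i k : Fin d} (h : dt a b i k ≠ 0) : wv c a b i k i = 0 := by
  unfold wv vz₁ vz₂
  rw [div_mul_eq_mul_div, div_mul_eq_mul_div, add_assoc, ← add_div, add_div' _ _ _ h, div_eq_zero_iff]
  left
  unfold dt
  ring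

lemma wv_right {c a b : Fin d → ℝ} {i k : Fin d} (h : dt a b i k ≠ 0) : wv c a b i k k = 0 := by
  unfold wv vz₁ vz₂
  rw [div_mul_eq_mul_div, div_mul_eq_mul_div, add_assoc, ← add_div, add_div' _ _ _ h, div_eq_zero_iff]
  left
  unfold dt
  ring

/-- The pair `i, k` defines a vertex of the closed polygon. -/
def IsVtx (c a b : Fin d → ℝ) (i k : Fin d) : Prop := dt a b i k ≠ 0 ∧ ∀ j, 0 ≤ wv c a b i k j

/-- The species vanishing at the intersection point. -/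
noncomputable def Jv (c a b : Fin d → ℝ) (i k : Fin d) : Finset (Fin d) :=
  by classical exact Finset.univ.filter (fun j => wv c a b i k j = 0)

lemma mem_Jv {c a b : Fin d → ℝ} {i k j : Fin d} : j ∈ Jv c a b i k ↔ wv c a b i k j = 0 := by
  unfold Jv
  simp

/-- Vertex level. -/
noncomputable def kap (d : ℕ) (B : ℝ) : ℝ := ((d : ℝ) + 1) * (B + 1)

/-- Vertex level. -/
noncomputable def CV (d : ℕ) (B Λ : ℝ) : ℝ := - (kap d B * Λ * Real.exp (-Λ))

variable {R₀ : ℕ} {σ : ℝ → ℝ} {ε B : ℝ}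

lemma kap_pos (hB : 0 ≤ B) : 0 < kap d B := by
  unfold kap
  positivity

/-- If the vertex value is below its level then a vanishing species is large. -/
lemma vertex_exists_large (h : Stc R₀ σ ε B) {Λ : ℝ} (hΛ : 0 < Λ) (J : Finset (Fin d))
    {x : Fin d → ℝ} (hx : ∀ i, 0 < x i) (hV : (vertexL h hΛ J).V x ≤ CV d B Λ) :
    ∃ j ∈ J, Real.exp (-Λ) < x j := by
  by_contra hcon
  push Not at hcon
  rw [vertexL_V] at hV
  have hB := h.hB
  have h1 : ∑ j ∈ J, dP σ Λ (x j) ≤ ∑ _j ∈ J, Λ * B * Real.exp (-Λ) := by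
    apply Finset.sum_le_sum
    intro j hj
    refine (dP_le h.cont hΛ hB h.low (hx j).le).trans ?_
    exact mul_le_mul_of_nonneg_left (hcon j hj) (by positivity)
  rw [Finset.sum_const, nsmul_eq_mul] at h1
  have hcard : (J.card : ℝ) ≤ d := by
    have : J.card ≤ Fintype.card (Fin d) := Finset.card_le_univ J
    rw [Fintype.card_fin] at this
    exact_mod_cast this
  have hE : 0 < Λ * Real.exp (-Λ) := mul_pos hΛ (Real.exp_pos _)
  unfold CV kap at hV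
  have h2 : (J.card : ℝ) * (Λ * B * Real.exp (-Λ)) ≤ d * B * (Λ * Real.exp (-Λ)) := by
    have : (J.card : ℝ) * B * (Λ * Real.exp (-Λ)) ≤ d * B * (Λ * Real.exp (-Λ)) := by
      apply mul_le_mul_of_nonneg_right _ hE.le
      exact mul_le_mul_of_nonneg_right hcard hB
    linarith [this, mul_comm (J.card : ℝ) (Λ * B * Real.exp (-Λ))]
  have hd : (0 : ℝ) ≤ d := Nat.cast_nonneg d
  have h3 : ((d : ℝ) + 1) * (B + 1) * Λ * Real.exp (-Λ)
      = (d * B + (d + B + 1)) * (Λ * Real.exp (-Λ)) := by ring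
  rw [h3] at hV
  have h4 : 0 < (d + B + 1) * (Λ * Real.exp (-Λ)) := by positivity
  nlinarith

/-- If the vertex value is above its level then all the vanishing species are small. -/
lemma vertex_small (h : Stc R₀ σ ε B) {Λ : ℝ} (hΛ : 0 < Λ) (J : Finset (Fin d))
    (hκ : kap d B < Real.exp (ε * Λ))
    {x : Fin d → ℝ} (hx : ∀ i, 0 < x i) (hV : CV d B Λ ≤ (vertexL h hΛ J).V x)
    {j : Fin d} (hj : j ∈ J) : x j ≤ kap d B * Real.exp (-Λ) := by
  rw [vertexL_V] at hV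
  have hB := h.hB
  have hnn : ∀ l ∈ J, 0 ≤ dP σ Λ (x l) := fun l _ => dP_nonneg hΛ (hx l).le
  have h1 : dP σ Λ (x j) ≤ ∑ l ∈ J, dP σ Λ (x l) := Finset.single_le_sum hnn hj
  have h2 : dP σ Λ (x j) ≤ kap d B * Λ * Real.exp (-Λ) := by
    unfold CV at hV
    linarith
  have hs₀ : Real.exp (-Λ * (1 - ε)) = Real.exp (ε * Λ) * Real.exp (-Λ) := by
    rw [← Real.exp_add]
    congr 1
    ring
  have hexp := Real.exp_pos (-Λ)
  have hlt : kap d B * Real.exp (-Λ) < Real.exp (-Λ * (1 - ε)) := by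
    rw [hs₀]
    exact mul_lt_mul_of_pos_right hκ hexp
  by_cases hjs : x j ≤ Real.exp (-Λ * (1 - ε))
  · have h3 := dP_ge h.cont h.mono hΛ hB h.low h.sigma_neg1 (hx j).le hjs
    have h4 : Λ * x j ≤ Λ * (kap d B * Real.exp (-Λ)) := by
      refine h3.trans (h2.trans (le_of_eq ?_))
      ring
    exact le_of_mul_le_mul_left h4 hΛ
  · exfalso
    push Not at hjs
    have h3 := dP_ge h.cont h.mono hΛ hB h.low h.sigma_neg1 (s := Real.exp (-Λ * (1 - ε)))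
      (Real.exp_pos _).le le_rfl
    have h4 := dP_mono h.cont hΛ hB h.low hjs.le (σ := σ) (Λ := Λ)
    have h5 : Λ * Real.exp (-Λ * (1 - ε)) ≤ Λ * (kap d B * Real.exp (-Λ)) := by
      refine h3.trans (h4.trans (h2.trans (le_of_eq ?_)))
      ring
    have := le_of_mul_le_mul_left h5 hΛ
    linarith

/-- Every positive point is in the vertex region for large `Λ`. -/
lemma vertex_exhaust (h : Stc R₀ σ ε B) {Λ : ℝ} (hΛ : 0 < Λ) (J : Finset (Fin d))
    (hκ : kap d B < Real.exp (ε * Λ))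
    {x : Fin d → ℝ} (hx : ∀ i, 0 < x i) {j : Fin d} (hj : j ∈ J)
    (hjs : kap d B * Real.exp (-Λ) ≤ x j) : (vertexL h hΛ J).V x ≤ CV d B Λ := by
  rw [vertexL_V]
  have hB := h.hB
  have hnn : ∀ l ∈ J, 0 ≤ dP σ Λ (x l) := fun l _ => dP_nonneg hΛ (hx l).le
  have h1 : dP σ Λ (x j) ≤ ∑ l ∈ J, dP σ Λ (x l) := Finset.single_le_sum hnn hj
  have hs₀ : Real.exp (-Λ * (1 - ε)) = Real.exp (ε * Λ) * Real.exp (-Λ) := by
    rw [← Real.exp_add]
    congr 1
    ring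
  have hexp := Real.exp_pos (-Λ)
  have hlt : kap d B * Real.exp (-Λ) ≤ Real.exp (-Λ * (1 - ε)) := by
    rw [hs₀]
    exact (mul_lt_mul_of_pos_right hκ hexp).le
  have hpos : 0 ≤ kap d B * Real.exp (-Λ) := (mul_pos (kap_pos hB) hexp).le
  have h3 := dP_ge h.cont h.mono hΛ hB h.low h.sigma_neg1 hpos hlt
  have h4 := dP_mono h.cont hΛ hB h.low hjs (σ := σ) (Λ := Λ)
  unfold CV
  have e : kap d B * Λ * Real.exp (-Λ) = Λ * (kap d B * Real.exp (-Λ)) := by ring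
  rw [e]
  linarith

lemma vertexL_cov_mem (h : Stc R₀ σ ε B) {Λ : ℝ} (hΛ : 0 < Λ) {J : Finset (Fin d)}
    (x : Fin d → ℝ) {i : Fin d} (hi : i ∈ J) :
    (vertexL h hΛ J).cov x i = - hPot σ Λ (x i) := by
  unfold Lyap.cov vertexL
  simp [hi]

lemma vertexL_cov_not_mem (h : Stc R₀ σ ε B) {Λ : ℝ} (hΛ : 0 < Λ) {J : Finset (Fin d)}
    (x : Fin d → ℝ) {i : Fin d} (hi : i ∉ J) :
    (vertexL h hΛ J).cov x i = 0 := by
  unfold Lyap.cov vertexL
  simp [hi]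

/-- On the vanishing species the covector is the staircase, when they are below `1`. -/
lemma vertexL_cov_eq (h : Stc R₀ σ ε B) {Λ : ℝ} (hΛ : 0 < Λ) {J : Finset (Fin d)}
    {x : Fin d → ℝ} {i : Fin d} (hi : i ∈ J) (hxi : 0 < x i) (hxi1 : x i ≤ 1) :
    (vertexL h hΛ J).cov x i = Λ * σ (Real.log (x i) / Λ) := by
  rw [vertexL_cov_mem h hΛ x hi]
  unfold hPot
  have hu0 : Real.log (x i) / Λ ≤ 0 :=
    div_nonpos_of_nonpos_of_nonneg (Real.log_nonpos hxi.le hxi1) hΛ.le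
  have hs0 : σ (Real.log (x i) / Λ) ≤ 0 := by
    have := h.mono hu0
    rwa [h.sigma0] at this
  rw [min_eq_left hs0]
  ring

/-- Nondegeneracy at a vertex. -/
lemma vertex_nondeg (h : Stc R₀ σ ε B) {Λ : ℝ} (hΛ : 0 < Λ) {J : Finset (Fin d)}
    {x v : Fin d → ℝ} (hx : ∀ i, 0 < x i) (hv : ∀ i ∈ J, v i = x i) {j₀ : Fin d} (hj₀ : j₀ ∈ J)
    (hρ : |Real.log (x j₀) / Λ - (-1)| ≤ ε) (hj₀1 : x j₀ ≤ 1) :
    ∑ i, (vertexL h hΛ J).cov x i * v i < 0 := by
  classical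
  have hle : ∀ i ∈ Finset.univ, (vertexL h hΛ J).cov x i * v i ≤ (fun _ => (0 : ℝ)) i := by
    intro i _
    by_cases hi : i ∈ J
    · rw [vertexL_cov_mem h hΛ x hi, hv i hi]
      have := hPot_nonneg (σ := σ) hΛ (x i)
      have := hx i
      simp only
      nlinarith
    · rw [vertexL_cov_not_mem h hΛ x hi]
      simp
  have hlt : ∃ i ∈ Finset.univ, (vertexL h hΛ J).cov x i * v i < (fun _ => (0 : ℝ)) i := by
    refine ⟨j₀, Finset.mem_univ _, ?_⟩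
    rw [vertexL_cov_eq h hΛ hj₀ (hx j₀) hj₀1, hv j₀ hj₀, h.at_neg_one hρ]
    have := hx j₀
    simp only
    nlinarith
  have := Finset.sum_lt_sum hle hlt
  simpa using this

/-- Bound for the species not vanishing at the vertex. -/
lemma vertex_far {c a b x : Fin d → ℝ} {C z₁ z₂ : ℝ} {i k : Fin d}
    (hC : ∀ i k j, dt a b i k ≠ 0 → ∀ z₁ z₂ : ℝ,
      |z₁ * a j + z₂ * b j| ≤ C * (|z₁ * a i + z₂ * b i| + |z₁ * a k + z₂ * b k|))
    (hC1 : 1 ≤ C) (hdt : dt a b i k ≠ 0)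
    (hz : ∀ j, x j = c j + z₁ * a j + z₂ * b j) {m : ℝ}
    (hi : |x i| ≤ m) (hk : |x k| ≤ m) (l : Fin d) :
    |x l - wv c a b i k l| ≤ 2 * C * m := by
  set ζ₁ := z₁ - vz₁ c a b i k with hζ₁
  set ζ₂ := z₂ - vz₂ c a b i k with hζ₂
  have hrep : ∀ j, x j = wv c a b i k j + ζ₁ * a j + ζ₂ * b j := by
    intro j
    rw [hz j, hζ₁, hζ₂]
    unfold wv
    ring
  have hxi : x i = ζ₁ * a i + ζ₂ * b i := by
    rw [hrep i, wv_left hdt]
    ring
  have hxk : x k = ζ₁ * a k + ζ₂ * b k := by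
    rw [hrep k, wv_right hdt]
    ring
  have h1 := hC i k l hdt ζ₁ ζ₂
  rw [← hxi, ← hxk] at h1
  have e : x l - wv c a b i k l = ζ₁ * a l + ζ₂ * b l := by
    rw [hrep l]
    ring
  rw [e]
  refine h1.trans ?_
  have : C * (|x i| + |x k|) ≤ C * (m + m) :=
    mul_le_mul_of_nonneg_left (add_le_add hi hk) (by linarith)
  linarith

/-- The compatibility at a vertex, with all the constants explicit. -/
lemma vertex_compat {R : Finset (Cplx d × Cplx d)} {a b : Fin d → ℝ} (hg : Geo R a b)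
    (h : Stc (bigR R) σ ε B) {T K₁ Λ ρ l : ℝ} (hT : 0 ≤ T) (hK₁ : 0 ≤ K₁) (hΛ : 0 < Λ)
    {J I₁ I₂ : Finset (Fin d)} {x : Fin d → ℝ} (hdisj : Disjoint I₁ I₂) (hunion : I₁ ∪ I₂ = J)
    (h1 : ∀ i ∈ I₁, |Real.log (x i) - ρ * Λ| ≤ K₁)
    (h2 : ∀ i ∈ I₂, |Real.log (x i) - l| ≤ K₁)
    (h0 : ∀ i, i ∉ J → |Real.log (x i)| ≤ K₁)
    (hsgn : ∀ z₁' z₂' : ℝ, (∀ i ∈ I₂, 0 ≤ z₁' * a i + z₂' * b i) ∨
          (∀ i ∈ I₂, z₁' * a i + z₂' * b i ≤ 0))
    (hq : ∀ i ∈ J, (vertexL h hΛ J).cov x i = Λ * σ (Real.log (x i) / Λ))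
    (hsmall : (T + ((bigR R : ℝ) + 1) * K₁) / Λ + (bigR R : ℝ) * |ρ - (-1)| ≤ ε) :
    Compat R x ((vertexL h hΛ J).cov x) T := by
  intro y y'' hr hlt
  refine star h.hR₀ h.mono h.plateau h.hε (by linarith [h.hε']) (-1) (Or.inr rfl) Λ K₁ T ρ l hΛ
    hK₁ hT (fun i => Real.log (x i)) ((vertexL h hΛ J).cov x) (dif y y'') I₁ I₂ hdisj
    (sum_abs_dif_le hr) h1 h2 ?_ ?_ ?_ ?_ ?_ hlt
  · intro i hi
    rw [hunion, Finset.mem_compl] at hi
    exact h0 i hi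
  · intro i hi
    rw [hunion] at hi
    exact hq i hi
  · intro i hi
    rw [hunion, Finset.mem_compl] at hi
    exact vertexL_cov_not_mem h hΛ x hi
  · obtain ⟨z₁', z₂', hz'⟩ := hg.span _ (rch_dif_mem hr)
    rcases hsgn z₁' z₂' with hs | hs
    · left
      intro i hi
      have := hs i hi
      rw [← hz' i] at this
      exact_mod_cast this
    · right
      intro i hi
      have := hs i hi
      rw [← hz' i] at this
      exact_mod_cast this
  · push_cast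
    exact hsmall

/-- Compatibility and nondegeneracy at one point near the vertex. -/
lemma vertex_point {R : Finset (Cplx d × Cplx d)} {a b c : Fin d → ℝ} (hg : Geo R a b)
    (h : Stc (bigR R) σ ε B) {T : ℝ} (hT : 0 ≤ T) {i k : Fin d} (hdt : dt a b i k ≠ 0)
    {K₀ K₂ C w₀ Λ η : ℝ} (hK₀ : 0 ≤ K₀) (hK₂nn : 0 ≤ K₂) (hC1 : 1 ≤ C) (hΛ : 0 < Λ)
    (hcl : ∀ (J : Finset (Fin d)) (x : Fin d → ℝ) (z₁ z₂ : ℝ),
      (∀ j ∈ J, x j = z₁ * a j + z₂ * b j) → (∀ j ∈ J, 0 < x j) → ∀ j₀ ∈ J, (∀ j ∈ J, x j ≤ x j₀) →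
      ∃ (I₁ I₂ : Finset (Fin d)) (l : ℝ), Disjoint I₁ I₂ ∧ I₁ ∪ I₂ = J ∧
        (∀ i ∈ I₁, |Real.log (x i) - Real.log (x j₀)| ≤ K₀) ∧
        (∀ i ∈ I₂, |Real.log (x i) - l| ≤ K₀) ∧
        ∀ z₁' z₂' : ℝ, (∀ i ∈ I₂, 0 ≤ z₁' * a i + z₂' * b i) ∨
          (∀ i ∈ I₂, z₁' * a i + z₂' * b i ≤ 0))
    (hC : ∀ i k j, dt a b i k ≠ 0 → ∀ z₁ z₂ : ℝ,
      |z₁ * a j + z₂ * b j| ≤ C * (|z₁ * a i + z₂ * b i| + |z₁ * a k + z₂ * b k|))
    (hwJ : ∀ l, l ∉ Jv c a b i k → w₀ ≤ wv c a b i k l)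
    (hw₀ : 0 < w₀)
    (hK₂l : ∀ l, |Real.log (wv c a b i k l / 2)| + |Real.log (3 * wv c a b i k l / 2)| ≤ K₂)
    (hRη : (bigR R : ℝ) * η = ε / 2) (hηle : η ≤ ε)
    (hκΛ : kap d B < Real.exp (ε * Λ)) (hκ1 : kap d B * Real.exp (-Λ) ≤ 1)
    (hfarsmall : 2 * C * (kap d B * Real.exp (-Λ)) ≤ w₀ / 2)
    (hsmall0 : (T + ((bigR R : ℝ) + 1) * (K₀ + K₂)) / Λ ≤ ε / 2)
    (hη2 : |Real.log (kap d B)| ≤ η * Λ)
    {x : Fin d → ℝ} (hx : x ∈ posClass R c)
    (hlarge : ∃ j ∈ Jv c a b i k, Real.exp (-Λ * (1 + η)) ≤ x j)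
    (hV : CV d B Λ ≤ (vertexL h hΛ (Jv c a b i k)).V x) :
    Compat R x ((vertexL h hΛ (Jv c a b i k)).cov x) T ∧
      ∃ v ∈ stoichSubspace R, ∑ l, (vertexL h hΛ (Jv c a b i k)).cov x l * v l ≠ 0 := by
  classical
  set J := Jv c a b i k with hJ
  have hiJ : i ∈ J := mem_Jv.mpr (wv_left hdt)
  have hkJ : k ∈ J := mem_Jv.mpr (wv_right hdt)
  have hκpos : 0 < kap d B := kap_pos h.hB
  have hpos := hx.1
  obtain ⟨z₁, z₂, hz⟩ := hg.param hx
  obtain ⟨j₀, hj₀, hj₀max⟩ := Finset.exists_max_image J x ⟨i, hiJ⟩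
  set m := x j₀ with hm
  have hmpos : 0 < m := hpos j₀
  have hsm : m ≤ kap d B * Real.exp (-Λ) := vertex_small h hΛ J hκΛ hpos hV hj₀
  have hm1 : m ≤ 1 := hsm.trans hκ1
  obtain ⟨j₂, hj₂, hj₂l⟩ := hlarge
  have hlogm1 : -Λ * (1 + η) ≤ Real.log m := by
    rw [Real.le_log_iff_exp_le hmpos]
    exact hj₂l.trans (hj₀max j₂ hj₂)
  have hlogm2 : Real.log m ≤ Real.log (kap d B) - Λ := by
    have := Real.log_le_log hmpos hsm
    rwa [Real.log_mul hκpos.ne' (Real.exp_pos _).ne', Real.log_exp, ← sub_eq_add_neg] at this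
  set ρ := Real.log m / Λ with hρ
  have hρΛ : ρ * Λ = Real.log m := by
    rw [hρ]
    field_simp
  have hρabs : |ρ - (-1)| ≤ η := by
    rw [abs_le]
    constructor
    · rw [hρ, le_sub_iff_add_le, le_div_iff₀ hΛ]
      linarith
    · rw [hρ, sub_le_iff_le_add, div_le_iff₀ hΛ]
      linarith [le_abs_self (Real.log (kap d B))]
  set ζ₁ := z₁ - vz₁ c a b i k with hζ₁
  set ζ₂ := z₂ - vz₂ c a b i k with hζ₂
  have hrep : ∀ j, x j = wv c a b i k j + ζ₁ * a j + ζ₂ * b j := by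
    intro j
    rw [hz j, hζ₁, hζ₂]
    unfold wv
    ring
  have hxJ : ∀ j ∈ J, x j = ζ₁ * a j + ζ₂ * b j := by
    intro j hj
    rw [hrep j, mem_Jv.mp hj]
    ring
  obtain ⟨I₁, I₂, l, hdisj, hunion, h1, h2, hsgn⟩ := hcl J x ζ₁ ζ₂ hxJ (fun j _ => hpos j) j₀ hj₀
    hj₀max
  constructor
  · apply vertex_compat hg h hT (add_nonneg hK₀ hK₂nn) hΛ hdisj hunion (ρ := ρ) (l := l)
    · intro i' hi'
      rw [hρΛ]
      have := h1 i' hi'
      linarith
    · intro i' hi'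
      have := h2 i' hi'
      linarith
    · intro i' hi'
      -- the species off J are close to their value at the vertex
      have hfar := vertex_far (c := c) (z₁ := z₁) (z₂ := z₂) hC hC1 hdt hz
        (m := m) (by rw [abs_of_pos (hpos i)]; exact hj₀max i hiJ)
        (by rw [abs_of_pos (hpos k)]; exact hj₀max k hkJ) i'
      have hwi := hwJ i' hi'
      have hfar2 : 2 * C * m ≤ wv c a b i k i' / 2 := by
        have : 2 * C * m ≤ 2 * C * (kap d B * Real.exp (-Λ)) :=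
          mul_le_mul_of_nonneg_left hsm (by linarith)
        linarith
      have hwpos : 0 < wv c a b i k i' := by linarith
      have e1 : wv c a b i k i' / 2 ≤ x i' := by
        have := (abs_le.mp hfar).1
        linarith
      have e2 : x i' ≤ 3 * wv c a b i k i' / 2 := by
        have := (abs_le.mp hfar).2
        linarith
      have e3 := abs_log_le_of_bounds (by positivity) e1 e2
      have e4 := hK₂l i'
      linarith
    · exact hsgn
    · intro i' hi'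
      exact vertexL_cov_eq h hΛ hi' (hpos i') ((hj₀max i' hi').trans hm1)
    · have : (bigR R : ℝ) * |ρ - (-1)| ≤ (bigR R : ℝ) * η :=
        mul_le_mul_of_nonneg_left hρabs (by positivity)
      linarith
  · refine ⟨ζ₁ • a + ζ₂ • b, hg.mem ζ₁ ζ₂, ?_⟩
    apply ne_of_lt
    apply vertex_nondeg h hΛ hpos _ hj₀ _ hm1
    · intro i' hi'
      simp only [Pi.add_apply, Pi.smul_apply, smul_eq_mul]
      exact (hxJ i' hi').symm
    · exact hρabs.trans hηle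

/-- The largeness conditions on the scale `Λ` hold eventually. -/
lemma vertex_constants {κ C w₀ ε T' η : ℝ} (hκ : 0 < κ) (hC1 : 1 ≤ C) (hw₀ : 0 < w₀)
    (hε : 0 < ε) (hε' : ε ≤ 1 / 4) (hT' : 0 ≤ T') (hη : 0 < η) :
    ∃ Λ₀ : ℝ, 0 < Λ₀ ∧ ∀ Λ, Λ₀ ≤ Λ → κ < Real.exp (ε * Λ) ∧ κ * Real.exp (-Λ) ≤ 1 ∧
      2 * C * (κ * Real.exp (-Λ)) ≤ w₀ / 2 ∧ T' / Λ ≤ ε / 2 ∧ |Real.log κ| ≤ η * Λ := by
  have hA₁ : 0 ≤ T' / (ε / 2) := by positivity
  have hA₂ : 0 ≤ |Real.log κ| / η := by positivity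
  have hA₃ : 0 ≤ (|Real.log κ| + 1) / ε := by positivity
  have hA₄ : 0 ≤ |Real.log (4 * C * κ / w₀)| := abs_nonneg _
  refine ⟨1 + T' / (ε / 2) + |Real.log κ| / η + (|Real.log κ| + 1) / ε
    + |Real.log (4 * C * κ / w₀)|, by positivity, ?_⟩
  intro Λ hΛ₀
  have hΛ : 0 < Λ := by linarith
  have hκΛ : κ < Real.exp (ε * Λ) := by
    have h1 : |Real.log κ| + 1 ≤ ε * Λ := by
      have e : ε * ((|Real.log κ| + 1) / ε) = |Real.log κ| + 1 := by field_simp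
      rw [← e]
      apply mul_le_mul_of_nonneg_left _ hε.le
      linarith
    rw [← Real.log_lt_iff_lt_exp hκ]
    linarith [le_abs_self (Real.log κ)]
  have hexp₁ : Real.exp (ε * Λ) ≤ Real.exp Λ := Real.exp_le_exp.mpr (by nlinarith)
  have hexpneg : Real.exp (-Λ) * Real.exp Λ = 1 := by
    rw [← Real.exp_add]
    simp
  have hexppos := Real.exp_pos (-Λ)
  refine ⟨hκΛ, ?_, ?_, ?_, ?_⟩
  · have h1 : κ ≤ Real.exp Λ := by linarith
    have h2 : κ * Real.exp (-Λ) ≤ Real.exp Λ * Real.exp (-Λ) :=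
      mul_le_mul_of_nonneg_right h1 hexppos.le
    linarith [mul_comm (Real.exp Λ) (Real.exp (-Λ))]
  · have h1 : 4 * C * κ / w₀ ≤ Real.exp Λ := by
      rw [← Real.log_le_iff_le_exp (by positivity)]
      linarith [le_abs_self (Real.log (4 * C * κ / w₀))]
    rw [div_le_iff₀ hw₀] at h1
    have h3 : (4 * C * κ) * Real.exp (-Λ) ≤ (Real.exp Λ * w₀) * Real.exp (-Λ) :=
      mul_le_mul_of_nonneg_right h1 hexppos.le
    have h4 : (Real.exp Λ * w₀) * Real.exp (-Λ) = w₀ := by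
      calc (Real.exp Λ * w₀) * Real.exp (-Λ) = (Real.exp (-Λ) * Real.exp Λ) * w₀ := by ring
        _ = w₀ := by rw [hexpneg, one_mul]
    have h5 : 2 * C * (κ * Real.exp (-Λ)) = (4 * C * κ) * Real.exp (-Λ) / 2 := by ring
    rw [h5]
    linarith
  · rw [div_le_iff₀ hΛ]
    have e : T' = (T' / (ε / 2)) * (ε / 2) := by field_simp
    have h1 : T' / (ε / 2) ≤ Λ := by linarith
    calc T' = (T' / (ε / 2)) * (ε / 2) := e
      _ ≤ Λ * (ε / 2) := mul_le_mul_of_nonneg_right h1 (by positivity)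
      _ = ε / 2 * Λ := by ring
  · have e : η * (|Real.log κ| / η) = |Real.log κ| := by field_simp
    rw [← e]
    apply mul_le_mul_of_nonneg_left _ hη.le
    linarith

/-- The main vertex estimate. -/
theorem vertex_main {R : Finset (Cplx d × Cplx d)} {a b c : Fin d → ℝ} (hg : Geo R a b)
    (h : Stc (bigR R) σ ε B) {T : ℝ} (hT : 0 ≤ T) {i k : Fin d}
    (hv : IsVtx c a b i k) :
    ∃ Λ₀ η : ℝ, 0 < Λ₀ ∧ 0 < η ∧ ∀ Λ (_ : Λ₀ ≤ Λ) (hΛ : 0 < Λ),
      kap d B < Real.exp (ε * Λ) ∧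
      ∀ x ∈ posClass R c, (∃ j ∈ Jv c a b i k, Real.exp (-Λ * (1 + η)) ≤ x j) →
        CV d B Λ ≤ (vertexL h hΛ (Jv c a b i k)).V x →
        Compat R x ((vertexL h hΛ (Jv c a b i k)).cov x) T ∧
          ∃ v ∈ stoichSubspace R, ∑ l, (vertexL h hΛ (Jv c a b i k)).cov x l * v l ≠ 0 := by
  classical
  obtain ⟨hdt, hw⟩ := hv
  obtain ⟨K₀, hK₀, hcl⟩ := vertex_cluster a b
  obtain ⟨C, hC1, hC⟩ := cramer_bound a b
  -- positive lower bound for the values off J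
  obtain ⟨w₀, hw₀, hw₀le⟩ := exists_pos_le_forall
    (fun l => if wv c a b i k l = 0 then 1 else wv c a b i k l) (fun l => by
      split_ifs with hl
      · exact one_pos
      · exact lt_of_le_of_ne (hw l) (Ne.symm hl))
  have hwJ : ∀ l, l ∉ Jv c a b i k → w₀ ≤ wv c a b i k l := by
    intro l hl
    have h1 : wv c a b i k l ≠ 0 := fun h0 => hl (mem_Jv.mpr h0)
    have := hw₀le l
    simpa [h1] using this
  set K₂ : ℝ := ∑ l, (|Real.log (wv c a b i k l / 2)| + |Real.log (3 * wv c a b i k l / 2)|) with hK₂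
  have hK₂nn : 0 ≤ K₂ := Finset.sum_nonneg (fun l _ => by positivity)
  have hK₂l : ∀ l, |Real.log (wv c a b i k l / 2)| + |Real.log (3 * wv c a b i k l / 2)| ≤ K₂ :=
    fun l => Finset.single_le_sum
      (f := fun l => |Real.log (wv c a b i k l / 2)| + |Real.log (3 * wv c a b i k l / 2)|)
      (fun l _ => by positivity) (Finset.mem_univ l)
  have hR := h.hR₀
  have hRreal : (1 : ℝ) ≤ bigR R := by exact_mod_cast hR
  have hε := h.hε
  have hε' := h.hε'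
  have hηpos : 0 < ε / (2 * (bigR R : ℝ)) := by positivity
  have hRη : (bigR R : ℝ) * (ε / (2 * (bigR R : ℝ))) = ε / 2 := by
    field_simp
  have hηle : ε / (2 * (bigR R : ℝ)) ≤ ε := by
    have : (ε / (2 * (bigR R : ℝ))) * 1 ≤ (ε / (2 * (bigR R : ℝ))) * (bigR R : ℝ) :=
      mul_le_mul_of_nonneg_left hRreal hηpos.le
    nlinarith
  have hB := h.hB
  have hT' : 0 ≤ T + ((bigR R : ℝ) + 1) * (K₀ + K₂) := by positivity
  obtain ⟨Λ₀, hΛ₀, hcon⟩ := vertex_constants (kap_pos (d := d) hB) hC1 hw₀ hε hε' hT' hηpos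
  refine ⟨Λ₀, ε / (2 * (bigR R : ℝ)), hΛ₀, hηpos, ?_⟩
  intro Λ hΛ₀Λ hΛ
  obtain ⟨c1, c2, c3, c4, c5⟩ := hcon Λ hΛ₀Λ
  refine ⟨c1, ?_⟩
  intro x hx hlarge hV
  exact vertex_point hg h hT hdt hK₀ hK₂nn hC1 hΛ hcl hC hwJ hw₀ hK₂l hRη hηle c1 c2 c3 c4 c5
    hx hlarge hV

end Vale.Agent.Lib.P072
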