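import Mathlib
import Vale.Agent.Lib.P072.Vertex

/-!
The line constraints: persistence.
-/

open Set Filter Topology

namespace Vale.Agent.Lib.P072

variable {d : ℕ}

/-- The vertex constraints at level `A`. -/
def VLow (c a b : Fin d → ℝ) (A : ℝ) (x : Fin d → ℝ) : Prop :=
  ∀ i k, IsVtx c a b i k → ∃ j ∈ Jv c a b i k, Real.exp (-A) ≤ x j

lemma lineL_cov (i₀ : Fin d) (x : Fin d → ℝ) (i : Fin d) :
    (lineL i₀).cov x i = if i = i₀ then -1 else 0 := by
  unfold Lyap.cov lineL
  by_cases h : i = i₀ <;> simp [h]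

lemma lineL_pair (i₀ : Fin d) (x v : Fin d → ℝ) :
    ∑ i, (lineL i₀).cov x i * v i = - v i₀ := by
  rw [Finset.sum_eq_single i₀]
  · rw [lineL_cov]
    simp
  · intro b _ hb
    rw [lineL_cov]
    simp [hb]
  · simp

/-- The alternatives for a species relative to the species `i₀`, in the parallel case. -/
lemma species_alt_parallel {R : Finset (Cplx d × Cplx d)} {a b c : Fin d → ℝ} (hg : Geo R a b)
    (hc : ∀ i, 0 < c i) {i₀ k : Fin d} (hN : NC a b i₀) (hdt : dt a b k i₀ = 0) :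
    (∃ β : ℝ, 0 < β ∧ a k = β * a i₀ ∧ b k = β * b i₀ ∧ c k = β * c i₀) ∨
      ∃ δ : ℝ, 0 < δ ∧ ∀ x ∈ posClass R c, x i₀ ≤ δ → δ ≤ x k := by
  obtain ⟨h1, h2⟩ := bet_spec hN hdt
  set β := bet a b i₀ k with hβ
  set w := c k - β * c i₀ with hw
  have hrep : ∀ x ∈ posClass R c, x k = w + β * x i₀ := by
    intro x hx
    obtain ⟨z₁, z₂, hz⟩ := hg.param hx
    rw [hz k, hz i₀, h1, h2, hw]
    ring
  rcases lt_trichotomy w 0 with hw0 | hw0 | hw0
  · -- impossible region
    right
    have hβabs : 0 < |β| + 1 := by positivity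
    refine ⟨-w / (2 * (|β| + 1)), by
      apply div_pos (by linarith) (by positivity), ?_⟩
    intro x hx hle
    exfalso
    have hk := hx.1 k
    have hi := hx.1 i₀
    rw [hrep x hx] at hk
    have e1 : β * x i₀ ≤ |β| * x i₀ :=
      mul_le_mul_of_nonneg_right (le_abs_self β) hi.le
    have e2 : x i₀ * (2 * (|β| + 1)) ≤ -w := by
      rwa [le_div_iff₀ (by positivity)] at hle
    nlinarith [abs_nonneg β]
  · left
    have hβpos : 0 < β := by
      have e1 : c k = β * c i₀ := by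
        rw [hw] at hw0
        linarith
      have e2 := hc k
      have e3 := hc i₀
      rw [e1] at e2
      by_contra hcon
      push Not at hcon
      nlinarith
    exact ⟨β, hβpos, h1, h2, by
      rw [hw] at hw0
      linarith⟩
  · right
    have hβabs : 0 < |β| + 1 := by positivity
    refine ⟨w / (2 * (|β| + 1)), by positivity, ?_⟩
    intro x hx hle
    have hi := hx.1 i₀
    rw [hrep x hx]
    have e1 : -(|β| * x i₀) ≤ β * x i₀ := by
      have := neg_abs_le β
      nlinarith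
    have e2 : x i₀ * (2 * (|β| + 1)) ≤ w := by
      rwa [le_div_iff₀ (by positivity)] at hle
    have e3 : w / (2 * (|β| + 1)) ≤ w / 2 := by
      apply div_le_div_of_nonneg_left hw0.le (by norm_num)
      nlinarith [abs_nonneg β]
    have e4 : |β| * x i₀ ≤ w / 2 := by
      nlinarith [abs_nonneg β]
    linarith

/-- The alternatives for a species relative to the species `i₀`, in the transversal case. -/
lemma species_alt_transversal {R : Finset (Cplx d × Cplx d)} {a b c : Fin d → ℝ} (hg : Geo R a b)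
    {i₀ k : Fin d} (hdt : dt a b k i₀ ≠ 0) (A : ℝ) :
    ∃ δ : ℝ, 0 < δ ∧ ∀ x ∈ posClass R c, VLow c a b A x → x i₀ ≤ δ → δ ≤ x k := by
  obtain ⟨C, hC1, hC⟩ := cramer_bound a b
  have hCpos : 0 < C := by linarith
  -- a positive number which is bounded by `2 C (x k + x i₀)` on the constraint set
  have key : ∃ η : ℝ, 0 < η ∧ ∀ x ∈ posClass R c, VLow c a b A x → η ≤ 2 * C * (x k + x i₀) := by
    by_cases hv : IsVtx c a b k i₀
    · refine ⟨Real.exp (-A), Real.exp_pos _, ?_⟩
      intro x hx hlow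
      obtain ⟨z₁, z₂, hz⟩ := hg.param hx
      obtain ⟨j, hj, hjl⟩ := hlow k i₀ hv
      have hk := hx.1 k
      have hi := hx.1 i₀
      have h1 := vertex_far (c := c) (z₁ := z₁) (z₂ := z₂) (x := x) (m := x k + x i₀) hC hC1 hdt hz
        (by rw [abs_of_pos hk]; linarith) (by rw [abs_of_pos hi]; linarith) j
      rw [mem_Jv.mp hj, sub_zero] at h1
      exact hjl.trans ((le_abs_self _).trans h1)
    · have : ∃ j, wv c a b k i₀ j < 0 := by
        by_contra hcon
        push Not at hcon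
        exact hv ⟨hdt, hcon⟩
      obtain ⟨j, hj⟩ := this
      refine ⟨- wv c a b k i₀ j, by linarith, ?_⟩
      intro x hx _
      obtain ⟨z₁, z₂, hz⟩ := hg.param hx
      have hk := hx.1 k
      have hi := hx.1 i₀
      have hjp := hx.1 j
      have h1 := vertex_far (c := c) (z₁ := z₁) (z₂ := z₂) (x := x) (m := x k + x i₀) hC hC1 hdt hz
        (by rw [abs_of_pos hk]; linarith) (by rw [abs_of_pos hi]; linarith) j
      have h2 := (abs_le.mp h1).2
      linarith
  obtain ⟨η, hη, hkey⟩ := key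
  refine ⟨η / (4 * C), by positivity, ?_⟩
  intro x hx hlow hle
  have h1 := hkey x hx hlow
  have e : 2 * C * (η / (4 * C)) = η / 2 := by
    field_simp
    ring
  have h2 : 2 * C * x i₀ ≤ 2 * C * (η / (4 * C)) := mul_le_mul_of_nonneg_left hle (by positivity)
  have h3 : 2 * C * x k ≥ η / 2 := by nlinarith
  have h4 : η / (4 * C) * (2 * C) = η / 2 := by
    field_simp
    ring
  have h5 : η / (4 * C) * (2 * C) ≤ x k * (2 * C) := by nlinarith
  exact le_of_mul_le_mul_right h5 (by positivity)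

/-- All the alternatives together. -/
lemma species_alt {R : Finset (Cplx d × Cplx d)} {a b c : Fin d → ℝ} (hg : Geo R a b)
    (hc : ∀ i, 0 < c i) {i₀ : Fin d} (hN : NC a b i₀) (A : ℝ) (k : Fin d) :
    (∃ β : ℝ, 0 < β ∧ a k = β * a i₀ ∧ b k = β * b i₀ ∧ c k = β * c i₀) ∨
      ∃ δ : ℝ, 0 < δ ∧ ∀ x ∈ posClass R c, VLow c a b A x → x i₀ ≤ δ → δ ≤ x k := by
  by_cases hdt : dt a b k i₀ = 0
  · rcases species_alt_parallel hg hc hN hdt with h | ⟨δ, hδ, h⟩
    · exact Or.inl h
    · exact Or.inr ⟨δ, hδ, fun x hx _ hle => h x hx hle⟩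
  · exact Or.inr (species_alt_transversal hg hdt A)

/-- Uniform form of the alternatives. -/
lemma species_alt_uniform {R : Finset (Cplx d × Cplx d)} {a b c : Fin d → ℝ} (hg : Geo R a b)
    (hc : ∀ i, 0 < c i) {i₀ : Fin d} (hN : NC a b i₀) (A : ℝ) :
    ∃ (δ₁ : ℝ) (β : Fin d → ℝ), 0 < δ₁ ∧ ∀ k,
      (0 < β k ∧ a k = β k * a i₀ ∧ b k = β k * b i₀ ∧ c k = β k * c i₀) ∨
      (∀ x ∈ posClass R c, VLow c a b A x → x i₀ ≤ δ₁ → δ₁ ≤ x k) := by
  classical
  have h1 : ∀ k, ∃ (δ β : ℝ), 0 < δ ∧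
      ((0 < β ∧ a k = β * a i₀ ∧ b k = β * b i₀ ∧ c k = β * c i₀) ∨
      (∀ x ∈ posClass R c, VLow c a b A x → x i₀ ≤ δ → δ ≤ x k)) := by
    intro k
    rcases species_alt hg hc hN A k with ⟨β, h⟩ | ⟨δ, hδ, h⟩
    · exact ⟨1, β, one_pos, Or.inl h⟩
    · exact ⟨δ, 1, hδ, Or.inr h⟩
  choose δ β hδ hspec using h1
  obtain ⟨δ₁, hδ₁, hle⟩ := exists_pos_le_forall δ hδ
  refine ⟨δ₁, β, hδ₁, fun k => ?_⟩
  rcases hspec k with h | h
  · exact Or.inl h
  · right
    intro x hx hlow hxi
    exact (hle k).trans (h x hx hlow (hxi.trans (hle k)))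

/-- Compatibility of the line covector. -/
lemma line_compat {R : Finset (Cplx d × Cplx d)} {a b c x : Fin d → ℝ} (hg : Geo R a b) {i₀ : Fin d}
    {T K₃ : ℝ} (hK₃ : 0 ≤ K₃) {β : Fin d → ℝ} (hx : x ∈ posClass R c)
    (hβ : ∀ k, (0 < β k ∧ a k = β k * a i₀ ∧ b k = β k * b i₀ ∧ c k = β k * c i₀ ∧
        |Real.log (β k)| ≤ K₃) ∨ |Real.log (x k)| ≤ K₃)
    (hsmall : Real.log (x i₀) ≤ - (T + (bigR R : ℝ) * K₃)) (hxneg : Real.log (x i₀) < 0) :
    Compat R x ((lineL i₀).cov x) T := by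
  intro y y'' hr hlt
  have hpair : ∑ i, ((dif y y'' i : ℤ) : ℝ) * (lineL i₀).cov x i = - ((dif y y'' i₀ : ℤ) : ℝ) := by
    have := lineL_pair i₀ x (fun i => ((dif y y'' i : ℤ) : ℝ))
    rw [← this]
    apply Finset.sum_congr rfl
    intro i _
    ring
  rw [hpair]
  by_contra hcon
  push Not at hcon
  have hri : ((dif y y'' i₀ : ℤ) : ℝ) < 0 := by linarith
  have hri1 : ((dif y y'' i₀ : ℤ) : ℝ) ≤ -1 := by
    have : dif y y'' i₀ < 0 := by exact_mod_cast hri
    have : dif y y'' i₀ ≤ -1 := by omega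
    exact_mod_cast this
  obtain ⟨z₁', z₂', hz'⟩ := hg.span _ (rch_dif_mem hr)
  obtain ⟨z₁, z₂, hz⟩ := hg.param hx
  set r : Fin d → ℝ := fun i => ((dif y y'' i : ℤ) : ℝ) with hrdef
  have hpos := hx.1
  -- termwise bound
  have hterm : ∀ k, 0 ≤ r k * Real.log (x k) + |r k| * K₃ := by
    intro k
    rcases hβ k with ⟨hb, h1, h2, h3, h4⟩ | h5
    · have hrk : r k = β k * r i₀ := by
        have e1 := hz' k
        have e2 := hz' i₀
        rw [h1, h2] at e1
        show ((dif y y'' k : ℤ) : ℝ) = β k * ((dif y y'' i₀ : ℤ) : ℝ)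
        rw [e1, e2]
        ring
      have hxk : x k = β k * x i₀ := by
        rw [hz k, hz i₀, h1, h2, h3]
        ring
      rw [hxk, Real.log_mul hb.ne' (hpos i₀).ne']
      have e1 : r k * (Real.log (β k) + Real.log (x i₀))
          = r k * Real.log (β k) + r k * Real.log (x i₀) := by ring
      rw [e1]
      have hrkneg : r k ≤ 0 := by
        rw [hrk]
        exact mul_nonpos_of_nonneg_of_nonpos hb.le hri.le
      have e2 : 0 ≤ r k * Real.log (x i₀) := mul_nonneg_of_nonpos_of_nonpos hrkneg hxneg.le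
      have e3 : |r k * Real.log (β k)| ≤ |r k| * K₃ := by
        rw [abs_mul]
        exact mul_le_mul_of_nonneg_left h4 (abs_nonneg _)
      have e4 := (abs_le.mp e3).1
      linarith
    · have e3 : |r k * Real.log (x k)| ≤ |r k| * K₃ := by
        rw [abs_mul]
        exact mul_le_mul_of_nonneg_left h5 (abs_nonneg _)
      have e4 := (abs_le.mp e3).1
      linarith
  have htop : - Real.log (x i₀) ≤ r i₀ * Real.log (x i₀) + |r i₀| * K₃ := by
    have e1 : 0 ≤ |r i₀| * K₃ := by positivity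
    have e2 : r i₀ ≤ -1 := hri1
    nlinarith
  have hsingle := Finset.single_le_sum (f := fun k => r k * Real.log (x k) + |r k| * K₃)
    (fun k _ => hterm k) (Finset.mem_univ i₀)
  rw [Finset.sum_add_distrib, ← Finset.sum_mul] at hsingle
  have habs : ∑ i, |r i| ≤ (bigR R : ℝ) := by
    have h1 : ∑ i, |r i| = ((∑ i, |dif y y'' i| : ℤ) : ℝ) := by
      rw [Int.cast_sum]
      apply Finset.sum_congr rfl
      intro i _
      simp [hrdef]
    rw [h1]
    exact_mod_cast sum_abs_dif_le hr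
  have h2 : (∑ i, |r i|) * K₃ ≤ (bigR R : ℝ) * K₃ := mul_le_mul_of_nonneg_right habs hK₃
  have h3 : ∑ i, r i * Real.log (x i) < T := hlt
  linarith

/-- The main line estimate. -/
theorem line_main {R : Finset (Cplx d × Cplx d)} {a b c : Fin d → ℝ} (hg : Geo R a b)
    (hc : ∀ i, 0 < c i) (T : ℝ) (i₀ : Fin d) (U A : ℝ) :
    ∃ δ : ℝ, 0 < δ ∧ ∀ x ∈ posClass R c, (∀ i, x i ≤ U) → VLow c a b A x → x i₀ ≤ δ →
      Compat R x ((lineL i₀).cov x) T ∧
        ∃ v ∈ stoichSubspace R, ∑ l, (lineL i₀).cov x l * v l ≠ 0 := by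
  classical
  by_cases hN : NC a b i₀
  · obtain ⟨δ₁, β, hδ₁, hspec⟩ := species_alt_uniform hg hc hN A
    set K₃ : ℝ := ∑ k, |Real.log (β k)| + |Real.log δ₁| + |Real.log U| with hK₃
    have hK₃nn : 0 ≤ K₃ := by
      have : 0 ≤ ∑ k, |Real.log (β k)| := Finset.sum_nonneg (fun _ _ => abs_nonneg _)
      positivity
    set Tt : ℝ := |T| + (bigR R : ℝ) * K₃ + 1 with hTt
    have hTtpos : 0 < Tt := by positivity
    refine ⟨min δ₁ (Real.exp (-Tt)), lt_min hδ₁ (Real.exp_pos _), ?_⟩
    intro x hx hup hlow hle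
    have hpos := hx.1
    have hle1 : x i₀ ≤ δ₁ := hle.trans (min_le_left _ _)
    have hle2 : x i₀ ≤ Real.exp (-Tt) := hle.trans (min_le_right _ _)
    have hlog : Real.log (x i₀) ≤ -Tt := (Real.log_le_iff_le_exp (hpos i₀)).mpr hle2
    constructor
    · refine line_compat hg hK₃nn (β := β) hx ?_ ?_ ?_
      · intro k
        rcases hspec k with h | h
        · left
          obtain ⟨h1, h2, h3, h4⟩ := h
          refine ⟨h1, h2, h3, h4, ?_⟩
          have e1 : |Real.log (β k)| ≤ ∑ k, |Real.log (β k)| :=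
            Finset.single_le_sum (f := fun k => |Real.log (β k)|) (fun _ _ => abs_nonneg _)
              (Finset.mem_univ k)
          have e2 := abs_nonneg (Real.log δ₁)
          have e3 := abs_nonneg (Real.log U)
          linarith
        · right
          have e1 := h x hx hlow hle1
          have e2 := abs_log_le_of_bounds hδ₁ e1 (hup k)
          have e3 : 0 ≤ ∑ k, |Real.log (β k)| := Finset.sum_nonneg (fun _ _ => abs_nonneg _)
          linarith
      · have e1 := neg_abs_le T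
        have e2 := le_abs_self T
        linarith
      · linarith
    · rcases hN with hN | hN
      · refine ⟨a, hg.ha, ?_⟩
        rw [lineL_pair]
        exact neg_ne_zero.mpr hN
      · refine ⟨b, hg.hb, ?_⟩
        rw [lineL_pair]
        exact neg_ne_zero.mpr hN
  · -- constant species: the region is empty
    refine ⟨c i₀ / 2, by linarith [hc i₀], ?_⟩
    intro x hx _ _ hle
    exfalso
    obtain ⟨z₁, z₂, hz⟩ := hg.param hx
    unfold NC at hN
    push Not at hN
    have : x i₀ = c i₀ := by rw [hz i₀, hN.1, hN.2]; ring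
    have h1 := hc i₀
    linarith

end Vale.Agent.Lib.P072
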