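import Mathlib
import Vale.Agent.Lib.P072.Lines

/-!
Invariant compact sets: boundedness and persistence.
-/

open Set Filter Topology

namespace Vale.Agent.Lib.P072

variable {d : ℕ}

/-- A solution on an interval, with right derivatives and time-dependent rates. -/
def IsSol (R : Finset (Cplx d × Cplx d)) (k : ℝ → Cplx d × Cplx d → ℝ) (x : ℝ → Fin d → ℝ)
    (a b : ℝ) : Prop :=
  ContinuousOn x (Icc a b) ∧ ∀ t ∈ Ico a b, HasDerivWithinAt x (massAction R (k t) (x t)) (Ici t) t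

lemma IsSol.mono {R : Finset (Cplx d × Cplx d)} {k : ℝ → Cplx d × Cplx d → ℝ} {x : ℝ → Fin d → ℝ}
    {a b a' b' : ℝ} (h : IsSol R k x a b) (ha : a ≤ a') (hb : b' ≤ b) : IsSol R k x a' b' :=
  ⟨h.1.mono (Icc_subset_Icc ha hb), fun t ht => h.2 t ⟨ha.trans ht.1, lt_of_lt_of_le ht.2 hb⟩⟩

/-- Points of the solution stay in the stoichiometric class. -/
lemma IsSol.mem_class {R : Finset (Cplx d × Cplx d)} {k : ℝ → Cplx d × Cplx d → ℝ}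
    {x : ℝ → Fin d → ℝ} {a b : ℝ} {c : Fin d → ℝ} (h : IsSol R k x a b)
    (h0 : x a - c ∈ stoichSubspace R) {t : ℝ} (ht : t ∈ Icc a b) :
    x t - c ∈ stoichSubspace R := by
  have h1 := class_invariant h.1 h.2 t ht
  have h2 := Submodule.add_mem _ h1 h0
  simpa using h2

section

variable {R : Finset (Cplx d × Cplx d)} {a b c : Fin d → ℝ} {σ : ℝ → ℝ} {ε B : ℝ}

/-- Generic barrier: compatibility and nondegeneracy on the level set give invariance. -/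
lemma generic_invariant (hWR : WeaklyReversible R) {κ₁ κ₂ T : ℝ} (hκ₁ : 0 < κ₁)
    (hT : 2 * (R.card : ℝ) * κ₂ ≤ κ₁ * Real.exp T) (L : Lyap d) {C : ℝ}
    {k : ℝ → Cplx d × Cplx d → ℝ} (hk : ∀ t, ∀ e ∈ R, κ₁ ≤ k t e ∧ k t e ≤ κ₂)
    {x : ℝ → Fin d → ℝ} {t₀ t₁ : ℝ} (hsol : IsSol R k x t₀ t₁)
    (hpos : ∀ t ∈ Icc t₀ t₁, ∀ i, 0 < x t i) (h0 : L.V (x t₀) ≤ C)
    (hlev : ∀ t ∈ Ico t₀ t₁, L.V (x t) = C → Compat R (x t) (L.cov (x t)) T ∧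
      ∃ v ∈ stoichSubspace R, ∑ i, L.cov (x t) i * v i ≠ 0) :
    ∀ t ∈ Icc t₀ t₁, L.V (x t) ≤ C := by
  refine L.barrier (F := fun t => massAction R (k t) (x t)) hsol.1 hsol.2 hpos h0 ?_
  intro t ht hV
  obtain ⟨h1, h2⟩ := hlev t ht hV
  exact dot_neg hWR hκ₁ hT (hk t) (hpos t ⟨ht.1, ht.2.le⟩) h1 h2

end

/-- The compact sets used in the proof. -/
def boxClass (R : Finset (Cplx d × Cplx d)) (c : Fin d → ℝ) (δ U : ℝ) : Set (Fin d → ℝ) :=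
  {x | x - c ∈ stoichSubspace R ∧ ∀ i, δ ≤ x i ∧ x i ≤ U}

lemma isCompact_boxClass (R : Finset (Cplx d × Cplx d)) (c : Fin d → ℝ) (δ U : ℝ) :
    IsCompact (boxClass R c δ U) := by
  have h1 : IsCompact (Icc (fun _ : Fin d => δ) (fun _ : Fin d => U)) := isCompact_Icc
  have h2 : IsClosed {x : Fin d → ℝ | x - c ∈ stoichSubspace R} := by
    have h3 : IsClosed ((stoichSubspace R : Set (Fin d → ℝ))) :=
      Submodule.closed_of_finiteDimensional _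
    exact h3.preimage (continuous_id.sub continuous_const)
  have h4 : boxClass R c δ U = Icc (fun _ : Fin d => δ) (fun _ : Fin d => U) ∩
      {x : Fin d → ℝ | x - c ∈ stoichSubspace R} := by
    ext x
    simp only [boxClass, mem_ofPred_eq, mem_inter_iff, mem_Icc, Pi.le_def]
    constructor
    · rintro ⟨h5, h6⟩
      exact ⟨⟨fun i => (h6 i).1, fun i => (h6 i).2⟩, h5⟩
    · rintro ⟨⟨h5, h6⟩, h7⟩
      exact ⟨h7, fun i => ⟨h5 i, h6 i⟩⟩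
  rw [h4]
  exact h1.inter_right h2

lemma boxClass_mem_posClass {R : Finset (Cplx d × Cplx d)} {c x : Fin d → ℝ} {δ U : ℝ}
    (hδ : 0 < δ) (hx : x ∈ boxClass R c δ U) : x ∈ posClass R c :=
  ⟨fun i => lt_of_lt_of_le hδ (hx.2 i).1, hx.1⟩

lemma boxClass_pos {R : Finset (Cplx d × Cplx d)} {c x : Fin d → ℝ} {δ U : ℝ}
    (hδ : 0 < δ) (hx : x ∈ boxClass R c δ U) (i : Fin d) : 0 < x i :=
  lt_of_lt_of_le hδ (hx.2 i).1

/-- First exit lemma. -/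
lemma first_exit {E : Type*} [TopologicalSpace E] {y : ℝ → E} {T' : ℝ} {W Bx : Set E}
    (hcont : ContinuousOn y (Icc 0 T')) (hW : IsOpen W) (hBx : IsClosed Bx) (hsub : Bx ⊆ W)
    (h0 : y 0 ∈ W) (h : ∀ t ∈ Icc 0 T', (∀ s ∈ Icc 0 t, y s ∈ W) → y t ∈ Bx) :
    ∀ t ∈ Icc 0 T', y t ∈ Bx := by
  set A : Set ℝ := Icc 0 T' ∩ y ⁻¹' Wᶜ with hA
  have hAclosed : IsClosed A := hcont.preimage_isClosed_of_isClosed isClosed_Icc hW.isClosed_compl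
  have hAcomp : IsCompact A := isCompact_Icc.of_isClosed_subset hAclosed inter_subset_left
  by_cases hne : A.Nonempty
  · exfalso
    set τ := sInf A with hτ
    have hτA : τ ∈ A := hAcomp.sInf_mem hne
    have hτle : ∀ t ∈ A, τ ≤ t := fun t ht => csInf_le hAcomp.bddBelow ht
    have hτ0 : 0 < τ := by
      have h1 : 0 ≤ τ := hτA.1.1
      rcases h1.lt_or_eq with h2 | h2
      · exact h2
      · exfalso
        have h3 : y τ ∉ W := hτA.2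
        rw [← h2] at h3
        exact h3 h0
    have hbefore : ∀ t ∈ Ico 0 τ, y t ∈ Bx := by
      intro t ht
      have hI : t ∈ Icc 0 T' := ⟨ht.1, ht.2.le.trans hτA.1.2⟩
      apply h t hI
      intro s hs
      by_contra hcon
      have hsA : s ∈ A := ⟨⟨hs.1, hs.2.trans hI.2⟩, hcon⟩
      have := hτle s hsA
      linarith [hs.2, ht.2]
    have hτcl : τ ∈ closure (Ico 0 τ) := by
      rw [closure_Ico hτ0.ne]
      exact ⟨hτ0.le, le_rfl⟩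
    have hcw : ContinuousWithinAt y (Ico 0 τ) τ :=
      (hcont τ hτA.1).mono (fun t ht => ⟨ht.1, ht.2.le.trans hτA.1.2⟩)
    have h1 := hcw.mem_closure_image hτcl
    have h2 : y τ ∈ closure Bx := closure_mono (by
      rintro _ ⟨t, ht, rfl⟩
      exact hbefore t ht) h1
    rw [hBx.closure_eq] at h2
    exact hτA.2 (hsub h2)
  · intro t ht
    apply h t ht
    intro s hs
    by_contra hcon
    exact hne ⟨s, ⟨hs.1, hs.2.trans ht.2⟩, hcon⟩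

section

variable {R : Finset (Cplx d × Cplx d)} {a b c : Fin d → ℝ} {σ : ℝ → ℝ} {ε B : ℝ}

/-- Upper invariance. -/
lemma outer_invariant (hWR : WeaklyReversible R) {κ₁ κ₂ T : ℝ} (hκ₁ : 0 < κ₁)
    (hT : 2 * (R.card : ℝ) * κ₂ ≤ κ₁ * Real.exp T) (hS : Stc (bigR R) σ ε B) {Λ η : ℝ}
    (hΛ : 0 < Λ) (hη : 0 ≤ η)
    (hgap : ((d : ℝ) + 2) * Real.exp Λ ≤ Real.exp (Λ * (1 + η / 2)))
    (hcomp : ∀ x ∈ posClass R c, (∀ i, x i ≤ Real.exp (Λ * (1 + η))) →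
      CO d Λ ≤ (outerL hS Λ).V x → Compat R x ((outerL hS Λ).cov x) T ∧
          ∃ v ∈ stoichSubspace R, ∑ i, (outerL hS Λ).cov x i * v i ≠ 0)
    {k : ℝ → Cplx d × Cplx d → ℝ} (hk : ∀ t, ∀ e ∈ R, κ₁ ≤ k t e ∧ k t e ≤ κ₂)
    {x : ℝ → Fin d → ℝ} {t₀ t₁ : ℝ} (hsol : IsSol R k x t₀ t₁)
    (hpos : ∀ t ∈ Icc t₀ t₁, ∀ i, 0 < x t i) (hclass : x t₀ - c ∈ stoichSubspace R)
    (h0 : (outerL hS Λ).V (x t₀) ≤ CO d Λ) :
    ∀ t ∈ Icc t₀ t₁, (outerL hS Λ).V (x t) ≤ CO d Λ := by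
  refine generic_invariant hWR hκ₁ hT _ hk hsol hpos h0 ?_
  intro t ht hV
  have hI : t ∈ Icc t₀ t₁ := ⟨ht.1, ht.2.le⟩
  refine hcomp (x t) ⟨hpos t hI, hsol.mem_class hclass hI⟩ ?_ hV.ge
  intro i
  have e1 := outer_le_of_V_le hS hΛ (hpos t hI) hV.le i
  refine e1.trans (hgap.trans (Real.exp_le_exp.mpr ?_))
  nlinarith

/-- Vertex invariance. -/
lemma vertex_invariant (hWR : WeaklyReversible R) {κ₁ κ₂ T : ℝ} (hκ₁ : 0 < κ₁)
    (hT : 2 * (R.card : ℝ) * κ₂ ≤ κ₁ * Real.exp T) (hS : Stc (bigR R) σ ε B) {Λ η : ℝ}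
    (hΛ : 0 < Λ) (hη : 0 ≤ η) {J : Finset (Fin d)}
    (hcomp : ∀ x ∈ posClass R c, (∃ j ∈ J, Real.exp (-Λ * (1 + η)) ≤ x j) →
        CV d B Λ ≤ (vertexL hS hΛ J).V x →
        Compat R x ((vertexL hS hΛ J).cov x) T ∧
          ∃ v ∈ stoichSubspace R, ∑ l, (vertexL hS hΛ J).cov x l * v l ≠ 0)
    {k : ℝ → Cplx d × Cplx d → ℝ} (hk : ∀ t, ∀ e ∈ R, κ₁ ≤ k t e ∧ k t e ≤ κ₂)
    {x : ℝ → Fin d → ℝ} {t₀ t₁ : ℝ} (hsol : IsSol R k x t₀ t₁)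
    (hpos : ∀ t ∈ Icc t₀ t₁, ∀ i, 0 < x t i) (hclass : x t₀ - c ∈ stoichSubspace R)
    (h0 : (vertexL hS hΛ J).V (x t₀) ≤ CV d B Λ) :
    ∀ t ∈ Icc t₀ t₁, (vertexL hS hΛ J).V (x t) ≤ CV d B Λ := by
  refine generic_invariant hWR hκ₁ hT _ hk hsol hpos h0 ?_
  intro t ht hV
  have hI : t ∈ Icc t₀ t₁ := ⟨ht.1, ht.2.le⟩
  refine hcomp (x t) ⟨hpos t hI, hsol.mem_class hclass hI⟩ ?_ hV.ge
  obtain ⟨j, hj, hjl⟩ := vertex_exists_large hS hΛ J (hpos t hI) hV.le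
  refine ⟨j, hj, le_trans (Real.exp_le_exp.mpr ?_) hjl.le⟩
  nlinarith

/-- Line invariance. -/
lemma line_invariant (hWR : WeaklyReversible R) {κ₁ κ₂ T : ℝ} (hκ₁ : 0 < κ₁)
    (hT : 2 * (R.card : ℝ) * κ₂ ≤ κ₁ * Real.exp T) {i₀ : Fin d} {δ U A : ℝ}
    (hcomp : ∀ x ∈ posClass R c, (∀ i, x i ≤ U) → VLow c a b A x → x i₀ ≤ δ →
      Compat R x ((lineL i₀).cov x) T ∧
        ∃ v ∈ stoichSubspace R, ∑ l, (lineL i₀).cov x l * v l ≠ 0)
    {k : ℝ → Cplx d × Cplx d → ℝ} (hk : ∀ t, ∀ e ∈ R, κ₁ ≤ k t e ∧ k t e ≤ κ₂)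
    {x : ℝ → Fin d → ℝ} {t₀ t₁ : ℝ} (hsol : IsSol R k x t₀ t₁)
    (hpos : ∀ t ∈ Icc t₀ t₁, ∀ i, 0 < x t i) (hclass : x t₀ - c ∈ stoichSubspace R)
    (hup : ∀ t ∈ Icc t₀ t₁, ∀ i, x t i ≤ U) (hlow : ∀ t ∈ Icc t₀ t₁, VLow c a b A (x t))
    (h0 : δ ≤ x t₀ i₀) :
    ∀ t ∈ Icc t₀ t₁, δ ≤ x t i₀ := by
  have h1 : ∀ t ∈ Icc t₀ t₁, (lineL i₀).V (x t) ≤ -δ := by
    refine generic_invariant hWR hκ₁ hT _ hk hsol hpos (by rw [lineL_V]; linarith) ?_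
    intro t ht hV
    have hI : t ∈ Icc t₀ t₁ := ⟨ht.1, ht.2.le⟩
    rw [lineL_V] at hV
    exact hcomp (x t) ⟨hpos t hI, hsol.mem_class hclass hI⟩ (hup t hI) (hlow t hI) (by linarith)
  intro t ht
  have := h1 t ht
  rw [lineL_V] at this
  linarith

end

/-- All the constants of the network, chosen once. -/
structure Constants (R : Finset (Cplx d × Cplx d)) (a b c : Fin d → ℝ) (σ : ℝ → ℝ) (ε B T : ℝ)
    (hS : Stc (bigR R) σ ε B) (Λ₀ η : ℝ) (lam : Fin d → Fin d → ℝ) (eta : Fin d → Fin d → ℝ) : Prop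
    where
  hΛ₀ : 0 < Λ₀
  hη : 0 < η
  hη1 : η ≤ 1
  outer : ∀ Λ, Λ₀ ≤ Λ →
      B ≤ Real.exp Λ ∧ ((d : ℝ) + 2) * Real.exp Λ ≤ Real.exp (Λ * (1 + η / 2)) ∧
      ∀ x ∈ posClass R c, (∀ i, x i ≤ Real.exp (Λ * (1 + η))) → CO d Λ ≤ (outerL hS Λ).V x →
        Compat R x ((outerL hS Λ).cov x) T ∧
          ∃ v ∈ stoichSubspace R, ∑ i, (outerL hS Λ).cov x i * v i ≠ 0
  hlam : ∀ i k, 0 < lam i k
  heta : ∀ i k, 0 < eta i k
  vertex : ∀ i k, IsVtx c a b i k → ∀ Λ (_ : lam i k ≤ Λ) (hΛ : 0 < Λ),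
      kap d B < Real.exp (ε * Λ) ∧
      ∀ x ∈ posClass R c, (∃ j ∈ Jv c a b i k, Real.exp (-Λ * (1 + eta i k)) ≤ x j) →
        CV d B Λ ≤ (vertexL hS hΛ (Jv c a b i k)).V x →
        Compat R x ((vertexL hS hΛ (Jv c a b i k)).cov x) T ∧
          ∃ v ∈ stoichSubspace R, ∑ l, (vertexL hS hΛ (Jv c a b i k)).cov x l * v l ≠ 0

theorem exists_constants {R : Finset (Cplx d × Cplx d)} {a b c : Fin d → ℝ} (hg : Geo R a b)
    (hc : ∀ i, 0 < c i) {σ : ℝ → ℝ} {ε B T : ℝ} (hS : Stc (bigR R) σ ε B) (hT : 0 ≤ T) :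
    ∃ Λ₀ η lam eta, Constants R a b c σ ε B T hS Λ₀ η lam eta := by
  classical
  obtain ⟨Λ₀, η, hΛ₀, hη, hη1, hout⟩ := outer_main hg hc hS hT
  have hv : ∀ i k, ∃ l e : ℝ, 0 < l ∧ 0 < e ∧ (IsVtx c a b i k → ∀ Λ (_ : l ≤ Λ) (hΛ : 0 < Λ),
      kap d B < Real.exp (ε * Λ) ∧
      ∀ x ∈ posClass R c, (∃ j ∈ Jv c a b i k, Real.exp (-Λ * (1 + e)) ≤ x j) →
        CV d B Λ ≤ (vertexL hS hΛ (Jv c a b i k)).V x →
        Compat R x ((vertexL hS hΛ (Jv c a b i k)).cov x) T ∧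
          ∃ v ∈ stoichSubspace R, ∑ l, (vertexL hS hΛ (Jv c a b i k)).cov x l * v l ≠ 0) := by
    intro i k
    by_cases hvt : IsVtx c a b i k
    · obtain ⟨l, e, hl, he, h⟩ := vertex_main hg hS hT hvt
      exact ⟨l, e, hl, he, fun _ => h⟩
    · exact ⟨1, 1, one_pos, one_pos, fun h => absurd h hvt⟩
  choose lam eta hlam heta hvert using hv
  exact ⟨Λ₀, η, lam, eta, ⟨hΛ₀, hη, hη1, hout, hlam, heta, hvert⟩⟩

/-- The a priori estimate for positive solutions. -/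
theorem apriori_pos {R : Finset (Cplx d × Cplx d)} (hWR : WeaklyReversible R) {a b c : Fin d → ℝ}
    (hg : Geo R a b) (hc : ∀ i, 0 < c i) {σ : ℝ → ℝ} {ε B T : ℝ} (hS : Stc (bigR R) σ ε B)
    {κ₁ κ₂ : ℝ} (hκ₁ : 0 < κ₁) (hT : 2 * (R.card : ℝ) * κ₂ ≤ κ₁ * Real.exp T)
    {Λ₀ η : ℝ} {lam eta : Fin d → Fin d → ℝ} (hC : Constants R a b c σ ε B T hS Λ₀ η lam eta)
    {x₀ : Fin d → ℝ} (hx₀ : x₀ ∈ posClass R c) :
    ∃ δ U : ℝ, 0 < δ ∧ ∀ (k : ℝ → Cplx d × Cplx d → ℝ), (∀ t, ∀ e ∈ R, κ₁ ≤ k t e ∧ k t e ≤ κ₂) →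
      ∀ (T' : ℝ) (x : ℝ → Fin d → ℝ), x 0 = x₀ → IsSol R k x 0 T' →
        (∀ t ∈ Icc 0 T', ∀ i, 0 < x t i) →
        ∀ t ∈ Icc 0 T', x t ∈ boxClass R c δ U := by
  classical
  have hη := hC.hη
  have hx₀pos := hx₀.1
  -- outer scale
  obtain ⟨C₀, hC₀1, hC₀⟩ := exists_ge_forall x₀
  set Λ : ℝ := Λ₀ + |Real.log C₀| with hΛdef
  have hΛ₀Λ : Λ₀ ≤ Λ := by
    have := abs_nonneg (Real.log C₀)
    linarith
  have hΛ : 0 < Λ := by linarith [hC.hΛ₀]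
  obtain ⟨hBΛ, hgap, hcomp⟩ := hC.outer Λ hΛ₀Λ
  have hC₀Λ : C₀ ≤ Real.exp Λ := by
    rw [← Real.log_le_iff_le_exp (by linarith)]
    have := le_abs_self (Real.log C₀)
    have := hC.hΛ₀
    linarith
  set U : ℝ := ((d : ℝ) + 2) * Real.exp Λ with hU
  have hV0 : (outerL hS Λ).V x₀ ≤ CO d Λ :=
    (outer_V_lt hS hΛ hBΛ hx₀pos (fun i => (hC₀ i).trans hC₀Λ)).le
  -- vertex scales
  have hvert : ∀ i k, ∃ A : ℝ, 0 < A ∧ ∀ (κ : ℝ → Cplx d × Cplx d → ℝ),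
      (∀ t, ∀ e ∈ R, κ₁ ≤ κ t e ∧ κ t e ≤ κ₂) → ∀ (T' : ℝ) (x : ℝ → Fin d → ℝ), x 0 = x₀ →
        IsSol R κ x 0 T' → (∀ t ∈ Icc 0 T', ∀ i, 0 < x t i) → IsVtx c a b i k →
        ∀ t ∈ Icc 0 T', ∃ j ∈ Jv c a b i k, Real.exp (-A) ≤ x t j := by
    intro i k
    by_cases hv : IsVtx c a b i k
    · have hiJ : i ∈ Jv c a b i k := mem_Jv.mpr (wv_left hv.1)
      set κ' := kap d B with hκ'
      have hκpos : 0 < κ' := kap_pos hS.hB
      have hε := hS.hε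
      -- a large enough scale
      set l : ℝ := lam i k + |Real.log (κ' / x₀ i)| with hl
      have hlam := hC.hlam i k
      have hll : lam i k ≤ l := by
        have := abs_nonneg (Real.log (κ' / x₀ i))
        linarith
      have hlpos : 0 < l := by linarith
      obtain ⟨hκl, hcomp'⟩ := hC.vertex i k hv l hll hlpos
      have hsmall : κ' * Real.exp (-l) ≤ x₀ i := by
        have hpos : 0 < κ' / x₀ i := div_pos hκpos (hx₀pos i)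
        have h1 : κ' / x₀ i ≤ Real.exp l := by
          rw [← Real.log_le_iff_le_exp hpos]
          have := le_abs_self (Real.log (κ' / x₀ i))
          linarith
        rw [div_le_iff₀ (hx₀pos i)] at h1
        have h2 := Real.exp_pos (-l)
        have h3 : Real.exp l * Real.exp (-l) = 1 := by
          rw [← Real.exp_add]
          simp
        calc κ' * Real.exp (-l) ≤ (Real.exp l * x₀ i) * Real.exp (-l) :=
              mul_le_mul_of_nonneg_right h1 h2.le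
          _ = (Real.exp l * Real.exp (-l)) * x₀ i := by ring
          _ = x₀ i := by rw [h3, one_mul]
      have hV0' := vertex_exhaust hS hlpos (Jv c a b i k) hκl hx₀pos hiJ hsmall
      refine ⟨l, hlpos, ?_⟩
      intro κ hκ T' x hx0 hsol hpos _ t ht
      have hinv := vertex_invariant hWR hκ₁ hT hS hlpos (hC.heta i k).le hcomp' hκ hsol hpos
        (by rw [hx0]; exact hx₀.2) (by rw [hx0]; exact hV0') t ht
      obtain ⟨j, hj, hjl⟩ := vertex_exists_large hS hlpos _ (hpos t ht) hinv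
      exact ⟨j, hj, hjl.le⟩
    · exact ⟨1, one_pos, fun _ _ _ _ _ _ _ h => absurd h hv⟩
  choose Av hAv hAvspec using hvert
  set A : ℝ := ∑ p : Fin d × Fin d, Av p.1 p.2 with hA
  have hAle : ∀ i k, Av i k ≤ A := fun i k =>
    Finset.single_le_sum (f := fun p : Fin d × Fin d => Av p.1 p.2) (fun p _ => (hAv p.1 p.2).le)
      (Finset.mem_univ (i, k))
  -- line constants
  have hline := fun i₀ => line_main (c := c) hg hc T i₀ U A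
  choose δl hδl hlspec using hline
  obtain ⟨δ, hδ, hδle⟩ := exists_pos_le_forall (fun i => min (δl i) (x₀ i))
    (fun i => lt_min (hδl i) (hx₀pos i))
  refine ⟨δ, U, hδ, ?_⟩
  intro k hk T' x hx0 hsol hpos t ht
  have hclass : x 0 - c ∈ stoichSubspace R := by rw [hx0]; exact hx₀.2
  have hup : ∀ t ∈ Icc 0 T', ∀ i, x t i ≤ U := by
    intro t ht i
    have hinv := outer_invariant hWR hκ₁ hT hS hΛ hη.le hgap hcomp hk hsol hpos hclass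
      (by rw [hx0]; exact hV0) t ht
    exact outer_le_of_V_le hS hΛ (hpos t ht) hinv i
  have hlow : ∀ t ∈ Icc 0 T', VLow c a b A (x t) := by
    intro t ht i' k' hv
    obtain ⟨j, hj, hjl⟩ := hAvspec i' k' k hk T' x hx0 hsol hpos hv t ht
    exact ⟨j, hj, le_trans (Real.exp_le_exp.mpr (by linarith [hAle i' k'])) hjl⟩
  refine ⟨hsol.mem_class hclass ht, fun i => ⟨?_, hup t ht i⟩⟩
  have hδi : δ ≤ min (δl i) (x₀ i) := hδle i
  have h1 : δ ≤ δl i := hδi.trans (min_le_left _ _)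
  have h2 : δ ≤ x₀ i := hδi.trans (min_le_right _ _)
  refine line_invariant (i₀ := i) (U := U) (A := A) hWR hκ₁ hT ?_ hk hsol hpos hclass hup hlow
    (by rw [hx0]; exact h2) t ht
  intro y hy hyU hyA hyδ
  exact hlspec i y hy hyU hyA (hyδ.trans h1)

/-- The a priori estimate for all solutions: positivity is a consequence. -/
theorem apriori {R : Finset (Cplx d × Cplx d)} (hWR : WeaklyReversible R) {a b c : Fin d → ℝ}
    (hg : Geo R a b) (hc : ∀ i, 0 < c i) {σ : ℝ → ℝ} {ε B T : ℝ} (hS : Stc (bigR R) σ ε B)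
    {κ₁ κ₂ : ℝ} (hκ₁ : 0 < κ₁) (hT : 2 * (R.card : ℝ) * κ₂ ≤ κ₁ * Real.exp T)
    {Λ₀ η : ℝ} {lam eta : Fin d → Fin d → ℝ} (hC : Constants R a b c σ ε B T hS Λ₀ η lam eta)
    {x₀ : Fin d → ℝ} (hx₀ : x₀ ∈ posClass R c) :
    ∃ δ U : ℝ, 0 < δ ∧ ∀ (k : ℝ → Cplx d × Cplx d → ℝ), (∀ t, ∀ e ∈ R, κ₁ ≤ k t e ∧ k t e ≤ κ₂) →
      ∀ (T' : ℝ) (x : ℝ → Fin d → ℝ), x 0 = x₀ → IsSol R k x 0 T' →
        ∀ t ∈ Icc 0 T', x t ∈ boxClass R c δ U := by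
  obtain ⟨δ, U, hδ, h⟩ := apriori_pos hWR hg hc hS hκ₁ hT hC hx₀
  refine ⟨δ, U, hδ, ?_⟩
  intro k hk T' x hx0 hsol
  have hW : IsOpen {y : Fin d → ℝ | ∀ i, 0 < y i} := by
    have : {y : Fin d → ℝ | ∀ i, 0 < y i} = ⋂ i, {y : Fin d → ℝ | 0 < y i} := by
      ext y
      simp
    rw [this]
    exact isOpen_iInter_of_finite (fun i => isOpen_lt continuous_const (continuous_apply i))
  refine first_exit hsol.1 hW (isCompact_boxClass R c δ U).isClosed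
    (fun y hy i => boxClass_pos hδ hy i) (by rw [hx0]; exact hx₀.1) ?_
  intro t ht hpos
  have hsol' : IsSol R k x 0 t := hsol.mono le_rfl ht.2
  exact h k hk t x hx0 hsol' hpos t ⟨ht.1, le_rfl⟩

end Vale.Agent.Lib.P072
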