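import Mathlib
import Vale.Agent.Lib.P072.Persist

/-!
Absorption into a fixed compact set.
-/

open Set Filter Topology

namespace Vale.Agent.Lib.P072

variable {d : ℕ}

/-- Abstract descent along a geometric sequence. -/
lemma descent {P : ℝ → Prop} {Bf θ : ℝ} (hBf : 0 < Bf) (hθ0 : 0 < θ) (hθ1 : θ < 1)
    (hmono : ∀ A A', A ≤ A' → P A → P A') (hstep : ∀ A, Bf ≤ A → P A → P (θ * A)) :
    ∀ A, P A → P Bf := by
  intro A hA
  obtain ⟨n, hn⟩ := exists_pow_lt_of_lt_one (show 0 < Bf / (|A| + 1) by positivity) hθ1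
  have hAn : A ≤ Bf / θ ^ n := by
    have hθn : 0 < θ ^ n := pow_pos hθ0 n
    rw [le_div_iff₀ hθn]
    rw [lt_div_iff₀ (by positivity)] at hn
    have h1 : A * θ ^ n ≤ |A| * θ ^ n := mul_le_mul_of_nonneg_right (le_abs_self A) hθn.le
    nlinarith
  have key : ∀ m : ℕ, P (Bf / θ ^ m) → P Bf := by
    intro m
    induction m with
    | zero => simp
    | succ m ih =>
      intro hm
      apply ih
      have h1 : Bf ≤ Bf / θ ^ (m + 1) := by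
        rw [le_div_iff₀ (pow_pos hθ0 _)]
        have : θ ^ (m + 1) ≤ 1 := pow_le_one₀ hθ0.le hθ1.le
        nlinarith
      have h2 := hstep _ h1 hm
      have h3 : θ * (Bf / θ ^ (m + 1)) = Bf / θ ^ m := by
        rw [pow_succ]
        field_simp
      rwa [h3] at h2
  exact key n (hmono _ _ hAn hA)

/-- Continuity of the dissipation along a Lyapunov covector. -/
lemma continuousOn_diss (R : Finset (Cplx d × Cplx d)) (L : Lyap d) {K : Set (Fin d → ℝ)}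
    (hK : ∀ y ∈ K, ∀ i, 0 < y i) : ContinuousOn (fun y => diss R y (L.cov y)) K := by
  have hcov : ∀ i, ContinuousOn (fun y => L.cov y i) K := fun i y hy =>
    ContinuousAt.comp_continuousWithinAt (L.contAt i _ (hK y hy i))
      (continuous_apply i).continuousWithinAt
  have hlev : ∀ y' : Cplx d, ContinuousOn (fun y => lev (L.cov y) y') K := fun y' => by
    unfold lev
    exact continuousOn_finsetSum _ (fun i _ => (hcov i).mul continuousOn_const)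
  unfold diss fallPart
  apply continuousOn_finsetSum
  intro e _
  apply ContinuousOn.mul
  · unfold monomial
    apply Continuous.continuousOn
    exact continuous_finsetProd _ (fun i _ => (continuous_apply i).pow _)
  · exact ContinuousOn.sup ((hlev e.1).sub (hlev e.2)) continuousOn_const

/-- Global solutions. -/
def IsGlobal (R : Finset (Cplx d × Cplx d)) (k : ℝ → Cplx d × Cplx d → ℝ) (x : ℝ → Fin d → ℝ) :
    Prop := ∀ T', IsSol R k x 0 T'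

lemma IsGlobal.continuousOn {R : Finset (Cplx d × Cplx d)} {k : ℝ → Cplx d × Cplx d → ℝ}
    {x : ℝ → Fin d → ℝ} (h : IsGlobal R k x) {T₁ : ℝ} (hT₁ : 0 ≤ T₁) : ContinuousOn x (Ici T₁) := by
  intro t ht
  have htt : (t : ℝ) ∈ Icc 0 (t + 1) := ⟨hT₁.trans ht, by linarith⟩
  have h1 := (h (t + 1)).1 t htt
  refine h1.mono_of_mem_nhdsWithin ?_
  have h2 : Iio (t + 1) ∈ 𝓝 t := Iio_mem_nhds (by linarith)
  filter_upwards [self_mem_nhdsWithin, mem_nhdsWithin_of_mem_nhds h2] with s hs1 hs2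
  exact ⟨hT₁.trans hs1, (mem_Iio.mp hs2).le⟩

lemma IsGlobal.hasDeriv {R : Finset (Cplx d × Cplx d)} {k : ℝ → Cplx d × Cplx d → ℝ}
    {x : ℝ → Fin d → ℝ} (h : IsGlobal R k x) {t : ℝ} (ht : 0 ≤ t) :
    HasDerivWithinAt x (massAction R (k t) (x t)) (Ici t) t :=
  (h (t + 1)).2 t ⟨ht, by linarith⟩

/-- One stage of the absorption. -/
theorem stage {R : Finset (Cplx d × Cplx d)} (hWR : WeaklyReversible R) {κ₁ κ₂ T : ℝ}
    (hκ₁ : 0 < κ₁) (hT : 2 * (R.card : ℝ) * κ₂ ≤ κ₁ * Real.exp T) (L : Lyap d)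
    {K₁ : Set (Fin d → ℝ)} (hK₁ : IsCompact K₁) (hK₁pos : ∀ y ∈ K₁, ∀ i, 0 < y i) {C : ℝ}
    (hcomp : ∀ y ∈ K₁, C ≤ L.V y → Compat R y (L.cov y) T ∧
      ∃ v ∈ stoichSubspace R, ∑ i, L.cov y i * v i ≠ 0)
    {k : ℝ → Cplx d × Cplx d → ℝ} (hk : ∀ t, ∀ e ∈ R, κ₁ ≤ k t e ∧ k t e ≤ κ₂)
    {x : ℝ → Fin d → ℝ} (hglob : IsGlobal R k x) {T₁ : ℝ} (hT₁ : 0 ≤ T₁)
    (hmem : ∀ t ∈ Ici T₁, x t ∈ K₁) :
    ∃ T₂, T₁ ≤ T₂ ∧ ∀ t ∈ Ici T₂, L.V (x t) ≤ C := by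
  refine L.eventually_le hK₁ hK₁pos (D := fun y => κ₁ / 2 * diss R y (L.cov y))
    (C := C) (F := fun t => massAction R (k t) (x t)) (T₁ := T₁)
    (continuousOn_const.mul (continuousOn_diss R L hK₁pos)) ?_ (hglob.continuousOn hT₁)
    (fun t ht => hglob.hasDeriv (hT₁.trans ht)) hmem ?_
  · intro y hy hV
    obtain ⟨_, v, hv, hne⟩ := hcomp y hy hV
    have := diss_pos hWR (hK₁pos y hy) hv hne
    positivity
  · intro t ht hV
    obtain ⟨h1, _⟩ := hcomp _ (hmem t ht) hV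
    exact dot_le hWR hκ₁ hT (hk t) (hK₁pos _ (hmem t ht)) h1

lemma isClosed_VLow (c a b : Fin d → ℝ) (A : ℝ) : IsClosed {y | VLow c a b A y} := by
  have h1 : {y | VLow c a b A y} = ⋂ i, ⋂ k, ⋂ (_ : IsVtx c a b i k),
      ⋃ j ∈ Jv c a b i k, {y : Fin d → ℝ | Real.exp (-A) ≤ y j} := by
    ext y
    simp [VLow]
  rw [h1]
  refine isClosed_iInter (fun i => isClosed_iInter (fun k => isClosed_iInter (fun _ => ?_)))
  exact isClosed_biUnion_finset (fun j _ => isClosed_le continuous_const (continuous_apply j))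

lemma isClosed_exists_ge (J : Finset (Fin d)) (e : ℝ) :
    IsClosed {y : Fin d → ℝ | ∃ j ∈ J, e ≤ y j} := by
  have h1 : {y : Fin d → ℝ | ∃ j ∈ J, e ≤ y j} = ⋃ j ∈ J, {y : Fin d → ℝ | e ≤ y j} := by
    ext y
    simp
  rw [h1]
  exact isClosed_biUnion_finset (fun j _ => isClosed_le continuous_const (continuous_apply j))

section

variable {R : Finset (Cplx d × Cplx d)} {a b c : Fin d → ℝ} {σ : ℝ → ℝ} {ε B T : ℝ}
  {κ₁ κ₂ : ℝ} {Λ₀ η : ℝ} {lam eta : Fin d → Fin d → ℝ} {hS : Stc (bigR R) σ ε B}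

/-- The final upper bound holds eventually. -/
lemma eventually_upper (hWR : WeaklyReversible R) (hκ₁ : 0 < κ₁)
    (hT : 2 * (R.card : ℝ) * κ₂ ≤ κ₁ * Real.exp T)
    (hC : Constants R a b c σ ε B T hS Λ₀ η lam eta)
    {k : ℝ → Cplx d × Cplx d → ℝ} (hk : ∀ t, ∀ e ∈ R, κ₁ ≤ k t e ∧ k t e ≤ κ₂)
    {x : ℝ → Fin d → ℝ} (hglob : IsGlobal R k x) {δ U : ℝ} (hδ : 0 < δ)
    (hbox : ∀ t, 0 ≤ t → x t ∈ boxClass R c δ U) :
    ∃ T₁, 0 ≤ T₁ ∧ ∀ t ∈ Ici T₁, ∀ i, x t i ≤ Real.exp (Λ₀ * (1 + η)) := by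
  have hη := hC.hη
  have hΛ₀ := hC.hΛ₀
  set P : ℝ → Prop := fun A => ∃ T₁, 0 ≤ T₁ ∧ ∀ t ∈ Ici T₁, ∀ i, x t i ≤ Real.exp A with hP
  have hmono : ∀ A A', A ≤ A' → P A → P A' := by
    rintro A A' hA ⟨T₁, hT₁, h⟩
    exact ⟨T₁, hT₁, fun t ht i => (h t ht i).trans (Real.exp_le_exp.mpr hA)⟩
  have hθ0 : 0 < (1 + η / 2) / (1 + η) := by positivity
  have hθ1 : (1 + η / 2) / (1 + η) < 1 := by
    rw [div_lt_one (by positivity)]
    linarith
  have hstart : P (|Real.log (|U| + 1)|) := by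
    refine ⟨0, le_rfl, fun t ht i => ?_⟩
    have h1 := ((hbox t ht).2 i).2
    have h2 : |U| + 1 ≤ Real.exp (|Real.log (|U| + 1)|) := by
      rw [← Real.log_le_iff_le_exp (by positivity)]
      exact le_abs_self _
    linarith [le_abs_self U]
  refine descent (P := P) (by positivity) hθ0 hθ1 hmono ?_ _ hstart
  rintro A hA ⟨T₁, hT₁, h⟩
  -- the scale
  set Λ := A / (1 + η) with hΛdef
  have hΛA : Λ * (1 + η) = A := by
    rw [hΛdef]
    field_simp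
  have hΛ₀Λ : Λ₀ ≤ Λ := by
    rw [hΛdef, le_div_iff₀ (by positivity)]
    exact hA
  have hΛ : 0 < Λ := by linarith
  obtain ⟨_, hgap, hcomp⟩ := hC.outer Λ hΛ₀Λ
  have hK₁ : IsCompact (boxClass R c δ (Real.exp A)) := isCompact_boxClass _ _ _ _
  obtain ⟨T₂, hT₂, hV⟩ := stage hWR hκ₁ hT (outerL hS Λ) hK₁ (C := CO d Λ)
    (fun y hy i => boxClass_pos hδ hy i)
    (by
      intro y hy hVy
      refine hcomp y (boxClass_mem_posClass hδ hy) ?_ hVy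
      intro i
      rw [hΛA]
      exact (hy.2 i).2) hk hglob hT₁
    (fun t ht => ⟨(hbox t (hT₁.trans ht)).1, fun i => ⟨((hbox t (hT₁.trans ht)).2 i).1, h t ht i⟩⟩)
  refine ⟨T₂, hT₁.trans hT₂, fun t ht i => ?_⟩
  have hpos : ∀ i, 0 < x t i := fun i =>
    boxClass_pos hδ (hbox t (hT₁.trans (hT₂.trans ht))) i
  have e1 := outer_le_of_V_le hS hΛ hpos (hV t ht) i
  refine e1.trans (hgap.trans (le_of_eq ?_))
  congr 1
  rw [hΛdef]
  field_simp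

/-- The final lower bound at a vertex holds eventually. -/
lemma eventually_vertex (hWR : WeaklyReversible R) (hκ₁ : 0 < κ₁)
    (hT : 2 * (R.card : ℝ) * κ₂ ≤ κ₁ * Real.exp T)
    (hC : Constants R a b c σ ε B T hS Λ₀ η lam eta)
    {k : ℝ → Cplx d × Cplx d → ℝ} (hk : ∀ t, ∀ e ∈ R, κ₁ ≤ k t e ∧ k t e ≤ κ₂)
    {x : ℝ → Fin d → ℝ} (hglob : IsGlobal R k x) {δ U : ℝ} (hδ : 0 < δ)
    (hbox : ∀ t, 0 ≤ t → x t ∈ boxClass R c δ U) {i₁ k₁ : Fin d} (hv : IsVtx c a b i₁ k₁) :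
    ∃ T₁, 0 ≤ T₁ ∧ ∀ t ∈ Ici T₁, ∃ j ∈ Jv c a b i₁ k₁,
      Real.exp (- (lam i₁ k₁ * (1 + eta i₁ k₁))) ≤ x t j := by
  have hlam := hC.hlam i₁ k₁
  have heta := hC.heta i₁ k₁
  have hiJ : i₁ ∈ Jv c a b i₁ k₁ := mem_Jv.mpr (wv_left hv.1)
  set P : ℝ → Prop := fun A => ∃ T₁, 0 ≤ T₁ ∧ ∀ t ∈ Ici T₁, ∃ j ∈ Jv c a b i₁ k₁,
      Real.exp (- A) ≤ x t j with hP
  have hmono : ∀ A A', A ≤ A' → P A → P A' := by
    rintro A A' hA ⟨T₁, hT₁, h⟩
    refine ⟨T₁, hT₁, fun t ht => ?_⟩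
    obtain ⟨j, hj, hjl⟩ := h t ht
    exact ⟨j, hj, (Real.exp_le_exp.mpr (by linarith)).trans hjl⟩
  have hθ0 : 0 < 1 / (1 + eta i₁ k₁) := by positivity
  have hθ1 : 1 / (1 + eta i₁ k₁) < 1 := by
    rw [div_lt_one (by positivity)]
    linarith
  have hstart : P (|Real.log δ|) := by
    refine ⟨0, le_rfl, fun t ht => ⟨i₁, hiJ, ?_⟩⟩
    have h1 := ((hbox t ht).2 i₁).1
    refine le_trans ?_ h1
    rw [← Real.le_log_iff_exp_le hδ]
    exact neg_abs_le _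
  refine descent (P := P) (by positivity) hθ0 hθ1 hmono ?_ _ hstart
  rintro A hA ⟨T₁, hT₁, h⟩
  set Λ := A / (1 + eta i₁ k₁) with hΛdef
  have hΛA : Λ * (1 + eta i₁ k₁) = A := by
    rw [hΛdef]
    field_simp
  have hlamΛ : lam i₁ k₁ ≤ Λ := by
    rw [hΛdef, le_div_iff₀ (by positivity)]
    exact hA
  have hΛ : 0 < Λ := by linarith
  obtain ⟨_, hcomp⟩ := hC.vertex i₁ k₁ hv Λ hlamΛ hΛ
  set J := Jv c a b i₁ k₁ with hJ
  have hK₁ : IsCompact (boxClass R c δ U ∩ {y | ∃ j ∈ J, Real.exp (-A) ≤ y j}) :=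
    (isCompact_boxClass _ _ _ _).inter_right (isClosed_exists_ge _ _)
  obtain ⟨T₂, hT₂, hV⟩ := stage hWR hκ₁ hT (vertexL hS hΛ J) hK₁ (C := CV d B Λ)
    (fun y hy i => boxClass_pos hδ hy.1 i)
    (by
      intro y hy hVy
      refine hcomp y (boxClass_mem_posClass hδ hy.1) ?_ hVy
      have e : -Λ * (1 + eta i₁ k₁) = -A := by rw [← hΛA]; ring
      rw [e]
      exact hy.2) hk hglob hT₁
    (fun t ht => ⟨hbox t (hT₁.trans ht), h t ht⟩)
  refine ⟨T₂, hT₁.trans hT₂, fun t ht => ?_⟩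
  have hpos : ∀ i, 0 < x t i := fun i =>
    boxClass_pos hδ (hbox t (hT₁.trans (hT₂.trans ht))) i
  obtain ⟨j, hj, hjl⟩ := vertex_exists_large hS hΛ J hpos (hV t ht)
  refine ⟨j, hj, le_trans (le_of_eq ?_) hjl.le⟩
  congr 1
  rw [hΛdef]
  field_simp

/-- The main absorption theorem. -/
theorem absorption (hWR : WeaklyReversible R) (hg : Geo R a b) (hc : ∀ i, 0 < c i)
    (hκ₁ : 0 < κ₁) (hT : 2 * (R.card : ℝ) * κ₂ ≤ κ₁ * Real.exp T)
    (hC : Constants R a b c σ ε B T hS Λ₀ η lam eta) :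
    ∃ K : Set (Fin d → ℝ), IsCompact K ∧ K ⊆ posClass R c ∧
      ∀ (k : ℝ → Cplx d × Cplx d → ℝ), (∀ t, ∀ e ∈ R, κ₁ ≤ k t e ∧ k t e ≤ κ₂) →
      ∀ x : ℝ → Fin d → ℝ, x 0 ∈ posClass R c → IsGlobal R k x →
        ∃ T₀, ∀ t, T₀ ≤ t → x t ∈ K := by
  classical
  set Uf := Real.exp (Λ₀ * (1 + η)) with hUf
  set Af : ℝ := ∑ p : Fin d × Fin d, lam p.1 p.2 * (1 + eta p.1 p.2) with hAf
  have hAfle : ∀ i k, lam i k * (1 + eta i k) ≤ Af := fun i k =>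
    Finset.single_le_sum (f := fun p : Fin d × Fin d => lam p.1 p.2 * (1 + eta p.1 p.2))
      (fun p _ => (mul_pos (hC.hlam _ _) (by linarith [hC.heta p.1 p.2])).le)
      (Finset.mem_univ (i, k))
  have hline := fun i₀ => line_main (c := c) hg hc T i₀ Uf Af
  choose δl hδl hlspec using hline
  obtain ⟨δf, hδf, hδfle⟩ := exists_pos_le_forall δl hδl
  refine ⟨boxClass R c δf Uf, isCompact_boxClass _ _ _ _,
    fun y hy => boxClass_mem_posClass hδf hy, ?_⟩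
  intro k hk x hx0 hglob
  -- the a priori box of this solution
  obtain ⟨δ, U, hδ, hap⟩ := apriori hWR hg hc hS hκ₁ hT hC hx0
  have hbox : ∀ t, 0 ≤ t → x t ∈ boxClass R c δ U := fun t ht =>
    hap k hk t x rfl (hglob t) t ⟨ht, le_rfl⟩
  -- eventually upper bound
  obtain ⟨T₁, hT₁, hup⟩ := eventually_upper hWR hκ₁ hT hC hk hglob hδ hbox
  -- eventually vertex bounds
  have hvt : ∀ i₁ k₁, ∃ T₂, 0 ≤ T₂ ∧ (IsVtx c a b i₁ k₁ → ∀ t ∈ Ici T₂, ∃ j ∈ Jv c a b i₁ k₁,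
      Real.exp (- (lam i₁ k₁ * (1 + eta i₁ k₁))) ≤ x t j) := by
    intro i₁ k₁
    by_cases hv : IsVtx c a b i₁ k₁
    · obtain ⟨T₂, h1, h2⟩ := eventually_vertex hWR hκ₁ hT hC hk hglob hδ hbox hv
      exact ⟨T₂, h1, fun _ => h2⟩
    · exact ⟨0, le_rfl, fun h => absurd h hv⟩
  choose T₂ hT₂ hvspec using hvt
  obtain ⟨T₃, hT₃1, hT₃⟩ := exists_ge_forall (fun p : Fin d × Fin d => T₂ p.1 p.2)
  set T₄ := max T₁ T₃ with hT₄
  have hT₄0 : 0 ≤ T₄ := hT₁.trans (le_max_left _ _)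
  have hlow : ∀ t ∈ Ici T₄, VLow c a b Af (x t) := by
    intro t ht i₁ k₁ hv
    have h1 : T₂ i₁ k₁ ≤ t := ((hT₃ (i₁, k₁)).trans (le_max_right _ _)).trans ht
    obtain ⟨j, hj, hjl⟩ := hvspec i₁ k₁ hv t h1
    exact ⟨j, hj, (Real.exp_le_exp.mpr (by linarith [hAfle i₁ k₁])).trans hjl⟩
  have hup' : ∀ t ∈ Ici T₄, ∀ i, x t i ≤ Uf := fun t ht i =>
    hup t (Set.mem_Ici.mpr ((le_max_left _ _).trans ht)) i
  -- the line stage
  have hK₁ : IsCompact (boxClass R c δ Uf ∩ {y | VLow c a b Af y}) :=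
    (isCompact_boxClass _ _ _ _).inter_right (isClosed_VLow _ _ _ _)
  have hlines : ∀ i₀, ∃ T₅, T₄ ≤ T₅ ∧ ∀ t ∈ Ici T₅, δf ≤ x t i₀ := by
    intro i₀
    obtain ⟨T₅, h5, h6⟩ := stage hWR hκ₁ hT (lineL i₀) hK₁ (C := - δf)
      (fun y hy i => boxClass_pos hδ hy.1 i)
      (by
        intro y hy hVy
        rw [lineL_V] at hVy
        have h7 : y i₀ ≤ δf := by linarith
        exact hlspec i₀ y (boxClass_mem_posClass hδ hy.1) (fun i => (hy.1.2 i).2) hy.2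
          (h7.trans (hδfle i₀))) hk hglob hT₄0
      (fun t ht => ⟨⟨(hbox t (hT₄0.trans ht)).1, fun i => ⟨((hbox t (hT₄0.trans ht)).2 i).1,
        hup' t ht i⟩⟩, hlow t ht⟩)
    refine ⟨T₅, h5, fun t ht => ?_⟩
    have := h6 t ht
    rw [lineL_V] at this
    linarith
  choose T₅ hT₅ hT₅spec using hlines
  obtain ⟨T₆, hT₆1, hT₆⟩ := exists_ge_forall T₅
  refine ⟨max T₄ T₆, fun t ht => ?_⟩
  have ht4 : T₄ ≤ t := (le_max_left _ _).trans ht
  have ht6 : T₆ ≤ t := (le_max_right _ _).trans ht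
  refine ⟨(hbox t (hT₄0.trans ht4)).1, fun i => ⟨hT₅spec i t ((hT₆ i).trans ht6), hup' t ht4 i⟩⟩

end

end Vale.Agent.Lib.P072
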