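import Mathlib
import Vale.Agent.Lib.P072.Absorb

/-!
Global existence of solutions from the a priori estimate, by clamping the vector field.
-/

open Set Filter Topology Metric
open scoped NNReal

namespace Vale.Agent.Lib.P072

variable {d : ℕ}

lemma massAction_contDiff (R : Finset (Cplx d × Cplx d)) (k : Cplx d × Cplx d → ℝ) :
    ContDiff ℝ 1 (massAction R k) := by
  have : massAction R k = fun x => ∑ e ∈ R, (k e * monomial x e.1) • reactionVector e := rfl
  rw [this]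
  apply ContDiff.sum
  intro e _
  have h : ContDiff ℝ 1 (fun x : Fin d → ℝ => k e * monomial x e.1) := by
    apply ContDiff.mul contDiff_const
    unfold monomial
    apply contDiff_prod
    intro i _
    exact (contDiff_apply ℝ ℝ i).pow _
  exact h.smul contDiff_const

/-- Coordinatewise clamping. -/
def clampP (lo hi : ℝ) (x : Fin d → ℝ) : Fin d → ℝ := fun i => max lo (min hi (x i))

lemma clampP_lipschitz (lo hi : ℝ) : LipschitzWith 1 (clampP (d := d) lo hi) := by
  apply LipschitzWith.of_dist_le_mul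
  intro x y
  rw [NNReal.coe_one, one_mul, dist_pi_le_iff dist_nonneg]
  intro i
  have h1 : LipschitzWith 1 (fun s : ℝ => max lo (min hi s)) :=
    ((LipschitzWith.id).const_min hi).const_max lo
  have h2 := h1.dist_le_mul (x i) (y i)
  rw [NNReal.coe_one, one_mul] at h2
  exact h2.trans (dist_le_pi_dist x y i)

lemma clampP_mem {lo hi : ℝ} (h : lo ≤ hi) (x : Fin d → ℝ) :
    clampP lo hi x ∈ Icc (fun _ : Fin d => lo) (fun _ => hi) :=
  ⟨fun _ => le_max_left _ _, fun _ => max_le h (min_le_left _ _)⟩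

lemma clampP_eq {lo hi : ℝ} {x : Fin d → ℝ} (hx : ∀ i, lo ≤ x i ∧ x i ≤ hi) : clampP lo hi x = x := by
  ext i
  unfold clampP
  rw [min_eq_right (hx i).2, max_eq_right (hx i).1]

lemma isSol_of_isSolutionOn {R : Finset (Cplx d × Cplx d)} {k : Cplx d × Cplx d → ℝ} {T : ℝ}
    {x : ℝ → Fin d → ℝ} (h : IsSolutionOn R k T x) : IsSol R (fun _ => k) x 0 T := by
  refine ⟨fun t ht => (h t ht).continuousWithinAt, fun t ht => ?_⟩
  exact (h t ⟨ht.1, ht.2.le⟩).mono_of_mem_nhdsWithin (Icc_mem_nhdsGE_of_mem ht)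

/-- Solutions on bounded intervals, given the a priori estimate. -/
theorem exists_sol_on {R : Finset (Cplx d × Cplx d)} {k : Cplx d × Cplx d → ℝ} {c x₀ : Fin d → ℝ}
    {δ U : ℝ} (hδ : 0 < δ)
    (hap : ∀ (T' : ℝ) (x : ℝ → Fin d → ℝ), x 0 = x₀ → IsSol R (fun _ => k) x 0 T' →
      ∀ t ∈ Icc 0 T', x t ∈ boxClass R c δ U) {T' : ℝ} (hT' : 0 ≤ T') :
    ∃ y : ℝ → Fin d → ℝ, y 0 = x₀ ∧ IsSolutionOn R k T' y := by
  -- the initial point is in the box
  have hx₀box : x₀ ∈ boxClass R c δ U := by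
    have h1 : IsSol R (fun _ => k) (fun _ => x₀) 0 0 :=
      ⟨continuousOn_const, fun t ht => absurd ht.2 (not_lt.mpr ht.1)⟩
    exact hap 0 (fun _ => x₀) rfl h1 0 ⟨le_rfl, le_rfl⟩
  set lo : ℝ := δ / 2 with hlo
  set hi : ℝ := 2 * |U| + δ with hhi
  have hlohi : lo ≤ hi := by
    have := abs_nonneg U
    rw [hlo, hhi]
    linarith
  have hδlo : lo < δ := by rw [hlo]; linarith
  have hUhi : U < hi := by
    have h1 := abs_nonneg U
    have h2 := le_abs_self U
    rw [hhi]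
    linarith
  set Bx := Icc (fun _ : Fin d => lo) (fun _ => hi) with hBx
  have hBxcomp : IsCompact Bx := isCompact_Icc
  have hf := massAction_contDiff R k
  obtain ⟨K, hK⟩ := hf.locallyLipschitz.locallyLipschitzOn.exists_lipschitzOnWith_of_compact
    hBxcomp
  obtain ⟨L₀, hL₀⟩ := hBxcomp.exists_bound_of_continuousOn hf.continuous.continuousOn
  set L : ℝ≥0 := Real.toNNReal L₀ with hL
  -- the clamped field
  let G : ℝ → (Fin d → ℝ) → (Fin d → ℝ) := fun _ x => massAction R k (clampP lo hi x)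
  have hGlip : ∀ t, LipschitzWith K (G t) := by
    intro t
    apply LipschitzWith.of_dist_le_mul
    intro x y
    have h1 := hK.dist_le_mul _ (clampP_mem hlohi x) _ (clampP_mem hlohi y)
    have h2 := (clampP_lipschitz (d := d) lo hi).dist_le_mul x y
    rw [NNReal.coe_one, one_mul] at h2
    exact h1.trans (mul_le_mul_of_nonneg_left h2 K.coe_nonneg)
  have hGbd : ∀ t x, ‖G t x‖ ≤ L := by
    intro t x
    have h1 := hL₀ _ (clampP_mem hlohi x)
    exact h1.trans (Real.le_coe_toNNReal L₀)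
  set t₀ : Icc (0 : ℝ) T' := ⟨0, le_rfl, hT'⟩ with ht₀
  have hPL : IsPicardLindelof G t₀ x₀ (L * Real.toNNReal T') 0 L K := by
    refine ⟨fun t _ => (hGlip t).lipschitzOnWith, fun x _ => continuousOn_const,
      fun t _ x _ => hGbd t x, ?_⟩
    simp only [ht₀, sub_zero, NNReal.coe_zero, NNReal.coe_mul, Real.coe_toNNReal _ hT']
    rw [max_eq_left (by linarith)]
  obtain ⟨y, hy0, hy⟩ := hPL.exists_eq_forall_mem_Icc_hasDerivWithinAt₀
  have hy0' : y 0 = x₀ := hy0
  have hycont : ContinuousOn y (Icc 0 T') := fun t ht => (hy t ht).continuousWithinAt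
  refine ⟨y, hy0', ?_⟩
  -- the open set around the box
  set W : Set (Fin d → ℝ) := {z | ∀ i, lo < z i ∧ z i < hi} with hW
  have hWopen : IsOpen W := by
    have : W = ⋂ i, {z : Fin d → ℝ | lo < z i ∧ z i < hi} := by
      ext z
      simp [hW]
    rw [this]
    refine isOpen_iInter_of_finite (fun i => ?_)
    exact (isOpen_lt continuous_const (continuous_apply i)).inter
      (isOpen_lt (continuous_apply i) continuous_const)
  have hsub : boxClass R c δ U ⊆ W := fun z hz i =>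
    ⟨lt_of_lt_of_le hδlo (hz.2 i).1, lt_of_le_of_lt (hz.2 i).2 hUhi⟩
  have hderiv : ∀ t ∈ Ico 0 T', HasDerivWithinAt y (G t (y t)) (Ici t) t := by
    intro t ht
    have h1 := hy t ⟨ht.1, ht.2.le⟩
    refine h1.mono_of_mem_nhdsWithin ?_
    exact Icc_mem_nhdsGE_of_mem ht
  have hbox : ∀ t ∈ Icc 0 T', y t ∈ boxClass R c δ U := by
    refine first_exit hycont hWopen (isCompact_boxClass R c δ U).isClosed hsub
      (by rw [hy0']; exact hsub hx₀box) ?_
    intro t ht hall
    have hsol : IsSol R (fun _ => k) y 0 t := by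
      refine ⟨hycont.mono (Icc_subset_Icc le_rfl ht.2), fun s hs => ?_⟩
      have h1 := hderiv s ⟨hs.1, lt_of_lt_of_le hs.2 ht.2⟩
      have h2 : clampP lo hi (y s) = y s :=
        clampP_eq (fun i => ⟨(hall s ⟨hs.1, hs.2.le⟩ i).1.le, (hall s ⟨hs.1, hs.2.le⟩ i).2.le⟩)
      have h3 : G s (y s) = massAction R k (y s) := by
        show massAction R k (clampP lo hi (y s)) = _
        rw [h2]
      rw [h3] at h1
      exact h1
    exact hap t y hy0' hsol t ⟨ht.1, le_rfl⟩
  intro s hs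
  have h1 := hy s hs
  have hb := hbox s hs
  have hW' := hsub hb
  have h2 : clampP lo hi (y s) = y s := clampP_eq (fun i => ⟨(hW' i).1.le, (hW' i).2.le⟩)
  have h3 : G s (y s) = massAction R k (y s) := by
    show massAction R k (clampP lo hi (y s)) = _
    rw [h2]
  rw [h3] at h1
  exact h1

/-- Uniqueness for solutions staying in a compact box. -/
theorem sol_unique {R : Finset (Cplx d × Cplx d)} {k : Cplx d × Cplx d → ℝ} {c : Fin d → ℝ}
    {δ U T' : ℝ} {x y : ℝ → Fin d → ℝ} (hx : IsSol R (fun _ => k) x 0 T')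
    (hy : IsSol R (fun _ => k) y 0 T') (hxb : ∀ t ∈ Icc 0 T', x t ∈ boxClass R c δ U)
    (hyb : ∀ t ∈ Icc 0 T', y t ∈ boxClass R c δ U) (h0 : x 0 = y 0) :
    EqOn x y (Icc 0 T') := by
  have hBcomp : IsCompact (Icc (fun _ : Fin d => δ) (fun _ : Fin d => U)) := isCompact_Icc
  obtain ⟨K, hK⟩ := (massAction_contDiff R k).locallyLipschitz.locallyLipschitzOn.exists_lipschitzOnWith_of_compact
    hBcomp
  have hmem : ∀ z ∈ boxClass R c δ U, z ∈ Icc (fun _ : Fin d => δ) (fun _ : Fin d => U) :=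
    fun z hz => ⟨fun i => (hz.2 i).1, fun i => (hz.2 i).2⟩
  exact ODE_solution_unique_of_mem_Icc_right (v := fun _ => massAction R k)
    (s := fun _ => Icc (fun _ : Fin d => δ) (fun _ : Fin d => U)) (K := K)
    (fun _ _ => hK) hx.1 hx.2 (fun t ht => hmem _ (hxb t ⟨ht.1, ht.2.le⟩))
    hy.1 hy.2 (fun t ht => hmem _ (hyb t ⟨ht.1, ht.2.le⟩)) h0

/-- Global existence, given the a priori estimate. -/
theorem exists_global {R : Finset (Cplx d × Cplx d)} {k : Cplx d × Cplx d → ℝ} {c x₀ : Fin d → ℝ}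
    {δ U : ℝ} (hδ : 0 < δ)
    (hap : ∀ (T' : ℝ) (x : ℝ → Fin d → ℝ), x 0 = x₀ → IsSol R (fun _ => k) x 0 T' →
      ∀ t ∈ Icc 0 T', x t ∈ boxClass R c δ U) :
    ∃ x : ℝ → Fin d → ℝ, x 0 = x₀ ∧ IsSolution R k x := by
  have h1 : ∀ n : ℕ, ∃ y : ℝ → Fin d → ℝ, y 0 = x₀ ∧ IsSolutionOn R k (n : ℝ) y := fun n =>
    exists_sol_on hδ hap (Nat.cast_nonneg n)
  choose Y hY0 hY using h1
  have hYs : ∀ n : ℕ, IsSol R (fun _ => k) (Y n) 0 (n : ℝ) := fun n => isSol_of_isSolutionOn (hY n)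
  have hagree : ∀ m n : ℕ, m ≤ n → EqOn (Y m) (Y n) (Icc 0 (m : ℝ)) := by
    intro m n hmn
    have hsub : (m : ℝ) ≤ n := by exact_mod_cast hmn
    exact sol_unique (c := c) (δ := δ) (U := U) (hYs m) ((hYs n).mono le_rfl hsub)
      (hap _ _ (hY0 m) (hYs m))
      (fun t ht => hap _ _ (hY0 n) (hYs n) t ⟨ht.1, ht.2.trans hsub⟩)
      (by rw [hY0, hY0])
  -- the global solution
  set x : ℝ → Fin d → ℝ := fun t => Y (⌈t⌉₊ + 1) t with hx
  have hxY : ∀ n : ℕ, ∀ t ∈ Icc 0 (n : ℝ), x t = Y n t := by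
    intro n t ht
    set m := ⌈t⌉₊ + 1 with hm
    have htm : t ≤ (m : ℝ) := by
      have := Nat.le_ceil t
      push_cast [hm]
      linarith
    rcases le_total m n with h | h
    · exact hagree m n h ⟨ht.1, htm⟩
    · exact (hagree n m h ht).symm
  refine ⟨x, ?_, ?_⟩
  · have := hxY 0 0 ⟨le_rfl, by simp⟩
    rw [this, hY0]
  · intro t ht
    obtain ⟨n, hn⟩ := exists_nat_ge (t + 1)
    have htn : t ≤ (n : ℝ) := by linarith
    have h2 := hY n t ⟨ht, htn⟩
    have h3 : x t = Y n t := hxY n t ⟨ht, htn⟩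
    rw [h3]
    have h4 : Iio (n : ℝ) ∈ 𝓝 t := Iio_mem_nhds (by linarith)
    have h5 : Icc 0 (n : ℝ) ∈ 𝓝[Ici 0] t := by
      filter_upwards [self_mem_nhdsWithin, mem_nhdsWithin_of_mem_nhds h4] with s hs1 hs2
      exact ⟨hs1, (mem_Iio.mp hs2).le⟩
    refine (h2.mono_of_mem_nhdsWithin h5).congr_of_eventuallyEq ?_ h3
    filter_upwards [self_mem_nhdsWithin, mem_nhdsWithin_of_mem_nhds h4] with s hs1 hs2
    exact hxY n s ⟨hs1, (mem_Iio.mp hs2).le⟩

end Vale.Agent.Lib.P072
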