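import Mathlib

/-!
Levels, walls and radii: the combinatorial skeleton of the general Lyapunov function.
-/

open Finset

namespace Vale.Agent.Lib.P072

/-- The data of the level system. -/
structure LSys where
  m : ℕ
  N : ℕ → ℕ
  hN1 : ∀ k, 1 ≤ N k
  hN2 : ∀ k, k + 1 < m → 2 * N (k + 1) ^ 2 ≤ N k
  R : ℕ → Finset (ℕ → ℤ)
  memR : ∀ k r, r ∈ R k ↔ r k ≠ 0 ∧ (∀ l, k < l → r l = 0) ∧ ∀ l, |r l| ≤ (N k : ℤ)
  Z0 : ℝ
  Xi : ℝ
  hZ0 : 1 ≤ Z0
  hXi : 1 ≤ Xi

/-- Partial sum of a pairing. -/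
noncomputable def dotk (r : ℕ → ℤ) (q : ℕ → ℝ) (k : ℕ) : ℝ := ∑ l ∈ range k, (r l : ℝ) * q l

/-- Position of the wall given by `r` at level `k`. -/
noncomputable def posW (k : ℕ) (r : ℕ → ℤ) (q : ℕ → ℝ) : ℝ := - dotk r q k / (r k : ℝ)

namespace LSys

variable (S : LSys)

/-- Walls at level `k`. -/
def IsWall (k : ℕ) (q : ℕ → ℝ) (t : ℝ) : Prop := ∃ r ∈ S.R k, t = posW k r q

/-- A level sits on one of its walls. -/
def Snap (k : ℕ) (q : ℕ → ℝ) : Prop := S.IsWall k q (q k)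

open Classical in
/-- Exponent of the radius. -/
noncomputable def expo (q : ℕ → ℝ) (k : ℕ) : ℤ :=
  ∑ l ∈ range k, if S.Snap l q then (2 : ℤ) ^ (S.m - l) else -(2 : ℤ) ^ (S.m - l)

/-- The base radius. -/
noncomputable def Zs : ℝ := S.Z0 * S.Xi ^ (2 ^ (S.m + 1) : ℕ)

/-- The largest radius. -/
noncomputable def Zmax : ℝ := S.Z0 * S.Xi ^ (2 ^ (S.m + 2) : ℕ)

/-- The radius at level `k`. -/
noncomputable def rad (q : ℕ → ℝ) (k : ℕ) : ℝ := S.Zs * S.Xi ^ (S.expo q k)

/-- Validity of one level. -/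
def Lev (k : ℕ) (q : ℕ → ℝ) : Prop :=
  q k ≤ q (k - 1) ∧ (S.Snap k q ∨ ∀ t, S.IsWall k q t → S.rad q k ≤ |q k - t|)

/-- Validity of the levels below `n`. -/
def Val (q : ℕ → ℝ) (n : ℕ) : Prop := ∀ k < n, S.Lev k q

open Classical in
/-- The cost of one level. -/
noncomputable def cst (q : ℕ → ℝ) (k : ℕ) : ℝ :=
  if S.Snap k q then S.rad q k * Real.exp (q k - S.rad q k) else Real.exp (q k)

/-- The contribution of one level. -/
noncomputable def ctr (q x : ℕ → ℝ) (k : ℕ) : ℝ := q k * x k - S.cst q k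

/-- The objective function. -/
noncomputable def Phi (q x : ℕ → ℝ) : ℝ := ∑ l ∈ range S.m, S.ctr q x l

/-- `q` is a maximiser of the objective function among valid covectors. -/
def IsMaxQ (q x : ℕ → ℝ) : Prop :=
  S.Val q S.m ∧ ∀ q', S.Val q' S.m → S.Phi q' x ≤ S.Phi q x

/-- The clearance constants. -/
def Cc : ℕ → ℕ
  | 0 => S.N 0
  | k + 1 => S.N (k + 1) * Cc k

end LSys

/-! ### Dependence on lower indices only -/

lemma dotk_congr {r : ℕ → ℤ} {q q' : ℕ → ℝ} {k : ℕ} (h : ∀ l < k, q l = q' l) :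
    dotk r q k = dotk r q' k := by
  unfold dotk
  apply Finset.sum_congr rfl
  intro l hl
  rw [h l (Finset.mem_range.mp hl)]

lemma posW_congr {r : ℕ → ℤ} {q q' : ℕ → ℝ} {k : ℕ} (h : ∀ l < k, q l = q' l) :
    posW k r q = posW k r q' := by
  unfold posW
  rw [dotk_congr h]

lemma dotk_succ (r : ℕ → ℤ) (q : ℕ → ℝ) (k : ℕ) :
    dotk r q (k + 1) = dotk r q k + (r k : ℝ) * q k := by
  unfold dotk
  rw [Finset.sum_range_succ]

lemma dotk_eq_mul {r : ℕ → ℤ} (q : ℕ → ℝ) {k : ℕ} (hr : r k ≠ 0) :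
    dotk r q (k + 1) = (r k : ℝ) * (q k - posW k r q) := by
  have hr' : (r k : ℝ) ≠ 0 := by exact_mod_cast hr
  rw [dotk_succ]
  unfold posW
  field_simp
  ring

namespace LSys

variable (S : LSys)

lemma isWall_congr {k : ℕ} {q q' : ℕ → ℝ} (h : ∀ l < k, q l = q' l) (t : ℝ) :
    S.IsWall k q t ↔ S.IsWall k q' t := by
  unfold IsWall
  constructor
  · rintro ⟨r, hr, e⟩
    exact ⟨r, hr, by rw [e, posW_congr h]⟩
  · rintro ⟨r, hr, e⟩
    exact ⟨r, hr, by rw [e, posW_congr h]⟩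

lemma snap_congr {k : ℕ} {q q' : ℕ → ℝ} (h : ∀ l ≤ k, q l = q' l) :
    S.Snap k q ↔ S.Snap k q' := by
  unfold Snap
  rw [h k le_rfl]
  exact S.isWall_congr (fun l hl => h l hl.le) _

lemma expo_congr {k : ℕ} {q q' : ℕ → ℝ} (h : ∀ l < k, q l = q' l) :
    S.expo q k = S.expo q' k := by
  classical
  unfold expo
  apply Finset.sum_congr rfl
  intro l hl
  have hl' := Finset.mem_range.mp hl
  have := S.snap_congr (k := l) (q := q) (q' := q') (fun j hj => h j (lt_of_le_of_lt hj hl'))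
  simp only [this]

lemma rad_congr {k : ℕ} {q q' : ℕ → ℝ} (h : ∀ l < k, q l = q' l) :
    S.rad q k = S.rad q' k := by
  unfold rad
  rw [S.expo_congr h]

lemma lev_congr {k : ℕ} {q q' : ℕ → ℝ} (h : ∀ l ≤ k, q l = q' l) :
    S.Lev k q ↔ S.Lev k q' := by
  unfold Lev
  have h1 : q k = q' k := h k le_rfl
  have h2 : q (k - 1) = q' (k - 1) := h _ (Nat.sub_le _ _)
  have h3 := S.snap_congr h
  have h4 := S.rad_congr (k := k) (q := q) (q' := q') (fun l hl => h l hl.le)
  have h5 := S.isWall_congr (k := k) (q := q) (q' := q') (fun l hl => h l hl.le)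
  rw [h1, h2, h3, h4]
  simp only [h5]

lemma val_congr {n : ℕ} {q q' : ℕ → ℝ} (h : ∀ l < n, q l = q' l) :
    S.Val q n ↔ S.Val q' n := by
  unfold Val
  constructor
  · intro hv k hk
    exact (S.lev_congr (fun l hl => h l (lt_of_le_of_lt hl hk))).mp (hv k hk)
  · intro hv k hk
    exact (S.lev_congr (fun l hl => h l (lt_of_le_of_lt hl hk))).mpr (hv k hk)

lemma Val.mono {S : LSys} {q : ℕ → ℝ} {n n' : ℕ} (h : S.Val q n) (hn : n' ≤ n) : S.Val q n' :=
  fun k hk => h k (lt_of_lt_of_le hk hn)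

lemma cst_congr {k : ℕ} {q q' : ℕ → ℝ} (h : ∀ l ≤ k, q l = q' l) :
    S.cst q k = S.cst q' k := by
  classical
  unfold cst
  have h3 := S.snap_congr h
  have h4 := S.rad_congr (k := k) (q := q) (q' := q') (fun l hl => h l hl.le)
  rw [h k le_rfl, h4]
  simp only [h3]

lemma ctr_congr {k : ℕ} {q q' : ℕ → ℝ} (x : ℕ → ℝ) (h : ∀ l ≤ k, q l = q' l) :
    S.ctr q x k = S.ctr q' x k := by
  unfold ctr
  rw [S.cst_congr h, h k le_rfl]

/-! ### The walls that always exist -/

lemma isWall_prev {k : ℕ} (hk : 0 < k) (q : ℕ → ℝ) : S.IsWall k q (q (k - 1)) := by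
  classical
  refine ⟨fun l => if l = k then 1 else if l = k - 1 then -1 else 0, ?_, ?_⟩
  · rw [S.memR]
    refine ⟨by simp, fun l hl => ?_, fun l => ?_⟩
    · have h1 : l ≠ k := by omega
      have h2 : l ≠ k - 1 := by omega
      simp [h1, h2]
    · have h1 : 1 ≤ S.N k := S.hN1 k
      by_cases h2 : l = k
      · simp [h2]
        exact h1
      · by_cases h3 : l = k - 1
        · have h4 : k - 1 ≠ k := by omega
          simp [h3, h4]
          exact h1
        · simp [h2, h3]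
  · unfold posW dotk
    have hk1 : k - 1 ∈ range k := Finset.mem_range.mpr (by omega)
    rw [Finset.sum_eq_single (k - 1)]
    · have : k - 1 ≠ k := by omega
      simp [this]
    · intro b hb hne
      have : b ≠ k := by
        have := Finset.mem_range.mp hb
        omega
      simp [this, hne]
    · intro h
      exact absurd hk1 h

lemma isWall_zero (k : ℕ) (q : ℕ → ℝ) : S.IsWall k q 0 := by
  classical
  refine ⟨fun l => if l = k then 1 else 0, ?_, ?_⟩
  · rw [S.memR]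
    refine ⟨by simp, fun l hl => ?_, fun l => ?_⟩
    · have h1 : l ≠ k := by omega
      simp [h1]
    · have h1 : 1 ≤ S.N k := S.hN1 k
      by_cases h2 : l = k
      · simp [h2]
        exact h1
      · simp [h2]
  · unfold posW dotk
    have : ∑ l ∈ range k, (((if l = k then 1 else 0 : ℤ)) : ℝ) * q l = 0 := by
      apply Finset.sum_eq_zero
      intro l hl
      have : l ≠ k := by
        have := Finset.mem_range.mp hl
        omega
      simp [this]
    rw [this]
    simp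

lemma wall_zero_level {q : ℕ → ℝ} {t : ℝ} (h : S.IsWall 0 q t) : t = 0 := by
  obtain ⟨r, _, rfl⟩ := h
  unfold posW dotk
  simp

/-! ### Radii -/

lemma Xi_pos : 0 < S.Xi := lt_of_lt_of_le one_pos S.hXi

lemma Z0_pos : 0 < S.Z0 := lt_of_lt_of_le one_pos S.hZ0

lemma Zs_pos : 0 < S.Zs := by
  unfold Zs
  exact mul_pos S.Z0_pos (pow_pos S.Xi_pos _)

lemma rad_pos (q : ℕ → ℝ) (k : ℕ) : 0 < S.rad q k := by
  unfold rad
  exact mul_pos S.Zs_pos (zpow_pos S.Xi_pos _)

open Classical in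
lemma expo_succ (q : ℕ → ℝ) (k : ℕ) :
    S.expo q (k + 1) = S.expo q k + if S.Snap k q then (2 : ℤ) ^ (S.m - k) else -(2 : ℤ) ^ (S.m - k) := by
  unfold expo
  rw [Finset.sum_range_succ]

lemma two_pow_split (m k : ℕ) :
    (2 : ℤ) ^ (m - k + 1) = 2 * 2 ^ (m - k) := by
  rw [pow_succ]
  ring

lemma expo_diff_bound (q : ℕ → ℝ) {l k : ℕ} (hlk : l ≤ k) (hk : k ≤ S.m) :
    |S.expo q k - S.expo q l| + (2 : ℤ) ^ (S.m - k + 1) ≤ (2 : ℤ) ^ (S.m - l + 1) := by
  classical
  induction k, hlk using Nat.le_induction with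
  | base => simp
  | succ k hlk ih =>
    have ih' := ih (by omega)
    rw [S.expo_succ]
    have e1 : S.m - (k + 1) + 1 = S.m - k := by omega
    rw [e1]
    have e2 : (2 : ℤ) ^ (S.m - k + 1) = 2 * 2 ^ (S.m - k) := two_pow_split _ _
    rw [e2] at ih'
    have hpos : (0 : ℤ) < 2 ^ (S.m - k) := by positivity
    split_ifs
    · have := abs_add_le (S.expo q k - S.expo q l) ((2 : ℤ) ^ (S.m - k))
      have e3 : S.expo q k + 2 ^ (S.m - k) - S.expo q l
          = (S.expo q k - S.expo q l) + 2 ^ (S.m - k) := by ring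
      rw [e3]
      rw [abs_of_pos hpos] at this
      linarith
    · have := abs_add_le (S.expo q k - S.expo q l) (-(2 : ℤ) ^ (S.m - k))
      have e3 : S.expo q k + -2 ^ (S.m - k) - S.expo q l
          = (S.expo q k - S.expo q l) + -2 ^ (S.m - k) := by ring
      rw [e3]
      rw [abs_neg, abs_of_pos hpos] at this
      linarith

lemma expo_abs_le (q : ℕ → ℝ) {k : ℕ} (hk : k ≤ S.m) :
    |S.expo q k| ≤ (2 : ℤ) ^ (S.m + 1) := by
  have h := S.expo_diff_bound q (Nat.zero_le k) hk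
  have e0 : S.expo q 0 = 0 := by
    unfold expo
    simp
  rw [e0, sub_zero] at h
  have h2 : (0 : ℤ) < 2 ^ (S.m - k + 1) := by positivity
  simp only [Nat.sub_zero] at h
  linarith

/-- Snapped levels force larger radii below them. -/
lemma expo_gap_snap {q : ℕ → ℝ} {l k : ℕ} (hlk : l < k) (hk : k ≤ S.m) (h : S.Snap l q) :
    S.expo q l + 2 ≤ S.expo q k := by
  classical
  have h1 := S.expo_diff_bound q (l := l + 1) (k := k) hlk hk
  have h2 := S.expo_succ q l
  rw [if_pos h] at h2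
  have e1 : S.m - (l + 1) + 1 = S.m - l := by omega
  rw [e1] at h1
  have h3 := neg_abs_le (S.expo q k - S.expo q (l + 1))
  have h4 : (2 : ℤ) ^ (S.m - k + 1) = 2 * 2 ^ (S.m - k) := by
    rw [pow_succ]
    ring
  have h5 : (1 : ℤ) ≤ 2 ^ (S.m - k) := one_le_pow₀ (by norm_num)
  rw [h4] at h1
  linarith

/-- Unsnapped levels force smaller radii below them. -/
lemma expo_gap_un {q : ℕ → ℝ} {l k : ℕ} (hlk : l < k) (hk : k ≤ S.m) (h : ¬ S.Snap l q) :
    S.expo q k + 2 ≤ S.expo q l := by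
  classical
  have h1 := S.expo_diff_bound q (l := l + 1) (k := k) hlk hk
  have h2 := S.expo_succ q l
  rw [if_neg h] at h2
  have e1 : S.m - (l + 1) + 1 = S.m - l := by omega
  rw [e1] at h1
  have h3 := le_abs_self (S.expo q k - S.expo q (l + 1))
  have h4 : (2 : ℤ) ^ (S.m - k + 1) = 2 * 2 ^ (S.m - k) := by
    rw [pow_succ]
    ring
  have h5 : (1 : ℤ) ≤ 2 ^ (S.m - k) := one_le_pow₀ (by norm_num)
  rw [h4] at h1
  linarith

lemma rad_gap_snap {q : ℕ → ℝ} {l k : ℕ} (hlk : l < k) (hk : k ≤ S.m) (h : S.Snap l q) :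
    S.Xi * S.rad q l ≤ S.rad q k := by
  unfold rad
  have h1 := S.expo_gap_snap hlk hk h
  have hXi := S.hXi
  have hXi0 := S.Xi_pos
  have h2 : S.Xi ^ (S.expo q l + 1) ≤ S.Xi ^ (S.expo q k) :=
    zpow_le_zpow_right₀ hXi (by linarith)
  have h3 : S.Xi ^ (S.expo q l + 1) = S.Xi ^ (S.expo q l) * S.Xi := by
    rw [zpow_add_one₀ hXi0.ne']
  have h4 := S.Zs_pos
  calc S.Xi * (S.Zs * S.Xi ^ S.expo q l) = S.Zs * S.Xi ^ (S.expo q l + 1) := by
        rw [h3]
        ring
    _ ≤ _ := mul_le_mul_of_nonneg_left h2 h4.le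

lemma rad_gap_un {q : ℕ → ℝ} {l k : ℕ} (hlk : l < k) (hk : k ≤ S.m) (h : ¬ S.Snap l q) :
    S.Xi * S.rad q k ≤ S.rad q l := by
  unfold rad
  have h1 := S.expo_gap_un hlk hk h
  have hXi := S.hXi
  have hXi0 := S.Xi_pos
  have h2 : S.Xi ^ (S.expo q k + 1) ≤ S.Xi ^ (S.expo q l) :=
    zpow_le_zpow_right₀ hXi (by linarith)
  have h3 : S.Xi ^ (S.expo q k + 1) = S.Xi ^ (S.expo q k) * S.Xi := by
    rw [zpow_add_one₀ hXi0.ne']
  have h4 := S.Zs_pos
  calc S.Xi * (S.Zs * S.Xi ^ S.expo q k) = S.Zs * S.Xi ^ (S.expo q k + 1) := by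
        rw [h3]
        ring
    _ ≤ _ := mul_le_mul_of_nonneg_left h2 h4.le

/-- An unsnapped level and a snapped level, in any order. -/
lemma rad_gap_mixed {q : ℕ → ℝ} {l u : ℕ} (hl : l < S.m) (hu : u < S.m) (hsl : S.Snap l q)
    (hsu : ¬ S.Snap u q) : S.Xi * S.rad q l ≤ S.rad q u := by
  rcases lt_trichotomy l u with h | h | h
  · exact S.rad_gap_snap h hu.le hsl
  · subst h
    exact absurd hsl hsu
  · exact S.rad_gap_un h hl.le hsu

lemma Z0_le_rad (q : ℕ → ℝ) {k : ℕ} (hk : k ≤ S.m) : S.Z0 ≤ S.rad q k := by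
  unfold rad Zs
  have h1 := S.expo_abs_le q hk
  have h2 := (abs_le.mp h1).1
  have hXi := S.hXi
  have hXi0 := S.Xi_pos
  have e : S.Xi ^ (2 ^ (S.m + 1) : ℕ) * S.Xi ^ S.expo q k
      = S.Xi ^ (((2 : ℤ) ^ (S.m + 1)) + S.expo q k) := by
    rw [zpow_add₀ hXi0.ne']
    congr 1
  have h3 : (1 : ℝ) ≤ S.Xi ^ (((2 : ℤ) ^ (S.m + 1)) + S.expo q k) :=
    one_le_zpow₀ hXi (by linarith)
  rw [mul_assoc, e]
  have := S.Z0_pos
  nlinarith

lemma rad_le_Zmax (q : ℕ → ℝ) {k : ℕ} (hk : k ≤ S.m) : S.rad q k ≤ S.Zmax := by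
  unfold rad Zs Zmax
  have h1 := S.expo_abs_le q hk
  have h2 := (abs_le.mp h1).2
  have hXi := S.hXi
  have hXi0 := S.Xi_pos
  have e : S.Xi ^ (2 ^ (S.m + 1) : ℕ) * S.Xi ^ S.expo q k
      = S.Xi ^ (((2 : ℤ) ^ (S.m + 1)) + S.expo q k) := by
    rw [zpow_add₀ hXi0.ne']
    congr 1
  have e2 : S.Xi ^ (2 ^ (S.m + 2) : ℕ) = S.Xi ^ (((2 : ℤ) ^ (S.m + 2))) := by
    rw [← zpow_natCast]
    push_cast
    rfl
  have h3 : S.Xi ^ (((2 : ℤ) ^ (S.m + 1)) + S.expo q k) ≤ S.Xi ^ (((2 : ℤ) ^ (S.m + 2))) := by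
    apply zpow_le_zpow_right₀ hXi
    have : (2 : ℤ) ^ (S.m + 2) = 2 * 2 ^ (S.m + 1) := by
      rw [pow_succ]
      ring
    linarith
  rw [mul_assoc, e, e2]
  exact mul_le_mul_of_nonneg_left h3 S.Z0_pos.le

lemma one_le_rad (q : ℕ → ℝ) {k : ℕ} (hk : k ≤ S.m) : 1 ≤ S.rad q k :=
  S.hZ0.trans (S.Z0_le_rad q hk)

lemma one_le_Zmax : 1 ≤ S.Zmax := by
  unfold Zmax
  have := one_le_pow₀ (n := 2 ^ (S.m + 2)) S.hXi
  have h2 := S.hZ0
  nlinarith

lemma Z0_le_Zmax : S.Z0 ≤ S.Zmax := by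
  unfold Zmax
  have := one_le_pow₀ (n := 2 ^ (S.m + 2)) S.hXi
  have h2 := S.hZ0
  nlinarith

/-- An unsnapped level is not on a wall. -/
lemma not_snap_of_un {k : ℕ} {q : ℕ → ℝ} (h : ∀ t, S.IsWall k q t → S.rad q k ≤ |q k - t|) :
    ¬ S.Snap k q := by
  intro hs
  have h1 := h _ hs
  have h2 := S.rad_pos q k
  simp at h1
  linarith

lemma Lev.un_of_not_snap {S : LSys} {k : ℕ} {q : ℕ → ℝ} (h : S.Lev k q) (hs : ¬ S.Snap k q) :
    ∀ t, S.IsWall k q t → S.rad q k ≤ |q k - t| := by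
  rcases h.2 with h2 | h2
  · exact absurd h2 hs
  · exact h2

/-! ### Clearance -/

lemma Cc_pos (k : ℕ) : 1 ≤ S.Cc k := by
  induction k with
  | zero => exact S.hN1 0
  | succ k ih =>
    show 1 ≤ S.N (k + 1) * S.Cc k
    exact Nat.mul_pos (S.hN1 _) ih

lemma Cc_mono {k k' : ℕ} (h : k ≤ k') : S.Cc k ≤ S.Cc k' := by
  induction k', h using Nat.le_induction with
  | base => exact le_rfl
  | succ k' _ ih =>
    show S.Cc k ≤ S.N (k' + 1) * S.Cc k'
    exact ih.trans (Nat.le_mul_of_pos_left _ (S.hN1 _))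

lemma N_le_Cc (k : ℕ) : S.N k ≤ S.Cc k := by
  cases k with
  | zero => exact le_rfl
  | succ k =>
    show S.N (k + 1) ≤ S.N (k + 1) * S.Cc k
    exact Nat.le_mul_of_pos_right _ (S.Cc_pos k)

lemma N_anti {k : ℕ} (hk : k + 1 < S.m) : S.N (k + 1) ≤ S.N k := by
  have h1 := S.hN2 k hk
  have h2 := S.hN1 (k + 1)
  nlinarith

/-- The clearance lemma. -/
theorem clearance {q : ℕ → ℝ} (k : ℕ) (hk : k < S.m) (hq : S.Val q (k + 1)) (r : ℕ → ℤ)
    (hsupp : ∀ l, k < l → r l = 0) (hnorm : ∀ l, |r l| ≤ (S.N k : ℤ)) (hne : dotk r q (k + 1) ≠ 0) :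
    ∃ u ≤ k, ¬ S.Snap u q ∧ S.rad q u ≤ (S.Cc k : ℝ) * |dotk r q (k + 1)| := by
  induction k generalizing r with
  | zero =>
    have hr0 : r 0 ≠ 0 := by
      intro h0
      apply hne
      rw [dotk_succ]
      simp [dotk, h0]
    have hmem : r ∈ S.R 0 := (S.memR 0 r).mpr ⟨hr0, hsupp, hnorm⟩
    have hlev := hq 0 (by omega)
    have e := dotk_eq_mul q hr0
    have hq0 : posW 0 r q = 0 := S.wall_zero_level ⟨r, hmem, rfl⟩
    rw [hq0, sub_zero] at e
    have hsn : ¬ S.Snap 0 q := by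
      intro hs
      have : q 0 = 0 := S.wall_zero_level hs
      apply hne
      rw [e, this]
      simp
    have h1 := hlev.un_of_not_snap hsn _ ⟨r, hmem, rfl⟩
    rw [hq0, sub_zero] at h1
    refine ⟨0, le_rfl, hsn, ?_⟩
    rw [e, abs_mul]
    have h2 : (1 : ℝ) ≤ |(r 0 : ℝ)| := by
      have : (1 : ℤ) ≤ |r 0| := Int.one_le_abs hr0
      exact_mod_cast this
    have h3 : (1 : ℝ) ≤ (S.Cc 0 : ℝ) := by exact_mod_cast S.Cc_pos 0
    have h4 := abs_nonneg (q 0)
    calc S.rad q 0 ≤ |q 0| := h1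
      _ = 1 * (1 * |q 0|) := by ring
      _ ≤ (S.Cc 0 : ℝ) * (|(r 0 : ℝ)| * |q 0|) :=
        mul_le_mul h3 (mul_le_mul_of_nonneg_right h2 h4) (by positivity) (by positivity)
  | succ k ih =>
    have hk' : k < S.m := by omega
    have hq' : S.Val q (k + 1) := hq.mono (by omega)
    have hNk : (S.N (k + 1) : ℤ) ≤ (S.N k : ℤ) := by exact_mod_cast S.N_anti hk
    by_cases hr : r (k + 1) = 0
    · -- reduce to the previous level
      have e1 : dotk r q (k + 1 + 1) = dotk r q (k + 1) := by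
        rw [dotk_succ, hr]
        simp
      rw [e1] at hne ⊢
      obtain ⟨u, hu, hsu, hle⟩ := ih hk' hq' r
        (fun l hl => by
          rcases Nat.lt_or_ge (k + 1) l with h | h
          · exact hsupp l h
          · have : l = k + 1 := by omega
            rw [this, hr])
        (fun l => (hnorm l).trans hNk) hne
      refine ⟨u, by omega, hsu, hle.trans ?_⟩
      apply mul_le_mul_of_nonneg_right _ (abs_nonneg _)
      exact_mod_cast S.Cc_mono (Nat.le_succ k)
    · have hmem : r ∈ S.R (k + 1) := (S.memR _ r).mpr ⟨hr, hsupp, hnorm⟩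
      have hlev := hq (k + 1) (by omega)
      by_cases hs : S.Snap (k + 1) q
      · obtain ⟨w, hw, hwe⟩ := hs
        obtain ⟨hw0, hwsupp, hwnorm⟩ := (S.memR _ w).mp hw
        have hwdot : dotk w q (k + 1 + 1) = 0 := by
          rw [dotk_eq_mul q hw0, hwe]
          simp
        -- the reduced vector
        set r' : ℕ → ℤ := fun l => r (k + 1) * w l - w (k + 1) * r l with hr'
        have hdot : dotk r' q (k + 1 + 1)
            = (r (k + 1) : ℝ) * dotk w q (k + 1 + 1) - (w (k + 1) : ℝ) * dotk r q (k + 1 + 1) := by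
          unfold dotk
          rw [Finset.mul_sum, Finset.mul_sum, ← Finset.sum_sub_distrib]
          apply Finset.sum_congr rfl
          intro l _
          rw [hr']
          push_cast
          ring
        have hr'top : r' (k + 1) = 0 := by
          rw [hr']
          ring
        have e1 : dotk r' q (k + 1 + 1) = dotk r' q (k + 1) := by
          rw [dotk_succ, hr'top]
          simp
        rw [hwdot, mul_zero, zero_sub] at hdot
        have hw0' : (w (k + 1) : ℝ) ≠ 0 := by exact_mod_cast hw0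
        have hne' : dotk r' q (k + 1) ≠ 0 := by
          rw [← e1, hdot]
          exact neg_ne_zero.mpr (mul_ne_zero hw0' hne)
        have hsupp' : ∀ l, k < l → r' l = 0 := by
          intro l hl
          rcases Nat.lt_or_ge (k + 1) l with h | h
          · rw [hr']
            show r (k + 1) * w l - w (k + 1) * r l = 0
            rw [hsupp l h, hwsupp l h]
            ring
          · have : l = k + 1 := by omega
            rw [this, hr'top]
        have hnorm' : ∀ l, |r' l| ≤ (S.N k : ℤ) := by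
          intro l
          have h1 := hnorm (k + 1)
          have h2 := hnorm l
          have h3 := hwnorm (k + 1)
          have h4 := hwnorm l
          have h5 : |r' l| ≤ |r (k + 1)| * |w l| + |w (k + 1)| * |r l| := by
            rw [hr']
            show |r (k + 1) * w l - w (k + 1) * r l| ≤ _
            have := abs_sub (r (k + 1) * w l) (w (k + 1) * r l)
            rwa [abs_mul, abs_mul] at this
          have h6 : |r (k + 1)| * |w l| ≤ (S.N (k + 1) : ℤ) * (S.N (k + 1) : ℤ) :=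
            mul_le_mul h1 h4 (abs_nonneg _) (by positivity)
          have h7 : |w (k + 1)| * |r l| ≤ (S.N (k + 1) : ℤ) * (S.N (k + 1) : ℤ) :=
            mul_le_mul h3 h2 (abs_nonneg _) (by positivity)
          have h8 : ((2 * S.N (k + 1) ^ 2 : ℕ) : ℤ) ≤ (S.N k : ℤ) := by
            exact_mod_cast S.hN2 k hk
          push_cast at h8
          nlinarith
        obtain ⟨u, hu, hsu, hle⟩ := ih hk' hq' r' hsupp' hnorm' hne'
        refine ⟨u, by omega, hsu, hle.trans ?_⟩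
        rw [← e1, hdot, abs_neg, abs_mul]
        have h1 : |(w (k + 1) : ℝ)| ≤ (S.N (k + 1) : ℝ) := by
          have := hwnorm (k + 1)
          exact_mod_cast this
        have h2 : ((S.Cc (k + 1) : ℕ) : ℝ) = (S.N (k + 1) : ℝ) * (S.Cc k : ℝ) := by
          show ((S.N (k + 1) * S.Cc k : ℕ) : ℝ) = _
          push_cast
          ring
        rw [h2]
        have h3 := abs_nonneg (dotk r q (k + 1 + 1))
        have h4 : (0 : ℝ) ≤ (S.Cc k : ℝ) := by positivity
        calc (S.Cc k : ℝ) * (|(w (k + 1) : ℝ)| * |dotk r q (k + 1 + 1)|)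
            ≤ (S.Cc k : ℝ) * ((S.N (k + 1) : ℝ) * |dotk r q (k + 1 + 1)|) :=
              mul_le_mul_of_nonneg_left (mul_le_mul_of_nonneg_right h1 h3) h4
          _ = _ := by ring
      · have h1 := hlev.un_of_not_snap hs _ ⟨r, hmem, rfl⟩
        refine ⟨k + 1, le_rfl, hs, ?_⟩
        rw [dotk_eq_mul q hr, abs_mul]
        have h2 : (1 : ℝ) ≤ |(r (k + 1) : ℝ)| := by
          have : (1 : ℤ) ≤ |r (k + 1)| := Int.one_le_abs hr
          exact_mod_cast this
        have h3 : (1 : ℝ) ≤ (S.Cc (k + 1) : ℝ) := by exact_mod_cast S.Cc_pos _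
        have h4 := abs_nonneg (q (k + 1) - posW (k + 1) r q)
        calc S.rad q (k + 1) ≤ |q (k + 1) - posW (k + 1) r q| := h1
          _ = 1 * (1 * |q (k + 1) - posW (k + 1) r q|) := by ring
          _ ≤ _ := mul_le_mul h3 (mul_le_mul_of_nonneg_right h2 h4) (by positivity) (by positivity)

/-- Spacing of distinct walls: there is an unsnapped level above them. -/
theorem spacing {q : ℕ → ℝ} {k : ℕ} (hk : k < S.m) (hq : S.Val q k) {a b : ℝ}
    (ha : S.IsWall k q a) (hb : S.IsWall k q b) (hab : a ≠ b) :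
    ∃ u < k, ¬ S.Snap u q ∧ S.rad q u ≤ ((S.Cc S.m : ℝ)) ^ 3 * |a - b| := by
  obtain ⟨r, hr, rfl⟩ := ha
  obtain ⟨r', hr', rfl⟩ := hb
  obtain ⟨hr0, hrsupp, hrnorm⟩ := (S.memR _ r).mp hr
  obtain ⟨hr'0, hr'supp, hr'norm⟩ := (S.memR _ r').mp hr'
  cases k with
  | zero =>
    exfalso
    apply hab
    rw [S.wall_zero_level ⟨r, hr, rfl⟩, S.wall_zero_level ⟨r', hr', rfl⟩]
  | succ k =>
    set w : ℕ → ℤ := fun l => r' (k + 1) * r l - r (k + 1) * r' l with hw
    have hwtop : w (k + 1) = 0 := by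
      rw [hw]
      ring
    have hr0' : (r (k + 1) : ℝ) ≠ 0 := by exact_mod_cast hr0
    have hr'0' : (r' (k + 1) : ℝ) ≠ 0 := by exact_mod_cast hr'0
    have hdot : dotk w q (k + 1) = (r (k + 1) : ℝ) * (r' (k + 1) : ℝ) *
        (posW (k + 1) r' q - posW (k + 1) r q) := by
      have h1 : dotk w q (k + 1)
          = (r' (k + 1) : ℝ) * dotk r q (k + 1) - (r (k + 1) : ℝ) * dotk r' q (k + 1) := by
        unfold dotk
        rw [Finset.mul_sum, Finset.mul_sum, ← Finset.sum_sub_distrib]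
        apply Finset.sum_congr rfl
        intro l _
        rw [hw]
        push_cast
        ring
      rw [h1]
      unfold posW
      field_simp
      ring
    have hne : dotk w q (k + 1) ≠ 0 := by
      rw [hdot]
      refine mul_ne_zero (mul_ne_zero hr0' hr'0') ?_
      exact sub_ne_zero.mpr hab.symm
    have hsupp' : ∀ l, k < l → w l = 0 := by
      intro l hl
      rcases Nat.lt_or_ge (k + 1) l with h | h
      · rw [hw]
        show r' (k + 1) * r l - r (k + 1) * r' l = 0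
        rw [hrsupp l h, hr'supp l h]
        ring
      · have : l = k + 1 := by omega
        rw [this, hwtop]
    have hnorm' : ∀ l, |w l| ≤ (S.N k : ℤ) := by
      intro l
      have h1 := hrnorm (k + 1)
      have h2 := hrnorm l
      have h3 := hr'norm (k + 1)
      have h4 := hr'norm l
      have h5 : |w l| ≤ |r' (k + 1)| * |r l| + |r (k + 1)| * |r' l| := by
        rw [hw]
        show |r' (k + 1) * r l - r (k + 1) * r' l| ≤ _
        have := abs_sub (r' (k + 1) * r l) (r (k + 1) * r' l)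
        rwa [abs_mul, abs_mul] at this
      have h6 : |r' (k + 1)| * |r l| ≤ (S.N (k + 1) : ℤ) * (S.N (k + 1) : ℤ) :=
        mul_le_mul h3 h2 (abs_nonneg _) (by positivity)
      have h7 : |r (k + 1)| * |r' l| ≤ (S.N (k + 1) : ℤ) * (S.N (k + 1) : ℤ) :=
        mul_le_mul h1 h4 (abs_nonneg _) (by positivity)
      have h8 : ((2 * S.N (k + 1) ^ 2 : ℕ) : ℤ) ≤ (S.N k : ℤ) := by
        exact_mod_cast S.hN2 k hk
      push_cast at h8
      nlinarith
    obtain ⟨u, hu, hsu, hle⟩ := S.clearance k (by omega) hq w hsupp' hnorm' hne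
    refine ⟨u, by omega, hsu, hle.trans ?_⟩
    rw [hdot, abs_mul, abs_mul, abs_sub_comm]
    set C : ℝ := (S.Cc S.m : ℝ) with hC
    have hC1 : (1 : ℝ) ≤ C := by
      rw [hC]
      exact_mod_cast S.Cc_pos _
    have h1 : (S.Cc k : ℝ) ≤ C := by
      rw [hC]
      exact_mod_cast S.Cc_mono (by omega)
    have h2 : |(r (k + 1) : ℝ)| ≤ C := by
      have h3 := hrnorm (k + 1)
      have h4 : |(r (k + 1) : ℝ)| ≤ (S.N (k + 1) : ℝ) := by exact_mod_cast h3
      have h5 : (S.N (k + 1) : ℝ) ≤ C := by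
        rw [hC]
        exact_mod_cast (S.N_le_Cc _).trans (S.Cc_mono (by omega))
      exact h4.trans h5
    have h2' : |(r' (k + 1) : ℝ)| ≤ C := by
      have h3 := hr'norm (k + 1)
      have h4 : |(r' (k + 1) : ℝ)| ≤ (S.N (k + 1) : ℝ) := by exact_mod_cast h3
      have h5 : (S.N (k + 1) : ℝ) ≤ C := by
        rw [hC]
        exact_mod_cast (S.N_le_Cc _).trans (S.Cc_mono (by omega))
      exact h4.trans h5
    have h6 := abs_nonneg (posW (k + 1) r q - posW (k + 1) r' q)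
    have h7 : |(r (k + 1) : ℝ)| * |(r' (k + 1) : ℝ)| ≤ C * C :=
      mul_le_mul h2 h2' (abs_nonneg _) (by linarith)
    have h8 : (0:ℝ) ≤ (S.Cc k : ℝ) := by positivity
    calc (S.Cc k : ℝ) * (|(r (k + 1) : ℝ)| * |(r' (k + 1) : ℝ)| *
          |posW (k + 1) r q - posW (k + 1) r' q|)
        ≤ C * ((C * C) * |posW (k + 1) r q - posW (k + 1) r' q|) :=
          mul_le_mul h1 (mul_le_mul_of_nonneg_right h7 h6) (by positivity) (by linarith)
      _ = _ := by ring

end LSys

end Vale.Agent.Lib.P072
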