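import Mathlib
import Vale.Agent.Lib.P072.GWall

/-!
The Young bound, the greedy completion and the exchange inequality.
-/

open Finset

namespace Vale.Agent.Lib.P072

/-- The entropy function. -/
noncomputable def hh (x : ℝ) : ℝ := x * Real.log x - x

namespace LSys

variable (S : LSys)

/-- Largeness conditions on the constants. -/
structure Big : Prop where
  hXi : 4 * ((S.Cc S.m : ℝ)) ^ 3 ≤ S.Xi
  hZ16 : 16 ≤ S.Z0
  hθ : ∀ ζ, S.Z0 ≤ ζ → ζ * Real.exp (-(ζ / 2)) ≤ 1 / (100 * ((S.m : ℝ) + 1))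
  hlow : 40 * ((S.m : ℝ) + 1) * S.Zmax * Real.exp (1 - S.Z0 / (4 * (S.Cc S.m : ℝ))) ≤ 1

variable {S}

lemma C_one_le : (1 : ℝ) ≤ (S.Cc S.m : ℝ) := by
  exact_mod_cast S.Cc_pos _

lemma C_pos : (0 : ℝ) < (S.Cc S.m : ℝ) := lt_of_lt_of_le one_pos C_one_le

lemma Big.four_C_le (hB : S.Big) : 4 * (S.Cc S.m : ℝ) ≤ S.Xi := by
  have h1 : (1 : ℝ) ≤ (S.Cc S.m : ℝ) := C_one_le
  have h2 : (S.Cc S.m : ℝ) ≤ (S.Cc S.m : ℝ) ^ 3 := by
    have : (1 : ℝ) ≤ (S.Cc S.m : ℝ) ^ 2 := one_le_pow₀ h1
    nlinarith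
  linarith [hB.hXi]

lemma Big.four_le (hB : S.Big) : 4 ≤ S.Xi := by
  have h1 : (1 : ℝ) ≤ (S.Cc S.m : ℝ) := C_one_le
  linarith [hB.four_C_le]

/-- Distinct walls at a level are far apart. -/
lemma Big.wall_gap (hB : S.Big) {q : ℕ → ℝ} {k : ℕ} (hk : k < S.m) (hq : S.Val q k) {a b : ℝ}
    (ha : S.IsWall k q a) (hb : S.IsWall k q b) (hab : a ≠ b) : 4 * S.rad q k ≤ |a - b| := by
  obtain ⟨u, huk, hsu, hle⟩ := S.spacing hk hq ha hb hab
  have h1 := S.rad_gap_un huk hk.le hsu
  have h2 := hB.hXi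
  have h3 := S.rad_pos q k
  have hC : (0 : ℝ) < (S.Cc S.m : ℝ) ^ 3 := pow_pos C_pos 3
  have h4 : 4 * (S.Cc S.m : ℝ) ^ 3 * S.rad q k ≤ (S.Cc S.m : ℝ) ^ 3 * |a - b| := by
    calc 4 * (S.Cc S.m : ℝ) ^ 3 * S.rad q k ≤ S.Xi * S.rad q k :=
          mul_le_mul_of_nonneg_right h2 h3.le
      _ ≤ S.rad q u := h1
      _ ≤ _ := hle
  have h5 : (S.Cc S.m : ℝ) ^ 3 * (4 * S.rad q k) ≤ (S.Cc S.m : ℝ) ^ 3 * |a - b| := by linarith
  exact le_of_mul_le_mul_left h5 hC

/-! ### Contribution bounds -/

lemma mul_le_exp_add {x t : ℝ} (hx : 0 < x) : t * x ≤ hh x + Real.exp t := by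
  unfold hh
  have h1 := Real.add_one_le_exp (t - Real.log x)
  rw [Real.exp_sub, Real.exp_log hx] at h1
  have h2 : (t - Real.log x + 1) * x ≤ Real.exp t := by
    rw [le_div_iff₀ hx] at h1
    exact h1
  nlinarith

/-- Young bound for one level. -/
lemma ctr_le_young (q x : ℕ → ℝ) {k : ℕ} (hk : k < S.m) (hx : 0 < x k) :
    S.ctr q x k ≤ hh (x k) + S.Zmax * x k := by
  classical
  unfold ctr cst
  have hZ := S.one_le_Zmax
  split_ifs with hs
  · have h1 := S.one_le_rad q hk.le
    have h2 := S.rad_le_Zmax q hk.le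
    have h3 := mul_le_exp_add (t := q k - S.rad q k) hx
    have h4 : Real.exp (q k - S.rad q k) ≤ S.rad q k * Real.exp (q k - S.rad q k) := by
      have := Real.exp_pos (q k - S.rad q k)
      nlinarith
    have h5 : S.rad q k * x k ≤ S.Zmax * x k := mul_le_mul_of_nonneg_right h2 hx.le
    nlinarith
  · have h3 := mul_le_exp_add (t := q k) hx
    have : 0 ≤ S.Zmax * x k := by positivity
    linarith

/-- The cost is nonnegative. -/
lemma cst_nonneg (q : ℕ → ℝ) (k : ℕ) : 0 ≤ S.cst q k := by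
  classical
  unfold cst
  split_ifs
  · have := S.rad_pos q k
    positivity
  · positivity

/-- Lower bound of the cost. -/
lemma exp_sub_le_cst (q : ℕ → ℝ) {k : ℕ} (hk : k < S.m) :
    Real.exp (q k - S.Zmax) ≤ S.cst q k := by
  classical
  unfold cst
  have hZ := S.one_le_Zmax
  split_ifs
  · have h1 := S.one_le_rad q hk.le
    have h2 := S.rad_le_Zmax q hk.le
    have h3 : Real.exp (q k - S.Zmax) ≤ Real.exp (q k - S.rad q k) :=
      Real.exp_le_exp.mpr (by linarith)
    have h4 := Real.exp_pos (q k - S.rad q k)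
    nlinarith
  · exact Real.exp_le_exp.mpr (by linarith)

/-! ### Changing one level -/

lemma update_lt {q : ℕ → ℝ} {n l : ℕ} {t : ℝ} (h : l < n) : Function.update q n t l = q l :=
  Function.update_of_ne h.ne _ _

lemma isWall_update {q : ℕ → ℝ} {n : ℕ} {t a : ℝ} :
    S.IsWall n (Function.update q n t) a ↔ S.IsWall n q a :=
  S.isWall_congr (fun _ hl => update_lt hl) a

lemma rad_update {q : ℕ → ℝ} {n : ℕ} {t : ℝ} : S.rad (Function.update q n t) n = S.rad q n :=
  S.rad_congr (fun _ hl => update_lt hl)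

lemma snap_update {q : ℕ → ℝ} {n : ℕ} {t : ℝ} :
    S.Snap n (Function.update q n t) ↔ S.IsWall n q t := by
  unfold Snap
  rw [Function.update_self]
  exact isWall_update

lemma lev_update {q : ℕ → ℝ} {n : ℕ} {t : ℝ} (h1 : 0 < n → t ≤ q (n - 1))
    (h2 : S.IsWall n q t ∨ ∀ a, S.IsWall n q a → S.rad q n ≤ |t - a|) :
    S.Lev n (Function.update q n t) := by
  constructor
  · rw [Function.update_self]
    rcases Nat.eq_zero_or_pos n with h0 | h0
    · subst h0
      simp
    · rw [update_lt (by omega)]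
      exact h1 h0
  · rcases h2 with h2 | h2
    · exact Or.inl (snap_update.mpr h2)
    · right
      intro a ha
      rw [rad_update, Function.update_self]
      exact h2 a (isWall_update.mp ha)

lemma val_update {q : ℕ → ℝ} {n : ℕ} {t : ℝ} (hq : S.Val q n) (hl : S.Lev n (Function.update q n t)) :
    S.Val (Function.update q n t) (n + 1) := by
  intro k hk
  rcases Nat.lt_or_ge k n with h | h
  · exact (S.lev_congr (fun l hl => update_lt (lt_of_le_of_lt hl h))).mpr (hq k h)
  · have : k = n := by omega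
    rw [this]
    exact hl

lemma cst_update_wall {q : ℕ → ℝ} {n : ℕ} {t : ℝ} (h : S.IsWall n q t) :
    S.cst (Function.update q n t) n = S.rad q n * Real.exp (t - S.rad q n) := by
  classical
  unfold cst
  rw [if_pos (snap_update.mpr h), rad_update, Function.update_self]

lemma cst_update_un {q : ℕ → ℝ} {n : ℕ} {t : ℝ}
    (h : ∀ a, S.IsWall n q a → S.rad q n ≤ |t - a|) :
    S.cst (Function.update q n t) n = Real.exp t := by
  classical
  have hns : ¬ S.Snap n (Function.update q n t) := by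
    apply S.not_snap_of_un
    intro a ha
    rw [rad_update, Function.update_self]
    exact h a (isWall_update.mp ha)
  unfold cst
  rw [if_neg hns, Function.update_self]

/-! ### The greedy completion -/

/-- One step of the greedy completion: a value for level `n`. -/
lemma greedy_step (hB : S.Big) {x : ℕ → ℝ} {q : ℕ → ℝ} {n : ℕ} (hn : n < S.m) (hxn : 0 < x n)
    (hq : S.Val q n) (hprev : 0 < n → Real.log (x n) ≤ q (n - 1) + S.Zmax) :
    ∃ t : ℝ, S.Lev n (Function.update q n t) ∧
      Real.log (x n) ≤ t + S.Zmax ∧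
      hh (x n) - 3 * S.Zmax * x n ≤ S.ctr (Function.update q n t) x n := by
  classical
  set u := Real.log (x n) with hu
  set ζ := S.rad q n with hζ
  have hζ1 : 1 ≤ ζ := S.one_le_rad q hn.le
  have hζ2 : ζ ≤ S.Zmax := S.rad_le_Zmax q hn.le
  have heu : Real.exp u = x n := Real.exp_log hxn
  have hhx : hh (x n) = u * x n - x n := by
    unfold hh
    ring
  by_cases hp : 0 < n ∧ q (n - 1) ≤ u
  · -- the value of the previous level
    obtain ⟨hn0, hpu⟩ := hp
    have hw := S.isWall_prev hn0 q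
    refine ⟨q (n - 1), lev_update (fun _ => le_rfl) (Or.inl hw), ?_, ?_⟩
    · exact hprev hn0
    · unfold ctr
      rw [cst_update_wall hw, Function.update_self, hhx]
      have h1 := hprev hn0
      have h2 : Real.exp (q (n - 1) - ζ) ≤ x n := by
        rw [← heu]
        exact Real.exp_le_exp.mpr (by linarith)
      have h3 : ζ * Real.exp (q (n - 1) - ζ) ≤ S.Zmax * x n :=
        mul_le_mul hζ2 h2 (Real.exp_pos _).le (by linarith)
      have h4 : (u - S.Zmax) * x n ≤ q (n - 1) * x n :=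
        mul_le_mul_of_nonneg_right (by linarith) hxn.le
      have h5 : 0 ≤ S.Zmax * x n := by
        have := S.one_le_Zmax
        positivity
      nlinarith
  · by_cases hw : ∃ a, S.IsWall n q a ∧ |u - a| < ζ
    · obtain ⟨a, haw, hau⟩ := hw
      have hau' := abs_lt.mp hau
      have hsort : 0 < n → a ≤ q (n - 1) := by
        intro hn0
        by_contra hcon
        push Not at hcon
        have h1 : u < q (n - 1) := by
          by_contra h2
          exact hp ⟨hn0, not_lt.mp h2⟩
        have h2 := hB.wall_gap hn hq haw (S.isWall_prev hn0 q) hcon.ne'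
        rw [abs_of_pos (by linarith)] at h2
        linarith
      refine ⟨a, lev_update hsort (Or.inl haw), ?_, ?_⟩
      · linarith [hau'.2]
      · unfold ctr
        rw [cst_update_wall haw, Function.update_self, hhx]
        have h2 : Real.exp (a - ζ) ≤ x n := by
          rw [← heu]
          exact Real.exp_le_exp.mpr (by linarith [hau'.1])
        have h3 : ζ * Real.exp (a - ζ) ≤ S.Zmax * x n :=
          mul_le_mul hζ2 h2 (Real.exp_pos _).le (by linarith)
        have h4 : (u - S.Zmax) * x n ≤ a * x n :=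
          mul_le_mul_of_nonneg_right (by linarith [hau'.2]) hxn.le
        have h5 : 0 ≤ S.Zmax * x n := by
          have := S.one_le_Zmax
          positivity
        nlinarith
    · push Not at hw
      have hun : ∀ a, S.IsWall n q a → S.rad q n ≤ |u - a| := hw
      have hsort : 0 < n → u ≤ q (n - 1) := by
        intro hn0
        by_contra h2
        exact hp ⟨hn0, (not_le.mp h2).le⟩
      refine ⟨u, lev_update hsort (Or.inr hun), ?_, ?_⟩
      · have := S.one_le_Zmax
        linarith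
      · unfold ctr
        rw [cst_update_un hun, Function.update_self, hhx, heu]
        have h5 : 0 ≤ S.Zmax * x n := by
          have := S.one_le_Zmax
          positivity
        nlinarith

/-- The greedy completion. -/
theorem greedy (hB : S.Big) {x : ℕ → ℝ} (hxp : ∀ l < S.m, 0 < x l)
    (hxa : ∀ l, l + 1 < S.m → x (l + 1) ≤ x l) :
    ∀ (j n : ℕ), n + j = S.m → ∀ q, S.Val q n → (0 < n → n < S.m → Real.log (x n) ≤ q (n - 1) + S.Zmax) →
      ∃ q', (∀ l < n, q' l = q l) ∧ S.Val q' S.m ∧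
        ∑ l ∈ Ico n S.m, (hh (x l) - 3 * S.Zmax * x l) ≤ ∑ l ∈ Ico n S.m, S.ctr q' x l := by
  intro j
  induction j with
  | zero =>
    intro n hn q hq _
    have : n = S.m := by omega
    subst this
    exact ⟨q, fun _ _ => rfl, hq, by simp⟩
  | succ j ih =>
    intro n hn q hq hprev
    have hnm : n < S.m := by omega
    obtain ⟨t, hlev, hlog, hctr⟩ := greedy_step hB hnm (hxp n hnm) hq (fun h => hprev h hnm)
    have hval := val_update hq hlev
    obtain ⟨q', h1, h2, h3⟩ := ih (n + 1) (by omega) _ hval (by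
      intro _ hn1
      simp only [Nat.add_sub_cancel]
      rw [Function.update_self]
      have h4 := hxa n hn1
      have h5 : Real.log (x (n + 1)) ≤ Real.log (x n) := Real.log_le_log (hxp _ hn1) h4
      linarith)
    refine ⟨q', fun l hl => ?_, h2, ?_⟩
    · rw [h1 l (by omega), update_lt hl]
    · rw [Finset.sum_eq_sum_Ico_succ_bot hnm, Finset.sum_eq_sum_Ico_succ_bot hnm]
      have h4 : S.ctr q' x n = S.ctr (Function.update q n t) x n :=
        S.ctr_congr x (fun l hl => h1 l (by omega))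
      rw [h4]
      linarith

/-- Exchange inequality: a competitor which agrees with the maximiser below level `p`, and which is
valid below level `n`, gains at most the loss of the greedy completion. -/
theorem exchange (hB : S.Big) {x q q' : ℕ → ℝ} (hxp : ∀ l < S.m, 0 < x l)
    (hxa : ∀ l, l + 1 < S.m → x (l + 1) ≤ x l) (hmax : S.IsMaxQ q x) {p n : ℕ} (hpn : p ≤ n)
    (hnm : n ≤ S.m) (hagree : ∀ l < p, q' l = q l) (hval : S.Val q' n)
    (hprev : 0 < n → n < S.m → Real.log (x n) ≤ q' (n - 1) + S.Zmax) :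
    ∑ l ∈ Ico p n, S.ctr q' x l - ∑ l ∈ Ico p n, S.ctr q x l
      ≤ 4 * S.Zmax * ∑ l ∈ Ico n S.m, x l := by
  obtain ⟨j, hj⟩ : ∃ j, n + j = S.m := ⟨S.m - n, by omega⟩
  obtain ⟨q₁, h1, h2, h3⟩ := greedy hB hxp hxa j n hj q' hval hprev
  have h4 := hmax.2 q₁ h2
  unfold Phi at h4
  have hsplit : ∀ q₂ : ℕ → ℝ, ∑ l ∈ range S.m, S.ctr q₂ x l
      = ∑ l ∈ range p, S.ctr q₂ x l + ∑ l ∈ Ico p n, S.ctr q₂ x l
        + ∑ l ∈ Ico n S.m, S.ctr q₂ x l := by
    intro q₂
    simp only [Finset.range_eq_Ico]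
    rw [Finset.sum_Ico_consecutive _ (Nat.zero_le p) hpn,
      Finset.sum_Ico_consecutive _ (Nat.zero_le n) hnm]
  rw [hsplit q₁, hsplit q] at h4
  have e1 : ∑ l ∈ range p, S.ctr q₁ x l = ∑ l ∈ range p, S.ctr q x l := by
    apply Finset.sum_congr rfl
    intro l hl
    have hl' := Finset.mem_range.mp hl
    apply S.ctr_congr x
    intro j' hj'
    rw [h1 j' (by omega), hagree j' (by omega)]
  have e2 : ∑ l ∈ Ico p n, S.ctr q₁ x l = ∑ l ∈ Ico p n, S.ctr q' x l := by
    apply Finset.sum_congr rfl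
    intro l hl
    have hl' := Finset.mem_Ico.mp hl
    apply S.ctr_congr x
    intro j' hj'
    exact h1 j' (by omega)
  have h5 : ∑ l ∈ Ico n S.m, S.ctr q x l ≤ ∑ l ∈ Ico n S.m, (hh (x l) + S.Zmax * x l) := by
    apply Finset.sum_le_sum
    intro l hl
    have hl' := Finset.mem_Ico.mp hl
    exact ctr_le_young q x hl'.2 (hxp l hl'.2)
  have h6 : ∑ l ∈ Ico n S.m, (hh (x l) + S.Zmax * x l)
      = ∑ l ∈ Ico n S.m, (hh (x l) - 3 * S.Zmax * x l) + 4 * S.Zmax * ∑ l ∈ Ico n S.m, x l := by
    rw [Finset.mul_sum, ← Finset.sum_add_distrib]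
    apply Finset.sum_congr rfl
    intro l _
    ring
  linarith

end LSys

end Vale.Agent.Lib.P072
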