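import Mathlib
import Vale.Agent.Lib.P072.GGreedy

/-!
Competitors of a maximiser: moving a whole block of equal levels, or one level.
-/

open Finset

namespace Vale.Agent.Lib.P072

namespace LSys

variable {S : LSys}

/-- A block of equal levels in a covector. -/
structure Blk (S : LSys) (q : ℕ → ℝ) (p n : ℕ) : Prop where
  hpn : p < n
  hn : n ≤ S.m
  start : 0 < p → q p < q (p - 1)
  same : ∀ l, p ≤ l → l < n → q l = q p
  stop : n < S.m → q n < q p

/-- The block moved to the value `t`. -/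
noncomputable def blkQ (q : ℕ → ℝ) (p n : ℕ) (t : ℝ) : ℕ → ℝ :=
  fun l => if p ≤ l ∧ l < n then t else q l

lemma blkQ_lt {q : ℕ → ℝ} {p n l : ℕ} {t : ℝ} (h : l < p) : blkQ q p n t l = q l := by
  unfold blkQ
  rw [if_neg (by omega)]

lemma blkQ_in {q : ℕ → ℝ} {p n l : ℕ} {t : ℝ} (h : p ≤ l) (h' : l < n) : blkQ q p n t l = t := by
  unfold blkQ
  rw [if_pos ⟨h, h'⟩]

lemma blkQ_agree {q : ℕ → ℝ} {p n : ℕ} {t : ℝ} (hpn : p < n) :
    ∀ l ≤ p, blkQ q p n t l = Function.update q p t l := by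
  intro l hl
  rcases Nat.lt_or_ge l p with h | h
  · rw [blkQ_lt h, update_lt h]
  · have : l = p := by omega
    rw [this, blkQ_in le_rfl hpn, Function.update_self]

lemma snap_blkQ {q : ℕ → ℝ} {p n l : ℕ} {t : ℝ} (hpl : p < l) (hln : l < n) :
    S.Snap l (blkQ q p n t) := by
  have h1 := S.isWall_prev (k := l) (by omega) (blkQ q p n t)
  rw [blkQ_in (l := l - 1) (by omega) (by omega)] at h1
  unfold Snap
  rw [blkQ_in hpl.le hln]
  exact h1

/-- Validity of the moved block. -/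
lemma val_blkQ {q : ℕ → ℝ} {p n : ℕ} {t : ℝ} (hpn : p < n) (hq : S.Val q p)
    (hl : S.Lev p (Function.update q p t)) : S.Val (blkQ q p n t) n := by
  intro k hk
  rcases lt_trichotomy k p with h | h | h
  · exact (S.lev_congr (fun l hl' => blkQ_lt (lt_of_le_of_lt hl' h))).mpr (hq k h)
  · subst h
    exact (S.lev_congr (blkQ_agree hpn)).mpr hl
  · refine ⟨?_, Or.inl (snap_blkQ h hk)⟩
    rw [blkQ_in h.le hk, blkQ_in (l := k - 1) (by omega) (by omega)]

/-- Member cost of the moved block. -/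
lemma cst_blkQ_member {q : ℕ → ℝ} {p n l : ℕ} {t : ℝ} (hpl : p < l) (hln : l < n) :
    S.cst (blkQ q p n t) l
      = S.rad (blkQ q p n t) l * Real.exp (t - S.rad (blkQ q p n t) l) := by
  classical
  unfold cst
  rw [if_pos (snap_blkQ hpl hln), blkQ_in hpl.le hln]

lemma member_le (hB : S.Big) {ζ t : ℝ} (hζ : S.Z0 ≤ ζ) :
    ζ * Real.exp (t - ζ) ≤ 1 / (100 * ((S.m : ℝ) + 1)) * Real.exp t := by
  have h1 := hB.hθ ζ hζ
  have hζ0 : 0 ≤ ζ := le_trans S.Z0_pos.le hζ
  have h2 : Real.exp (t - ζ) ≤ Real.exp (-(ζ / 2)) * Real.exp t := by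
    rw [← Real.exp_add]
    exact Real.exp_le_exp.mpr (by linarith)
  calc ζ * Real.exp (t - ζ) ≤ ζ * (Real.exp (-(ζ / 2)) * Real.exp t) :=
        mul_le_mul_of_nonneg_left h2 hζ0
    _ = (ζ * Real.exp (-(ζ / 2))) * Real.exp t := by ring
    _ ≤ _ := mul_le_mul_of_nonneg_right h1 (Real.exp_pos _).le

lemma member_le_snap (hB : S.Big) {ζ ζ' t : ℝ} (hζ : S.Z0 ≤ ζ) (hζζ' : 2 * ζ' ≤ ζ) :
    ζ * Real.exp (t - ζ) ≤ 1 / (100 * ((S.m : ℝ) + 1)) * Real.exp (t - ζ') := by
  have h1 := hB.hθ ζ hζ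
  have hζ0 : 0 ≤ ζ := le_trans S.Z0_pos.le hζ
  have h2 : Real.exp (t - ζ) ≤ Real.exp (-(ζ / 2)) * Real.exp (t - ζ') := by
    rw [← Real.exp_add]
    exact Real.exp_le_exp.mpr (by linarith)
  calc ζ * Real.exp (t - ζ) ≤ ζ * (Real.exp (-(ζ / 2)) * Real.exp (t - ζ')) :=
        mul_le_mul_of_nonneg_left h2 hζ0
    _ = (ζ * Real.exp (-(ζ / 2))) * Real.exp (t - ζ') := by ring
    _ ≤ _ := mul_le_mul_of_nonneg_right h1 (Real.exp_pos _).le

/-- A finite sum of small costs. -/
lemma sum_member_le {p n : ℕ} (hn : n ≤ S.m) {f : ℕ → ℝ} {E : ℝ} (hE : 0 ≤ E)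
    (h : ∀ l ∈ Ico (p + 1) n, f l ≤ 1 / (100 * ((S.m : ℝ) + 1)) * E) :
    ∑ l ∈ Ico (p + 1) n, f l ≤ E / 100 := by
  have h1 := Finset.sum_le_card_nsmul _ _ _ h
  refine h1.trans ?_
  rw [nsmul_eq_mul, Nat.card_Ico]
  have hm : (0 : ℝ) < (S.m : ℝ) + 1 := by positivity
  have h2 : ((n - (p + 1) : ℕ) : ℝ) ≤ (S.m : ℝ) + 1 := by
    have : n - (p + 1) ≤ S.m := by omega
    have h3 : ((n - (p + 1) : ℕ) : ℝ) ≤ (S.m : ℝ) := by exact_mod_cast this
    linarith
  calc ((n - (p + 1) : ℕ) : ℝ) * (1 / (100 * ((S.m : ℝ) + 1)) * E)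
      ≤ ((S.m : ℝ) + 1) * (1 / (100 * ((S.m : ℝ) + 1)) * E) :=
        mul_le_mul_of_nonneg_right h2 (by positivity)
    _ = E / 100 := by
      field_simp

/-- The change of the objective function on the block. -/
lemma blk_gain {q x : ℕ → ℝ} {p n : ℕ} {t : ℝ} (hpn : p < n) (hsame : ∀ l, p ≤ l → l < n → q l = q p) :
    (t - q p) * ∑ l ∈ Ico p n, x l + S.cst q p - S.cst (Function.update q p t) p
        - ∑ l ∈ Ico (p + 1) n, S.cst (blkQ q p n t) l
      ≤ ∑ l ∈ Ico p n, S.ctr (blkQ q p n t) x l - ∑ l ∈ Ico p n, S.ctr q x l := by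
  have h1 : ∑ l ∈ Ico p n, S.ctr (blkQ q p n t) x l - ∑ l ∈ Ico p n, S.ctr q x l
      = (t - q p) * ∑ l ∈ Ico p n, x l - ∑ l ∈ Ico p n, S.cst (blkQ q p n t) l
        + ∑ l ∈ Ico p n, S.cst q l := by
    rw [Finset.mul_sum, ← Finset.sum_sub_distrib, ← Finset.sum_sub_distrib,
      ← Finset.sum_add_distrib]
    apply Finset.sum_congr rfl
    intro l hl
    have hl' := Finset.mem_Ico.mp hl
    unfold ctr
    rw [blkQ_in hl'.1 hl'.2, hsame l hl'.1 hl'.2]
    ring
  rw [h1, Finset.sum_eq_sum_Ico_succ_bot hpn (fun l => S.cst (blkQ q p n t) l),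
    Finset.sum_eq_sum_Ico_succ_bot hpn (fun l => S.cst q l)]
  have h2 : S.cst (blkQ q p n t) p = S.cst (Function.update q p t) p :=
    S.cst_congr (blkQ_agree hpn)
  rw [h2]
  have h3 : 0 ≤ ∑ l ∈ Ico (p + 1) n, S.cst q l := Finset.sum_nonneg (fun l _ => cst_nonneg q l)
  linarith

/-- Upward move to a free value. -/
lemma up_free (hB : S.Big) {x q : ℕ → ℝ} (hxp : ∀ l < S.m, 0 < x l)
    (hxa : ∀ l, l + 1 < S.m → x (l + 1) ≤ x l) (hmax : S.IsMaxQ q x) {p n : ℕ} (hb : Blk S q p n)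
    {t : ℝ} (hst : q p ≤ t)
    (h1 : ∀ b, S.IsWall p q b → b ≤ q p → b + S.rad q p ≤ t)
    (h2 : ∀ b, S.IsWall p q b → q p < b → t + S.rad q p ≤ b)
    (h3 : n < S.m → Real.log (x n) ≤ q p) :
    (t - q p) * ∑ l ∈ Ico p n, x l + S.cst q p - Real.exp t - Real.exp t / 100
      ≤ 4 * S.Zmax * ∑ l ∈ Ico n S.m, x l := by
  have hpm : p < S.m := lt_of_lt_of_le hb.hpn hb.hn
  have hζ := S.rad_pos q p
  have hun : ∀ a, S.IsWall p q a → S.rad q p ≤ |t - a| := by
    intro a ha
    rcases le_or_gt a (q p) with h | h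
    · have := h1 a ha h
      rw [abs_of_nonneg (by linarith)]
      linarith
    · have := h2 a ha h
      rw [abs_of_nonpos (by linarith)]
      linarith
  have hsort : 0 < p → t ≤ q (p - 1) := by
    intro hp0
    have := h2 _ (S.isWall_prev hp0 q) (hb.start hp0)
    linarith
  have hlev := lev_update (S := S) hsort (Or.inr hun)
  have hval := val_blkQ hb.hpn (hmax.1.mono hpm.le) hlev
  have hgain := blk_gain (S := S) (x := x) (t := t) hb.hpn hb.same
  have hZ := S.one_le_Zmax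
  have hex := exchange hB hxp hxa hmax hb.hpn.le hb.hn (q' := blkQ q p n t)
    (fun l hl => blkQ_lt hl) hval (by
      intro _ hn'
      rw [blkQ_in (l := n - 1) (by have := hb.hpn; omega) (by have := hb.hpn; omega)]
      linarith [h3 hn'])
  rw [cst_update_un hun] at hgain
  have hm : ∑ l ∈ Ico (p + 1) n, S.cst (blkQ q p n t) l ≤ Real.exp t / 100 := by
    apply sum_member_le hb.hn (Real.exp_pos _).le
    intro l hl
    have hl' := Finset.mem_Ico.mp hl
    rw [cst_blkQ_member (by omega) hl'.2]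
    exact member_le hB (S.Z0_le_rad _ (by have := hb.hn; omega))
  linarith

/-- Upward move to a wall. -/
lemma up_wall (hB : S.Big) {x q : ℕ → ℝ} (hxp : ∀ l < S.m, 0 < x l)
    (hxa : ∀ l, l + 1 < S.m → x (l + 1) ≤ x l) (hmax : S.IsMaxQ q x) {p n : ℕ} (hb : Blk S q p n)
    {a : ℝ} (ha : S.IsWall p q a) (hsa : q p < a)
    (hmin : ∀ b, S.IsWall p q b → q p < b → a ≤ b)
    (h3 : n < S.m → Real.log (x n) ≤ q p) :
    (a - q p) * ∑ l ∈ Ico p n, x l + S.cst q p - S.rad q p * Real.exp (a - S.rad q p)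
        - Real.exp (a - S.rad q p) / 100
      ≤ 4 * S.Zmax * ∑ l ∈ Ico n S.m, x l := by
  have hpm : p < S.m := lt_of_lt_of_le hb.hpn hb.hn
  have hζ := S.rad_pos q p
  have hsort : 0 < p → a ≤ q (p - 1) := by
    intro hp0
    exact hmin _ (S.isWall_prev hp0 q) (hb.start hp0)
  have hlev := lev_update (S := S) hsort (Or.inl ha)
  have hval := val_blkQ hb.hpn (hmax.1.mono hpm.le) hlev
  have hgain := blk_gain (S := S) (x := x) (t := a) hb.hpn hb.same
  have hZ := S.one_le_Zmax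
  have hex := exchange hB hxp hxa hmax hb.hpn.le hb.hn (q' := blkQ q p n a)
    (fun l hl => blkQ_lt hl) hval (by
      intro _ hn'
      rw [blkQ_in (l := n - 1) (by have := hb.hpn; omega) (by have := hb.hpn; omega)]
      linarith [h3 hn'])
  rw [cst_update_wall ha] at hgain
  have hm : ∑ l ∈ Ico (p + 1) n, S.cst (blkQ q p n a) l ≤ Real.exp (a - S.rad q p) / 100 := by
    apply sum_member_le hb.hn (Real.exp_pos _).le
    intro l hl
    have hl' := Finset.mem_Ico.mp hl
    rw [cst_blkQ_member (by omega) hl'.2]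
    have hln := hb.hn
    refine member_le_snap hB (S.Z0_le_rad _ (by omega)) ?_
    -- the radius below a snapped level is larger
    have hsn : S.Snap p (blkQ q p n a) := by
      have h5 : S.Snap p (Function.update q p a) := snap_update.mpr ha
      exact (S.snap_congr (blkQ_agree hb.hpn)).mpr h5
    have h6 := S.rad_gap_snap (q := blkQ q p n a) (l := p) (k := l) (by omega) (by omega) hsn
    have h7 : S.rad (blkQ q p n a) p = S.rad q p :=
      S.rad_congr (fun j hj => blkQ_lt hj)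
    rw [h7] at h6
    have h8 := hB.four_le
    nlinarith
  linarith

/-- Downward move of one level to a free value. -/
lemma down_free (hB : S.Big) {x q : ℕ → ℝ} (hxp : ∀ l < S.m, 0 < x l)
    (hxa : ∀ l, l + 1 < S.m → x (l + 1) ≤ x l) (hmax : S.IsMaxQ q x) {e : ℕ} (he : e < S.m)
    {t : ℝ} (hst : t ≤ q e)
    (h1 : ∀ b, S.IsWall e q b → b < q e → b + S.rad q e ≤ t)
    (h2 : ∀ b, S.IsWall e q b → q e ≤ b → t + S.rad q e ≤ b)
    (h3 : e + 1 < S.m → Real.log (x (e + 1)) ≤ t + S.Zmax) :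
    (t - q e) * x e + S.cst q e - Real.exp t ≤ 4 * S.Zmax * ∑ l ∈ Ico (e + 1) S.m, x l := by
  have hζ := S.rad_pos q e
  have hun : ∀ a, S.IsWall e q a → S.rad q e ≤ |t - a| := by
    intro a ha
    rcases lt_or_ge a (q e) with h | h
    · have := h1 a ha h
      rw [abs_of_nonneg (by linarith)]
      linarith
    · have := h2 a ha h
      rw [abs_of_nonpos (by linarith)]
      linarith
  have hsort : 0 < e → t ≤ q (e - 1) := fun _ => hst.trans (hmax.1 e he).1
  have hlev := lev_update (S := S) hsort (Or.inr hun)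
  have hval := val_update (hmax.1.mono he.le) hlev
  have hex := exchange hB hxp hxa hmax (p := e) (n := e + 1) (Nat.le_succ e) he
    (q' := Function.update q e t)
    (fun l hl => update_lt hl) hval (by
      intro _ hn'
      rw [Nat.add_sub_cancel, Function.update_self]
      exact h3 hn')
  rw [Nat.Ico_succ_singleton, Finset.sum_singleton, Finset.sum_singleton] at hex
  unfold ctr at hex
  rw [cst_update_un hun, Function.update_self] at hex
  linarith

/-- Downward move of one level to a wall. -/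
lemma down_wall (hB : S.Big) {x q : ℕ → ℝ} (hxp : ∀ l < S.m, 0 < x l)
    (hxa : ∀ l, l + 1 < S.m → x (l + 1) ≤ x l) (hmax : S.IsMaxQ q x) {e : ℕ} (he : e < S.m)
    {c : ℝ} (hc : S.IsWall e q c) (hcs : c ≤ q e)
    (h3 : e + 1 < S.m → Real.log (x (e + 1)) ≤ c + S.Zmax) :
    (c - q e) * x e + S.cst q e - S.rad q e * Real.exp (c - S.rad q e)
      ≤ 4 * S.Zmax * ∑ l ∈ Ico (e + 1) S.m, x l := by
  have hsort : 0 < e → c ≤ q (e - 1) := fun _ => hcs.trans (hmax.1 e he).1
  have hlev := lev_update (S := S) hsort (Or.inl hc)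
  have hval := val_update (hmax.1.mono he.le) hlev
  have hex := exchange hB hxp hxa hmax (p := e) (n := e + 1) (Nat.le_succ e) he
    (q' := Function.update q e c)
    (fun l hl => update_lt hl) hval (by
      intro _ hn'
      rw [Nat.add_sub_cancel, Function.update_self]
      exact h3 hn')
  rw [Nat.Ico_succ_singleton, Finset.sum_singleton, Finset.sum_singleton] at hex
  unfold ctr at hex
  rw [cst_update_wall hc, Function.update_self] at hex
  linarith

/-! ### Next walls -/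

lemma exists_min_wall {q : ℕ → ℝ} {p : ℕ} {s : ℝ} (h : ∃ b, S.IsWall p q b ∧ s < b) :
    ∃ a, S.IsWall p q a ∧ s < a ∧ ∀ b, S.IsWall p q b → s < b → a ≤ b := by
  classical
  obtain ⟨b, ⟨r, hr, rfl⟩, hsb⟩ := h
  set A := (S.R p).filter (fun r' => s < posW p r' q) with hA
  have hne : A.Nonempty := ⟨r, Finset.mem_filter.mpr ⟨hr, hsb⟩⟩
  obtain ⟨r₀, hr₀, hmin⟩ := Finset.exists_min_image A (fun r' => posW p r' q) hne
  have hr₀' := Finset.mem_filter.mp hr₀
  refine ⟨posW p r₀ q, ⟨r₀, hr₀'.1, rfl⟩, hr₀'.2, ?_⟩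
  rintro b' ⟨r', hr', rfl⟩ hs'
  exact hmin r' (Finset.mem_filter.mpr ⟨hr', hs'⟩)

lemma exists_max_wall {q : ℕ → ℝ} {p : ℕ} {s : ℝ} (h : ∃ b, S.IsWall p q b ∧ b < s) :
    ∃ a, S.IsWall p q a ∧ a < s ∧ ∀ b, S.IsWall p q b → b < s → b ≤ a := by
  classical
  obtain ⟨b, ⟨r, hr, rfl⟩, hsb⟩ := h
  set A := (S.R p).filter (fun r' => posW p r' q < s) with hA
  have hne : A.Nonempty := ⟨r, Finset.mem_filter.mpr ⟨hr, hsb⟩⟩
  obtain ⟨r₀, hr₀, hmax⟩ := Finset.exists_max_image A (fun r' => posW p r' q) hne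
  have hr₀' := Finset.mem_filter.mp hr₀
  refine ⟨posW p r₀ q, ⟨r₀, hr₀'.1, rfl⟩, hr₀'.2, ?_⟩
  rintro b' ⟨r', hr', rfl⟩ hs'
  exact hmax r' (Finset.mem_filter.mpr ⟨hr', hs'⟩)

/-! ### Separation of consecutive blocks -/

/-- The vector comparing two consecutive levels. -/
lemma exists_braid {k : ℕ} (hk : 0 < k) : ∃ r : ℕ → ℤ, (∀ l, k < l → r l = 0) ∧ (∀ l, |r l| ≤ 1) ∧
    ∀ q : ℕ → ℝ, dotk r q (k + 1) = q k - q (k - 1) := by
  classical
  refine ⟨fun l => if l = k then 1 else if l = k - 1 then -1 else 0, ?_, ?_, ?_⟩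
  · intro l hl
    have h1 : l ≠ k := by omega
    have h2 : l ≠ k - 1 := by omega
    simp [h1, h2]
  · intro l
    by_cases h2 : l = k
    · simp [h2]
    · by_cases h3 : l = k - 1
      · have h4 : k - 1 ≠ k := by omega
        simp [h3, h4]
      · simp [h2, h3]
  · intro q
    rw [dotk_succ]
    unfold dotk
    have hk1 : k - 1 ∈ range k := Finset.mem_range.mpr (by omega)
    rw [Finset.sum_eq_single (k - 1)]
    · have : k - 1 ≠ k := by omega
      simp [this]
      ring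
    · intro b hb hne
      have : b ≠ k := by
        have := Finset.mem_range.mp hb
        omega
      simp [this, hne]
    · intro h
      exact absurd hk1 h

open Classical in
/-- The radius of a snapped level, zero for unsnapped ones. -/
noncomputable def rho (S : LSys) (q : ℕ → ℝ) (k : ℕ) : ℝ := if S.Snap k q then S.rad q k else 0

lemma rho_nonneg (q : ℕ → ℝ) (k : ℕ) : 0 ≤ S.rho q k := by
  classical
  unfold rho
  split_ifs
  · exact (S.rad_pos q k).le
  · exact le_rfl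

/-- Separation lemma. -/
theorem sep (hB : S.Big) {q : ℕ → ℝ} (hq : S.Val q S.m) {n : ℕ} (hn : n < S.m) (hn0 : 0 < n)
    (hlt : q n < q (n - 1)) :
    ∃ u ≤ n, ¬ S.Snap u q ∧ S.rad q u ≤ 2 * (S.Cc S.m : ℝ) * (q (n - 1) - q n - S.rho q n) ∧
      (S.Snap (n - 1) q → S.Xi * S.rad q (n - 1) ≤ S.rad q u) := by
  classical
  have hC1 : (1 : ℝ) ≤ (S.Cc S.m : ℝ) := C_one_le
  by_cases hs : S.Snap n q
  · obtain ⟨r, hr1, hr2, hr3⟩ := exists_braid hn0
    have hnorm : ∀ l, |r l| ≤ (S.N n : ℤ) := by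
      intro l
      have h1 := hr2 l
      have h2 : (1 : ℤ) ≤ (S.N n : ℤ) := by exact_mod_cast S.hN1 n
      linarith
    have hne : dotk r q (n + 1) ≠ 0 := by
      rw [hr3]
      exact sub_ne_zero.mpr hlt.ne
    obtain ⟨u, hun, hsu, hle⟩ := S.clearance n hn (hq.mono hn) r hr1 hnorm hne
    have hune : u ≠ n := by
      intro h
      rw [h] at hsu
      exact hsu hs
    have hu : u < n := by omega
    rw [hr3, abs_of_neg (by linarith), neg_sub] at hle
    have hle2 : S.rad q u ≤ (S.Cc S.m : ℝ) * (q (n - 1) - q n) := by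
      refine hle.trans ?_
      apply mul_le_mul_of_nonneg_right _ (by linarith)
      exact_mod_cast S.Cc_mono hn.le
    have hgap := S.rad_gap_un hu hn.le hsu
    have hrho : S.rho q n = S.rad q n := by
      unfold rho
      rw [if_pos hs]
    refine ⟨u, hun, hsu, ?_, ?_⟩
    · rw [hrho]
      have h4 := hB.four_C_le
      have h5 := S.rad_pos q n
      have h6 : 4 * (S.Cc S.m : ℝ) * S.rad q n ≤ S.rad q u := by
        refine le_trans ?_ hgap
        exact mul_le_mul_of_nonneg_right h4 h5.le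
      nlinarith
    · intro hsn
      have hune' : u ≠ n - 1 := by
        intro h
        rw [h] at hsu
        exact hsu hsn
      exact S.rad_gap_un (by omega) (by omega) hsu
  · have hlev := (hq n hn).un_of_not_snap hs _ (S.isWall_prev hn0 q)
    rw [abs_of_neg (by linarith)] at hlev
    have hrho : S.rho q n = 0 := by
      unfold rho
      rw [if_neg hs]
    refine ⟨n, le_rfl, hs, ?_, ?_⟩
    · rw [hrho]
      have := S.rad_pos q n
      have h2 : q (n - 1) - q n > 0 := by linarith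
      nlinarith
    · intro hsn
      exact S.rad_gap_snap (by omega) hn.le hsn

end LSys

end Vale.Agent.Lib.P072
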