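import Mathlib

/-!
Elementary inequalities for the exchange arguments.
-/

namespace Vale.Agent.Lib.P072

lemma exp_one_le : Real.exp 1 ≤ 2.72 := by
  have := Real.exp_one_lt_d9
  linarith

lemma two_seven_le_exp_one : 2.7 ≤ Real.exp 1 := by
  have := Real.exp_one_gt_d9
  linarith

lemma exp_two_le : Real.exp 2 ≤ 8 := by
  have h1 : Real.exp 2 = Real.exp 1 * Real.exp 1 := by
    rw [← Real.exp_add]
    norm_num
  have h2 := exp_one_le
  have h3 := Real.exp_pos 1
  rw [h1]
  nlinarith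

lemma mul_exp_one_le_exp (y : ℝ) : Real.exp 1 * y ≤ Real.exp y := by
  have h1 := Real.add_one_le_exp (y - 1)
  have h2 : Real.exp y = Real.exp 1 * Real.exp (y - 1) := by
    rw [← Real.exp_add]
    congr 1
    ring
  rw [h2]
  have h3 := Real.exp_pos 1
  apply mul_le_mul_of_nonneg_left _ h3.le
  linarith

lemma r1 {s t : ℝ} (h : s + 1 ≤ t) :
    Real.exp s / 2 ≤ (t - s) * Real.exp t + Real.exp s - Real.exp t - Real.exp t / 100 := by
  have hX := Real.exp_pos t
  have hs := Real.exp_pos s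
  by_cases h' : s + 1 + 1 / 100 ≤ t
  · have : 0 ≤ (t - s - 1 - 1 / 100) * Real.exp t := mul_nonneg (by linarith) hX.le
    nlinarith
  · push Not at h'
    have h1 : Real.exp t ≤ Real.exp (s + 2) := Real.exp_le_exp.mpr (by linarith)
    have h2 : Real.exp (s + 2) = Real.exp s * Real.exp 2 := Real.exp_add _ _
    have h3 : Real.exp t ≤ 8 * Real.exp s := by
      rw [h2] at h1
      nlinarith [exp_two_le]
    have : 0 ≤ (t - s - 1) * Real.exp t := mul_nonneg (by linarith) hX.le
    nlinarith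

lemma r2 {s w ζ X : ℝ} (hw : 0 ≤ w) (hζ : 1 ≤ ζ) (h1 : Real.exp (s + w) ≤ X) :
    Real.exp s / 2 ≤ (w + ζ) * X + Real.exp s - ζ * Real.exp (s + w) - Real.exp (s + w) / 100 := by
  have hE := Real.exp_pos (s + w)
  have hs := Real.exp_pos s
  have hX : 0 < X := lt_of_lt_of_le hE h1
  have h3 : 0 ≤ ζ * (X - Real.exp (s + w)) := mul_nonneg (by linarith) (by linarith)
  by_cases hw1 : w ≤ 1
  · have h4 : Real.exp (s + w) ≤ Real.exp (s + 1) := Real.exp_le_exp.mpr (by linarith)
    have h5 : Real.exp (s + 1) = Real.exp s * Real.exp 1 := Real.exp_add _ _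
    have h6 : Real.exp (s + w) ≤ 3 * Real.exp s := by
      rw [h5] at h4
      nlinarith [exp_one_le]
    have h7 : 0 ≤ w * X := mul_nonneg hw hX.le
    nlinarith
  · push Not at hw1
    have h7 : X ≤ w * X := by nlinarith
    nlinarith

lemma r3 {s ζ t : ℝ} (hζ : 1 ≤ ζ) (h : s + ζ + 1 ≤ t) :
    Real.exp s / 2 ≤ (t - s) * Real.exp t - Real.exp t - Real.exp t / 100 := by
  have hX := Real.exp_pos t
  have hs : Real.exp s ≤ Real.exp t := Real.exp_le_exp.mpr (by linarith)
  have : (ζ + 1) * Real.exp t ≤ (t - s) * Real.exp t :=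
    mul_le_mul_of_nonneg_right (by linarith) hX.le
  nlinarith

lemma r4 {s a ζ X : ℝ} (hζ : 1 ≤ ζ) (hgap : 4 * ζ ≤ a - s) (h1 : Real.exp (a - ζ) ≤ X)
    (h2 : Real.exp s ≤ X) :
    Real.exp s / 2 ≤ (a - s) * X - ζ * Real.exp (a - ζ) - Real.exp (a - ζ) / 100 := by
  have hE := Real.exp_pos (a - ζ)
  have hX : 0 < X := lt_of_lt_of_le hE h1
  have hs := Real.exp_pos s
  have h3 : ζ * Real.exp (a - ζ) ≤ ζ * X := mul_le_mul_of_nonneg_left h1 (by linarith)
  have h4 : 4 * ζ * X ≤ (a - s) * X := mul_le_mul_of_nonneg_right hgap hX.le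
  nlinarith

lemma r5 {s ζ t : ℝ} (hζ : 16 ≤ ζ) (ht : t < s - ζ - 1) :
    ζ / 2 * Real.exp (s - ζ) ≤ (t - s) * Real.exp t + ζ * Real.exp (s - ζ) - Real.exp t := by
  set w := s - ζ - t with hw
  have hw1 : 1 < w := by rw [hw]; linarith
  have ht' : t = s - ζ - w := by rw [hw]; ring
  have hA := Real.exp_pos (s - ζ)
  have hE := Real.exp_pos w
  have h1 : Real.exp (s - ζ) = Real.exp t * Real.exp w := by
    rw [← Real.exp_add, hw]
    congr 1
    ring
  have hX := Real.exp_pos t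
  have h2 : 2.7 * w ≤ Real.exp w := by
    have := mul_exp_one_le_exp w
    have h3 := two_seven_le_exp_one
    nlinarith
  have h3 : 2.7 ≤ Real.exp w := by linarith
  have h4 : ζ + w + 1 ≤ ζ / 2 * Real.exp w := by nlinarith
  have h5 : (t - s) = -(ζ + w) := by rw [ht']; ring
  rw [h5, h1]
  have h6 : (ζ + w + 1) * Real.exp t ≤ ζ / 2 * Real.exp w * Real.exp t :=
    mul_le_mul_of_nonneg_right h4 hX.le
  nlinarith

lemma two_mul_le_exp {y : ℝ} (hy : 0 ≤ y) : 2 * y ≤ Real.exp y := by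
  have := Real.quadratic_le_exp_of_nonneg hy
  nlinarith [sq_nonneg (y - 1)]

lemma r6 {s c ζ x : ℝ} (hζ : 16 ≤ ζ) (hgap : 4 * ζ ≤ s - c) (hx0 : 0 < x)
    (hx : x ≤ Real.exp (c + ζ)) :
    ζ / 2 * Real.exp (s - ζ) ≤ (c - s) * x + ζ * Real.exp (s - ζ) - ζ * Real.exp (c - ζ) := by
  set D := s - c with hD
  have hD0 : 0 < D := by linarith
  set A := Real.exp (s - ζ) with hA
  have hApos : 0 < A := Real.exp_pos _
  have h1 : Real.exp (c + ζ) * Real.exp (D / 2) ≤ A := by
    rw [← Real.exp_add, hA]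
    apply Real.exp_le_exp.mpr
    rw [hD]
    linarith
  have h2 : D ≤ Real.exp (D / 2) := by
    have := two_mul_le_exp (y := D / 2) (by linarith)
    linarith
  have h3 : D * x ≤ A := by
    calc D * x ≤ Real.exp (D / 2) * Real.exp (c + ζ) :=
          mul_le_mul h2 hx hx0.le (Real.exp_pos _).le
      _ = Real.exp (c + ζ) * Real.exp (D / 2) := by ring
      _ ≤ A := h1
  have h4 : Real.exp (c - ζ) * 4 ≤ A := by
    have h5 : Real.exp (c - ζ) * Real.exp D = A := by
      rw [← Real.exp_add, hA, hD]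
      congr 1
      ring
    have h6 : 4 ≤ Real.exp D := by
      have := Real.add_one_le_exp D
      linarith
    have h7 := Real.exp_pos (c - ζ)
    nlinarith
  have h8 : (c - s) = -D := by rw [hD]; ring
  rw [h8]
  have h9 : ζ * (Real.exp (c - ζ) * 4) ≤ ζ * A := mul_le_mul_of_nonneg_left h4 (by linarith)
  nlinarith

lemma r7 {s t : ℝ} (h : t ≤ s - 1) :
    Real.exp s / 5 ≤ (t - s) * Real.exp t + Real.exp s - Real.exp t := by
  set ν := s - t with hν
  have hν1 : 1 ≤ ν := by rw [hν]; linarith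
  have h1 : Real.exp s = Real.exp t * Real.exp ν := by
    rw [← Real.exp_add, hν]
    congr 1
    ring
  have hX := Real.exp_pos t
  have h2 : 2.7 * ν ≤ Real.exp ν := by
    have := mul_exp_one_le_exp ν
    have h3 := two_seven_le_exp_one
    nlinarith
  have h3 : ν + 1 ≤ 4 / 5 * Real.exp ν := by linarith
  have h5 : (t - s) = -ν := by rw [hν]; ring
  rw [h5, h1]
  have h6 : (ν + 1) * Real.exp t ≤ 4 / 5 * Real.exp ν * Real.exp t :=
    mul_le_mul_of_nonneg_right h3 hX.le
  nlinarith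

lemma r8 {s c ζ x Z : ℝ} (hζ : 16 ≤ ζ) (hζZ : ζ ≤ Z) (hsmall : ζ * Real.exp (-(ζ / 2)) ≤ 1 / 100)
    (hw : ζ ≤ s - c) (hx0 : 0 < x) (hx : x ≤ Real.exp (c + ζ)) (hx2 : 8 * Z * x ≤ Real.exp s) :
    Real.exp s / 2 ≤ (c - s) * x + Real.exp s - ζ * Real.exp (c - ζ) := by
  set w := s - c - ζ with hwd
  have hw0 : 0 ≤ w := by rw [hwd]; linarith
  have hE := Real.exp_pos s
  have h1 : ζ * Real.exp (c - ζ) ≤ Real.exp s / 100 := by
    have h2 : Real.exp (c - ζ) ≤ Real.exp (-(ζ / 2)) * Real.exp s := by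
      rw [← Real.exp_add]
      apply Real.exp_le_exp.mpr
      linarith
    calc ζ * Real.exp (c - ζ) ≤ ζ * (Real.exp (-(ζ / 2)) * Real.exp s) :=
          mul_le_mul_of_nonneg_left h2 (by linarith)
      _ = (ζ * Real.exp (-(ζ / 2))) * Real.exp s := by ring
      _ ≤ 1 / 100 * Real.exp s := mul_le_mul_of_nonneg_right hsmall hE.le
      _ = _ := by ring
  have h3 : (s - c) * x ≤ Real.exp s / 4 := by
    have e1 : s - c = w + ζ := by rw [hwd]; ring
    rw [e1]
    by_cases hwZ : w ≤ Z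
    · have h4 : (w + ζ) * x ≤ 2 * Z * x := mul_le_mul_of_nonneg_right (by linarith) hx0.le
      linarith
    · push Not at hwZ
      have hw16 : 16 ≤ w := by linarith
      have h4 : 8 * w ≤ Real.exp w := by
        have := Real.quadratic_le_exp_of_nonneg hw0
        nlinarith
      have h5 : x * Real.exp w ≤ Real.exp s := by
        have h6 : Real.exp (c + ζ) * Real.exp w = Real.exp s := by
          rw [← Real.exp_add, hwd]
          congr 1
          ring
        rw [← h6]
        exact mul_le_mul_of_nonneg_right hx (Real.exp_pos _).le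
      have h7 : (w + ζ) * x ≤ 2 * w * x := mul_le_mul_of_nonneg_right (by linarith) hx0.le
      have h8 : 8 * w * x ≤ Real.exp w * x := mul_le_mul_of_nonneg_right h4 hx0.le
      nlinarith
  have e2 : (c - s) * x = -((s - c) * x) := by ring
  rw [e2]
  linarith

end Vale.Agent.Lib.P072
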