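import Mathlib
import Vale.Agent.Lib.P072.GMove
import Vale.Agent.Lib.P072.GReal

/-!
The fiber lemma: a maximiser stays close to the logarithm of the point.
-/

open Finset

namespace Vale.Agent.Lib.P072

namespace LSys

variable {S : LSys}

lemma val_anti {q : ℕ → ℝ} (hq : S.Val q S.m) {j l : ℕ} (hjl : j ≤ l) (hl : l < S.m) : q l ≤ q j := by
  induction l, hjl using Nat.le_induction with
  | base => exact le_rfl
  | succ l hjl ih =>
    have h1 := (hq (l + 1) hl).1
    simp only [Nat.add_sub_cancel] at h1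
    exact h1.trans (ih (by omega))

lemma x_anti {x : ℕ → ℝ} (hxa : ∀ l, l + 1 < S.m → x (l + 1) ≤ x l) {j l : ℕ} (hjl : j ≤ l)
    (hl : l < S.m) : x l ≤ x j := by
  induction l, hjl using Nat.le_induction with
  | base => exact le_rfl
  | succ l hjl ih =>
    exact (hxa l hl).trans (ih (by omega))

/-- Existence of the end of a block. -/
lemma exists_blk_end {q : ℕ → ℝ} (hq : S.Val q S.m) {p : ℕ} (hp : p < S.m)
    (hstart : 0 < p → q p < q (p - 1)) : ∃ n, Blk S q p n := by
  classical
  have hex : ∃ l, p < l ∧ (l = S.m ∨ q l < q p) := ⟨S.m, hp, Or.inl rfl⟩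
  set n := Nat.find hex with hn
  obtain ⟨h1, h2⟩ := Nat.find_spec hex
  have hmin : ∀ l, l < n → ¬ (p < l ∧ (l = S.m ∨ q l < q p)) := fun l hl => Nat.find_min hex hl
  have hnm : n ≤ S.m := Nat.find_min' hex ⟨hp, Or.inl rfl⟩
  refine ⟨n, h1, hnm, hstart, ?_, ?_⟩
  · intro l hl hln
    rcases hl.lt_or_eq with h | h
    · have h3 := hmin l hln
      push Not at h3
      have h4 := (h3 h).2
      have hlm : l < S.m := by omega
      exact le_antisymm (val_anti hq hl hlm) h4
    · rw [h]
  · intro hn'
    rcases h2 with h | h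
    · omega
    · exact h

/-- Existence of the start of a block. -/
lemma exists_blk_start {q : ℕ → ℝ} (hq : S.Val q S.m) : ∀ {l : ℕ}, l < S.m →
    ∃ p ≤ l, (0 < p → q p < q (p - 1)) ∧ q p = q l := by
  intro l
  induction l with
  | zero => exact fun _ => ⟨0, le_rfl, fun h => absurd h (lt_irrefl _), rfl⟩
  | succ l ih =>
    intro hl
    rcases (hq (l + 1) hl).1.lt_or_eq with h | h
    · exact ⟨l + 1, le_rfl, fun _ => h, rfl⟩
    · obtain ⟨p, hp, h1, h2⟩ := ih (by omega)
      simp only [Nat.add_sub_cancel] at h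
      exact ⟨p, by omega, h1, by rw [h2, h]⟩

/-- The block of a level. -/
lemma exists_blk_of {q : ℕ → ℝ} (hq : S.Val q S.m) {l : ℕ} (hl : l < S.m) :
    ∃ p n, p ≤ l ∧ l < n ∧ Blk S q p n ∧ q l = q p := by
  obtain ⟨p, hpl, hstart, hpe⟩ := exists_blk_start hq hl
  obtain ⟨n, hb⟩ := exists_blk_end hq (lt_of_le_of_lt hpl hl) hstart
  refine ⟨p, n, hpl, ?_, hb, hpe.symm⟩
  by_contra hcon
  push Not at hcon
  have hnm : n < S.m := by omega
  have h1 := hb.stop hnm
  have h2 := val_anti hq hcon hl
  linarith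

/-- Bound of the lower mass. -/
lemma low_bound (hB : S.Big) {x q : ℕ → ℝ} (hxp : ∀ l < S.m, 0 < x l)
    (hxa : ∀ l, l + 1 < S.m → x (l + 1) ≤ x l) (hq : S.Val q S.m) {p n : ℕ} (hb : Blk S q p n)
    (hIH : n < S.m → x n ≤ Real.exp (q n + S.rho q n + 1)) :
    10 * (4 * S.Zmax * ∑ l ∈ Ico n S.m, x l) ≤ Real.exp (q p) ∧
    (n < S.m → Real.log (x n) ≤ q p) ∧
    (S.Snap (n - 1) q → 10 * (4 * S.Zmax * ∑ l ∈ Ico n S.m, x l)
      ≤ Real.exp (q p - S.rad q (n - 1))) := by
  classical
  have hZ := S.one_le_Zmax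
  have hpn := hb.hpn
  by_cases hn : n < S.m
  · have hsn : q (n - 1) = q p := hb.same _ (by omega) (by omega)
    obtain ⟨u, hun, hsu, hle, hsnap⟩ := sep hB hq hn (by omega) (by rw [hsn]; exact hb.stop hn)
    rw [hsn] at hle
    have hC := C_pos (S := S)
    set C : ℝ := (S.Cc S.m : ℝ) with hCdef
    set M : ℝ := (S.m : ℝ) + 1 with hM
    have hM0 : 0 < M := by positivity
    set s := q p with hs
    have hu0 : S.Z0 ≤ S.rad q u := S.Z0_le_rad q (by omega)
    -- the constant
    set κ := Real.exp (1 - S.Z0 / (4 * C)) with hκ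
    have hκpos : 0 < κ := Real.exp_pos _
    have hlow : 40 * M * S.Zmax * κ ≤ 1 := hB.hlow
    -- the value of the exponent
    have hq1 : q n + S.rho q n ≤ s - S.rad q u / (2 * C) := by
      have h3 : S.rad q u / (2 * C) ≤ s - q n - S.rho q n := by
        rw [div_le_iff₀ (by positivity)]
        linarith
      linarith
    have hxn := hIH hn
    have hxn2 : x n ≤ Real.exp (s + 1 - S.rad q u / (2 * C)) :=
      hxn.trans (Real.exp_le_exp.mpr (by linarith))
    -- sum bound
    have hsum : ∑ l ∈ Ico n S.m, x l ≤ M * x n := by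
      have h1 : ∀ l ∈ Ico n S.m, x l ≤ x n := fun l hl => by
        have hl' := Finset.mem_Ico.mp hl
        exact x_anti hxa hl'.1 hl'.2
      have h2 := Finset.sum_le_card_nsmul _ _ _ h1
      rw [nsmul_eq_mul, Nat.card_Ico] at h2
      refine h2.trans ?_
      apply mul_le_mul_of_nonneg_right _ (hxp n hn).le
      have : ((S.m - n : ℕ) : ℝ) ≤ (S.m : ℝ) := by exact_mod_cast Nat.sub_le _ _
      rw [hM]
      linarith
    have hexp : ∀ E : ℝ, 1 + E - S.Z0 / (4 * C) ≥ 1 + s - S.rad q u / (2 * C) →
        10 * (4 * S.Zmax * ∑ l ∈ Ico n S.m, x l) ≤ Real.exp E := by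
      intro E hE
      have h1 : x n ≤ Real.exp E * κ := by
        rw [hκ, ← Real.exp_add]
        refine hxn2.trans (Real.exp_le_exp.mpr ?_)
        linarith
      have h2 : 0 < Real.exp E := Real.exp_pos _
      have h3 : ∑ l ∈ Ico n S.m, x l ≤ M * (Real.exp E * κ) :=
        hsum.trans (mul_le_mul_of_nonneg_left h1 hM0.le)
      have h4 : 10 * (4 * S.Zmax * ∑ l ∈ Ico n S.m, x l)
          ≤ 10 * (4 * S.Zmax * (M * (Real.exp E * κ))) := by
        apply mul_le_mul_of_nonneg_left _ (by norm_num)
        exact mul_le_mul_of_nonneg_left h3 (by positivity)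
      refine h4.trans ?_
      have e : 10 * (4 * S.Zmax * (M * (Real.exp E * κ))) = (40 * M * S.Zmax * κ) * Real.exp E := by
        ring
      rw [e]
      nlinarith
    have hZ4 : S.Z0 / (4 * C) ≤ S.rad q u / (2 * C) := by
      rw [div_le_div_iff₀ (by positivity) (by positivity)]
      have := S.Z0_pos
      nlinarith
    have hκlt : 1 < S.Z0 / (4 * C) := by
      -- from the size of the constant
      by_contra hcon
      push Not at hcon
      have h1 : 1 ≤ κ := by
        rw [hκ]
        apply Real.one_le_exp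
        linarith
      have h2 : 40 * M * S.Zmax * 1 ≤ 40 * M * S.Zmax * κ :=
        mul_le_mul_of_nonneg_left h1 (by positivity)
      have h3 : 1 ≤ M := by
        rw [hM]
        have : (0 : ℝ) ≤ (S.m : ℝ) := by positivity
        linarith
      nlinarith
    refine ⟨hexp s (by linarith), ?_, ?_⟩
    · intro _
      rw [Real.log_le_iff_le_exp (hxp n hn)]
      refine hxn2.trans (Real.exp_le_exp.mpr ?_)
      linarith
    · intro hsnp
      apply hexp
      have h1 := hsnap hsnp
      have h2 := hB.four_C_le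
      have h3 := S.rad_pos q (n - 1)
      have h4 : 4 * C * S.rad q (n - 1) ≤ S.rad q u :=
        (mul_le_mul_of_nonneg_right h2 h3.le).trans h1
      have h5 : S.rad q (n - 1) + S.Z0 / (4 * C) ≤ S.rad q u / (2 * C) := by
        have h6 : S.rad q (n - 1) ≤ S.rad q u / (4 * C) := by
          rw [le_div_iff₀ (by positivity)]
          linarith
        have h7 : S.Z0 / (4 * C) ≤ S.rad q u / (4 * C) := by
          apply div_le_div_of_nonneg_right hu0 (by positivity)
        have h8 : S.rad q u / (2 * C) = S.rad q u / (4 * C) + S.rad q u / (4 * C) := by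
          field_simp
          ring
        linarith
      linarith
  · have hnm : n = S.m := le_antisymm hb.hn (not_lt.mp hn)
    rw [hnm, Finset.Ico_self, Finset.sum_empty]
    simp only [mul_zero]
    refine ⟨(Real.exp_pos _).le, fun h => absurd h (lt_irrefl _), fun _ => (Real.exp_pos _).le⟩

/-- The upper bound for a block. -/
theorem blk_upper (hB : S.Big) {x q : ℕ → ℝ} (hxp : ∀ l < S.m, 0 < x l)
    (hxa : ∀ l, l + 1 < S.m → x (l + 1) ≤ x l) (hmax : S.IsMaxQ q x) :
    ∀ (j p n : ℕ), p + j = S.m → Blk S q p n →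
      ∑ l ∈ Ico p n, x l ≤ Real.exp (q p + S.rho q p + 1) := by
  classical
  intro j
  induction j using Nat.strong_induction_on with
  | _ j ih =>
  intro p n hj hb
  have hpn := hb.hpn
  have hnm := hb.hn
  have hpm : p < S.m := by omega
  -- the induction hypothesis at the next block
  have hIH : n < S.m → x n ≤ Real.exp (q n + S.rho q n + 1) := by
    intro hn
    have hsn : q (n - 1) = q p := hb.same _ (by omega) (by omega)
    have hstart : 0 < n → q n < q (n - 1) := fun _ => by
      rw [hsn]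
      exact hb.stop hn
    obtain ⟨n', hb'⟩ := exists_blk_end hmax.1 hn hstart
    have h1 := ih (S.m - n) (by omega) n n' (by omega) hb'
    refine le_trans ?_ h1
    exact Finset.single_le_sum (f := x)
      (fun l hl => (hxp l (lt_of_lt_of_le (Finset.mem_Ico.mp hl).2 hb'.hn)).le)
      (Finset.mem_Ico.mpr ⟨le_rfl, hb'.hpn⟩)
  obtain ⟨hΓ, hlog, _⟩ := low_bound hB hxp hxa hmax.1 hb hIH
  set X := ∑ l ∈ Ico p n, x l with hX
  have hXpos : 0 < X := by
    apply Finset.sum_pos
    · intro l hl
      have hl' := Finset.mem_Ico.mp hl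
      exact hxp l (by omega)
    · exact ⟨p, Finset.mem_Ico.mpr ⟨le_rfl, hpn⟩⟩
  set s := q p with hs
  set Γ := 4 * S.Zmax * ∑ l ∈ Ico n S.m, x l with hΓdef
  set ζ := S.rad q p with hζ
  have hζ1 : 1 ≤ ζ := S.one_le_rad q hpm.le
  have hes := Real.exp_pos s
  by_contra hcon
  push Not at hcon
  set t := Real.log X with ht
  have het : Real.exp t = X := Real.exp_log hXpos
  have hrho := rho_nonneg (S := S) q p
  have hst : s + S.rho q p + 1 < t := by
    rw [ht, Real.lt_log_iff_exp_lt hXpos]
    exact hcon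
  by_cases hsn : S.Snap p q
  · -- snapped start
    have hrho' : S.rho q p = ζ := by
      unfold rho
      rw [if_pos hsn]
    rw [hrho'] at hst
    have hc0 : 0 ≤ S.cst q p := cst_nonneg q p
    by_cases hfree : ∀ b, S.IsWall p q b → s < b → t + ζ ≤ b
    · have h1 := up_free hB hxp hxa hmax hb (t := t) (by linarith)
        (fun b _ hbs => by linarith) hfree hlog
      rw [het] at h1
      have h2 := r3 (s := s) (ζ := ζ) (t := t) hζ1 hst.le
      rw [het] at h2
      nlinarith
    · push Not at hfree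
      obtain ⟨b, hbw, hsb, hbt⟩ := hfree
      obtain ⟨a, haw, hsa, hmin⟩ := exists_min_wall (S := S) ⟨b, hbw, hsb⟩
      have hab := hmin b hbw hsb
      have h1 := up_wall hB hxp hxa hmax hb haw hsa hmin hlog
      have hgap := hB.wall_gap hpm (hmax.1.mono hpm.le) hsn haw hsa.ne
      rw [abs_of_neg (by linarith)] at hgap
      have hax : Real.exp (a - ζ) ≤ X := by
        rw [← het]
        exact Real.exp_le_exp.mpr (by linarith)
      have hsx : Real.exp s ≤ X := by
        rw [← het]
        exact Real.exp_le_exp.mpr (by linarith)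
      have h2 := r4 (s := s) (a := a) (ζ := ζ) (X := X) hζ1 (by linarith) hax hsx
      nlinarith
  · -- unsnapped start
    have hrho' : S.rho q p = 0 := by
      unfold rho
      rw [if_neg hsn]
    rw [hrho', add_zero] at hst
    have hc0 : S.cst q p = Real.exp s := by
      unfold cst
      rw [if_neg hsn]
    have hun := (hmax.1 p hpm).un_of_not_snap hsn
    by_cases hfree : ∀ b, S.IsWall p q b → s < b → t + ζ ≤ b
    · have h1 := up_free hB hxp hxa hmax hb (t := t) (by linarith)
        (fun b hb' hbs => by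
          have := hun b hb'
          rw [abs_of_nonneg (by linarith)] at this
          linarith) hfree hlog
      rw [het, hc0] at h1
      have h2 := r1 (s := s) (t := t) hst.le
      rw [het] at h2
      nlinarith
    · push Not at hfree
      obtain ⟨b, hbw, hsb, hbt⟩ := hfree
      obtain ⟨a, haw, hsa, hmin⟩ := exists_min_wall (S := S) ⟨b, hbw, hsb⟩
      have hab := hmin b hbw hsb
      have h1 := up_wall hB hxp hxa hmax hb haw hsa hmin hlog
      rw [hc0] at h1
      have hgap := hun a haw
      rw [abs_of_neg (by linarith)] at hgap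
      have hax : Real.exp (a - ζ) ≤ X := by
        rw [← het]
        exact Real.exp_le_exp.mpr (by linarith)
      have e1 : a - ζ = s + (a - s - ζ) := by ring
      rw [e1] at hax
      have h2 := r2 (s := s) (w := a - s - ζ) (ζ := ζ) (X := X) (by linarith) hζ1 hax
      have e2 : a - s - ζ + ζ = a - s := by ring
      rw [e2] at h2
      rw [e1] at h1
      nlinarith

/-- The next block satisfies the upper bound. -/
lemma next_upper (hB : S.Big) {x q : ℕ → ℝ} (hxp : ∀ l < S.m, 0 < x l)
    (hxa : ∀ l, l + 1 < S.m → x (l + 1) ≤ x l) (hmax : S.IsMaxQ q x) {p n : ℕ} (hb : Blk S q p n) :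
    n < S.m → x n ≤ Real.exp (q n + S.rho q n + 1) := by
  intro hn
  have hpn := hb.hpn
  have hsn : q (n - 1) = q p := hb.same _ (by omega) (by omega)
  have hstart : 0 < n → q n < q (n - 1) := fun _ => by
    rw [hsn]
    exact hb.stop hn
  obtain ⟨n', hb'⟩ := exists_blk_end hmax.1 hn hstart
  have h1 := blk_upper hB hxp hxa hmax (S.m - n) n n' (by omega) hb'
  refine le_trans ?_ h1
  exact Finset.single_le_sum (f := x)
    (fun l hl => (hxp l (lt_of_lt_of_le (Finset.mem_Ico.mp hl).2 hb'.hn)).le)
    (Finset.mem_Ico.mpr ⟨le_rfl, hb'.hpn⟩)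

/-- The lower bound for the last level of a block, when it is snapped. -/
theorem blk_lower_snap (hB : S.Big) {x q : ℕ → ℝ} (hxp : ∀ l < S.m, 0 < x l)
    (hxa : ∀ l, l + 1 < S.m → x (l + 1) ≤ x l) (hmax : S.IsMaxQ q x) {p n : ℕ} (hb : Blk S q p n)
    (hsn : S.Snap (n - 1) q) :
    Real.exp (q p - S.rad q (n - 1) - 1) ≤ x (n - 1) := by
  classical
  have hpn := hb.hpn
  have hnm := hb.hn
  obtain ⟨e, rfl⟩ : ∃ e, n = e + 1 := ⟨n - 1, by omega⟩
  simp only [Nat.add_sub_cancel] at hsn ⊢
  have hem : e < S.m := by omega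
  have hqe : q e = q p := hb.same e (by omega) (by omega)
  obtain ⟨_, _, hΓ⟩ := low_bound hB hxp hxa hmax.1 hb (next_upper hB hxp hxa hmax hb)
  simp only [Nat.add_sub_cancel] at hΓ
  have hΓ' := hΓ hsn
  rw [← hqe] at hΓ' ⊢
  set s := q e with hs
  set ζ := S.rad q e with hζ
  have hζ16 : 16 ≤ ζ := hB.hZ16.trans (S.Z0_le_rad q hem.le)
  have hZζ : ζ ≤ S.Zmax := S.rad_le_Zmax q hem.le
  have hxe := hxp e hem
  have hA := Real.exp_pos (s - ζ)
  by_contra hcon
  push Not at hcon
  set t := Real.log (x e) with ht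
  have het : Real.exp t = x e := Real.exp_log hxe
  have hts : t < s - ζ - 1 := by
    rw [ht, Real.log_lt_iff_lt_exp hxe]
    exact hcon
  have hcst : S.cst q e = ζ * Real.exp (s - ζ) := by
    unfold cst
    rw [if_pos hsn]
  have hlogn : e + 1 < S.m → Real.log (x (e + 1)) ≤ t := by
    intro h
    exact Real.log_le_log (hxp _ h) (hxa e h)
  by_cases hfree : ∀ b, S.IsWall e q b → b < s → b + ζ ≤ t
  · have h1 := down_free hB hxp hxa hmax hem (t := t) (by linarith) hfree
      (fun b _ hbs => by linarith)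
      (fun h => by
        have := hlogn h
        linarith)
    rw [hcst, het] at h1
    have h2 := r5 hζ16 hts
    rw [het] at h2
    nlinarith
  · push Not at hfree
    obtain ⟨b, hbw, hbs, hbt⟩ := hfree
    obtain ⟨c, hcw, hcs, hmaxc⟩ := exists_max_wall (S := S) ⟨b, hbw, hbs⟩
    have hbc := hmaxc b hbw hbs
    have h1 := down_wall hB hxp hxa hmax hem hcw hcs.le
      (fun h => by
        have := hlogn h
        linarith)
    rw [hcst] at h1
    have hgap := hB.wall_gap hem (hmax.1.mono hem.le) hsn hcw hcs.ne'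
    rw [abs_of_pos (by linarith)] at hgap
    have hx : x e ≤ Real.exp (c + ζ) := by
      rw [← het]
      exact Real.exp_le_exp.mpr (by linarith)
    have h2 := r6 hζ16 hgap hxe hx
    nlinarith

/-- The lower bound for the last level of a block, when it is not snapped. -/
theorem blk_lower_un (hB : S.Big) {x q : ℕ → ℝ} (hxp : ∀ l < S.m, 0 < x l)
    (hxa : ∀ l, l + 1 < S.m → x (l + 1) ≤ x l) (hmax : S.IsMaxQ q x) {p n : ℕ} (hb : Blk S q p n)
    (hsn : ¬ S.Snap (n - 1) q) :
    Real.exp (q p) ≤ 8 * S.Zmax * x (n - 1) := by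
  classical
  have hpn := hb.hpn
  have hnm := hb.hn
  obtain ⟨e, rfl⟩ : ∃ e, n = e + 1 := ⟨n - 1, by omega⟩
  simp only [Nat.add_sub_cancel] at hsn ⊢
  have hem : e < S.m := by omega
  have hqe : q e = q p := hb.same e (by omega) (by omega)
  obtain ⟨hΓ, _, _⟩ := low_bound hB hxp hxa hmax.1 hb (next_upper hB hxp hxa hmax hb)
  rw [← hqe] at hΓ ⊢
  set s := q e with hs
  set ζ := S.rad q e with hζ
  have hζ16 : 16 ≤ ζ := hB.hZ16.trans (S.Z0_le_rad q hem.le)
  have hZζ : ζ ≤ S.Zmax := S.rad_le_Zmax q hem.le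
  have hxe := hxp e hem
  have hE := Real.exp_pos s
  by_contra hcon
  push Not at hcon
  set t := Real.log (x e) with ht
  have het : Real.exp t = x e := Real.exp_log hxe
  have hts : t ≤ s - 1 := by
    rw [ht, Real.log_le_iff_le_exp hxe, Real.exp_sub]
    rw [le_div_iff₀ (Real.exp_pos 1)]
    have h1 := exp_one_le
    nlinarith
  have hcst : S.cst q e = Real.exp s := by
    unfold cst
    rw [if_neg hsn]
  have hun := (hmax.1 e hem).un_of_not_snap hsn
  have hlogn : e + 1 < S.m → Real.log (x (e + 1)) ≤ t := by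
    intro h
    exact Real.log_le_log (hxp _ h) (hxa e h)
  have hZ := S.one_le_Zmax
  by_cases hfree : ∀ b, S.IsWall e q b → b < s → b + ζ ≤ t
  · have h1 := down_free hB hxp hxa hmax hem (t := t) (by linarith) hfree
      (fun b hbw hbs => by
        have := hun b hbw
        rw [abs_of_nonpos (by linarith)] at this
        linarith)
      (fun h => by
        have := hlogn h
        linarith)
    rw [hcst, het] at h1
    have h2 := r7 hts
    rw [het] at h2
    nlinarith
  · push Not at hfree
    obtain ⟨b, hbw, hbs, hbt⟩ := hfree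
    obtain ⟨c, hcw, hcs, hmaxc⟩ := exists_max_wall (S := S) ⟨b, hbw, hbs⟩
    have hbc := hmaxc b hbw hbs
    have h1 := down_wall hB hxp hxa hmax hem hcw hcs.le
      (fun h => by
        have := hlogn h
        linarith)
    rw [hcst] at h1
    have hgap := hun c hcw
    rw [abs_of_pos (by linarith)] at hgap
    have hx : x e ≤ Real.exp (c + ζ) := by
      rw [← het]
      exact Real.exp_le_exp.mpr (by linarith)
    have hsmall : ζ * Real.exp (-(ζ / 2)) ≤ 1 / 100 := by
      refine (hB.hθ ζ (S.Z0_le_rad q hem.le)).trans ?_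
      have hM : (1 : ℝ) ≤ (S.m : ℝ) + 1 := by
        have : (0 : ℝ) ≤ (S.m : ℝ) := by positivity
        linarith
      apply one_div_le_one_div_of_le (by norm_num)
      linarith
    have h2 := r8 hζ16 hZζ hsmall hgap hxe hx hcon.le
    nlinarith

/-- The fiber lemma. -/
theorem fiber (hB : S.Big) {x q : ℕ → ℝ} (hxp : ∀ l < S.m, 0 < x l)
    (hxa : ∀ l, l + 1 < S.m → x (l + 1) ≤ x l) (hmax : S.IsMaxQ q x) {B : ℝ} (hB0 : 0 ≤ B)
    (hBs : ∀ j < S.m, S.Snap j q → S.rad q j ≤ B) {l : ℕ} (hl : l < S.m) :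
    |Real.log (x l) - q l| ≤ B + Real.log (8 * S.Zmax) + 1 := by
  classical
  obtain ⟨p, n, hpl, hln, hb, hql⟩ := exists_blk_of hmax.1 hl
  have hnm := hb.hn
  have hxl := hxp l hl
  have hZ := S.one_le_Zmax
  have hlog0 : 0 ≤ Real.log (8 * S.Zmax) := Real.log_nonneg (by linarith)
  rw [abs_le]
  constructor
  · -- lower bound
    have hx2 : x (n - 1) ≤ x l := x_anti hxa (by omega) (by omega)
    by_cases hsn : S.Snap (n - 1) q
    · have h1 := blk_lower_snap hB hxp hxa hmax hb hsn
      have h2 := hBs (n - 1) (by omega) hsn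
      have h3 : Real.exp (q p - S.rad q (n - 1) - 1) ≤ x l := h1.trans hx2
      have h4 : q p - S.rad q (n - 1) - 1 ≤ Real.log (x l) := by
        rw [Real.le_log_iff_exp_le hxl]
        exact h3
      rw [hql]
      linarith
    · have h1 := blk_lower_un hB hxp hxa hmax hb hsn
      have h2 : Real.exp (q p) ≤ 8 * S.Zmax * x l :=
        h1.trans (mul_le_mul_of_nonneg_left hx2 (by linarith))
      have h3 : q p ≤ Real.log (8 * S.Zmax * x l) := by
        rw [Real.le_log_iff_exp_le (by positivity)]
        exact h2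
      rw [Real.log_mul (by linarith) hxl.ne'] at h3
      rw [hql]
      linarith
  · -- upper bound
    have h1 := blk_upper hB hxp hxa hmax (S.m - p) p n (by omega) hb
    have h2 : x p ≤ ∑ j ∈ Ico p n, x j :=
      Finset.single_le_sum (f := x)
        (fun j hj => (hxp j (lt_of_lt_of_le (Finset.mem_Ico.mp hj).2 hnm)).le)
        (Finset.mem_Ico.mpr ⟨le_rfl, hb.hpn⟩)
    have h3 : x l ≤ x p := x_anti hxa hpl hl
    have h4 : Real.log (x l) ≤ q p + S.rho q p + 1 := by
      rw [Real.log_le_iff_le_exp hxl]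
      exact h3.trans (h2.trans h1)
    have h5 : S.rho q p ≤ B := by
      unfold rho
      split_ifs with hs
      · exact hBs p (by omega) hs
      · exact hB0
    rw [hql]
    linarith

end LSys

end Vale.Agent.Lib.P072
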