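import Mathlib
import Vale.Agent.Lib.P072.GFiber

/-!
Existence of a maximiser of the objective function.
-/

open Finset Set

namespace Vale.Agent.Lib.P072

namespace LSys

variable {S : LSys}

open Classical in
/-- Exponent of the radius for a prescribed set of snapped levels. -/
noncomputable def expoP (S : LSys) (pat : Finset ℕ) (k : ℕ) : ℤ :=
  ∑ l ∈ Finset.range k, if l ∈ pat then (2 : ℤ) ^ (S.m - l) else -(2 : ℤ) ^ (S.m - l)

/-- Radius for a prescribed set of snapped levels. -/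
noncomputable def radP (S : LSys) (pat : Finset ℕ) (k : ℕ) : ℝ := S.Zs * S.Xi ^ (S.expoP pat k)

lemma radP_pos (pat : Finset ℕ) (k : ℕ) : 0 < S.radP pat k :=
  mul_pos S.Zs_pos (zpow_pos S.Xi_pos _)

/-- The covectors with a prescribed set of snapped levels. -/
def APat (S : LSys) (pat : Finset ℕ) : Set (ℕ → ℝ) :=
  {q | (∀ k < S.m, q k ≤ q (k - 1)) ∧
    (∀ k < S.m, k ∈ pat → ∃ r ∈ S.R k, q k = posW k r q) ∧
    (∀ k < S.m, k ∉ pat → ∀ r ∈ S.R k, S.radP pat k ≤ |q k - posW k r q|)}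

lemma APat_snap {pat : Finset ℕ} {q : ℕ → ℝ} (hq : q ∈ S.APat pat) {k : ℕ} (hk : k < S.m) :
    S.Snap k q ↔ k ∈ pat := by
  constructor
  · intro hs
    by_contra hp
    obtain ⟨r, hr, e⟩ := hs
    have h1 := hq.2.2 k hk hp r hr
    rw [e] at h1
    have h2 := S.radP_pos pat k
    simp only [posW] at h1
    have h3 : q k = -dotk r q k / (r k : ℝ) := e
    rw [← h3] at h1
    simp at h1
    linarith
  · intro hp
    exact hq.2.1 k hk hp

lemma APat_expo {pat : Finset ℕ} {q : ℕ → ℝ} (hq : q ∈ S.APat pat) {k : ℕ} (hk : k ≤ S.m) :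
    S.expo q k = S.expoP pat k := by
  classical
  unfold expo expoP
  apply Finset.sum_congr rfl
  intro l hl
  have hl' := Finset.mem_range.mp hl
  simp only [S.APat_snap hq (show l < S.m by omega)]

lemma APat_rad {pat : Finset ℕ} {q : ℕ → ℝ} (hq : q ∈ S.APat pat) {k : ℕ} (hk : k ≤ S.m) :
    S.rad q k = S.radP pat k := by
  unfold rad radP
  rw [S.APat_expo hq hk]

lemma APat_val {pat : Finset ℕ} {q : ℕ → ℝ} (hq : q ∈ S.APat pat) : S.Val q S.m := by
  intro k hk
  refine ⟨hq.1 k hk, ?_⟩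
  by_cases hp : k ∈ pat
  · exact Or.inl ((S.APat_snap hq hk).mpr hp)
  · right
    rintro t ⟨r, hr, rfl⟩
    rw [S.APat_rad hq hk.le]
    exact hq.2.2 k hk hp r hr

/-- The pattern of a valid covector. -/
noncomputable def patOf (S : LSys) (q : ℕ → ℝ) : Finset ℕ := by
  classical
  exact (Finset.range S.m).filter (fun k => S.Snap k q)

lemma mem_patOf {q : ℕ → ℝ} {k : ℕ} : k ∈ S.patOf q ↔ k < S.m ∧ S.Snap k q := by
  classical
  unfold patOf
  simp

lemma val_mem_APat {q : ℕ → ℝ} (hq : S.Val q S.m) : q ∈ S.APat (S.patOf q) := by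
  classical
  have hexpo : ∀ k ≤ S.m, S.expo q k = S.expoP (S.patOf q) k := by
    intro k hk
    unfold expo expoP
    apply Finset.sum_congr rfl
    intro l hl
    have hl' := Finset.mem_range.mp hl
    have : l ∈ S.patOf q ↔ S.Snap l q := by
      rw [mem_patOf]
      exact ⟨fun h => h.2, fun h => ⟨by omega, h⟩⟩
    simp only [this]
  refine ⟨fun k hk => (hq k hk).1, ?_, ?_⟩
  · intro k _ hp
    exact (mem_patOf.mp hp).2
  · intro k hk hp r hr
    have hs : ¬ S.Snap k q := fun h => hp (mem_patOf.mpr ⟨hk, h⟩)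
    have h1 := (hq k hk).un_of_not_snap hs _ ⟨r, hr, rfl⟩
    have h2 : S.rad q k = S.radP (S.patOf q) k := by
      unfold rad radP
      rw [hexpo k hk.le]
    rwa [h2] at h1

open Classical in
/-- The objective function for a prescribed pattern. -/
noncomputable def PsiP (S : LSys) (pat : Finset ℕ) (x q : ℕ → ℝ) : ℝ :=
  ∑ k ∈ Finset.range S.m, (q k * x k - if k ∈ pat then
    S.radP pat k * Real.exp (q k - S.radP pat k) else Real.exp (q k))

lemma APat_Phi {pat : Finset ℕ} {q x : ℕ → ℝ} (hq : q ∈ S.APat pat) :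
    S.Phi q x = S.PsiP pat x q := by
  classical
  unfold Phi PsiP ctr cst
  apply Finset.sum_congr rfl
  intro k hk
  have hk' := Finset.mem_range.mp hk
  simp only [S.APat_snap hq hk', S.APat_rad hq hk'.le]

lemma continuous_PsiP (pat : Finset ℕ) (x : ℕ → ℝ) : Continuous (S.PsiP pat x) := by
  classical
  unfold PsiP
  apply continuous_finsetSum
  intro k _
  have h1 : Continuous (fun q : ℕ → ℝ => q k) := continuous_apply k
  by_cases hp : k ∈ pat
  · simp only [hp, if_true]
    fun_prop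
  · simp only [hp, if_false]
    fun_prop

lemma continuous_dotk (r : ℕ → ℤ) (k : ℕ) : Continuous (fun q : ℕ → ℝ => dotk r q k) := by
  unfold dotk
  apply continuous_finsetSum
  intro l _
  have h1 : Continuous (fun q : ℕ → ℝ => q l) := continuous_apply l
  fun_prop

lemma continuous_posW (r : ℕ → ℤ) (k : ℕ) : Continuous (fun q : ℕ → ℝ => posW k r q) := by
  unfold posW
  exact (continuous_dotk r k).neg.div_const _

lemma isClosed_APat (pat : Finset ℕ) : IsClosed (S.APat pat) := by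
  have e : S.APat pat = {q : ℕ → ℝ | ∀ k < S.m, q k ≤ q (k - 1)} ∩
      ({q : ℕ → ℝ | ∀ k < S.m, k ∈ pat → ∃ r ∈ S.R k, q k = posW k r q} ∩
       {q : ℕ → ℝ | ∀ k < S.m, k ∉ pat → ∀ r ∈ S.R k, S.radP pat k ≤ |q k - posW k r q|}) := rfl
  rw [e]
  refine IsClosed.inter ?_ (IsClosed.inter ?_ ?_)
  · simp only [Set.ofPred_forall]
    refine isClosed_iInter (fun k => isClosed_iInter (fun _ => ?_))
    exact isClosed_le (continuous_apply k) (continuous_apply (k - 1))
  · simp only [Set.ofPred_forall]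
    refine isClosed_iInter (fun k => isClosed_iInter (fun _ => isClosed_iInter (fun _ => ?_)))
    have e2 : {q : ℕ → ℝ | ∃ r ∈ S.R k, q k = posW k r q}
        = ⋃ r ∈ S.R k, {q : ℕ → ℝ | q k = posW k r q} := by
      ext q
      simp
    rw [e2]
    refine isClosed_biUnion_finset (fun r _ => ?_)
    exact isClosed_eq (continuous_apply k) (continuous_posW r k)
  · simp only [Set.ofPred_forall]
    refine isClosed_iInter (fun k => isClosed_iInter (fun _ => isClosed_iInter (fun _ =>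
      isClosed_iInter (fun r => isClosed_iInter (fun _ => ?_)))))
    exact isClosed_le continuous_const ((continuous_apply k).sub (continuous_posW r k)).abs

/-- Maximum over a finite union of compact sets. -/
lemma exists_max_finite_union {ι α : Type*} [TopologicalSpace α] (s : Finset ι) (K : ι → Set α)
    (hK : ∀ i ∈ s, IsCompact (K i)) (f : α → ℝ) (hf : ∀ i ∈ s, ContinuousOn f (K i))
    (hne : ∃ i ∈ s, (K i).Nonempty) :
    ∃ a, (∃ i ∈ s, a ∈ K i) ∧ ∀ i ∈ s, ∀ b ∈ K i, f b ≤ f a := by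
  classical
  have hmax : ∀ i, ∃ a, i ∈ s → (K i).Nonempty → a ∈ K i ∧ ∀ b ∈ K i, f b ≤ f a := by
    intro i
    by_cases h1 : i ∈ s ∧ (K i).Nonempty
    · obtain ⟨a, ha, hmax⟩ := (hK i h1.1).exists_isMaxOn h1.2 (hf i h1.1)
      exact ⟨a, fun _ _ => ⟨ha, fun b hb => hmax hb⟩⟩
    · obtain ⟨i₀, hi₀, a₀, ha₀⟩ := hne
      exact ⟨a₀, fun h2 h3 => absurd ⟨h2, h3⟩ h1⟩
  choose A hA using hmax
  set s' := s.filter (fun i => (K i).Nonempty) with hs'
  have hs'ne : s'.Nonempty := by
    obtain ⟨i₀, hi₀, hn⟩ := hne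
    exact ⟨i₀, Finset.mem_filter.mpr ⟨hi₀, hn⟩⟩
  obtain ⟨i₁, hi₁, hbest⟩ := Finset.exists_max_image s' (fun i => f (A i)) hs'ne
  have hi₁' := Finset.mem_filter.mp hi₁
  refine ⟨A i₁, ⟨i₁, hi₁'.1, (hA i₁ hi₁'.1 hi₁'.2).1⟩, ?_⟩
  intro i hi b hb
  have h1 : i ∈ s' := Finset.mem_filter.mpr ⟨hi, ⟨b, hb⟩⟩
  exact ((hA i hi ⟨b, hb⟩).2 b hb).trans (hbest i h1)

/-- Coercivity in one variable. -/
lemma coerc {x Z D : ℝ} (hx : 0 < x) (hZ : 0 ≤ Z) :
    ∃ b, 0 ≤ b ∧ ∀ t, D ≤ t * x - Real.exp (t - Z) → |t| ≤ b := by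
  set y₀ := 2 * (x + |Z * x - D| + 1) with hy₀
  have hy₀pos : 0 < y₀ := by positivity
  refine ⟨Z + y₀ + |D| / x, by positivity, fun t ht => ?_⟩
  have hdiv : 0 ≤ |D| / x := by positivity
  rw [abs_le]
  constructor
  · -- lower bound
    have h1 : D ≤ t * x := by
      have := Real.exp_pos (t - Z)
      linarith
    have h2 : -(|D| / x) ≤ t := by
      have h3 : -|D| ≤ D := neg_abs_le D
      have h4 : -|D| ≤ t * x := by linarith
      rw [neg_le_iff_add_nonneg]
      have h5 : t + |D| / x = (t * x + |D|) / x := by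
        field_simp
      rw [h5]
      apply div_nonneg (by linarith) hx.le
    linarith
  · -- upper bound
    by_contra hcon
    push Not at hcon
    set y := t - Z with hy
    have hyy : y₀ < y := by
      rw [hy]
      linarith
    have hy0 : 0 ≤ y := by linarith
    have h1 := Real.quadratic_le_exp_of_nonneg hy0
    have h2 : t = y + Z := by
      rw [hy]
      ring
    have h3 : y ^ 2 / 2 ≤ (y + Z) * x - D := by
      rw [← h2]
      nlinarith
    have h4 : y * (x + |Z * x - D| + 1) ≤ y ^ 2 / 2 := by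
      have : x + |Z * x - D| + 1 = y₀ / 2 := by
        rw [hy₀]
        ring
      rw [this]
      nlinarith
    have h5 := le_abs_self (Z * x - D)
    have h6 := abs_nonneg (Z * x - D)
    have h7 : 1 ≤ y := by
      have : 2 ≤ y₀ := by
        rw [hy₀]
        nlinarith
      linarith
    nlinarith

/-- Existence of a maximiser. -/
theorem exists_isMaxQ (hB : S.Big) {x : ℕ → ℝ} (hxp : ∀ l < S.m, 0 < x l)
    (hxa : ∀ l, l + 1 < S.m → x (l + 1) ≤ x l) : ∃ q, S.IsMaxQ q x := by
  classical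
  -- a base point
  obtain ⟨q₀, _, hq₀, _⟩ := greedy hB hxp hxa S.m 0 (by omega) (fun _ => 0)
    (fun k hk => absurd hk (Nat.not_lt_zero k)) (fun h => absurd h (lt_irrefl _))
  set Φ₀ := S.Phi q₀ x with hΦ₀
  -- upper bound for each level
  set U : ℕ → ℝ := fun k => hh (x k) + S.Zmax * x k with hU
  set Dd : ℝ := Φ₀ - ∑ k ∈ Finset.range S.m, |U k| with hDd
  have hZ0 : 0 ≤ S.Zmax := by
    have := S.one_le_Zmax
    linarith
  have hcoerc : ∀ l, ∃ b, 0 ≤ b ∧ (l < S.m → ∀ t, Dd ≤ t * x l - Real.exp (t - S.Zmax) → |t| ≤ b) := by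
    intro l
    by_cases hl : l < S.m
    · obtain ⟨b, hb0, hb⟩ := coerc (D := Dd) (hxp l hl) hZ0
      exact ⟨b, hb0, fun _ => hb⟩
    · exact ⟨0, le_rfl, fun h => absurd h hl⟩
  choose b hb0 hb using hcoerc
  -- a bound for all good covectors
  have hbound : ∀ q, Φ₀ ≤ S.Phi q x → ∀ l < S.m, |q l| ≤ b l := by
    intro q hq l hl
    apply hb l hl
    unfold Phi at hq
    have h1 : ∑ k ∈ Finset.range S.m, S.ctr q x k
        = S.ctr q x l + ∑ k ∈ (Finset.range S.m).erase l, S.ctr q x k :=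
      (Finset.add_sum_erase _ _ (Finset.mem_range.mpr hl)).symm
    have h2 : ∑ k ∈ (Finset.range S.m).erase l, S.ctr q x k
        ≤ ∑ k ∈ Finset.range S.m, |U k| := by
      calc ∑ k ∈ (Finset.range S.m).erase l, S.ctr q x k
          ≤ ∑ k ∈ (Finset.range S.m).erase l, |U k| := by
            apply Finset.sum_le_sum
            intro k hk
            have hk' := Finset.mem_range.mp (Finset.mem_of_mem_erase hk)
            exact (ctr_le_young q x hk' (hxp k hk')).trans (le_abs_self _)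
        _ ≤ _ := Finset.sum_le_sum_of_subset_of_nonneg (Finset.erase_subset _ _)
            (fun _ _ _ => abs_nonneg _)
    have h3 : S.ctr q x l ≤ q l * x l - Real.exp (q l - S.Zmax) := by
      unfold ctr
      linarith [exp_sub_le_cst (S := S) q hl]
    rw [hDd]
    linarith
  -- normalisation
  set nrm : (ℕ → ℝ) → (ℕ → ℝ) := fun q l => if l < S.m then q l else 0 with hnrm
  have hnrm_lt : ∀ q l, l < S.m → nrm q l = q l := fun q l hl => by
    simp only [hnrm, if_pos hl]
  have hnrm_val : ∀ q, S.Val q S.m → S.Val (nrm q) S.m := fun q hq =>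
    (S.val_congr (fun l hl => (hnrm_lt q l hl).symm)).mp hq
  have hnrm_phi : ∀ q, S.Phi (nrm q) x = S.Phi q x := by
    intro q
    unfold Phi
    apply Finset.sum_congr rfl
    intro k hk
    have hk' := Finset.mem_range.mp hk
    apply S.ctr_congr x
    intro l hl
    exact hnrm_lt q l (by omega)
  -- the box
  set Bx : Set (ℕ → ℝ) := Set.pi Set.univ (fun l => Set.Icc (-(if l < S.m then b l else 0))
    (if l < S.m then b l else 0)) with hBx
  have hBxc : IsCompact Bx := isCompact_univ_pi (fun l => isCompact_Icc)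
  have hnrm_box : ∀ q, Φ₀ ≤ S.Phi q x → nrm q ∈ Bx := by
    intro q hq l _
    by_cases hl : l < S.m
    · simp only [if_pos hl, hnrm_lt q l hl]
      exact abs_le.mp (hbound q hq l hl)
    · simp [hnrm, hl]
  -- the pieces
  set s := (Finset.range S.m).powerset with hs
  set K : Finset ℕ → Set (ℕ → ℝ) := fun pat => Bx ∩ S.APat pat with hK
  have hKc : ∀ pat ∈ s, IsCompact (K pat) := fun pat _ =>
    hBxc.inter_right (isClosed_APat pat)
  have hKf : ∀ pat ∈ s, ContinuousOn (fun q => S.Phi q x) (K pat) := by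
    intro pat _
    refine (continuous_PsiP (S := S) pat x).continuousOn.congr ?_
    intro q hq
    exact APat_Phi hq.2
  have hpat : ∀ q, S.patOf q ∈ s := by
    intro q
    rw [hs, Finset.mem_powerset]
    intro k hk
    exact Finset.mem_range.mpr (mem_patOf.mp hk).1
  have hmem : ∀ q, S.Val q S.m → Φ₀ ≤ S.Phi q x →
      nrm q ∈ K (S.patOf (nrm q)) := by
    intro q hq hΦ
    exact ⟨hnrm_box q hΦ, val_mem_APat (hnrm_val q hq)⟩
  obtain ⟨q₁, ⟨pat₁, _, hq₁⟩, hbest⟩ := exists_max_finite_union s K hKc (fun q => S.Phi q x) hKf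
    ⟨_, hpat _, _, hmem q₀ hq₀ le_rfl⟩
  have hq₁v : S.Val q₁ S.m := APat_val hq₁.2
  refine ⟨q₁, hq₁v, fun q' hq' => ?_⟩
  have h0 : S.Phi (nrm q₀) x ≤ S.Phi q₁ x := hbest _ (hpat _) _ (hmem q₀ hq₀ le_rfl)
  rw [hnrm_phi] at h0
  by_cases hΦ : Φ₀ ≤ S.Phi q' x
  · have h1 := hbest _ (hpat _) _ (hmem q' hq' hΦ)
    simp only [hnrm_phi] at h1
    exact h1
  · push Not at hΦ
    exact hΦ.le.trans h0

end LSys

end Vale.Agent.Lib.P072
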