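import Mathlib
import Vale.Agent.Lib.P072.GMax

/-!
Choice of the constants and the sign compatibility of maximisers.
-/

open Finset

namespace Vale.Agent.Lib.P072

/-- The norm bounds, going upwards from the last level. -/
def Nseq (N₀ : ℕ) : ℕ → ℕ
  | 0 => N₀ + 1
  | j + 1 => 2 * (Nseq N₀ j) ^ 2

lemma Nseq_ge (N₀ j : ℕ) : N₀ + 1 ≤ Nseq N₀ j := by
  induction j with
  | zero => exact le_rfl
  | succ j ih =>
    show N₀ + 1 ≤ 2 * (Nseq N₀ j) ^ 2
    have : 1 ≤ Nseq N₀ j := by omega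
    nlinarith

/-- Finiteness of the set of bounded vectors of bounded support. -/
lemma finite_vec (k N : ℕ) :
    Set.Finite {r : ℕ → ℤ | (∀ l, k < l → r l = 0) ∧ ∀ l, |r l| ≤ (N : ℤ)} := by
  let f : (Fin (k + 1) → ↥(Finset.Icc (-(N : ℤ)) N)) → (ℕ → ℤ) :=
    fun g l => if h : l < k + 1 then (g ⟨l, h⟩ : ℤ) else 0
  apply (Set.finite_range f).subset
  rintro r ⟨h1, h2⟩
  refine ⟨fun i => ⟨r i, Finset.mem_Icc.mpr (abs_le.mp (h2 i))⟩, ?_⟩
  ext l
  by_cases h : l < k + 1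
  · simp only [f, dif_pos h]
  · simp only [f, dif_neg h]
    exact (h1 l (by omega)).symm

/-- The walls. -/
noncomputable def wallSet (k N : ℕ) : Finset (ℕ → ℤ) :=
  ((finite_vec k N).subset (fun _ hr => hr.2)
    : Set.Finite {r : ℕ → ℤ | r k ≠ 0 ∧ (∀ l, k < l → r l = 0) ∧ ∀ l, |r l| ≤ (N : ℤ)}).toFinset

lemma mem_wallSet {k N : ℕ} {r : ℕ → ℤ} :
    r ∈ wallSet k N ↔ r k ≠ 0 ∧ (∀ l, k < l → r l = 0) ∧ ∀ l, |r l| ≤ (N : ℤ) := by
  unfold wallSet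
  rw [Set.Finite.mem_toFinset]
  rfl

/-- The level system with given constants. -/
noncomputable def mkSys (m N₀ : ℕ) (Z0 Xi : ℝ) (hZ0 : 1 ≤ Z0) (hXi : 1 ≤ Xi) : LSys where
  m := m
  N := fun k => Nseq N₀ (m - 1 - k)
  hN1 := fun k => by
    have := Nseq_ge N₀ (m - 1 - k)
    omega
  hN2 := fun k hk => by
    have e : m - 1 - k = (m - 1 - (k + 1)) + 1 := by omega
    rw [e]
    exact le_rfl
  R := fun k => wallSet k (Nseq N₀ (m - 1 - k))
  memR := fun _ _ => mem_wallSet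
  Z0 := Z0
  Xi := Xi
  hZ0 := hZ0
  hXi := hXi

/-- The clearance constants, as a function of the norm bounds. -/
def CcN (N : ℕ → ℕ) : ℕ → ℕ
  | 0 => N 0
  | k + 1 => N (k + 1) * CcN N k

lemma LSys.Cc_eq (S : LSys) (k : ℕ) : S.Cc k = CcN S.N k := by
  induction k with
  | zero => rfl
  | succ k ih =>
    show S.N (k + 1) * S.Cc k = S.N (k + 1) * CcN S.N k
    rw [ih]

lemma one_le_CcN {N : ℕ → ℕ} (hN : ∀ k, 1 ≤ N k) (k : ℕ) : 1 ≤ CcN N k := by
  induction k with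
  | zero => exact hN 0
  | succ k ih =>
    show 1 ≤ N (k + 1) * CcN N k
    exact Nat.mul_pos (hN _) ih

lemma small_theta {ζ M : ℝ} (hM : 0 < M) (h : 1600 * M ≤ ζ) :
    ζ * Real.exp (-(ζ / 2)) ≤ 1 / (100 * M) := by
  have hζ : 0 < ζ := by linarith
  set y := ζ / 4 with hy
  have hy0 : 0 < y := by positivity
  have h1 : y + 1 ≤ Real.exp y := Real.add_one_le_exp y
  have e1 : Real.exp (ζ / 2) = Real.exp y * Real.exp y := by
    rw [← Real.exp_add, hy]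
    congr 1
    ring
  have h2 : y * y ≤ Real.exp (ζ / 2) := by
    rw [e1]
    exact mul_le_mul (by linarith) (by linarith) hy0.le (Real.exp_pos _).le
  have h3 : 100 * M * ζ ≤ y * y := by
    have e2 : ζ = 4 * y := by rw [hy]; ring
    have h5 : 400 * M ≤ y := by
      rw [hy]
      linarith
    rw [e2]
    nlinarith
  have h4 : Real.exp (-(ζ / 2)) * Real.exp (ζ / 2) = 1 := by
    rw [← Real.exp_add]
    simp
  rw [le_div_iff₀ (by positivity)]
  have h5 := Real.exp_pos (-(ζ / 2))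
  calc ζ * Real.exp (-(ζ / 2)) * (100 * M) = Real.exp (-(ζ / 2)) * (100 * M * ζ) := by ring
    _ ≤ Real.exp (-(ζ / 2)) * Real.exp (ζ / 2) :=
      mul_le_mul_of_nonneg_left (h3.trans h2) h5.le
    _ = 1 := h4

lemma low_real {K y : ℝ} (hK : 0 < K) (hy : 6 * K ≤ y) : K * y * Real.exp (1 - y) ≤ 1 := by
  have hy0 : 0 < y := by linarith
  have h1 := Real.quadratic_le_exp_of_nonneg hy0.le
  have h2 : Real.exp 1 ≤ 3 := by
    have := Real.exp_one_lt_d9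
    linarith
  have e1 : Real.exp (1 - y) * Real.exp y = Real.exp 1 := by
    rw [← Real.exp_add]
    congr 1
    ring
  have h3 : K * y * 3 ≤ Real.exp y := by nlinarith
  have h4 := Real.exp_pos (1 - y)
  have h5 : K * y * Real.exp 1 ≤ Real.exp y :=
    le_trans (mul_le_mul_of_nonneg_left h2 (by positivity)) h3
  have h6 : (K * y * Real.exp (1 - y)) * Real.exp y ≤ 1 * Real.exp y := by
    calc (K * y * Real.exp (1 - y)) * Real.exp y = K * y * (Real.exp (1 - y) * Real.exp y) := by ring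
      _ = K * y * Real.exp 1 := by rw [e1]
      _ ≤ Real.exp y := h5
      _ = _ := by ring
  exact le_of_mul_le_mul_right h6 (Real.exp_pos y)

lemma compat_real {A B Λ Z T : ℝ} (hA : 0 ≤ A) (hΛ : 1 ≤ Λ) (hZ : 0 < Z)
    (h : 2 * (B * |T| + A * (Real.log (8 * Λ) + 1 + Real.log (2 * (A + 1)))) ≤ Z) (hB : 0 ≤ B) :
    B * T + A * (Real.log (8 * (Z * Λ)) + 1) ≤ Z := by
  have e1 : Real.log (8 * (Z * Λ)) = Real.log (8 * Λ) + Real.log Z := by
    rw [show 8 * (Z * Λ) = (8 * Λ) * Z by ring, Real.log_mul (by positivity) hZ.ne']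
  set a := 2 * (A + 1) with ha
  have ha0 : 0 < a := by positivity
  have h1 : Real.log (Z / a) ≤ Z / a - 1 := Real.log_le_sub_one_of_pos (by positivity)
  rw [Real.log_div hZ.ne' ha0.ne'] at h1
  have h2 : A * (Z / a) ≤ Z / 2 := by
    rw [← mul_div_assoc, div_le_div_iff₀ ha0 (by norm_num)]
    rw [ha]
    nlinarith
  have h3 : A * Real.log Z ≤ Z / 2 + A * Real.log a := by
    have : A * (Real.log Z - Real.log a) ≤ A * (Z / a - 1) := mul_le_mul_of_nonneg_left h1 hA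
    nlinarith
  have h4 : B * T ≤ B * |T| := mul_le_mul_of_nonneg_left (le_abs_self T) hB
  rw [e1]
  nlinarith

/-- Existence of a good system. -/
theorem exists_sys (m N₀ : ℕ) (Tube : ℝ) : ∃ S : LSys, S.m = m ∧ S.Big ∧ (∀ k < m, N₀ ≤ S.N k) ∧
    2 * (S.Cc S.m : ℝ) * (N₀ : ℝ) ≤ S.Xi ∧
    2 * (S.Cc S.m : ℝ) * (Tube + (N₀ : ℝ) * (Real.log (8 * S.Zmax) + 1)) ≤ S.Z0 ∧
    (S.Cc S.m : ℝ) ≤ S.Z0 := by
  set Nf : ℕ → ℕ := fun k => Nseq N₀ (m - 1 - k) with hNf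
  have hNf1 : ∀ k, 1 ≤ Nf k := fun k => by
    have := Nseq_ge N₀ (m - 1 - k)
    simp only [hNf]
    omega
  set C : ℝ := (CcN Nf m : ℝ) with hC
  have hC1 : 1 ≤ C := by
    rw [hC]
    exact_mod_cast one_le_CcN hNf1 m
  have hC0 : 0 < C := by linarith
  have hN₀ : (0 : ℝ) ≤ (N₀ : ℝ) := by positivity
  set Xi : ℝ := 4 * C ^ 3 * ((N₀ : ℝ) + 1) with hXiDef
  have hC3 : C ≤ C ^ 3 := by
    have : 1 ≤ C ^ 2 := one_le_pow₀ hC1
    nlinarith
  have hXi1 : 1 ≤ Xi := by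
    rw [hXiDef]
    nlinarith
  set Λ : ℝ := Xi ^ (2 ^ (m + 2) : ℕ) with hΛ
  have hΛ1 : 1 ≤ Λ := one_le_pow₀ hXi1
  have hm0 : (0 : ℝ) ≤ (m : ℝ) := by positivity
  set M : ℝ := (m : ℝ) + 1 with hM
  have hM1 : 1 ≤ M := by linarith
  set K : ℝ := 160 * M * C * Λ with hK
  have hK0 : 0 < K := by positivity
  set A : ℝ := 2 * C * (N₀ : ℝ) with hA
  have hA0 : 0 ≤ A := by positivity
  set a₄ : ℝ := 2 * (2 * C * |Tube| + A * (Real.log (8 * Λ) + 1 + Real.log (2 * (A + 1)))) with ha₄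
  have hlog1 : 0 ≤ Real.log (8 * Λ) := Real.log_nonneg (by linarith)
  have hlog2 : 0 ≤ Real.log (2 * (A + 1)) := Real.log_nonneg (by linarith)
  have ha₄0 : 0 ≤ a₄ := by positivity
  set Z0 : ℝ := 16 + 1600 * M + 24 * C * K + a₄ + C with hZ0Def
  have hCK : 0 ≤ 24 * C * K := by positivity
  have hZ01 : 1 ≤ Z0 := by
    rw [hZ0Def]
    linarith
  have hZ00 : 0 < Z0 := by linarith
  refine ⟨mkSys m N₀ Z0 Xi hZ01 hXi1, rfl, ?_, ?_, ?_, ?_, ?_⟩
  all_goals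
    have hCe : (((mkSys m N₀ Z0 Xi hZ01 hXi1).Cc (mkSys m N₀ Z0 Xi hZ01 hXi1).m : ℕ) : ℝ) = C := by
      rw [LSys.Cc_eq]
      rfl
    have hZm : (mkSys m N₀ Z0 Xi hZ01 hXi1).Zmax = Z0 * Λ := rfl
  · refine ⟨?_, ?_, ?_, ?_⟩
    · rw [hCe]
      show 4 * C ^ 3 ≤ Xi
      rw [hXiDef]
      nlinarith [pow_pos hC0 3]
    · show 16 ≤ Z0
      rw [hZ0Def]
      linarith
    · intro ζ hζ
      have hZ : Z0 ≤ ζ := hζ
      apply small_theta (M := M) (by linarith)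
      have : 1600 * M ≤ Z0 := by
        rw [hZ0Def]
        linarith
      linarith
    · rw [hCe, hZm]
      show 40 * M * (Z0 * Λ) * Real.exp (1 - Z0 / (4 * C)) ≤ 1
      set y := Z0 / (4 * C) with hy
      have e1 : Z0 = 4 * C * y := by
        rw [hy]
        field_simp
      have h1 : 6 * K ≤ y := by
        rw [hy, le_div_iff₀ (by positivity)]
        have : 24 * C * K ≤ Z0 := by
          rw [hZ0Def]
          linarith
        linarith
      have h2 := low_real hK0 h1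
      have e2 : 40 * M * (Z0 * Λ) = K * y := by
        rw [e1, hK]
        ring
      rw [e2]
      exact h2
  · intro k hk
    have := Nseq_ge N₀ (m - 1 - k)
    show N₀ ≤ Nseq N₀ (m - 1 - k)
    omega
  · rw [hCe]
    show 2 * C * (N₀ : ℝ) ≤ Xi
    rw [hXiDef]
    nlinarith [pow_pos hC0 3]
  · rw [hCe, hZm]
    show 2 * C * (Tube + (N₀ : ℝ) * (Real.log (8 * (Z0 * Λ)) + 1)) ≤ Z0
    have h1 : 2 * ((2 * C) * |Tube| + A * (Real.log (8 * Λ) + 1 + Real.log (2 * (A + 1)))) ≤ Z0 := by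
      have : a₄ ≤ Z0 := by
        rw [hZ0Def]
        linarith
      exact this
    have h2 := compat_real hA0 hΛ1 hZ00 h1 (by positivity)
    have e : 2 * C * (Tube + (N₀ : ℝ) * (Real.log (8 * (Z0 * Λ)) + 1))
        = 2 * C * Tube + A * (Real.log (8 * (Z0 * Λ)) + 1) := by
      rw [hA]
      ring
    rw [e]
    exact h2
  · rw [hCe]
    show C ≤ Z0
    rw [hZ0Def]
    linarith

namespace LSys

variable {S : LSys}

/-- The closeness of a maximiser to the logarithm. -/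
theorem core_near (hB : S.Big) {x q : ℕ → ℝ} (hxp : ∀ l < S.m, 0 < x l)
    (hxa : ∀ l, l + 1 < S.m → x (l + 1) ≤ x l) (hmax : S.IsMaxQ q x) {l : ℕ} (hl : l < S.m) :
    |Real.log (x l) - q l| ≤ S.Zmax + Real.log (8 * S.Zmax) + 1 := by
  have hZ := S.one_le_Zmax
  exact fiber hB hxp hxa hmax (by linarith) (fun j hj _ => S.rad_le_Zmax q hj.le) hl

lemma abs_le_of_sum {r : ℕ → ℤ} {m N₀ : ℕ} (h : ∑ l ∈ range m, |(r l : ℝ)| ≤ (N₀ : ℝ)) {l : ℕ}
    (hl : l < m) : |r l| ≤ (N₀ : ℤ) := by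
  have h1 : |(r l : ℝ)| ≤ ∑ l ∈ range m, |(r l : ℝ)| :=
    Finset.single_le_sum (f := fun l => |(r l : ℝ)|) (fun _ _ => abs_nonneg _)
      (Finset.mem_range.mpr hl)
  have h2 := h1.trans h
  exact_mod_cast h2

/-- A non-zero pairing has an unsnapped level controlling it. -/
theorem core_clear {q : ℕ → ℝ} (hq : S.Val q S.m) {N₀ : ℕ} (hN : ∀ k < S.m, N₀ ≤ S.N k)
    {r : ℕ → ℤ} (hsupp : ∀ l, S.m ≤ l → r l = 0) (hnorm : ∑ l ∈ range S.m, |(r l : ℝ)| ≤ (N₀ : ℝ))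
    (hne : dotk r q S.m ≠ 0) :
    ∃ u < S.m, ¬ S.Snap u q ∧ S.rad q u ≤ (S.Cc S.m : ℝ) * |dotk r q S.m| := by
  rcases Nat.eq_zero_or_pos S.m with h0 | h0
  · exfalso
    apply hne
    rw [h0]
    simp [dotk]
  · obtain ⟨k, hk⟩ : ∃ k, S.m = k + 1 := ⟨S.m - 1, by omega⟩
    have hq' : S.Val q (k + 1) := by rwa [← hk]
    rw [hk] at hne
    obtain ⟨u, hu, hsu, hle⟩ := S.clearance k (by omega) hq' r
      (fun l hl => hsupp l (by omega))
      (fun l => by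
        rcases Nat.lt_or_ge l S.m with h | h
        · have h1 := abs_le_of_sum hnorm h
          have h2 : (N₀ : ℤ) ≤ (S.N k : ℤ) := by exact_mod_cast hN k (by omega)
          linarith
        · rw [hsupp l h]
          simp)
      hne
    refine ⟨u, by omega, hsu, ?_⟩
    rw [hk]
    refine hle.trans ?_
    apply mul_le_mul_of_nonneg_right _ (abs_nonneg _)
    have : S.Cc k ≤ S.Cc (k + 1) := S.Cc_mono (Nat.le_succ k)
    exact_mod_cast this

/-- Uniform gap of the values on bounded integer vectors. -/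
theorem core_gap {q : ℕ → ℝ} (hq : S.Val q S.m) {N₀ : ℕ} (hN : ∀ k < S.m, N₀ ≤ S.N k)
    (hCZ : (S.Cc S.m : ℝ) ≤ S.Z0)
    {r : ℕ → ℤ} (hsupp : ∀ l, S.m ≤ l → r l = 0) (hnorm : ∑ l ∈ range S.m, |(r l : ℝ)| ≤ (N₀ : ℝ))
    (hne : dotk r q S.m ≠ 0) : 1 ≤ |dotk r q S.m| := by
  obtain ⟨u, hu, _, hle⟩ := core_clear hq hN hsupp hnorm hne
  have h1 := S.Z0_le_rad q hu.le
  have hC := C_pos (S := S)
  have h2 : (S.Cc S.m : ℝ) * 1 ≤ (S.Cc S.m : ℝ) * |dotk r q S.m| := by linarith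
  exact le_of_mul_le_mul_left h2 hC

/-- The sign compatibility of maximisers. -/
theorem core_compat (hB : S.Big) {N₀ : ℕ} {Tube : ℝ} (hN : ∀ k < S.m, N₀ ≤ S.N k)
    (hX : 2 * (S.Cc S.m : ℝ) * (N₀ : ℝ) ≤ S.Xi)
    (hT : 2 * (S.Cc S.m : ℝ) * (Tube + (N₀ : ℝ) * (Real.log (8 * S.Zmax) + 1)) ≤ S.Z0)
    {x q : ℕ → ℝ} (hxp : ∀ l < S.m, 0 < x l)
    (hxa : ∀ l, l + 1 < S.m → x (l + 1) ≤ x l) (hmax : S.IsMaxQ q x)
    {r : ℕ → ℤ} (hsupp : ∀ l, S.m ≤ l → r l = 0) (hnorm : ∑ l ∈ range S.m, |(r l : ℝ)| ≤ (N₀ : ℝ))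
    (hpos : 0 < dotk r q S.m) :
    Tube ≤ ∑ l ∈ range S.m, (r l : ℝ) * Real.log (x l) := by
  obtain ⟨u, hu, hsu, hle⟩ := core_clear hmax.1 hN hsupp hnorm hpos.ne'
  rw [abs_of_pos hpos] at hle
  have hZ := S.one_le_Zmax
  have hXi0 := S.Xi_pos
  set C : ℝ := (S.Cc S.m : ℝ) with hC
  have hC0 : 0 < C := C_pos
  set ρ := S.rad q u with hρ
  have hρ0 : 0 < ρ := S.rad_pos q u
  set E := ρ / S.Xi + (Real.log (8 * S.Zmax) + 1) with hE
  have hlog0 : 0 ≤ Real.log (8 * S.Zmax) := Real.log_nonneg (by linarith)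
  have hnear : ∀ l ∈ range S.m, |Real.log (x l) - q l| ≤ E := by
    intro l hl
    have h1 := fiber hB hxp hxa hmax (B := ρ / S.Xi) (by positivity) (fun j hj hsj => by
      rw [le_div_iff₀ hXi0, mul_comm]
      exact S.rad_gap_mixed hj hu hsj hsu) (Finset.mem_range.mp hl)
    rw [hE]
    linarith
  have hE0 : 0 ≤ E := by
    rw [hE]
    positivity
  have hdiff : |∑ l ∈ range S.m, (r l : ℝ) * (Real.log (x l) - q l)| ≤ (N₀ : ℝ) * E := by
    calc |∑ l ∈ range S.m, (r l : ℝ) * (Real.log (x l) - q l)|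
        ≤ ∑ l ∈ range S.m, |(r l : ℝ) * (Real.log (x l) - q l)| :=
          Finset.abs_sum_le_sum_abs _ _
      _ ≤ ∑ l ∈ range S.m, |(r l : ℝ)| * E := by
          apply Finset.sum_le_sum
          intro l hl
          rw [abs_mul]
          exact mul_le_mul_of_nonneg_left (hnear l hl) (abs_nonneg _)
      _ = (∑ l ∈ range S.m, |(r l : ℝ)|) * E := by rw [Finset.sum_mul]
      _ ≤ _ := mul_le_mul_of_nonneg_right hnorm hE0
  have hsplit : ∑ l ∈ range S.m, (r l : ℝ) * Real.log (x l)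
      = dotk r q S.m + ∑ l ∈ range S.m, (r l : ℝ) * (Real.log (x l) - q l) := by
    unfold dotk
    rw [← Finset.sum_add_distrib]
    apply Finset.sum_congr rfl
    intro l _
    ring
  rw [hsplit]
  have h1 := (abs_le.mp hdiff).1
  -- the main comparison
  have hdot : ρ / C ≤ dotk r q S.m := by
    rw [div_le_iff₀ hC0, mul_comm]
    exact hle
  have hN₀ : (0 : ℝ) ≤ (N₀ : ℝ) := by positivity
  have h2 : (N₀ : ℝ) * (ρ / S.Xi) ≤ ρ / (2 * C) := by
    rw [← mul_div_assoc, div_le_div_iff₀ hXi0 (by positivity)]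
    have : ρ * (2 * C * (N₀ : ℝ)) ≤ ρ * S.Xi := mul_le_mul_of_nonneg_left hX hρ0.le
    nlinarith
  have h3 : S.Z0 ≤ ρ := S.Z0_le_rad q hu.le
  have h4 : Tube + (N₀ : ℝ) * (Real.log (8 * S.Zmax) + 1) ≤ ρ / (2 * C) := by
    rw [le_div_iff₀ (by positivity)]
    nlinarith
  have h5 : ρ / C = ρ / (2 * C) + ρ / (2 * C) := by
    field_simp
    ring
  have h6 : (N₀ : ℝ) * E = (N₀ : ℝ) * (ρ / S.Xi) + (N₀ : ℝ) * (Real.log (8 * S.Zmax) + 1) := by
    rw [hE]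
    ring
  linarith

end LSys

end Vale.Agent.Lib.P072
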