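import Mathlib
import Vale.Agent.Lib.P072.GConst

/-!
The general potentials: suprema of affine functions indexed by valid covectors and by orderings.
-/

open Finset

namespace Vale.Agent.Lib.P072

/-- Extension of a finite tuple to all levels. -/
noncomputable def liftF {m : ℕ} (y : Fin m → ℝ) : ℕ → ℝ := fun l => if h : l < m then y ⟨l, h⟩ else 1

lemma liftF_fin {m : ℕ} (y : Fin m → ℝ) (l : Fin m) : liftF y l = y l := by
  unfold liftF
  rw [dif_pos l.2]

namespace LSys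

variable {d : ℕ} {S : LSys}

lemma phi_lift (q : ℕ → ℝ) (y : Fin S.m → ℝ) :
    S.Phi q (liftF y) = ∑ l : Fin S.m, q l * y l - ∑ l ∈ range S.m, S.cst q l := by
  unfold Phi ctr
  rw [Finset.sum_sub_distrib, Finset.sum_range (fun l => q l * liftF y l)]
  congr 1
  apply Finset.sum_congr rfl
  intro l _
  rw [liftF_fin]

lemma liftF_pos {y : Fin S.m → ℝ} (hy : ∀ l, 0 < y l) : ∀ l < S.m, 0 < liftF y l := by
  intro l hl
  have := liftF_fin y ⟨l, hl⟩
  simp only at this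
  rw [this]
  exact hy _

lemma liftF_anti {y : Fin S.m → ℝ} (hy : Antitone y) : ∀ l, l + 1 < S.m → liftF y (l + 1) ≤ liftF y l := by
  intro l hl
  have h1 := liftF_fin y ⟨l + 1, hl⟩
  have h2 := liftF_fin y ⟨l, by omega⟩
  simp only at h1 h2
  rw [h1, h2]
  apply hy
  simp [Fin.le_def]

/-- The values of the affine functions at a point. -/
def Aset (S : LSys) (ι : Fin S.m → Fin d) (x : Fin d → ℝ) : Set ℝ :=
  {a | ∃ (σ : Equiv.Perm (Fin S.m)) (q : ℕ → ℝ), S.Val q S.m ∧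
    a = S.Phi q (liftF (fun l => x (ι (σ l))))}

/-- The potential. -/
noncomputable def Vsup (S : LSys) (ι : Fin S.m → Fin d) (x : Fin d → ℝ) : ℝ := sSup (S.Aset ι x)

/-- Young bound for the sum. -/
lemma phi_le (ι : Fin S.m → Fin d) {z : Fin d → ℝ} (hz : ∀ i, 0 < z i) (σ : Equiv.Perm (Fin S.m))
    (q : ℕ → ℝ) :
    S.Phi q (liftF (fun l => z (ι (σ l)))) ≤ ∑ l : Fin S.m, (hh (z (ι l)) + S.Zmax * z (ι l)) := by
  have hy : ∀ l, 0 < (fun l => z (ι (σ l))) l := fun l => hz _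
  unfold Phi
  rw [Finset.sum_range]
  rw [← Equiv.sum_comp σ (fun l => hh (z (ι l)) + S.Zmax * z (ι l))]
  apply Finset.sum_le_sum
  intro l _
  have h1 := ctr_le_young (S := S) q (liftF (fun l => z (ι (σ l)))) l.2 (liftF_pos hy l l.2)
  rwa [liftF_fin] at h1

/-- The ordering of a point. -/
lemma exists_sort (ι : Fin S.m → Fin d) (x : Fin d → ℝ) :
    ∃ σ : Equiv.Perm (Fin S.m), Antitone (fun l => x (ι (σ l))) := by
  refine ⟨Tuple.sort (fun l => - x (ι l)), ?_⟩
  have h := Tuple.monotone_sort (fun l => - x (ι l))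
  intro a b hab
  have := h hab
  simp only [Function.comp, neg_le_neg_iff] at this
  exact this

/-- Rearrangement. -/
lemma phi_rearr (ι : Fin S.m → Fin d) {x : Fin d → ℝ} {σ₀ : Equiv.Perm (Fin S.m)}
    (hσ₀ : Antitone (fun l => x (ι (σ₀ l)))) {q : ℕ → ℝ} (hq : S.Val q S.m)
    (σ : Equiv.Perm (Fin S.m)) :
    S.Phi q (liftF (fun l => x (ι (σ l)))) ≤ S.Phi q (liftF (fun l => x (ι (σ₀ l)))) := by
  rw [phi_lift, phi_lift]
  have hc : Antitone (fun l : Fin S.m => q l) := by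
    intro a b hab
    exact val_anti hq hab b.2
  have hm : Monovary (fun l : Fin S.m => q l) (fun l => x (ι (σ₀ l))) := hc.monovary hσ₀
  have h1 := hm.sum_mul_comp_perm_le_sum_mul (σ := σ₀⁻¹ * σ)
  have e : ∀ l, (fun l => x (ι (σ₀ l))) ((σ₀⁻¹ * σ) l) = x (ι (σ l)) := by
    intro l
    simp
  simp only [e] at h1
  linarith

/-- The maximiser at a point, with its ordering. -/
lemma exists_best (hB : S.Big) (ι : Fin S.m → Fin d) {x : Fin d → ℝ} (hx : ∀ i, 0 < x i) :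
    ∃ (σ₀ : Equiv.Perm (Fin S.m)) (q : ℕ → ℝ), Antitone (fun l => x (ι (σ₀ l))) ∧
      S.IsMaxQ q (liftF (fun l => x (ι (σ₀ l)))) ∧
      IsGreatest (S.Aset ι x) (S.Phi q (liftF (fun l => x (ι (σ₀ l))))) := by
  obtain ⟨σ₀, hσ₀⟩ := exists_sort ι x
  obtain ⟨q, hq⟩ := exists_isMaxQ hB (x := liftF (fun l => x (ι (σ₀ l))))
    (liftF_pos (fun l => hx _)) (liftF_anti hσ₀)
  refine ⟨σ₀, q, hσ₀, hq, ⟨σ₀, q, hq.1, rfl⟩, ?_⟩
  rintro a ⟨σ, q', hq', rfl⟩
  exact (phi_rearr ι hσ₀ hq' σ).trans (hq.2 q' hq')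

lemma Aset_bdd (ι : Fin S.m → Fin d) {z : Fin d → ℝ} (hz : ∀ i, 0 < z i) :
    BddAbove (S.Aset ι z) := by
  refine ⟨∑ l : Fin S.m, (hh (z (ι l)) + S.Zmax * z (ι l)), ?_⟩
  rintro a ⟨σ, q, _, rfl⟩
  exact phi_le ι hz σ q

/-- The covector obtained from a level covector and an ordering. -/
noncomputable def covec (β : Fin S.m → Fin d) (q : ℕ → ℝ) (i : Fin d) : ℝ := by
  classical
  exact ∑ l : Fin S.m, if β l = i then q l else 0

lemma sum_covec (β : Fin S.m → Fin d) (q : ℕ → ℝ) (z : Fin d → ℝ) :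
    ∑ i, covec β q i * z i = ∑ l : Fin S.m, q l * z (β l) := by
  classical
  unfold covec
  simp only [Finset.sum_mul]
  rw [Finset.sum_comm]
  apply Finset.sum_congr rfl
  intro l _
  rw [Finset.sum_eq_single (β l)]
  · simp
  · intro b _ hb
    simp [hb.symm]
  · simp

lemma covec_apply {β : Fin S.m → Fin d} (hβ : Function.Injective β) (q : ℕ → ℝ) (l : Fin S.m) :
    covec β q (β l) = q l := by
  classical
  unfold covec
  rw [Finset.sum_eq_single l]
  · simp
  · intro b _ hb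
    rw [if_neg (fun h => hb (hβ h))]
  · simp

lemma covec_zero {β : Fin S.m → Fin d} (q : ℕ → ℝ) {j : Fin d} (hj : ∀ l, β l ≠ j) :
    covec β q j = 0 := by
  classical
  unfold covec
  apply Finset.sum_eq_zero
  intro l _
  simp [hj l]

/-- Sum over an injective enumeration of a finite set of indices. -/
lemma sum_enum {I : Finset (Fin d)} {β : Fin S.m → Fin d} (hβ : Function.Injective β)
    (hr : ∀ i, i ∈ I ↔ ∃ l, β l = i) (g : Fin d → ℝ) :
    ∑ l : Fin S.m, g (β l) = ∑ i ∈ I, g i := by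
  classical
  have e : I = Finset.univ.image β := by
    ext i
    rw [hr]
    simp
  rw [e, Finset.sum_image (fun a _ b _ h => hβ h)]

/-- The integer vector seen on the levels. -/
noncomputable def rvec (β : Fin S.m → Fin d) (r : Fin d → ℤ) : ℕ → ℤ :=
  fun l => if h : l < S.m then r (β ⟨l, h⟩) else 0

lemma rvec_supp (β : Fin S.m → Fin d) (r : Fin d → ℤ) : ∀ l, S.m ≤ l → rvec β r l = 0 := by
  intro l hl
  unfold rvec
  rw [dif_neg (by omega)]

lemma rvec_fin (β : Fin S.m → Fin d) (r : Fin d → ℤ) (l : Fin S.m) : rvec β r l = r (β l) := by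
  unfold rvec
  rw [dif_pos l.2]

lemma dotk_rvec (β : Fin S.m → Fin d) (r : Fin d → ℤ) (q : ℕ → ℝ) :
    dotk (rvec β r) q S.m = ∑ i, (r i : ℝ) * covec β q i := by
  have h1 := sum_covec β q (fun i => (r i : ℝ))
  unfold dotk
  rw [Finset.sum_range]
  simp only [mul_comm (r _ : ℝ)] 
  rw [h1]
  apply Finset.sum_congr rfl
  intro l _
  rw [rvec_fin]
  ring

lemma sum_abs_rvec {I : Finset (Fin d)} {β : Fin S.m → Fin d} (hβ : Function.Injective β)
    (hr : ∀ i, i ∈ I ↔ ∃ l, β l = i) (r : Fin d → ℤ) :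
    ∑ l ∈ range S.m, |((rvec β r l : ℤ) : ℝ)| = ∑ i ∈ I, |(r i : ℝ)| := by
  rw [Finset.sum_range, ← sum_enum hβ hr (fun i => |(r i : ℝ)|)]
  apply Finset.sum_congr rfl
  intro l _
  rw [rvec_fin]

/-- The existence theorem for the general potentials. -/
theorem exists_pot (I : Finset (Fin d)) (N₀ : ℕ) (Tube : ℝ) :
    ∃ (V : (Fin d → ℝ) → ℝ) (Zm : ℝ), 1 ≤ Zm ∧
      (∀ z : Fin d → ℝ, (∀ i, 0 < z i) →
        ∑ i ∈ I, (hh (z i) - Zm * z i) ≤ V z ∧ V z ≤ ∑ i ∈ I, (hh (z i) + Zm * z i)) ∧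
      ∀ x : Fin d → ℝ, (∀ i, 0 < x i) → ∃ (p : Fin d → ℝ) (G : ℝ),
        V x = ∑ i, p i * x i - G ∧
        (∀ z : Fin d → ℝ, (∀ i, 0 < z i) → ∑ i, p i * z i - G ≤ V z) ∧
        (∀ j, j ∉ I → p j = 0) ∧
        (∀ i ∈ I, |p i - Real.log (x i)| ≤ Zm) ∧
        (∀ r : Fin d → ℤ, ∑ i, |(r i : ℝ)| ≤ (N₀ : ℝ) → 0 < ∑ i, (r i : ℝ) * p i →
          Tube ≤ ∑ i ∈ I, (r i : ℝ) * Real.log (x i)) ∧
        (∀ r : Fin d → ℤ, ∑ i, |(r i : ℝ)| ≤ (N₀ : ℝ) → ∑ i, (r i : ℝ) * p i ≠ 0 →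
          1 ≤ |∑ i, (r i : ℝ) * p i|) := by
  classical
  obtain ⟨S, hm, hB, hN, hX, hT, hCZ⟩ := exists_sys I.card N₀ Tube
  rw [← hm] at hN
  -- the enumeration
  set ι : Fin S.m → Fin d := fun l => (I.equivFin.symm (Fin.cast hm l)).val with hι
  have hιinj : Function.Injective ι := by
    intro a b hab
    have h1 : I.equivFin.symm (Fin.cast hm a) = I.equivFin.symm (Fin.cast hm b) := Subtype.ext hab
    have h2 := I.equivFin.symm.injective h1
    exact Fin.cast_injective hm h2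
  have hιr : ∀ i, i ∈ I ↔ ∃ l, ι l = i := by
    intro i
    constructor
    · intro hi
      refine ⟨Fin.cast hm.symm (I.equivFin ⟨i, hi⟩), ?_⟩
      simp [hι]
    · rintro ⟨l, rfl⟩
      exact (I.equivFin.symm (Fin.cast hm l)).2
  have hβinj : ∀ σ : Equiv.Perm (Fin S.m), Function.Injective (fun l => ι (σ l)) :=
    fun σ _ _ h => σ.injective (hιinj h)
  have hβr : ∀ (σ : Equiv.Perm (Fin S.m)) (i : Fin d), i ∈ I ↔ ∃ l, ι (σ l) = i := by
    intro σ i
    rw [hιr]
    constructor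
    · rintro ⟨l, rfl⟩
      exact ⟨σ⁻¹ l, by simp⟩
    · rintro ⟨l, rfl⟩
      exact ⟨σ l, rfl⟩
  have hZ := S.one_le_Zmax
  have hlog0 : 0 ≤ Real.log (8 * S.Zmax) := Real.log_nonneg (by linarith)
  refine ⟨S.Vsup ι, 3 * S.Zmax + Real.log (8 * S.Zmax) + 1, by linarith, ?_, ?_⟩
  · intro z hz
    obtain ⟨σ₀, q, hanti, hmax, hgreat⟩ := exists_best hB ι hz
    have hV : S.Vsup ι z = S.Phi q (liftF (fun l => z (ι (σ₀ l)))) := hgreat.csSup_eq
    constructor
    · -- lower bound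
      rw [hV]
      obtain ⟨q₀, _, hq₀, hg⟩ := greedy hB (x := liftF (fun l => z (ι (σ₀ l))))
        (liftF_pos (fun l => hz _)) (liftF_anti hanti) S.m 0 (by omega) (fun _ => 0)
        (fun k hk => absurd hk (Nat.not_lt_zero k)) (fun h => absurd h (lt_irrefl _))
      have h1 := hmax.2 q₀ hq₀
      refine le_trans ?_ h1
      unfold Phi
      rw [Finset.range_eq_Ico]
      refine le_trans ?_ hg
      rw [← sum_enum (hβinj σ₀) (hβr σ₀), ← Finset.range_eq_Ico, Finset.sum_range]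
      apply Finset.sum_le_sum
      intro l _
      rw [liftF_fin]
      have h2 := hz (ι (σ₀ l))
      have h3 : 0 ≤ (Real.log (8 * S.Zmax) + 1) * z (ι (σ₀ l)) := by positivity
      nlinarith
    · -- upper bound
      rw [hV]
      refine (phi_le ι hz σ₀ q).trans ?_
      rw [← sum_enum hιinj hιr]
      apply Finset.sum_le_sum
      intro l _
      have h2 := hz (ι l)
      have h3 : 0 ≤ (2 * S.Zmax + Real.log (8 * S.Zmax) + 1) * z (ι l) := by positivity
      nlinarith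
  · intro x hx
    obtain ⟨σ₀, q, hanti, hmax, hgreat⟩ := exists_best hB ι hx
    have hV : S.Vsup ι x = S.Phi q (liftF (fun l => x (ι (σ₀ l)))) := hgreat.csSup_eq
    set β : Fin S.m → Fin d := fun l => ι (σ₀ l) with hβ
    have hxp : ∀ l < S.m, 0 < liftF (fun l => x (β l)) l := liftF_pos (fun l => hx _)
    have hxa := liftF_anti (S := S) hanti
    refine ⟨covec β q, ∑ l ∈ range S.m, S.cst q l, ?_, ?_, ?_, ?_, ?_, ?_⟩
    · rw [hV, phi_lift, sum_covec]
    · intro z hz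
      rw [sum_covec]
      have h1 : ∑ l : Fin S.m, q l * z (β l) - ∑ l ∈ range S.m, S.cst q l
          ∈ S.Aset ι z := by
        refine ⟨σ₀, q, hmax.1, ?_⟩
        rw [phi_lift]
      exact le_csSup (Aset_bdd ι hz) h1
    · intro j hj
      apply covec_zero
      intro l hl
      exact hj ((hβr σ₀ j).mpr ⟨l, hl⟩)
    · intro i hi
      obtain ⟨l, rfl⟩ := (hβr σ₀ i).mp hi
      have h1 := covec_apply (hβinj σ₀) q l
      have h2 := core_near hB hxp hxa hmax l.2
      rw [liftF_fin] at h2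
      rw [show ι (σ₀ l) = β l from rfl] at h1 ⊢
      rw [h1, abs_sub_comm]
      linarith
    · intro r hr hpos
      have hnorm : ∑ l ∈ range S.m, |((rvec β r l : ℤ) : ℝ)| ≤ (N₀ : ℝ) := by
        rw [sum_abs_rvec (hβinj σ₀) (hβr σ₀)]
        refine le_trans ?_ hr
        exact Finset.sum_le_sum_of_subset_of_nonneg (Finset.subset_univ _)
          (fun _ _ _ => abs_nonneg _)
      have hdot : 0 < dotk (rvec β r) q S.m := by
        rw [dotk_rvec]
        exact hpos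
      have h1 := core_compat hB hN hX hT hxp hxa hmax (rvec_supp β r) hnorm hdot
      refine h1.trans (le_of_eq ?_)
      rw [Finset.sum_range, ← sum_enum (hβinj σ₀) (hβr σ₀)]
      apply Finset.sum_congr rfl
      intro l _
      rw [rvec_fin, liftF_fin]
    · intro r hr hne
      have hnorm : ∑ l ∈ range S.m, |((rvec β r l : ℤ) : ℝ)| ≤ (N₀ : ℝ) := by
        rw [sum_abs_rvec (hβinj σ₀) (hβr σ₀)]
        refine le_trans ?_ hr
        exact Finset.sum_le_sum_of_subset_of_nonneg (Finset.subset_univ _)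
          (fun _ _ _ => abs_nonneg _)
      have hdot : dotk (rvec β r) q S.m ≠ 0 := by
        rw [dotk_rvec]
        exact hne
      have h1 := core_gap hmax.1 hN hCZ (rvec_supp β r) hnorm hdot
      rwa [dotk_rvec] at h1

end LSys

end Vale.Agent.Lib.P072
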