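import Mathlib
import Vale.Agent.Lib.P072.GPot
import Vale.Agent.Lib.P072.Exist

/-!
Potentials along solutions: left slopes, barriers, convexity and dissipation.
-/

open Set Filter Topology

namespace Vale.Agent.Lib.P072

variable {d : ℕ}

/-- Solutions with a derivative relative to the interval at every point. -/
def IsSol2 (R : Finset (Cplx d × Cplx d)) (k : ℝ → Cplx d × Cplx d → ℝ) (x : ℝ → Fin d → ℝ)
    (a b : ℝ) : Prop :=
  ∀ t ∈ Icc a b, HasDerivWithinAt x (massAction R (k t) (x t)) (Icc a b) t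

section sol

variable {R : Finset (Cplx d × Cplx d)} {k : ℝ → Cplx d × Cplx d → ℝ} {x : ℝ → Fin d → ℝ}
  {a b a' b' : ℝ}

lemma IsSol2.mono (h : IsSol2 R k x a b) (ha : a ≤ a') (hb : b' ≤ b) : IsSol2 R k x a' b' :=
  fun t ht => (h t ⟨ha.trans ht.1, ht.2.trans hb⟩).mono (Icc_subset_Icc ha hb)

lemma IsSol2.cont (h : IsSol2 R k x a b) : ContinuousOn x (Icc a b) :=
  fun t ht => (h t ht).continuousWithinAt

lemma IsSol2.isSol (h : IsSol2 R k x a b) : IsSol R k x a b := by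
  refine ⟨h.cont, fun t ht => ?_⟩
  exact (h t ⟨ht.1, ht.2.le⟩).mono_of_mem_nhdsWithin (Icc_mem_nhdsGE_of_mem ht)

lemma IsSol2.left (h : IsSol2 R k x a b) {t : ℝ} (ht : t ∈ Ioc a b) :
    HasDerivWithinAt x (massAction R (k t) (x t)) (Iic t) t :=
  (h t ⟨ht.1.le, ht.2⟩).mono_of_mem_nhdsWithin (Icc_mem_nhdsLE_of_mem ht)

end sol

/-- Barrier lemma with left slopes. -/
theorem barrier_left {v : ℝ → ℝ} {a b L : ℝ} (hv : ContinuousOn v (Icc a b)) (h0 : v a ≤ L)
    (h : ∀ t ∈ Ioc a b, L < v t → ∀ᶠ s in 𝓝[<] t, v t < v s) : ∀ t ∈ Icc a b, v t ≤ L := by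
  intro t₁ ht₁
  by_contra hcon
  push Not at hcon
  set A : Set ℝ := Icc a t₁ ∩ v ⁻¹' (Ici (v t₁)) with hA
  have hvt : ContinuousOn v (Icc a t₁) := hv.mono (Icc_subset_Icc le_rfl ht₁.2)
  have hcl : IsClosed A := hvt.preimage_isClosed_of_isClosed isClosed_Icc isClosed_Ici
  have hcp : IsCompact A := isCompact_Icc.of_isClosed_subset hcl inter_subset_left
  have hne : A.Nonempty := ⟨t₁, ⟨ht₁.1, le_rfl⟩, le_refl (v t₁)⟩
  have hτ := hcp.sInf_mem hne
  set τ := sInf A with hτd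
  have hvτ : v t₁ ≤ v τ := hτ.2
  have haτ : a < τ := by
    rcases hτ.1.1.lt_or_eq with h1 | h1
    · exact h1
    · exfalso
      rw [← h1] at hvτ
      linarith
  have hτI : τ ∈ Ioc a b := ⟨haτ, hτ.1.2.trans ht₁.2⟩
  have h1 := h τ hτI (by linarith)
  have h2 : Ico a τ ∈ 𝓝[<] τ := Ico_mem_nhdsLT haτ
  obtain ⟨s, hs1, hs2⟩ := (h1.and h2).exists
  have hsA : s ∉ A := fun hs => by
    have := csInf_le hcp.bddBelow hs
    linarith [hs2.2]
  have : v s < v t₁ := by
    by_contra h3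
    exact hsA ⟨⟨hs2.1, hs2.2.le.trans hτ.1.2⟩, not_lt.mp h3⟩
  linarith

/-- Descent with a rate, from left slopes. -/
theorem descent_left {v : ℝ → ℝ} {a b c : ℝ} (hab : a ≤ b) (hv : ContinuousOn v (Icc a b))
    (h : ∀ t ∈ Ioc a b, ∀ᶠ s in 𝓝[<] t, v t + c * t < v s + c * s) :
    v b + c * (b - a) ≤ v a := by
  have hw : ContinuousOn (fun t => v t + c * t) (Icc a b) := hv.add (by fun_prop)
  have h1 := barrier_left (v := fun t => v t + c * t) (a := a) (b := b) (L := v a + c * a) hw le_rfl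
    (fun t ht _ => h t ht) b ⟨hab, le_rfl⟩
  linarith

/-- Left slope of a function with a left derivative. -/
lemma left_slope {g : ℝ → ℝ} {D c t : ℝ} (hg : HasDerivWithinAt g D (Iic t) t) (hD : D < -c) :
    ∀ᶠ s in 𝓝[<] t, g t + c * t < g s + c * s := by
  have h1 : HasDerivWithinAt (fun s => g s + c * s) (D + c * 1) (Iic t) t :=
    hg.add ((hasDerivAt_id t).const_mul c).hasDerivWithinAt
  rw [hasDerivWithinAt_iff_tendsto_slope, Iic_sdiff_right] at h1
  have h2 : D + c * 1 < 0 := by linarith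
  have h3 := h1.eventually_lt_const h2
  filter_upwards [h3, self_mem_nhdsWithin] with s hs hst
  rw [slope_def_field] at hs
  have hst' : s - t < 0 := by
    have : s < t := hst
    linarith
  have h4 := (div_neg_iff.mp hs)
  rcases h4 with h4 | h4
  · linarith [h4.2]
  · linarith [h4.1]

/-- One left slope of a potential along a curve. -/
lemma pot_slope {V : (Fin d → ℝ) → ℝ} {x : ℝ → Fin d → ℝ} {F p : Fin d → ℝ} {G c t a : ℝ}
    (hat : a < t) (hleft : HasDerivWithinAt x F (Iic t) t)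
    (heq : V (x t) = ∑ i, p i * x t i - G)
    (hsub : ∀ z : Fin d → ℝ, (∀ i, 0 < z i) → ∑ i, p i * z i - G ≤ V z)
    (hpos : ∀ s ∈ Ico a t, ∀ i, 0 < x s i) (hD : ∑ i, p i * F i < -c) :
    ∀ᶠ s in 𝓝[<] t, V (x t) + c * t < V (x s) + c * s := by
  have h1 : HasDerivWithinAt (fun s => ∑ i, p i * x s i) (∑ i, p i * F i) (Iic t) t := by
    have h2 := hasDerivWithinAt_pi.mp hleft
    exact HasDerivWithinAt.fun_sum (fun i _ => (h2 i).const_mul (p i))
  have h3 := left_slope h1 hD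
  filter_upwards [h3, Ico_mem_nhdsLT hat] with s hs hs2
  have h4 := hsub (x s) (hpos s hs2)
  rw [heq]
  linarith

/-! ### Convexity of the potentials -/

/-- The positive orthant. -/
def posO (d : ℕ) : Set (Fin d → ℝ) := {z | ∀ i, 0 < z i}

lemma isOpen_posO : IsOpen (posO d) := by
  have : posO d = ⋂ i, {z : Fin d → ℝ | 0 < z i} := by
    ext z
    simp [posO]
  rw [this]
  exact isOpen_iInter_of_finite (fun i => isOpen_lt continuous_const (continuous_apply i))

lemma convex_posO : Convex ℝ (posO d) := by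
  intro z hz w hw s t hs ht hst i
  simp only [Pi.add_apply, Pi.smul_apply, smul_eq_mul]
  have h1 := hz i
  have h2 := hw i
  rcases hs.eq_or_lt with h3 | h3
  · subst h3
    have : t = 1 := by linarith
    subst this
    simpa using h2
  · have : 0 < s * z i := mul_pos h3 h1
    have : 0 ≤ t * w i := mul_nonneg ht h2.le
    linarith

/-- Supporting hyperplanes give convexity. -/
lemma convexOn_of_support {V : (Fin d → ℝ) → ℝ}
    (h : ∀ x : Fin d → ℝ, (∀ i, 0 < x i) → ∃ (p : Fin d → ℝ) (G : ℝ),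
      V x = ∑ i, p i * x i - G ∧ ∀ z : Fin d → ℝ, (∀ i, 0 < z i) → ∑ i, p i * z i - G ≤ V z) :
    ConvexOn ℝ (posO d) V := by
  refine ⟨convex_posO, ?_⟩
  intro z hz w hw s t hs ht hst
  have hu := convex_posO hz hw hs ht hst
  obtain ⟨p, G, heq, hsub⟩ := h _ hu
  rw [heq]
  have h1 := hsub z hz
  have h2 := hsub w hw
  simp only [Pi.add_apply, Pi.smul_apply, smul_eq_mul]
  have e : ∑ i, p i * (s * z i + t * w i) - G
      = s * (∑ i, p i * z i - G) + t * (∑ i, p i * w i - G) := by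
    have : G = s * G + t * G := by
      rw [← add_mul, hst, one_mul]
    rw [mul_sub, mul_sub, Finset.mul_sum, Finset.mul_sum]
    have e2 : ∑ i, p i * (s * z i + t * w i)
        = ∑ i, s * (p i * z i) + ∑ i, t * (p i * w i) := by
      rw [← Finset.sum_add_distrib]
      apply Finset.sum_congr rfl
      intro i _
      ring
    rw [e2]
    linarith
  rw [e]
  have h3 := mul_le_mul_of_nonneg_left h1 hs
  have h4 := mul_le_mul_of_nonneg_left h2 ht
  linarith

lemma continuousOn_of_support {V : (Fin d → ℝ) → ℝ}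
    (h : ∀ x : Fin d → ℝ, (∀ i, 0 < x i) → ∃ (p : Fin d → ℝ) (G : ℝ),
      V x = ∑ i, p i * x i - G ∧ ∀ z : Fin d → ℝ, (∀ i, 0 < z i) → ∑ i, p i * z i - G ≤ V z) :
    ContinuousOn V (posO d) :=
  (convexOn_of_support h).continuousOn isOpen_posO

/-! ### The dissipation for covectors with a gap -/

section diss

variable {R : Finset (Cplx d × Cplx d)}

lemma sum_abs_dif_real {y y'' : Cplx d} (h : Rch R y y'') :
    ∑ i, |((dif y y'' i : ℤ) : ℝ)| ≤ (bigR R : ℝ) := by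
  have h1 := sum_abs_dif_le h
  have h2 : ((∑ i, |dif y y'' i| : ℤ) : ℝ) ≤ ((bigR R : ℤ) : ℝ) := by exact_mod_cast h1
  push_cast at h2
  exact h2

/-- A falling edge of a covector with a gap. -/
lemma exists_fall_edge (hWR : WeaklyReversible R) {q v : Fin d → ℝ} (hv : v ∈ stoichSubspace R)
    (hne : ∑ i, q i * v i ≠ 0)
    (hgap : ∀ r : Fin d → ℤ, ∑ i, |(r i : ℝ)| ≤ (bigR R : ℝ) → ∑ i, (r i : ℝ) * q i ≠ 0 →
      1 ≤ |∑ i, (r i : ℝ) * q i|) :
    ∃ f ∈ R, 1 ≤ fallPart (lev q) f := by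
  obtain ⟨e₀, he₀, hl⟩ := exists_nonconstant hv hne
  have : ∃ f ∈ R, lev q f.2 < lev q f.1 := by
    rcases lt_or_gt_of_ne hl with h | h
    · obtain ⟨f, hf, _, h1, h2⟩ := exists_falling (lev q) (lev q e₀.2) (hWR e₀ he₀) le_rfl h
      exact ⟨f, hf, lt_of_lt_of_le h2 h1⟩
    · exact ⟨e₀, he₀, h⟩
  obtain ⟨f, hf, hlt⟩ := this
  refine ⟨f, hf, ?_⟩
  have h1 := lev_sub q f.2 f.1
  have h2 := hgap (dif f.2 f.1) (sum_abs_dif_real (hWR f hf)) (by
    rw [← h1]
    exact (sub_pos.mpr hlt).ne')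
  rw [← h1, abs_of_pos (sub_pos.mpr hlt)] at h2
  unfold fallPart
  exact h2.trans (le_max_left _ _)

/-- Lower bound of the dissipation. -/
lemma diss_ge_of_edge {q x : Fin d → ℝ} (hx : ∀ i, 0 < x i) {f : Cplx d × Cplx d} (hf : f ∈ R)
    (h1 : 1 ≤ fallPart (lev q) f) : monomial x f.1 ≤ diss R x q := by
  have hnn : ∀ e ∈ R, 0 ≤ monomial x e.1 * fallPart (lev q) e := fun e _ =>
    mul_nonneg (monomial_pos hx _).le (le_max_right _ _)
  have h2 := Finset.single_le_sum hnn hf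
  have h3 := monomial_pos hx f.1
  unfold diss
  nlinarith

/-- Uniform lower bound for the monomials on a box. -/
lemma exists_monomial_lower (R : Finset (Cplx d × Cplx d)) {δ : ℝ} (hδ : 0 < δ) :
    ∃ m > 0, ∀ x : Fin d → ℝ, (∀ i, δ ≤ x i) → ∀ f ∈ R, m ≤ monomial x f.1 := by
  obtain ⟨m, hm, hle⟩ := exists_pos_le_forall (fun e : R => ∏ i, δ ^ (e.1.1 i))
    (fun e => Finset.prod_pos (fun i _ => pow_pos hδ _))
  refine ⟨m, hm, fun x hx f hf => (hle ⟨f, hf⟩).trans ?_⟩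
  unfold monomial
  apply Finset.prod_le_prod
  · intro i _
    exact (pow_pos hδ _).le
  · intro i _
    exact pow_le_pow_left₀ hδ.le (hx i) _

lemma exists_monomial_lower_at (R : Finset (Cplx d × Cplx d)) {x : Fin d → ℝ} (hx : ∀ i, 0 < x i) :
    ∃ m > 0, ∀ f ∈ R, m ≤ monomial x f.1 := by
  obtain ⟨δ, hδ, hle⟩ := exists_pos_le_forall x hx
  obtain ⟨m, hm, h⟩ := exists_monomial_lower R hδ
  exact ⟨m, hm, fun f hf => h x hle f hf⟩

end diss

end Vale.Agent.Lib.P072
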