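import Mathlib
import Vale.Agent.Lib.P072.GFlow

/-!
The upper barrier and the lower barriers of the potentials along solutions.
-/

open Set Filter Topology

namespace Vale.Agent.Lib.P072

variable {d : ℕ}

/-- The properties of a potential. -/
structure PotData (I : Finset (Fin d)) (N₀ : ℕ) (Tube : ℝ) (V : (Fin d → ℝ) → ℝ) (Zm : ℝ) : Prop where
  hZm : 1 ≤ Zm
  bound : ∀ z : Fin d → ℝ, (∀ i, 0 < z i) →
    ∑ i ∈ I, (hh (z i) - Zm * z i) ≤ V z ∧ V z ≤ ∑ i ∈ I, (hh (z i) + Zm * z i)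
  sup : ∀ x : Fin d → ℝ, (∀ i, 0 < x i) → ∃ (p : Fin d → ℝ) (G : ℝ),
    V x = ∑ i, p i * x i - G ∧
    (∀ z : Fin d → ℝ, (∀ i, 0 < z i) → ∑ i, p i * z i - G ≤ V z) ∧
    (∀ j, j ∉ I → p j = 0) ∧
    (∀ i ∈ I, |p i - Real.log (x i)| ≤ Zm) ∧
    (∀ r : Fin d → ℤ, ∑ i, |(r i : ℝ)| ≤ (N₀ : ℝ) → 0 < ∑ i, (r i : ℝ) * p i →
      Tube ≤ ∑ i ∈ I, (r i : ℝ) * Real.log (x i)) ∧
    (∀ r : Fin d → ℤ, ∑ i, |(r i : ℝ)| ≤ (N₀ : ℝ) → ∑ i, (r i : ℝ) * p i ≠ 0 →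
      1 ≤ |∑ i, (r i : ℝ) * p i|)

theorem exists_potData (I : Finset (Fin d)) (N₀ : ℕ) (Tube : ℝ) :
    ∃ V Zm, PotData I N₀ Tube V Zm := by
  obtain ⟨V, Zm, h1, h2, h3⟩ := LSys.exists_pot I N₀ Tube
  exact ⟨V, Zm, ⟨h1, h2, h3⟩⟩

section

variable {I : Finset (Fin d)} {N₀ : ℕ} {Tube : ℝ} {V : (Fin d → ℝ) → ℝ} {Zm : ℝ}

lemma PotData.cont (hP : PotData I N₀ Tube V Zm) : ContinuousOn V (posO d) :=
  continuousOn_of_support (fun x hx => by
    obtain ⟨p, G, h1, h2, _⟩ := hP.sup x hx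
    exact ⟨p, G, h1, h2⟩)

lemma PotData.comp_cont (hP : PotData I N₀ Tube V Zm) {x : ℝ → Fin d → ℝ} {a b : ℝ}
    (hx : ContinuousOn x (Icc a b)) (hpos : ∀ t ∈ Icc a b, ∀ i, 0 < x t i) :
    ContinuousOn (fun t => V (x t)) (Icc a b) :=
  hP.cont.comp hx (fun t ht => hpos t ht)

end

/-- Compatibility from the properties of the potential. -/
lemma compat_of_pot {R : Finset (Cplx d × Cplx d)} {I : Finset (Fin d)} {Tube T B : ℝ}
    {x p : Fin d → ℝ}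
    (hr : ∀ r : Fin d → ℤ, ∑ i, |(r i : ℝ)| ≤ (bigR R : ℝ) → 0 < ∑ i, (r i : ℝ) * p i →
      Tube ≤ ∑ i ∈ I, (r i : ℝ) * Real.log (x i))
    (hB : 0 ≤ B) (hT : T + (bigR R : ℝ) * B ≤ Tube) (hout : ∀ j, j ∉ I → |Real.log (x j)| ≤ B) :
    Compat R x p T := by
  classical
  intro y y'' hy hlt
  by_contra hcon
  push Not at hcon
  have hn := sum_abs_dif_real hy
  have h1 := hr (dif y y'') hn hcon
  have hsplit := Finset.sum_add_sum_compl I (fun i => ((dif y y'' i : ℤ) : ℝ) * Real.log (x i))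
  have h2 : |∑ i ∈ Iᶜ, ((dif y y'' i : ℤ) : ℝ) * Real.log (x i)| ≤ (bigR R : ℝ) * B := by
    calc |∑ i ∈ Iᶜ, ((dif y y'' i : ℤ) : ℝ) * Real.log (x i)|
        ≤ ∑ i ∈ Iᶜ, |((dif y y'' i : ℤ) : ℝ) * Real.log (x i)| := Finset.abs_sum_le_sum_abs _ _
      _ ≤ ∑ i ∈ Iᶜ, |((dif y y'' i : ℤ) : ℝ)| * B := by
          apply Finset.sum_le_sum
          intro i hi
          rw [abs_mul]
          exact mul_le_mul_of_nonneg_left (hout i (Finset.mem_compl.mp hi)) (abs_nonneg _)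
      _ = (∑ i ∈ Iᶜ, |((dif y y'' i : ℤ) : ℝ)|) * B := by rw [Finset.sum_mul]
      _ ≤ (∑ i, |((dif y y'' i : ℤ) : ℝ)|) * B := by
          apply mul_le_mul_of_nonneg_right _ hB
          exact Finset.sum_le_sum_of_subset_of_nonneg (Finset.subset_univ _)
            (fun _ _ _ => abs_nonneg _)
      _ ≤ _ := mul_le_mul_of_nonneg_right hn hB
  have h3 := (abs_le.mp h2).1
  linarith

section slopes

variable {R : Finset (Cplx d × Cplx d)} {κ₁ κ₂ T : ℝ} {k : ℝ → Cplx d × Cplx d → ℝ}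
  {x : ℝ → Fin d → ℝ} {a b : ℝ}

/-- Left slope with a rate. -/
lemma slope_of_compat (hWR : WeaklyReversible R) (hκ₁ : 0 < κ₁)
    (hT : 2 * (R.card : ℝ) * κ₂ ≤ κ₁ * Real.exp T) (hk : ∀ t, ∀ e ∈ R, κ₁ ≤ k t e ∧ k t e ≤ κ₂)
    (hsol : IsSol2 R k x a b) {t : ℝ} (ht : t ∈ Ioc a b) (hpos : ∀ s ∈ Icc a b, ∀ i, 0 < x s i)
    {V : (Fin d → ℝ) → ℝ} {p : Fin d → ℝ} {G : ℝ} (heq : V (x t) = ∑ i, p i * x t i - G)
    (hsub : ∀ z : Fin d → ℝ, (∀ i, 0 < z i) → ∑ i, p i * z i - G ≤ V z)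
    (hcomp : Compat R (x t) p T)
    (hgap : ∀ r : Fin d → ℤ, ∑ i, |(r i : ℝ)| ≤ (bigR R : ℝ) → ∑ i, (r i : ℝ) * p i ≠ 0 →
      1 ≤ |∑ i, (r i : ℝ) * p i|)
    (hne : ∃ v ∈ stoichSubspace R, ∑ i, p i * v i ≠ 0) {m c : ℝ}
    (hm : ∀ f ∈ R, m ≤ monomial (x t) f.1) (hc : c < κ₁ / 2 * m) :
    ∀ᶠ s in 𝓝[<] t, V (x t) + c * t < V (x s) + c * s := by
  have hxt := hpos t ⟨ht.1.le, ht.2⟩
  obtain ⟨v, hv, hnev⟩ := hne
  obtain ⟨f, hf, hf1⟩ := exists_fall_edge hWR hv hnev hgap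
  have h1 := dot_le hWR hκ₁ hT (hk t) hxt hcomp
  have h2 := diss_ge_of_edge hxt hf hf1
  have h3 := hm f hf
  have h4 : κ₁ / 2 * m ≤ κ₁ / 2 * diss R (x t) p :=
    mul_le_mul_of_nonneg_left (h3.trans h2) (by positivity)
  exact pot_slope ht.1 (hsol.left ht) heq hsub
    (fun s hs => hpos s ⟨hs.1, hs.2.le.trans ht.2⟩) (by linarith)

/-- Left slope without a rate. -/
lemma slope_strict (hWR : WeaklyReversible R) (hκ₁ : 0 < κ₁)
    (hT : 2 * (R.card : ℝ) * κ₂ ≤ κ₁ * Real.exp T) (hk : ∀ t, ∀ e ∈ R, κ₁ ≤ k t e ∧ k t e ≤ κ₂)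
    (hsol : IsSol2 R k x a b) {t : ℝ} (ht : t ∈ Ioc a b) (hpos : ∀ s ∈ Icc a b, ∀ i, 0 < x s i)
    {V : (Fin d → ℝ) → ℝ} {p : Fin d → ℝ} {G : ℝ} (heq : V (x t) = ∑ i, p i * x t i - G)
    (hsub : ∀ z : Fin d → ℝ, (∀ i, 0 < z i) → ∑ i, p i * z i - G ≤ V z)
    (hcomp : Compat R (x t) p T)
    (hgap : ∀ r : Fin d → ℤ, ∑ i, |(r i : ℝ)| ≤ (bigR R : ℝ) → ∑ i, (r i : ℝ) * p i ≠ 0 →
      1 ≤ |∑ i, (r i : ℝ) * p i|)
    (hne : ∃ v ∈ stoichSubspace R, ∑ i, p i * v i ≠ 0) :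
    ∀ᶠ s in 𝓝[<] t, V (x t) < V (x s) := by
  obtain ⟨m, hm, hmle⟩ := exists_monomial_lower_at R (hpos t ⟨ht.1.le, ht.2⟩)
  have h1 := slope_of_compat hWR hκ₁ hT hk hsol ht hpos heq hsub hcomp hgap hne hmle
    (c := 0) (by positivity)
  filter_upwards [h1] with s hs
  simpa using hs

end slopes

/-! ### The upper barrier -/

/-- Boundedness of the sublevel sets. -/
lemma level_bound {N₀ : ℕ} {T : ℝ} {V : (Fin d → ℝ) → ℝ} {Zm : ℝ}
    (hP : PotData (Finset.univ : Finset (Fin d)) N₀ T V Zm) (L : ℝ) :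
    ∃ A, 1 ≤ A ∧ ∀ z : Fin d → ℝ, (∀ i, 0 < z i) → V z ≤ L → ∀ i, z i ≤ A := by
  classical
  set E := Real.exp Zm with hE
  have hE0 : 0 < E := Real.exp_pos _
  have hZ := hP.hZm
  set L' := L + (d : ℝ) * E with hL'
  refine ⟨Real.exp (Zm + 2) + |L'| + 1, ?_, ?_⟩
  · have := Real.exp_pos (Zm + 2)
    have := abs_nonneg L'
    linarith
  · intro z hz hV i
    have hlow : ∀ j, -E ≤ hh (z j) - Zm * z j := by
      intro j
      have := LSys.mul_le_exp_add (t := Zm) (hz j)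
      linarith
    have h1 := (hP.bound z hz).1.trans hV
    have h2 := Finset.add_sum_erase Finset.univ (fun j => hh (z j) - Zm * z j) (Finset.mem_univ i)
    have h3 : -((d : ℝ) * E) ≤ ∑ j ∈ Finset.univ.erase i, (hh (z j) - Zm * z j) := by
      have h4 : ∑ j ∈ Finset.univ.erase i, (-E) ≤ ∑ j ∈ Finset.univ.erase i, (hh (z j) - Zm * z j) :=
        Finset.sum_le_sum (fun j _ => hlow j)
      refine le_trans ?_ h4
      rw [Finset.sum_const, nsmul_eq_mul, Finset.card_erase_of_mem (Finset.mem_univ i),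
        Finset.card_univ, Fintype.card_fin]
      have h5 : ((d - 1 : ℕ) : ℝ) ≤ (d : ℝ) := by exact_mod_cast Nat.sub_le _ _
      nlinarith
    have h6 : hh (z i) - Zm * z i ≤ L' := by
      rw [hL']
      linarith
    by_contra hcon
    push Not at hcon
    have h7 : Real.exp (Zm + 2) ≤ z i := by
      have := abs_nonneg L'
      linarith
    have h8 : Zm + 2 ≤ Real.log (z i) := (Real.le_log_iff_exp_le (hz i)).mpr h7
    have h9 : z i ≤ hh (z i) - Zm * z i := by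
      unfold hh
      have := hz i
      nlinarith
    have h10 := le_abs_self L'
    have h11 := Real.exp_pos (Zm + 2)
    linarith

section outer

variable {R : Finset (Cplx d × Cplx d)} {κ₁ κ₂ T : ℝ} {k : ℝ → Cplx d × Cplx d → ℝ}
  {x : ℝ → Fin d → ℝ} {a b : ℝ} {V : (Fin d → ℝ) → ℝ} {Zm : ℝ} {c : Fin d → ℝ}

lemma outer_props (hP : PotData (Finset.univ : Finset (Fin d)) (bigR R) T V Zm)
    (hc : ∀ i, 0 < c i) {y : Fin d → ℝ} (hy : ∀ i, 0 < y i) (hyc : y - c ∈ stoichSubspace R)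
    (hlev : V c < V y) : ∃ (p : Fin d → ℝ) (G : ℝ), V y = ∑ i, p i * y i - G ∧
      (∀ z : Fin d → ℝ, (∀ i, 0 < z i) → ∑ i, p i * z i - G ≤ V z) ∧
      Compat R y p T ∧
      (∀ r : Fin d → ℤ, ∑ i, |(r i : ℝ)| ≤ (bigR R : ℝ) → ∑ i, (r i : ℝ) * p i ≠ 0 →
        1 ≤ |∑ i, (r i : ℝ) * p i|) ∧
      ∃ v ∈ stoichSubspace R, ∑ i, p i * v i ≠ 0 := by
  obtain ⟨p, G, heq, hsub, _, _, hr, hg⟩ := hP.sup y hy
  refine ⟨p, G, heq, hsub, ?_, hg, y - c, hyc, ?_⟩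
  · exact compat_of_pot hr le_rfl (by simp) (fun j hj => absurd (Finset.mem_univ j) hj)
  · have h1 := hsub c hc
    have e : ∑ i, p i * (y - c) i = ∑ i, p i * y i - ∑ i, p i * c i := by
      rw [← Finset.sum_sub_distrib]
      apply Finset.sum_congr rfl
      intro i _
      simp only [Pi.sub_apply]
      ring
    rw [e]
    intro h2
    linarith

/-- Invariance of sublevel sets above the value at the centre. -/
theorem outer_inv (hWR : WeaklyReversible R) (hκ₁ : 0 < κ₁)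
    (hT : 2 * (R.card : ℝ) * κ₂ ≤ κ₁ * Real.exp T) (hk : ∀ t, ∀ e ∈ R, κ₁ ≤ k t e ∧ k t e ≤ κ₂)
    (hP : PotData (Finset.univ : Finset (Fin d)) (bigR R) T V Zm) (hc : ∀ i, 0 < c i)
    (hsol : IsSol2 R k x a b) (hpos : ∀ t ∈ Icc a b, ∀ i, 0 < x t i)
    (hclass : ∀ t ∈ Icc a b, x t - c ∈ stoichSubspace R) {L : ℝ} (hL : V c ≤ L)
    (h0 : V (x a) ≤ L) : ∀ t ∈ Icc a b, V (x t) ≤ L := by
  refine barrier_left (v := fun t => V (x t)) (hP.comp_cont hsol.cont hpos) h0 ?_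
  intro t ht hlev
  have hI : t ∈ Icc a b := ⟨ht.1.le, ht.2⟩
  obtain ⟨p, G, heq, hsub, hcomp, hg, hne⟩ :=
    outer_props hP hc (hpos t hI) (hclass t hI) (lt_of_le_of_lt hL hlev)
  exact slope_strict hWR hκ₁ hT hk hsol ht hpos heq hsub hcomp hg hne

/-- Decrease with a rate above the value at the centre. -/
theorem outer_rate (hWR : WeaklyReversible R) (hκ₁ : 0 < κ₁)
    (hT : 2 * (R.card : ℝ) * κ₂ ≤ κ₁ * Real.exp T) (hk : ∀ t, ∀ e ∈ R, κ₁ ≤ k t e ∧ k t e ≤ κ₂)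
    (hP : PotData (Finset.univ : Finset (Fin d)) (bigR R) T V Zm) (hc : ∀ i, 0 < c i)
    (hsol : IsSol2 R k x a b) (hab : a ≤ b) (hpos : ∀ t ∈ Icc a b, ∀ i, 0 < x t i)
    (hclass : ∀ t ∈ Icc a b, x t - c ∈ stoichSubspace R)
    (hlev : ∀ t ∈ Icc a b, V c < V (x t)) {m c₁ : ℝ}
    (hm : ∀ t ∈ Icc a b, ∀ f ∈ R, m ≤ monomial (x t) f.1) (hc₁ : c₁ < κ₁ / 2 * m) :
    V (x b) + c₁ * (b - a) ≤ V (x a) := by
  refine descent_left (v := fun t => V (x t)) hab (hP.comp_cont hsol.cont hpos) ?_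
  intro t ht
  have hI : t ∈ Icc a b := ⟨ht.1.le, ht.2⟩
  obtain ⟨p, G, heq, hsub, hcomp, hg, hne⟩ :=
    outer_props hP hc (hpos t hI) (hclass t hI) (hlev t hI)
  exact slope_of_compat hWR hκ₁ hT hk hsol ht hpos heq hsub hcomp hg hne (hm t hI) hc₁

end outer

/-! ### The lower barriers -/

/-- The region close to a face of the orthant. -/
def Ev (I : Finset (Fin d)) (V : (Fin d → ℝ) → ℝ) (τ ε : ℝ) (x : Fin d → ℝ) : Prop :=
  (∀ i ∈ I, x i < τ) ∧ -ε < V x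

/-- The data of a lower barrier. -/
structure InnerData (R : Finset (Cplx d × Cplx d)) (T : ℝ) (I : Finset (Fin d)) (A s' θ : ℝ)
    (V : (Fin d → ℝ) → ℝ) (Zm τ ε s : ℝ) : Prop where
  hI : I.Nonempty
  pot : PotData I (bigR R) (T + (bigR R : ℝ) * (|Real.log A| + |Real.log s'|)) V Zm
  hτ : τ = Real.exp (-Zm - 2)
  hε : 0 < ε
  hs : 0 < s
  small : ∀ x : Fin d → ℝ, (∀ i, 0 < x i) → Ev I V τ ε x →
    (∀ i ∈ I, x i < θ) ∧ (∀ i ∈ I, x i < τ / 2) ∧ V x ≤ 0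
  tiny : ∀ x : Fin d → ℝ, (∀ i, 0 < x i) → (∀ i ∈ I, x i ≤ s) → Ev I V τ ε x

lemma hh_small {Zm y : ℝ} (hy : 0 < y) (hyτ : y < Real.exp (-Zm - 2)) :
    hh y + Zm * y ≤ -(3 * y) := by
  have h1 : Real.log y < -Zm - 2 := (Real.log_lt_iff_lt_exp hy).mpr hyτ
  unfold hh
  nlinarith

lemma exists_tiny (Zm : ℝ) {η : ℝ} (hη : 0 < η) :
    ∃ s > 0, ∀ y, 0 < y → y ≤ s → -η < hh y - Zm * y := by
  have hcont : Continuous (fun y : ℝ => y * Real.log y - y - Zm * y) := by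
    have := Real.continuous_mul_log
    fun_prop
  obtain ⟨δ, hδ, h⟩ := Metric.continuous_iff.mp hcont 0 η hη
  refine ⟨δ / 2, by positivity, fun y hy hys => ?_⟩
  have h1 : dist y 0 < δ := by
    rw [Real.dist_eq, sub_zero, abs_of_pos hy]
    linarith
  have h2 := h y h1
  rw [Real.dist_eq] at h2
  simp only [Real.log_zero, mul_zero, sub_self, sub_zero] at h2
  have h3 := (abs_lt.mp h2).1
  unfold hh
  linarith

/-- Existence of a lower barrier. -/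
theorem exists_inner (R : Finset (Cplx d × Cplx d)) (T : ℝ) {I : Finset (Fin d)} (hI : I.Nonempty)
    (A s' : ℝ) {θ : ℝ} (hθ : 0 < θ) : ∃ V Zm τ ε s, InnerData R T I A s' θ V Zm τ ε s := by
  classical
  obtain ⟨V, Zm, hP⟩ := exists_potData I (bigR R) (T + (bigR R : ℝ) * (|Real.log A| + |Real.log s'|))
  set τ := Real.exp (-Zm - 2) with hτ
  have hτ0 : 0 < τ := Real.exp_pos _
  set ε := 3 * min θ (τ / 2) with hε
  have hε0 : 0 < ε := by
    have : 0 < min θ (τ / 2) := lt_min hθ (by positivity)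
    positivity
  have hcard : (0 : ℝ) < (I.card : ℝ) + 1 := by positivity
  obtain ⟨s₀, hs₀, htiny⟩ := exists_tiny Zm (η := ε / ((I.card : ℝ) + 1)) (by positivity)
  set s := min s₀ (τ / 2) with hs
  have hs0 : 0 < s := lt_min hs₀ (by positivity)
  refine ⟨V, Zm, τ, ε, s, ⟨hI, hP, rfl, hε0, hs0, ?_, ?_⟩⟩
  · intro x hx hE
    -- the value is very negative unless the point is tiny
    have h1 : V x ≤ ∑ i ∈ I, (-(3 * x i)) := by
      refine (hP.bound x hx).2.trans ?_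
      apply Finset.sum_le_sum
      intro i hi
      exact hh_small (hx i) (hE.1 i hi)
    have h2 : ∑ i ∈ I, (-(3 * x i)) = -(3 * ∑ i ∈ I, x i) := by
      rw [Finset.sum_neg_distrib, Finset.mul_sum]
    rw [h2] at h1
    have h3 : ∑ i ∈ I, x i < min θ (τ / 2) := by
      have := hE.2
      rw [hε] at this
      linarith
    have hle : ∀ i ∈ I, x i < min θ (τ / 2) := fun i hi =>
      lt_of_le_of_lt (Finset.single_le_sum (f := x) (fun j _ => (hx j).le) hi) h3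
    have h4 : 0 ≤ ∑ i ∈ I, x i := Finset.sum_nonneg (fun j _ => (hx j).le)
    exact ⟨fun i hi => lt_of_lt_of_le (hle i hi) (min_le_left _ _),
      fun i hi => lt_of_lt_of_le (hle i hi) (min_le_right _ _), by linarith⟩
  · intro x hx hxs
    refine ⟨fun i hi => ?_, ?_⟩
    · have h1 : x i ≤ τ / 2 := (hxs i hi).trans (min_le_right _ _)
      linarith
    · have h1 := (hP.bound x hx).1
      have h2 : ∑ i ∈ I, (-(ε / ((I.card : ℝ) + 1))) ≤ ∑ i ∈ I, (hh (x i) - Zm * x i) := by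
        apply Finset.sum_le_sum
        intro i hi
        exact (htiny (x i) (hx i) ((hxs i hi).trans (min_le_left _ _))).le
      rw [Finset.sum_const, nsmul_eq_mul] at h2
      have h3 : (I.card : ℝ) * (-(ε / ((I.card : ℝ) + 1))) > -ε := by
        have h4 : (I.card : ℝ) * (ε / ((I.card : ℝ) + 1)) < ε := by
          rw [← mul_div_assoc, div_lt_iff₀ hcard]
          nlinarith
        linarith
      linarith

section inner

variable {R : Finset (Cplx d × Cplx d)} {κ₁ κ₂ T : ℝ} {k : ℝ → Cplx d × Cplx d → ℝ}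
  {x : ℝ → Fin d → ℝ} {a b : ℝ} {I : Finset (Fin d)} {A s' θ : ℝ}
  {V : (Fin d → ℝ) → ℝ} {Zm τ ε s : ℝ} {c : Fin d → ℝ}

/-- The properties of the covector in the region near the face. -/
lemma InnerData.props (hD : InnerData R T I A s' θ V Zm τ ε s) (hs' : 0 < s')
    (hθs : θ ≤ s') (hθc : ∀ i, θ ≤ c i) {y : Fin d → ℝ} (hy : ∀ i, 0 < y i)
    (hyc : y - c ∈ stoichSubspace R) (hyA : ∀ i, y i ≤ A)
    (hout : ∀ j, j ∉ I → (∀ i ∈ I, y i < s') → s' ≤ y j) (hE : Ev I V τ ε y) :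
    ∃ (p : Fin d → ℝ) (G : ℝ), V y = ∑ i, p i * y i - G ∧
      (∀ z : Fin d → ℝ, (∀ i, 0 < z i) → ∑ i, p i * z i - G ≤ V z) ∧
      Compat R y p T ∧
      (∀ r : Fin d → ℤ, ∑ i, |(r i : ℝ)| ≤ (bigR R : ℝ) → ∑ i, (r i : ℝ) * p i ≠ 0 →
        1 ≤ |∑ i, (r i : ℝ) * p i|) ∧
      ∃ v ∈ stoichSubspace R, ∑ i, p i * v i ≠ 0 := by
  classical
  obtain ⟨p, G, heq, hsub, hz, hnear, hr, hg⟩ := hD.pot.sup y hy
  obtain ⟨hsm, _, _⟩ := hD.small y hy hE
  have hBnn : 0 ≤ |Real.log A| + |Real.log s'| := by positivity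
  refine ⟨p, G, heq, hsub, ?_, hg, y - c, hyc, ?_⟩
  · refine compat_of_pot hr hBnn le_rfl ?_
    intro j hj
    have h1 := hout j hj (fun i hi => lt_of_lt_of_le (hsm i hi) hθs)
    have h2 : Real.log s' ≤ Real.log (y j) := Real.log_le_log hs' h1
    have h3 : Real.log (y j) ≤ Real.log A := Real.log_le_log (hy j) (hyA j)
    rw [abs_le]
    constructor
    · have := neg_abs_le (Real.log s')
      have := abs_nonneg (Real.log A)
      linarith
    · have := le_abs_self (Real.log A)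
      have := abs_nonneg (Real.log s')
      linarith
  · -- the covector is negative on the indices of the face
    have hneg : ∀ i ∈ I, p i < 0 := by
      intro i hi
      have h1 := (abs_le.mp (hnear i hi)).2
      have h2 : Real.log (y i) < -Zm - 2 := by
        rw [Real.log_lt_iff_lt_exp (hy i), ← hD.hτ]
        exact hE.1 i hi
      linarith
    apply ne_of_gt
    obtain ⟨i₀, hi₀⟩ := hD.hI
    apply Finset.sum_pos'
    · intro i _
      by_cases hi : i ∈ I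
      · simp only [Pi.sub_apply]
        have h1 := hsm i hi
        have h2 := hθc i
        exact (mul_pos_of_neg_of_neg (hneg i hi) (by linarith)).le
      · rw [hz i hi]
        simp
    · refine ⟨i₀, Finset.mem_univ _, ?_⟩
      simp only [Pi.sub_apply]
      have h1 := hsm i₀ hi₀
      have h2 := hθc i₀
      exact mul_pos_of_neg_of_neg (hneg i₀ hi₀) (by linarith)

/-- Continuity at the left end point from a bound on the interior. -/
lemma le_at_left {f : ℝ → ℝ} {a b C : ℝ} (hab : a < b) (hf : ContinuousOn f (Icc a b))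
    (h : ∀ t ∈ Ioc a b, f t ≤ C) : f a ≤ C := by
  have h1 : ContinuousWithinAt f (Ioc a b) a :=
    (hf a ⟨le_rfl, hab.le⟩).mono Ioc_subset_Icc_self
  have h2 : (𝓝[Ioc a b] a).NeBot := by
    rw [← mem_closure_iff_nhdsWithin_neBot, closure_Ioc hab.ne]
    exact ⟨le_rfl, hab.le⟩
  exact le_of_tendsto h1 (Filter.eventually_of_mem self_mem_nhdsWithin h)

/-- The last time with a closed property. -/
lemma last_time {C : Set ℝ} {a t₁ : ℝ} (hC : IsClosed C) (hsub : C ⊆ Icc a t₁) (ha : a ∈ C) :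
    ∃ t₀ ∈ C, ∀ t ∈ Ioc t₀ t₁, t ∉ C := by
  have hcp : IsCompact C := isCompact_Icc.of_isClosed_subset hC hsub
  refine ⟨sSup C, hcp.sSup_mem ⟨a, ha⟩, fun t ht hmem => ?_⟩
  have := le_csSup hcp.bddAbove hmem
  linarith [ht.1]

/-- The complement of the region near the face is invariant. -/
theorem InnerData.inv (hD : InnerData R T I A s' θ V Zm τ ε s) (hWR : WeaklyReversible R)
    (hκ₁ : 0 < κ₁) (hT : 2 * (R.card : ℝ) * κ₂ ≤ κ₁ * Real.exp T)
    (hk : ∀ t, ∀ e ∈ R, κ₁ ≤ k t e ∧ k t e ≤ κ₂) (hs' : 0 < s')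
    (hθs : θ ≤ s') (hθc : ∀ i, θ ≤ c i) (hsol : IsSol2 R k x a b)
    (hpos : ∀ t ∈ Icc a b, ∀ i, 0 < x t i)
    (hclass : ∀ t ∈ Icc a b, x t - c ∈ stoichSubspace R)
    (hup : ∀ t ∈ Icc a b, ∀ i, x t i ≤ A)
    (hout : ∀ t ∈ Icc a b, ∀ j, j ∉ I → (∀ i ∈ I, x t i < s') → s' ≤ x t j)
    (h0 : ¬ Ev I V τ ε (x a)) : ∀ t ∈ Icc a b, ¬ Ev I V τ ε (x t) := by
  classical
  intro t₁ ht₁ hE₁
  have hsol₁ : IsSol2 R k x a t₁ := hsol.mono le_rfl ht₁.2
  have hmem : ∀ {t}, t ∈ Icc a t₁ → t ∈ Icc a b := fun ht => ⟨ht.1, ht.2.trans ht₁.2⟩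
  have hcont : ContinuousOn x (Icc a t₁) := hsol₁.cont
  have hpos₁ : ∀ t ∈ Icc a t₁, ∀ i, 0 < x t i := fun t ht => hpos t (hmem ht)
  have hv : ContinuousOn (fun t => V (x t)) (Icc a t₁) := hD.pot.comp_cont hcont hpos₁
  -- the set of times outside the region
  set C : Set ℝ := (Icc a t₁ ∩ (fun t => V (x t)) ⁻¹' Iic (-ε)) ∪
    ⋃ i ∈ I, (Icc a t₁ ∩ (fun t => x t i) ⁻¹' Ici τ) with hC
  have hCcl : IsClosed C := by
    refine IsClosed.union (hv.preimage_isClosed_of_isClosed isClosed_Icc isClosed_Iic) ?_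
    refine isClosed_biUnion_finset (fun i _ => ?_)
    have hxi : ContinuousOn (fun t => x t i) (Icc a t₁) :=
      (continuous_apply i).comp_continuousOn hcont
    exact hxi.preimage_isClosed_of_isClosed isClosed_Icc isClosed_Ici
  have hCsub : C ⊆ Icc a t₁ := by
    rintro t (ht | ht)
    · exact ht.1
    · simp only [Set.mem_iUnion] at ht
      obtain ⟨_, _, ht⟩ := ht
      exact ht.1
  have hCiff : ∀ t ∈ Icc a t₁, t ∈ C ↔ ¬ Ev I V τ ε (x t) := by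
    intro t ht
    constructor
    · rintro (h | h) hE
      · have h1 : V (x t) ≤ -ε := h.2
        linarith [hE.2]
      · simp only [Set.mem_iUnion] at h
        obtain ⟨i, hi, h⟩ := h
        have h1 : τ ≤ x t i := h.2
        linarith [hE.1 i hi]
    · intro hE
      unfold Ev at hE
      push Not at hE
      by_cases h1 : ∀ i ∈ I, x t i < τ
      · exact Or.inl ⟨ht, hE h1⟩
      · push Not at h1
        obtain ⟨i, hi, h2⟩ := h1
        refine Or.inr ?_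
        simp only [Set.mem_iUnion]
        exact ⟨i, hi, ht, h2⟩
  have haI : a ∈ Icc a t₁ := ⟨le_rfl, ht₁.1⟩
  have hat₁ : t₁ ∈ Icc a t₁ := ⟨ht₁.1, le_rfl⟩
  obtain ⟨t₀, ht₀C, hlast⟩ := last_time hCcl hCsub ((hCiff a haI).mpr h0)
  have ht₀I := hCsub ht₀C
  have ht₀1 : t₀ < t₁ := by
    rcases ht₀I.2.lt_or_eq with h | h
    · exact h
    · exfalso
      rw [h] at ht₀C
      exact (hCiff t₁ hat₁).mp ht₀C hE₁
  -- on the last stretch the region holds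
  have hreg : ∀ t ∈ Ioc t₀ t₁, Ev I V τ ε (x t) := by
    intro t ht
    have htI : t ∈ Icc a t₁ := ⟨ht₀I.1.trans ht.1.le, ht.2⟩
    by_contra h
    exact hlast t ht ((hCiff t htI).mpr h)
  have hsub₀ : Icc t₀ t₁ ⊆ Icc a t₁ := Icc_subset_Icc ht₀I.1 le_rfl
  have hsol₀ : IsSol2 R k x t₀ t₁ := hsol₁.mono ht₀I.1 le_rfl
  have hdesc := descent_left (v := fun t => V (x t)) (c := 0) (a := t₀) (b := t₁) ht₀1.le
    (hv.mono hsub₀) (by
      intro t ht
      have htI : t ∈ Icc a b := hmem (hsub₀ ⟨ht.1.le, ht.2⟩)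
      obtain ⟨p, G, heq, hsub, hcomp, hg, hne⟩ := hD.props hs' hθs hθc (hpos t htI)
        (hclass t htI) (hup t htI) (hout t htI) (hreg t ht)
      have h1 := slope_strict hWR hκ₁ hT hk hsol₀ ht
        (fun s hs => hpos s (hmem (hsub₀ hs))) heq hsub hcomp hg hne
      filter_upwards [h1] with s hs
      simpa using hs)
  simp only [zero_mul, add_zero] at hdesc
  -- the point at the last time
  have hat : ¬ Ev I V τ ε (x t₀) := (hCiff t₀ ht₀I).mp ht₀C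
  apply hat
  refine ⟨fun i hi => ?_, ?_⟩
  · have h1 : ∀ t ∈ Ioc t₀ t₁, x t i ≤ τ / 2 := by
      intro t ht
      have htI : t ∈ Icc a b := hmem (hsub₀ ⟨ht.1.le, ht.2⟩)
      exact ((hD.small _ (hpos t htI) (hreg t ht)).2.1 i hi).le
    have h2 : ContinuousOn (fun t => x t i) (Icc t₀ t₁) :=
      (continuous_apply i).comp_continuousOn (hcont.mono hsub₀)
    have h3 := le_at_left ht₀1 h2 h1
    have hτ0 : 0 < τ := by
      rw [hD.hτ]
      exact Real.exp_pos _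
    linarith
  · have := hE₁.2
    linarith

/-- The time spent in the region near the face is bounded. -/
theorem InnerData.time (hD : InnerData R T I A s' θ V Zm τ ε s) (hWR : WeaklyReversible R)
    (hκ₁ : 0 < κ₁) (hT : 2 * (R.card : ℝ) * κ₂ ≤ κ₁ * Real.exp T)
    (hk : ∀ t, ∀ e ∈ R, κ₁ ≤ k t e ∧ k t e ≤ κ₂) (hs' : 0 < s')
    (hθs : θ ≤ s') (hθc : ∀ i, θ ≤ c i) (hsol : IsSol2 R k x a b) (hab : a ≤ b)
    (hpos : ∀ t ∈ Icc a b, ∀ i, 0 < x t i)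
    (hclass : ∀ t ∈ Icc a b, x t - c ∈ stoichSubspace R)
    (hup : ∀ t ∈ Icc a b, ∀ i, x t i ≤ A)
    (hout : ∀ t ∈ Icc a b, ∀ j, j ∉ I → (∀ i ∈ I, x t i < s') → s' ≤ x t j)
    (hE : ∀ t ∈ Icc a b, Ev I V τ ε (x t)) {m c₁ : ℝ}
    (hm : ∀ t ∈ Icc a b, ∀ f ∈ R, m ≤ monomial (x t) f.1) (hc₁ : c₁ < κ₁ / 2 * m) :
    c₁ * (b - a) ≤ ε := by
  have h1 := descent_left (v := fun t => V (x t)) (c := c₁) hab
    (hD.pot.comp_cont hsol.cont hpos) (by
      intro t ht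
      have htI : t ∈ Icc a b := ⟨ht.1.le, ht.2⟩
      obtain ⟨p, G, heq, hsub, hcomp, hg, hne⟩ := hD.props hs' hθs hθc (hpos t htI)
        (hclass t htI) (hup t htI) (hout t htI) (hE t htI)
      exact slope_of_compat hWR hκ₁ hT hk hsol ht hpos heq hsub hcomp hg hne (hm t htI) hc₁)
  have hb : b ∈ Icc a b := ⟨hab, le_rfl⟩
  have ha : a ∈ Icc a b := ⟨le_rfl, hab⟩
  have h2 := (hE b hb).2
  have h3 := (hD.small _ (hpos a ha) (hE a ha)).2.2
  linarith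

end inner

end Vale.Agent.Lib.P072
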