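import Mathlib
import Vale.Agent.Lib.P072.Exist

/-!
Permanence of weakly reversible networks with a stoichiometric subspace of dimension at most 2.
-/

open Set Filter Topology

namespace Vale.Agent.Lib.P072

variable {d : ℕ}

lemma exists_rate_bounds (R : Finset (Cplx d × Cplx d)) (k : Cplx d × Cplx d → ℝ)
    (hk : ∀ e ∈ R, 0 < k e) : ∃ κ₁ κ₂ : ℝ, 0 < κ₁ ∧ ∀ e ∈ R, κ₁ ≤ k e ∧ k e ≤ κ₂ := by
  obtain ⟨κ₁, hκ₁, h1⟩ := exists_pos_le_forall (fun e : R => k e) (fun e => hk e.1 e.2)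
  obtain ⟨κ₂, _, h2⟩ := exists_ge_forall (fun e : R => k e)
  exact ⟨κ₁, κ₂, hκ₁, fun e he => ⟨h1 ⟨e, he⟩, h2 ⟨e, he⟩⟩⟩

/-- The core statement, uniform in the rates. -/
theorem main_core {R : Finset (Cplx d × Cplx d)} (hWR : WeaklyReversible R)
    (hdim : Module.finrank ℝ (stoichSubspace R) ≤ 2) {κ₁ κ₂ : ℝ} (hκ₁ : 0 < κ₁)
    {c : Fin d → ℝ} (hc : ∀ i, 0 < c i) :
    (∀ x₀ ∈ posClass R c, ∃ δ U : ℝ, 0 < δ ∧
      ∀ (k : ℝ → Cplx d × Cplx d → ℝ), (∀ t, ∀ e ∈ R, κ₁ ≤ k t e ∧ k t e ≤ κ₂) →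
      ∀ (T' : ℝ) (x : ℝ → Fin d → ℝ), x 0 = x₀ → IsSol R k x 0 T' →
        ∀ t ∈ Icc 0 T', x t ∈ boxClass R c δ U) ∧
    ∃ K : Set (Fin d → ℝ), IsCompact K ∧ K ⊆ posClass R c ∧
      ∀ (k : ℝ → Cplx d × Cplx d → ℝ), (∀ t, ∀ e ∈ R, κ₁ ≤ k t e ∧ k t e ≤ κ₂) →
      ∀ x : ℝ → Fin d → ℝ, x 0 ∈ posClass R c → IsGlobal R k x →
        ∃ T₀, ∀ t, T₀ ≤ t → x t ∈ K := by
  obtain ⟨a, b, hg⟩ := exists_geo hdim
  obtain ⟨σ, ε, B, hS⟩ := exists_stc (bigR_pos R)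
  obtain ⟨T, hT0, hT⟩ := exists_threshold (R.card : ℝ) (κ₂ := κ₂) hκ₁
  obtain ⟨Λ₀, η, lam, eta, hC⟩ := exists_constants (c := c) hg hc hS hT0
  exact ⟨fun x₀ hx₀ => apriori hWR hg hc hS hκ₁ hT hC hx₀, absorption hWR hg hc hκ₁ hT hC⟩

lemma isGlobal_of_deriv {R : Finset (Cplx d × Cplx d)} {k : ℝ → Cplx d × Cplx d → ℝ}
    {x : ℝ → Fin d → ℝ}
    (h : ∀ t, 0 ≤ t → HasDerivWithinAt x (massAction R (k t) (x t)) (Ici 0) t) :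
    IsGlobal R k x := by
  intro T'
  refine ⟨fun t ht => (h t ht.1).continuousWithinAt.mono (fun s hs => hs.1), fun t ht => ?_⟩
  exact (h t ht.1).mono (fun s hs => ht.1.trans hs)

/-- Permanence for constant rates. -/
theorem permanent_main {R : Finset (Cplx d × Cplx d)} (hWR : WeaklyReversible R)
    (hdim : Module.finrank ℝ (stoichSubspace R) ≤ 2) {k : Cplx d × Cplx d → ℝ}
    (hk : ∀ e ∈ R, 0 < k e) {c : Fin d → ℝ} (hc : ∀ i, 0 < c i) : PermanentOn R k c := by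
  obtain ⟨κ₁, κ₂, hκ₁, hκ⟩ := exists_rate_bounds R k hk
  obtain ⟨hap, K, hK, hKsub, habs⟩ := main_core hWR hdim (κ₂ := κ₂) hκ₁ hc
  have hconst : ∀ t, ∀ e ∈ R, κ₁ ≤ (fun _ : ℝ => k) t e ∧ (fun _ : ℝ => k) t e ≤ κ₂ :=
    fun _ e he => hκ e he
  refine ⟨?_, K, hK, hKsub, ?_⟩
  · intro x₀ hx₀
    obtain ⟨δ, U, hδ, hbox⟩ := hap x₀ hx₀
    have hap' := hbox (fun _ => k) hconst
    obtain ⟨x, hx0, hsol⟩ := exists_global (c := c) hδ hap'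
    have hglob : IsGlobal R (fun _ => k) x := isGlobal_of_deriv hsol
    refine ⟨x, hx0, hsol, ?_, ?_⟩
    · intro t ht
      exact boxClass_mem_posClass hδ (hap' t x hx0 (hglob t) t ⟨ht, le_rfl⟩)
    · intro T y hy0 hy t ht
      have hys := isSol_of_isSolutionOn hy
      exact sol_unique (c := c) (δ := δ) (U := U) hys (hglob T) (hap' T y hy0 hys)
        (hap' T x hx0 (hglob T)) (by rw [hy0, hx0]) ht
  · intro x hx0 hsol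
    exact habs (fun _ => k) hconst x hx0 (isGlobal_of_deriv hsol)

/-- Permanence, uniformly for rates varying in time within `[ε, 1 / ε]`. -/
theorem permanent_timedep {R : Finset (Cplx d × Cplx d)} (hWR : WeaklyReversible R)
    (hdim : Module.finrank ℝ (stoichSubspace R) ≤ 2) {ε : ℝ} (hε : 0 < ε) {c : Fin d → ℝ}
    (hc : ∀ i, 0 < c i) :
    (∀ x₀ ∈ posClass R c, ∃ K₀ : Set (Fin d → ℝ), IsCompact K₀ ∧ K₀ ⊆ posClass R c ∧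
      ∀ (k : ℝ → Cplx d × Cplx d → ℝ), (∀ t, ∀ e ∈ R, ε ≤ k t e ∧ k t e ≤ 1 / ε) →
      ∀ (T : ℝ) (x : ℝ → Fin d → ℝ), x 0 = x₀ →
        (∀ t ∈ Icc 0 T, HasDerivWithinAt x (massAction R (k t) (x t)) (Icc 0 T) t) →
        ∀ t ∈ Icc 0 T, x t ∈ K₀) ∧
    ∃ K : Set (Fin d → ℝ), IsCompact K ∧ K ⊆ posClass R c ∧
      ∀ (k : ℝ → Cplx d × Cplx d → ℝ), (∀ t, ∀ e ∈ R, ε ≤ k t e ∧ k t e ≤ 1 / ε) →
      ∀ x : ℝ → Fin d → ℝ, x 0 ∈ posClass R c →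
        (∀ t, 0 ≤ t → HasDerivWithinAt x (massAction R (k t) (x t)) (Ici 0) t) →
        ∃ T₀, ∀ t, T₀ ≤ t → x t ∈ K := by
  obtain ⟨hap, K, hK, hKsub, habs⟩ := main_core hWR hdim (κ₁ := ε) (κ₂ := 1 / ε) hε hc
  refine ⟨?_, K, hK, hKsub, fun k hk x hx0 hsol => habs k hk x hx0 (isGlobal_of_deriv hsol)⟩
  intro x₀ hx₀
  obtain ⟨δ, U, hδ, hbox⟩ := hap x₀ hx₀
  refine ⟨boxClass R c δ U, isCompact_boxClass _ _ _ _,
    fun y hy => boxClass_mem_posClass hδ hy, ?_⟩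
  intro k hk T x hx0 hsol
  refine hbox k hk T x hx0 ⟨fun t ht => (hsol t ht).continuousWithinAt, fun t ht => ?_⟩
  exact (hsol t ⟨ht.1, ht.2.le⟩).mono_of_mem_nhdsWithin (Icc_mem_nhdsGE_of_mem ht)

end Vale.Agent.Lib.P072
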