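import Mathlib
import Vale.Agent.Lib.P072.GStep
import Vale.Agent.Lib.P072.Main

/-!
Permanence of all weakly reversible mass-action systems.
-/

open Set Filter Topology Metric
open scoped NNReal

namespace Vale.Agent.Lib.P072

variable {d : ℕ}

/-- Lower bound for the solutions from one point, at all times. -/
def Safe2 (R : Finset (Cplx d × Cplx d)) (κ₁ κ₂ : ℝ) (x₀ : Fin d → ℝ) (I : Finset (Fin d)) (s : ℝ) :
    Prop :=
  ∀ k : ℝ → Cplx d × Cplx d → ℝ, (∀ t, ∀ e ∈ R, κ₁ ≤ k t e ∧ k t e ≤ κ₂) →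
    ∀ (T' : ℝ) (x : ℝ → Fin d → ℝ), x 0 = x₀ → IsSol2 R k x 0 T' →
      (∀ t ∈ Icc 0 T', ∀ i, 0 < x t i) → ∀ t ∈ Icc 0 T', ∃ i ∈ I, s ≤ x t i

lemma card_compl_insert {I : Finset (Fin d)} {j : Fin d} (hj : j ∉ I) :
    (insert j I)ᶜ.card < Iᶜ.card := by
  apply Finset.card_lt_card
  rw [Finset.ssubset_iff_of_subset (Finset.compl_subset_compl.mpr (Finset.subset_insert _ _))]
  exact ⟨j, Finset.mem_compl.mpr hj, by simp⟩

/-- The common lower bound for the larger index sets. -/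
lemma common_lower {P : Fin d → ℝ → Prop} (hP : ∀ j, ∃ s, 0 < s ∧ s ≤ 1 ∧ P j s)
    (hmono : ∀ j s s', s' ≤ s → P j s → P j s') :
    ∃ s', 0 < s' ∧ s' ≤ 1 ∧ ∀ j, P j s' := by
  choose f hf0 hf1 hf using hP
  obtain ⟨δ, hδ, hle⟩ := exists_pos_le_forall f hf0
  refine ⟨min δ 1, lt_min hδ one_pos, min_le_right _ _, fun j => hmono j (f j) _ ?_ (hf j)⟩
  exact (min_le_left _ _).trans (hle j)

section apriori

variable {R : Finset (Cplx d × Cplx d)} {κ₁ κ₂ T : ℝ} {c x₀ : Fin d → ℝ}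

/-- The lower bounds from one point, by induction on the index set. -/
theorem safe_main (hWR : WeaklyReversible R) (hκ₁ : 0 < κ₁)
    (hT : 2 * (R.card : ℝ) * κ₂ ≤ κ₁ * Real.exp T) (hc : ∀ i, 0 < c i)
    (hx₀ : x₀ ∈ posClass R c) {A : ℝ}
    (hup : ∀ k : ℝ → Cplx d × Cplx d → ℝ, (∀ t, ∀ e ∈ R, κ₁ ≤ k t e ∧ k t e ≤ κ₂) →
      ∀ (T' : ℝ) (x : ℝ → Fin d → ℝ), x 0 = x₀ → IsSol2 R k x 0 T' →
      (∀ t ∈ Icc 0 T', ∀ i, 0 < x t i) → ∀ t ∈ Icc 0 T', ∀ i, x t i ≤ A) :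
    ∀ (n : ℕ) (I : Finset (Fin d)), I.Nonempty → Iᶜ.card = n →
      ∃ s, 0 < s ∧ s ≤ 1 ∧ Safe2 R κ₁ κ₂ x₀ I s := by
  classical
  obtain ⟨θ₀, hθ₀, hθ₀le⟩ := exists_pos_le_forall (fun i => min (x₀ i) (c i))
    (fun i => lt_min (hx₀.1 i) (hc i))
  intro n
  induction n using Nat.strong_induction_on with
  | _ n ih =>
  intro I hI hn
  -- the larger index sets
  obtain ⟨s', hs', hs'1, hsafe⟩ := common_lower (P := fun j s => j ∉ I → Safe2 R κ₁ κ₂ x₀ (insert j I) s)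
    (fun j => by
      by_cases hj : j ∈ I
      · exact ⟨1, one_pos, le_rfl, fun h => absurd hj h⟩
      · obtain ⟨s, h1, h2, h3⟩ := ih _ (by rw [← hn]; exact card_compl_insert hj) (insert j I)
          (Finset.insert_nonempty _ _) rfl
        exact ⟨s, h1, h2, fun _ => h3⟩)
    (fun j s s₂ hs₂ h hj k hk T' x hx0 hsol hpos t ht => by
      obtain ⟨i, hi, h1⟩ := h hj k hk T' x hx0 hsol hpos t ht
      exact ⟨i, hi, hs₂.trans h1⟩)
  set θ := min θ₀ s' with hθ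
  have hθ0 : 0 < θ := lt_min hθ₀ hs'
  have hθs : θ ≤ s' := min_le_right _ _
  have hθc : ∀ i, θ ≤ c i := fun i =>
    (min_le_left _ _).trans ((hθ₀le i).trans (min_le_right _ _))
  have hθx : ∀ i, θ ≤ x₀ i := fun i =>
    (min_le_left _ _).trans ((hθ₀le i).trans (min_le_left _ _))
  obtain ⟨V, Zm, τ, ε, s, hD⟩ := exists_inner R T hI A s' hθ0
  refine ⟨min s 1, lt_min hD.hs one_pos, min_le_right _ _, ?_⟩
  intro k hk T' x hx0 hsol hpos t ht
  have hclass : ∀ t ∈ Icc 0 T', x t - c ∈ stoichSubspace R := fun t ht =>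
    hsol.isSol.mem_class (by rw [hx0]; exact hx₀.2) ht
  have hA := hup k hk T' x hx0 hsol hpos
  have hout : ∀ t ∈ Icc 0 T', ∀ j, j ∉ I → (∀ i ∈ I, x t i < s') → s' ≤ x t j := by
    intro t ht j hj hlt
    obtain ⟨i, hi, h1⟩ := hsafe j hj k hk T' x hx0 hsol hpos t ht
    rcases Finset.mem_insert.mp hi with rfl | hi
    · exact h1
    · exact absurd h1 (not_le.mpr (hlt i hi))
  have h0mem : (0 : ℝ) ∈ Icc 0 T' := ⟨le_rfl, ht.1.trans ht.2⟩
  have h0 : ¬ Ev I V τ ε (x 0) := by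
    intro hE
    have h1 := (hD.small _ (hpos 0 h0mem) hE).1
    obtain ⟨i, hi⟩ := hI
    have h2 := h1 i hi
    rw [hx0] at h2
    linarith [hθx i]
  have hinv := hD.inv hWR hκ₁ hT hk hs' hθs hθc hsol hpos hclass hA hout h0 t ht
  by_contra hcon
  push Not at hcon
  apply hinv
  apply hD.tiny _ (hpos t ht)
  intro i hi
  exact (hcon i hi).le.trans (min_le_left _ _)

/-- A priori bounds for positive solutions. -/
theorem apriori_pos2 (hWR : WeaklyReversible R) (hκ₁ : 0 < κ₁)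
    (hT : 2 * (R.card : ℝ) * κ₂ ≤ κ₁ * Real.exp T) (hc : ∀ i, 0 < c i)
    (hx₀ : x₀ ∈ posClass R c) :
    ∃ δ U : ℝ, 0 < δ ∧ ∀ k : ℝ → Cplx d × Cplx d → ℝ, (∀ t, ∀ e ∈ R, κ₁ ≤ k t e ∧ k t e ≤ κ₂) →
      ∀ (T' : ℝ) (x : ℝ → Fin d → ℝ), x 0 = x₀ → IsSol2 R k x 0 T' →
        (∀ t ∈ Icc 0 T', ∀ i, 0 < x t i) → ∀ t ∈ Icc 0 T', x t ∈ boxClass R c δ U := by
  classical
  obtain ⟨V, Zm, hP⟩ := exists_potData (Finset.univ : Finset (Fin d)) (bigR R) T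
  obtain ⟨A, _, hlev⟩ := level_bound hP (max (V x₀) (V c))
  have hup : ∀ k : ℝ → Cplx d × Cplx d → ℝ, (∀ t, ∀ e ∈ R, κ₁ ≤ k t e ∧ k t e ≤ κ₂) →
      ∀ (T' : ℝ) (x : ℝ → Fin d → ℝ), x 0 = x₀ → IsSol2 R k x 0 T' →
      (∀ t ∈ Icc 0 T', ∀ i, 0 < x t i) → ∀ t ∈ Icc 0 T', ∀ i, x t i ≤ A := by
    intro k hk T' x hx0 hsol hpos t ht i
    have hclass : ∀ t ∈ Icc 0 T', x t - c ∈ stoichSubspace R := fun t ht =>
      hsol.isSol.mem_class (by rw [hx0]; exact hx₀.2) ht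
    have h1 := outer_inv hWR hκ₁ hT hk hP hc hsol hpos hclass (L := max (V x₀) (V c))
      (le_max_right _ _) (by rw [hx0]; exact le_max_left _ _) t ht
    exact hlev _ (hpos t ht) h1 i
  have hsafe := safe_main hWR hκ₁ hT hc hx₀ hup
  have hone : ∀ i : Fin d, ∃ s, 0 < s ∧ s ≤ 1 ∧ Safe2 R κ₁ κ₂ x₀ {i} s := fun i =>
    hsafe _ {i} (Finset.singleton_nonempty i) rfl
  choose f hf0 _ hf using hone
  obtain ⟨δ, hδ, hle⟩ := exists_pos_le_forall f hf0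
  refine ⟨δ, A, hδ, ?_⟩
  intro k hk T' x hx0 hsol hpos t ht
  refine ⟨hsol.isSol.mem_class (by rw [hx0]; exact hx₀.2) ht, fun i => ⟨?_, hup k hk T' x hx0 hsol hpos t ht i⟩⟩
  obtain ⟨i', hi', h1⟩ := hf i k hk T' x hx0 hsol hpos t ht
  rw [Finset.mem_singleton] at hi'
  rw [hi'] at h1
  exact (hle i).trans h1

/-- A priori bounds for all solutions: positivity is a consequence. -/
theorem apriori2 (hWR : WeaklyReversible R) (hκ₁ : 0 < κ₁)
    (hT : 2 * (R.card : ℝ) * κ₂ ≤ κ₁ * Real.exp T) (hc : ∀ i, 0 < c i)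
    (hx₀ : x₀ ∈ posClass R c) :
    ∃ δ U : ℝ, 0 < δ ∧ ∀ k : ℝ → Cplx d × Cplx d → ℝ, (∀ t, ∀ e ∈ R, κ₁ ≤ k t e ∧ k t e ≤ κ₂) →
      ∀ (T' : ℝ) (x : ℝ → Fin d → ℝ), x 0 = x₀ → IsSol2 R k x 0 T' →
        ∀ t ∈ Icc 0 T', x t ∈ boxClass R c δ U := by
  obtain ⟨δ, U, hδ, h⟩ := apriori_pos2 hWR hκ₁ hT hc hx₀
  refine ⟨δ, U, hδ, ?_⟩
  intro k hk T' x hx0 hsol
  have hW : IsOpen {y : Fin d → ℝ | ∀ i, 0 < y i} := isOpen_posO
  refine first_exit hsol.cont hW (isCompact_boxClass R c δ U).isClosed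
    (fun y hy i => boxClass_pos hδ hy i) (by rw [hx0]; exact hx₀.1) ?_
  intro t ht hpos
  have hsol' : IsSol2 R k x 0 t := hsol.mono le_rfl ht.2
  exact h k hk t x hx0 hsol' hpos t ⟨ht.1, le_rfl⟩

end apriori

/-! ### Absorption -/

/-- Global solutions with the properties established by the a priori bounds. -/
structure GoodSol (R : Finset (Cplx d × Cplx d)) (k : ℝ → Cplx d × Cplx d → ℝ) (c : Fin d → ℝ)
    (x : ℝ → Fin d → ℝ) (δ₁ : ℝ) : Prop where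
  hδ₁ : 0 < δ₁
  sol : ∀ a b, 0 ≤ a → IsSol2 R k x a b
  low : ∀ t, 0 ≤ t → ∀ i, δ₁ ≤ x t i
  cls : ∀ t, 0 ≤ t → x t - c ∈ stoichSubspace R

/-- Eventual lower bound for the global solutions. -/
def Abs2 (R : Finset (Cplx d × Cplx d)) (κ₁ κ₂ : ℝ) (c : Fin d → ℝ) (A : ℝ) (I : Finset (Fin d))
    (s : ℝ) : Prop :=
  ∀ (k : ℝ → Cplx d × Cplx d → ℝ) (x : ℝ → Fin d → ℝ) (δ₁ : ℝ),
    (∀ t, ∀ e ∈ R, κ₁ ≤ k t e ∧ k t e ≤ κ₂) → GoodSol R k c x δ₁ →
    (∃ T₁, 0 ≤ T₁ ∧ ∀ t, T₁ ≤ t → ∀ i, x t i ≤ A) →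
    ∃ T₂, 0 ≤ T₂ ∧ ∀ t, T₂ ≤ t → ∃ i ∈ I, s ≤ x t i

section absorption

variable {R : Finset (Cplx d × Cplx d)} {κ₁ κ₂ T : ℝ} {c : Fin d → ℝ}

theorem abs_main (hWR : WeaklyReversible R) (hκ₁ : 0 < κ₁)
    (hT : 2 * (R.card : ℝ) * κ₂ ≤ κ₁ * Real.exp T) (hc : ∀ i, 0 < c i) (A : ℝ) :
    ∀ (n : ℕ) (I : Finset (Fin d)), I.Nonempty → Iᶜ.card = n →
      ∃ s, 0 < s ∧ s ≤ 1 ∧ Abs2 R κ₁ κ₂ c A I s := by
  classical
  obtain ⟨θ₀, hθ₀, hθ₀le⟩ := exists_pos_le_forall c hc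
  intro n
  induction n using Nat.strong_induction_on with
  | _ n ih =>
  intro I hI hn
  obtain ⟨s', hs', hs'1, hsafe⟩ := common_lower (P := fun j s => j ∉ I → Abs2 R κ₁ κ₂ c A (insert j I) s)
    (fun j => by
      by_cases hj : j ∈ I
      · exact ⟨1, one_pos, le_rfl, fun h => absurd hj h⟩
      · obtain ⟨s, h1, h2, h3⟩ := ih _ (by rw [← hn]; exact card_compl_insert hj) (insert j I)
          (Finset.insert_nonempty _ _) rfl
        exact ⟨s, h1, h2, fun _ => h3⟩)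
    (fun j s s₂ hs₂ h hj k x δ₁ hk hg hA => by
      obtain ⟨T₂, hT₂, h1⟩ := h hj k x δ₁ hk hg hA
      refine ⟨T₂, hT₂, fun t ht => ?_⟩
      obtain ⟨i, hi, h2⟩ := h1 t ht
      exact ⟨i, hi, hs₂.trans h2⟩)
  set θ := min θ₀ s' with hθ
  have hθ0 : 0 < θ := lt_min hθ₀ hs'
  have hθs : θ ≤ s' := min_le_right _ _
  have hθc : ∀ i, θ ≤ c i := fun i => (min_le_left _ _).trans (hθ₀le i)
  obtain ⟨V, Zm, τ, ε, s, hD⟩ := exists_inner R T hI A s' hθ0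
  refine ⟨min s 1, lt_min hD.hs one_pos, min_le_right _ _, ?_⟩
  intro k x δ₁ hk hg ⟨T₁, hT₁0, hT₁⟩
  -- the times for the larger index sets
  have htimes : ∀ j, ∃ T₂ : ℝ, 0 ≤ T₂ ∧ (j ∉ I → ∀ t, T₂ ≤ t → ∃ i ∈ insert j I, s' ≤ x t i) := by
    intro j
    by_cases hj : j ∈ I
    · exact ⟨0, le_rfl, fun h => absurd hj h⟩
    · obtain ⟨T₂, h1, h2⟩ := hsafe j hj k x δ₁ hk hg ⟨T₁, hT₁0, hT₁⟩
      exact ⟨T₂, h1, fun _ => h2⟩
  choose Tj hTj0 hTj using htimes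
  obtain ⟨Cj, _, hCj⟩ := exists_ge_forall Tj
  set T₃ := max T₁ Cj with hT₃
  have hT₃0 : 0 ≤ T₃ := hT₁0.trans (le_max_left _ _)
  have hpos : ∀ t, 0 ≤ t → ∀ i, 0 < x t i := fun t ht i => lt_of_lt_of_le hg.hδ₁ (hg.low t ht i)
  have hfacts : ∀ a b, T₃ ≤ a →
      IsSol2 R k x a b ∧ (∀ t ∈ Icc a b, ∀ i, 0 < x t i) ∧
      (∀ t ∈ Icc a b, x t - c ∈ stoichSubspace R) ∧ (∀ t ∈ Icc a b, ∀ i, x t i ≤ A) ∧
      (∀ t ∈ Icc a b, ∀ j, j ∉ I → (∀ i ∈ I, x t i < s') → s' ≤ x t j) := by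
    intro a b ha
    have hmem : ∀ t ∈ Icc a b, 0 ≤ t ∧ T₁ ≤ t ∧ Cj ≤ t := fun t ht =>
      ⟨hT₃0.trans (ha.trans ht.1), ((le_max_left _ _).trans ha).trans ht.1,
        ((le_max_right _ _).trans ha).trans ht.1⟩
    refine ⟨hg.sol a b (hT₃0.trans ha), fun t ht => hpos t (hmem t ht).1,
      fun t ht => hg.cls t (hmem t ht).1, fun t ht => hT₁ t (hmem t ht).2.1, ?_⟩
    intro t ht j hj hlt
    obtain ⟨i, hi, h1⟩ := hTj j hj t ((hCj j).trans (hmem t ht).2.2)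
    rcases Finset.mem_insert.mp hi with rfl | hi
    · exact h1
    · exact absurd h1 (not_le.mpr (hlt i hi))
  -- the solution leaves the region near the face
  obtain ⟨m, hm, hmle⟩ := exists_monomial_lower R hg.hδ₁
  set c₁ := κ₁ * m / 4 with hc₁
  have hc₁0 : 0 < c₁ := by positivity
  have hc₁lt : c₁ < κ₁ / 2 * m := by
    rw [hc₁]
    have : 0 < κ₁ * m := by positivity
    linarith
  have hexit : ∃ t₂, T₃ ≤ t₂ ∧ ¬ Ev I V τ ε (x t₂) := by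
    by_contra hcon
    push Not at hcon
    set b := T₃ + 2 * ε / c₁ + 1 with hb
    have hε := hD.hε
    have hbT : T₃ ≤ b := by
      rw [hb]
      have : 0 ≤ 2 * ε / c₁ := by positivity
      linarith
    obtain ⟨h1, h2, h3, h4, h5⟩ := hfacts T₃ b le_rfl
    have h6 := hD.time hWR hκ₁ hT hk hs' hθs hθc h1 hbT h2 h3 h4 h5
      (fun t ht => hcon t ht.1)
      (fun t ht f hf => hmle _ (hg.low t (hT₃0.trans ht.1)) f hf) hc₁lt
    have h7 : c₁ * (b - T₃) = 2 * ε + c₁ := by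
      rw [hb]
      field_simp
      ring
    rw [h7] at h6
    linarith
  obtain ⟨t₂, ht₂, hne⟩ := hexit
  refine ⟨t₂, hT₃0.trans ht₂, fun t ht => ?_⟩
  obtain ⟨h1, h2, h3, h4, h5⟩ := hfacts t₂ t ht₂
  have htI : t ∈ Icc t₂ t := ⟨ht, le_rfl⟩
  have hinv := hD.inv hWR hκ₁ hT hk hs' hθs hθc h1 h2 h3 h4 h5 hne t htI
  by_contra hcon
  push Not at hcon
  apply hinv
  apply hD.tiny _ (h2 t htI)
  intro i hi
  exact (hcon i hi).le.trans (min_le_left _ _)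

/-- The final absorption statement. -/
theorem absorption2 (hWR : WeaklyReversible R) (hκ₁ : 0 < κ₁)
    (hT : 2 * (R.card : ℝ) * κ₂ ≤ κ₁ * Real.exp T) (hc : ∀ i, 0 < c i) :
    ∃ K : Set (Fin d → ℝ), IsCompact K ∧ K ⊆ posClass R c ∧
      ∀ k : ℝ → Cplx d × Cplx d → ℝ, (∀ t, ∀ e ∈ R, κ₁ ≤ k t e ∧ k t e ≤ κ₂) →
      ∀ x : ℝ → Fin d → ℝ, x 0 ∈ posClass R c →
        (∀ t, 0 ≤ t → HasDerivWithinAt x (massAction R (k t) (x t)) (Ici 0) t) →
        ∃ T₀, ∀ t, T₀ ≤ t → x t ∈ K := by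
  classical
  obtain ⟨V, Zm, hP⟩ := exists_potData (Finset.univ : Finset (Fin d)) (bigR R) T
  set L₀ := V c + 1 with hL₀
  obtain ⟨A, _, hlev⟩ := level_bound hP L₀
  have habs := abs_main hWR hκ₁ hT hc A
  have hone : ∀ i : Fin d, ∃ s, 0 < s ∧ s ≤ 1 ∧ Abs2 R κ₁ κ₂ c A {i} s := fun i =>
    habs _ {i} (Finset.singleton_nonempty i) rfl
  choose f hf0 _ hf using hone
  obtain ⟨δ, hδ, hle⟩ := exists_pos_le_forall f hf0
  refine ⟨boxClass R c δ A, isCompact_boxClass _ _ _ _, fun y hy => boxClass_mem_posClass hδ hy, ?_⟩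
  intro k hk x hx0 hder
  have hsol : ∀ a b, 0 ≤ a → IsSol2 R k x a b := fun a b ha t ht =>
    (hder t (ha.trans ht.1)).mono (fun s hs => ha.trans hs.1)
  -- the a priori box of this solution
  obtain ⟨δ₁, U, hδ₁, hap⟩ := apriori2 hWR hκ₁ hT hc hx0
  have hbox : ∀ t, 0 ≤ t → x t ∈ boxClass R c δ₁ U := fun t ht =>
    hap k hk t x rfl (hsol 0 t le_rfl) t ⟨ht, le_rfl⟩
  have hg : GoodSol R k c x δ₁ := ⟨hδ₁, hsol, fun t ht i => ((hbox t ht).2 i).1, fun t ht => (hbox t ht).1⟩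
  have hpos : ∀ t, 0 ≤ t → ∀ i, 0 < x t i := fun t ht i => lt_of_lt_of_le hδ₁ (hg.low t ht i)
  -- the upper bound holds eventually
  obtain ⟨m, hm, hmle⟩ := exists_monomial_lower R hδ₁
  set c₁ := κ₁ * m / 4 with hc₁
  have hc₁0 : 0 < c₁ := by positivity
  have hc₁lt : c₁ < κ₁ / 2 * m := by
    rw [hc₁]
    have : 0 < κ₁ * m := by positivity
    linarith
  have hfirst : ∃ t₁, 0 ≤ t₁ ∧ V (x t₁) ≤ L₀ := by
    by_contra hcon
    push Not at hcon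
    set b := (|V (x 0) - L₀| + 1) / c₁ with hb
    have hb0 : 0 ≤ b := by positivity
    have h1 := outer_rate hWR hκ₁ hT hk hP hc (hsol 0 b le_rfl) hb0
      (fun t ht => hpos t ht.1) (fun t ht => hg.cls t ht.1)
      (fun t ht => by
        have := hcon t ht.1
        linarith)
      (fun t ht f hf => hmle _ (hg.low t ht.1) f hf) hc₁lt
    have h2 : c₁ * (b - 0) = |V (x 0) - L₀| + 1 := by
      rw [hb, sub_zero]
      field_simp
    rw [h2] at h1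
    have h3 := hcon b hb0
    have h4 := le_abs_self (V (x 0) - L₀)
    linarith
  obtain ⟨t₁, ht₁0, ht₁⟩ := hfirst
  have hstay : ∀ t, t₁ ≤ t → V (x t) ≤ L₀ := by
    intro t ht
    exact outer_inv hWR hκ₁ hT hk hP hc (hsol t₁ t ht₁0)
      (fun s hs => hpos s (ht₁0.trans hs.1)) (fun s hs => hg.cls s (ht₁0.trans hs.1))
      (by rw [hL₀]; linarith) ht₁ t ⟨ht, le_rfl⟩
  have hupper : ∀ t, t₁ ≤ t → ∀ i, x t i ≤ A := fun t ht i =>
    hlev _ (hpos t (ht₁0.trans ht)) (hstay t ht) i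
  -- the lower bounds
  have htimes : ∀ i, ∃ T₂ : ℝ, 0 ≤ T₂ ∧ ∀ t, T₂ ≤ t → ∃ i' ∈ ({i} : Finset (Fin d)), f i ≤ x t i' :=
    fun i => hf i k x δ₁ hk hg ⟨t₁, ht₁0, hupper⟩
  choose Ti hTi0 hTi using htimes
  obtain ⟨C, _, hC⟩ := exists_ge_forall Ti
  refine ⟨max t₁ C, fun t ht => ?_⟩
  have ht1 : t₁ ≤ t := (le_max_left _ _).trans ht
  have ht2 : C ≤ t := (le_max_right _ _).trans ht
  refine ⟨hg.cls t (ht₁0.trans ht1), fun i => ⟨?_, hupper t ht1 i⟩⟩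
  obtain ⟨i', hi', h1⟩ := hTi i t ((hC i).trans ht2)
  rw [Finset.mem_singleton] at hi'
  rw [hi'] at h1
  exact (hle i).trans h1

end absorption

/-! ### Existence of solutions -/

lemma hasDerivWithinAt_singleton_any (f : ℝ → Fin d → ℝ) (F : Fin d → ℝ) (a : ℝ) :
    HasDerivWithinAt f F {a} a := by
  rw [hasDerivWithinAt_iff_tendsto_slope]
  simp

/-- Solutions on bounded intervals, given the a priori estimate. -/
theorem exists_sol_on2 {R : Finset (Cplx d × Cplx d)} {k : Cplx d × Cplx d → ℝ} {c x₀ : Fin d → ℝ}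
    {δ U : ℝ} (hδ : 0 < δ)
    (hap : ∀ (T' : ℝ) (x : ℝ → Fin d → ℝ), x 0 = x₀ → IsSol2 R (fun _ => k) x 0 T' →
      ∀ t ∈ Icc 0 T', x t ∈ boxClass R c δ U) {T' : ℝ} (hT' : 0 ≤ T') :
    ∃ y : ℝ → Fin d → ℝ, y 0 = x₀ ∧ IsSolutionOn R k T' y := by
  -- the initial point is in the box
  have hx₀box : x₀ ∈ boxClass R c δ U := by
    have h1 : IsSol2 R (fun _ => k) (fun _ => x₀) 0 0 := by
      intro t ht
      rw [Icc_self]
      have : t = 0 := le_antisymm ht.2 ht.1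
      rw [this]
      exact hasDerivWithinAt_singleton_any _ _ _
    exact hap 0 (fun _ => x₀) rfl h1 0 ⟨le_rfl, le_rfl⟩
  set lo : ℝ := δ / 2 with hlo
  set hi : ℝ := 2 * |U| + δ with hhi
  have hlohi : lo ≤ hi := by
    have := abs_nonneg U
    rw [hlo, hhi]
    linarith
  have hδlo : lo < δ := by rw [hlo]; linarith
  have hUhi : U < hi := by
    have h1 := abs_nonneg U
    have h2 := le_abs_self U
    rw [hhi]
    linarith
  set Bx := Icc (fun _ : Fin d => lo) (fun _ => hi) with hBx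
  have hBxcomp : IsCompact Bx := isCompact_Icc
  have hf := massAction_contDiff R k
  obtain ⟨K, hK⟩ := hf.locallyLipschitz.locallyLipschitzOn.exists_lipschitzOnWith_of_compact
    hBxcomp
  obtain ⟨L₀, hL₀⟩ := hBxcomp.exists_bound_of_continuousOn hf.continuous.continuousOn
  set L : ℝ≥0 := Real.toNNReal L₀ with hL
  -- the clamped field
  let G : ℝ → (Fin d → ℝ) → (Fin d → ℝ) := fun _ x => massAction R k (clampP lo hi x)
  have hGlip : ∀ t, LipschitzWith K (G t) := by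
    intro t
    apply LipschitzWith.of_dist_le_mul
    intro x y
    have h1 := hK.dist_le_mul _ (clampP_mem hlohi x) _ (clampP_mem hlohi y)
    have h2 := (clampP_lipschitz (d := d) lo hi).dist_le_mul x y
    rw [NNReal.coe_one, one_mul] at h2
    exact h1.trans (mul_le_mul_of_nonneg_left h2 K.coe_nonneg)
  have hGbd : ∀ t x, ‖G t x‖ ≤ L := by
    intro t x
    have h1 := hL₀ _ (clampP_mem hlohi x)
    exact h1.trans (Real.le_coe_toNNReal L₀)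
  set t₀ : Icc (0 : ℝ) T' := ⟨0, le_rfl, hT'⟩ with ht₀
  have hPL : IsPicardLindelof G t₀ x₀ (L * Real.toNNReal T') 0 L K := by
    refine ⟨fun t _ => (hGlip t).lipschitzOnWith, fun x _ => continuousOn_const,
      fun t _ x _ => hGbd t x, ?_⟩
    simp only [ht₀, sub_zero, NNReal.coe_zero, NNReal.coe_mul, Real.coe_toNNReal _ hT']
    rw [max_eq_left (by linarith)]
  obtain ⟨y, hy0, hy⟩ := hPL.exists_eq_forall_mem_Icc_hasDerivWithinAt₀
  have hy0' : y 0 = x₀ := hy0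
  have hycont : ContinuousOn y (Icc 0 T') := fun t ht => (hy t ht).continuousWithinAt
  refine ⟨y, hy0', ?_⟩
  -- the open set around the box
  set W : Set (Fin d → ℝ) := {z | ∀ i, lo < z i ∧ z i < hi} with hW
  have hWopen : IsOpen W := by
    have : W = ⋂ i, {z : Fin d → ℝ | lo < z i ∧ z i < hi} := by
      ext z
      simp [hW]
    rw [this]
    refine isOpen_iInter_of_finite (fun i => ?_)
    exact (isOpen_lt continuous_const (continuous_apply i)).inter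
      (isOpen_lt (continuous_apply i) continuous_const)
  have hsub : boxClass R c δ U ⊆ W := fun z hz i =>
    ⟨lt_of_lt_of_le hδlo (hz.2 i).1, lt_of_le_of_lt (hz.2 i).2 hUhi⟩
  have hbox : ∀ t ∈ Icc 0 T', y t ∈ boxClass R c δ U := by
    refine first_exit hycont hWopen (isCompact_boxClass R c δ U).isClosed hsub
      (by rw [hy0']; exact hsub hx₀box) ?_
    intro t ht hall
    have hsol : IsSol2 R (fun _ => k) y 0 t := by
      intro s hs
      have hsI : s ∈ Icc 0 T' := ⟨hs.1, hs.2.trans ht.2⟩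
      have h1 := hy s hsI
      have h2 : clampP lo hi (y s) = y s :=
        clampP_eq (fun i => ⟨(hall s hs i).1.le, (hall s hs i).2.le⟩)
      have h3 : G s (y s) = massAction R k (y s) := by
        show massAction R k (clampP lo hi (y s)) = _
        rw [h2]
      rw [h3] at h1
      exact h1.mono (Icc_subset_Icc le_rfl ht.2)
    exact hap t y hy0' hsol t ⟨ht.1, le_rfl⟩
  intro s hs
  have h1 := hy s hs
  have hb := hbox s hs
  have hW' := hsub hb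
  have h2 : clampP lo hi (y s) = y s := clampP_eq (fun i => ⟨(hW' i).1.le, (hW' i).2.le⟩)
  have h3 : G s (y s) = massAction R k (y s) := by
    show massAction R k (clampP lo hi (y s)) = _
    rw [h2]
  rw [h3] at h1
  exact h1

/-- Global existence, given the a priori estimate. -/
theorem exists_global2 {R : Finset (Cplx d × Cplx d)} {k : Cplx d × Cplx d → ℝ} {c x₀ : Fin d → ℝ}
    {δ U : ℝ} (hδ : 0 < δ)
    (hap : ∀ (T' : ℝ) (x : ℝ → Fin d → ℝ), x 0 = x₀ → IsSol2 R (fun _ => k) x 0 T' →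
      ∀ t ∈ Icc 0 T', x t ∈ boxClass R c δ U) :
    ∃ x : ℝ → Fin d → ℝ, x 0 = x₀ ∧ IsSolution R k x := by
  have h1 : ∀ n : ℕ, ∃ y : ℝ → Fin d → ℝ, y 0 = x₀ ∧ IsSolutionOn R k (n : ℝ) y := fun n =>
    exists_sol_on2 hδ hap (Nat.cast_nonneg n)
  choose Y hY0 hY using h1
  have hYs : ∀ n : ℕ, IsSol R (fun _ => k) (Y n) 0 (n : ℝ) := fun n => isSol_of_isSolutionOn (hY n)
  have hagree : ∀ m n : ℕ, m ≤ n → EqOn (Y m) (Y n) (Icc 0 (m : ℝ)) := by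
    intro m n hmn
    have hsub : (m : ℝ) ≤ n := by exact_mod_cast hmn
    have hY2 : IsSol2 R (fun _ => k) (Y n) 0 (m : ℝ) :=
      IsSol2.mono (a := 0) (b := (n : ℝ)) (hY n) le_rfl hsub
    exact sol_unique (c := c) (δ := δ) (U := U) (hYs m) ((hYs n).mono le_rfl hsub)
      (hap _ _ (hY0 m) (hY m))
      (hap _ _ (hY0 n) hY2)
      (by rw [hY0, hY0])
  -- the global solution
  set x : ℝ → Fin d → ℝ := fun t => Y (⌈t⌉₊ + 1) t with hx
  have hxY : ∀ n : ℕ, ∀ t ∈ Icc 0 (n : ℝ), x t = Y n t := by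
    intro n t ht
    set m := ⌈t⌉₊ + 1 with hm
    have htm : t ≤ (m : ℝ) := by
      have := Nat.le_ceil t
      push_cast [hm]
      linarith
    rcases le_total m n with h | h
    · exact hagree m n h ⟨ht.1, htm⟩
    · exact (hagree n m h ht).symm
  refine ⟨x, ?_, ?_⟩
  · have := hxY 0 0 ⟨le_rfl, by simp⟩
    rw [this, hY0]
  · intro t ht
    obtain ⟨n, hn⟩ := exists_nat_ge (t + 1)
    have htn : t ≤ (n : ℝ) := by linarith
    have h2 := hY n t ⟨ht, htn⟩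
    have h3 : x t = Y n t := hxY n t ⟨ht, htn⟩
    rw [h3]
    have h4 : Iio (n : ℝ) ∈ 𝓝 t := Iio_mem_nhds (by linarith)
    have h5 : Icc 0 (n : ℝ) ∈ 𝓝[Ici 0] t := by
      filter_upwards [self_mem_nhdsWithin, mem_nhdsWithin_of_mem_nhds h4] with s hs1 hs2
      exact ⟨hs1, (mem_Iio.mp hs2).le⟩
    refine (h2.mono_of_mem_nhdsWithin h5).congr_of_eventuallyEq ?_ h3
    filter_upwards [self_mem_nhdsWithin, mem_nhdsWithin_of_mem_nhds h4] with s hs1 hs2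
    exact hxY n s ⟨hs1, (mem_Iio.mp hs2).le⟩

/-! ### The main theorems -/

/-- The permanence conjecture: every weakly reversible mass-action system with positive rates is
permanent on every positive stoichiometric class. -/
theorem permanent_general {R : Finset (Cplx d × Cplx d)} (hWR : WeaklyReversible R)
    {k : Cplx d × Cplx d → ℝ} (hk : ∀ e ∈ R, 0 < k e) {c : Fin d → ℝ} (hc : ∀ i, 0 < c i) :
    PermanentOn R k c := by
  obtain ⟨κ₁, κ₂, hκ₁, hκ⟩ := exists_rate_bounds R k hk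
  obtain ⟨T, _, hT⟩ := exists_threshold (R.card : ℝ) (κ₂ := κ₂) hκ₁
  have hconst : ∀ t, ∀ e ∈ R, κ₁ ≤ (fun _ : ℝ => k) t e ∧ (fun _ : ℝ => k) t e ≤ κ₂ :=
    fun _ e he => hκ e he
  obtain ⟨K, hK, hKsub, habs⟩ := absorption2 (c := c) hWR hκ₁ hT hc
  refine ⟨?_, K, hK, hKsub, ?_⟩
  · intro x₀ hx₀
    obtain ⟨δ, U, hδ, hbox⟩ := apriori2 hWR hκ₁ hT hc hx₀
    have hap' := hbox (fun _ => k) hconst
    obtain ⟨x, hx0, hsol⟩ := exists_global2 (c := c) hδ hap'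
    have hglob : ∀ T', IsSol2 R (fun _ => k) x 0 T' := fun T' t ht =>
      (hsol t ht.1).mono (fun s hs => hs.1)
    refine ⟨x, hx0, hsol, ?_, ?_⟩
    · intro t ht
      exact boxClass_mem_posClass hδ (hap' t x hx0 (hglob t) t ⟨ht, le_rfl⟩)
    · intro T y hy0 hy t ht
      exact sol_unique (c := c) (δ := δ) (U := U) (isSol_of_isSolutionOn hy) (hglob T).isSol
        (hap' T y hy0 hy) (hap' T x hx0 (hglob T)) (by rw [hy0, hx0]) ht
  · intro x hx0 hsol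
    exact habs (fun _ => k) hconst x hx0 hsol

/-- Permanence, uniformly for rates varying in time within `[ε, 1 / ε]`. -/
theorem permanent_timedep_general {R : Finset (Cplx d × Cplx d)} (hWR : WeaklyReversible R) {ε : ℝ}
    (hε : 0 < ε) {c : Fin d → ℝ} (hc : ∀ i, 0 < c i) :
    (∀ x₀ ∈ posClass R c, ∃ K₀ : Set (Fin d → ℝ), IsCompact K₀ ∧ K₀ ⊆ posClass R c ∧
      ∀ (k : ℝ → Cplx d × Cplx d → ℝ), (∀ t, ∀ e ∈ R, ε ≤ k t e ∧ k t e ≤ 1 / ε) →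
      ∀ (T : ℝ) (x : ℝ → Fin d → ℝ), x 0 = x₀ →
        (∀ t ∈ Icc 0 T, HasDerivWithinAt x (massAction R (k t) (x t)) (Icc 0 T) t) →
        ∀ t ∈ Icc 0 T, x t ∈ K₀) ∧
    ∃ K : Set (Fin d → ℝ), IsCompact K ∧ K ⊆ posClass R c ∧
      ∀ (k : ℝ → Cplx d × Cplx d → ℝ), (∀ t, ∀ e ∈ R, ε ≤ k t e ∧ k t e ≤ 1 / ε) →
      ∀ x : ℝ → Fin d → ℝ, x 0 ∈ posClass R c →
        (∀ t, 0 ≤ t → HasDerivWithinAt x (massAction R (k t) (x t)) (Ici 0) t) →
        ∃ T₀, ∀ t, T₀ ≤ t → x t ∈ K := by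
  obtain ⟨T, _, hT⟩ := exists_threshold (R.card : ℝ) (κ₂ := 1 / ε) hε
  obtain ⟨K, hK, hKsub, habs⟩ := absorption2 (c := c) hWR hε hT hc
  refine ⟨?_, K, hK, hKsub, habs⟩
  intro x₀ hx₀
  obtain ⟨δ, U, hδ, hbox⟩ := apriori2 hWR hε hT hc hx₀
  refine ⟨boxClass R c δ U, isCompact_boxClass _ _ _ _,
    fun y hy => boxClass_mem_posClass hδ hy, ?_⟩
  intro k hk T' x hx0 hsol
  exact hbox k hk T' x hx0 hsol

end Vale.Agent.Lib.P072
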